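import Crest.Agent.R128.Defs

set_option autoImplicit false
open MeasureTheory Set

namespace Crest.Agent.R128
open Classical

/-! CL: compactness lemma for sublevel sets, and nullity of zero sets of analytic functions. -/

/-- Proof: for `p₀ ∈ K` the sets `{τ ∈ Icc | |g p₀ τ| ≤ 2/(n+1)}` decrease to the null zero set, so one of
them has measure `≤ κ`; by uniform continuity of `g` on the compact `K ×ˢ Icc` (or the tube lemma)
`|g p τ - g p₀ τ| ≤ 1/(n+1)` for `p ∈ K` near `p₀`; take a finite subcover. -/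
theorem cl_compact {X : Type*} [MetricSpace X] (K : Set X) (hK : IsCompact K) (g : X → ℝ → ℝ)
    (α β : ℝ) (hg : ContinuousOn (fun p : X × ℝ => g p.1 p.2) (K ×ˢ Icc α β))
    (h0 : ∀ p ∈ K, volume {τ | τ ∈ Icc α β ∧ g p τ = 0} = 0) (κ : ℝ) (hκ : 0 < κ) :
    ∃ δ > 0, ∀ p ∈ K, volume {τ | τ ∈ Icc α β ∧ |g p τ| ≤ δ} ≤ ENNReal.ofReal κ := by
  have hu := Metric.uniformContinuousOn_iff.1
    ((hK.prod (isCompact_Icc (a := α) (b := β))).uniformContinuousOn_of_continuous hg)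
  refine hK.induction_on (p := fun s => ∃ δ > 0, ∀ p ∈ s,
    volume {τ | τ ∈ Icc α β ∧ |g p τ| ≤ δ} ≤ ENNReal.ofReal κ) ⟨1, one_pos, by simp⟩ ?_ ?_ ?_
  · rintro s t hst ⟨δ, hδ, h⟩
    exact ⟨δ, hδ, fun p hp => h p (hst hp)⟩
  · rintro s t ⟨δ, hδ, h⟩ ⟨δ', hδ', h'⟩
    refine ⟨min δ δ', lt_min hδ hδ', fun p hp => ?_⟩
    rcases hp with hp | hp
    · refine le_trans (measure_mono ?_) (h p hp)
      exact fun τ hτ => ⟨hτ.1, hτ.2.trans (min_le_left _ _)⟩
    · refine le_trans (measure_mono ?_) (h' p hp)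
      exact fun τ hτ => ⟨hτ.1, hτ.2.trans (min_le_right _ _)⟩
  · intro p₀ hp₀
    have hc : ContinuousOn (fun τ => |g p₀ τ|) (Icc α β) :=
      (hg.comp (f := fun τ : ℝ => (p₀, τ)) (by fun_prop) fun τ hτ => ⟨hp₀, hτ⟩).abs
    let A : ℕ → Set ℝ := fun n => {τ | τ ∈ Icc α β ∧ |g p₀ τ| ≤ 2 * (1 / ((n : ℝ) + 1))}
    have hA : ∀ n, MeasurableSet (A n) := fun n =>
      (hc.preimage_isClosed_of_isClosed isClosed_Icc isClosed_Iic).measurableSet
    have hanti : Antitone A := fun m n hmn τ hτ => ⟨hτ.1, hτ.2.trans (by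
      have : (m : ℝ) ≤ n := by exact_mod_cast hmn
      gcongr)⟩
    have hfin : ∃ n, volume (A n) ≠ ⊤ :=
      ⟨0, ((measure_mono fun τ hτ => hτ.1).trans_lt measure_Icc_lt_top).ne⟩
    have hlim := tendsto_measure_iInter_atTop (fun n => (hA n).nullMeasurableSet) hanti hfin
    have hz : volume (⋂ n, A n) = 0 := by
      refine measure_mono_null (fun τ hτ => ?_) (h0 p₀ hp₀)
      rw [mem_iInter] at hτ
      refine ⟨(hτ 0).1, abs_nonpos_iff.1 ?_⟩
      have := (tendsto_one_div_add_atTop_nhds_zero_nat (𝕜 := ℝ)).const_mul 2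
      rw [mul_zero] at this
      exact ge_of_tendsto' this fun n => (hτ n).2
    rw [hz] at hlim
    obtain ⟨n, hn⟩ := (hlim.eventually (gt_mem_nhds (ENNReal.ofReal_pos.2 hκ))).exists
    have hpos : (0 : ℝ) < 1 / ((n : ℝ) + 1) := by positivity
    obtain ⟨r, hr, hr'⟩ := hu _ hpos
    refine ⟨K ∩ Metric.ball p₀ r, inter_mem_nhdsWithin _ (Metric.ball_mem_nhds _ hr), _, hpos,
      fun p hp => (measure_mono fun τ hτ => ?_).trans hn.le⟩
    refine ⟨hτ.1, ?_⟩
    have h1 := hr' (p, τ) ⟨hp.1, hτ.1⟩ (p₀, τ) ⟨hp₀, hτ.1⟩ (by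
      rw [Prod.dist_eq, dist_self, max_eq_left dist_nonneg]; exact hp.2)
    rw [Real.dist_eq] at h1
    have h2 := hτ.2
    have h3 := abs_sub_abs_le_abs_sub (g p₀ τ) (g p τ)
    rw [abs_sub_comm] at h3
    simp only at h1
    linarith

/-- isolated zeros: the zero set is countable. -/
theorem null_zero_of_analytic (f : ℝ → ℝ) (hf : AnalyticOnNhd ℝ f univ) (h : ∃ x, f x ≠ 0) :
    volume {τ | f τ = 0} = 0 := by
  obtain ⟨x, hx⟩ := h
  have h1 := ae_restrict_le_codiscreteWithin (μ := (volume : Measure ℝ)) MeasurableSet.univ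
    (hf.preimage_zero_mem_codiscrete hx)
  rw [Measure.restrict_univ, mem_ae_iff] at h1
  convert h1 using 2
  ext τ
  simp

end Crest.Agent.R128
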