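import Crest.Agent.R128.Pert

set_option autoImplicit false
open MeasureTheory Set

namespace Crest.Agent.R128
open Classical

/-! CombA: shift equivariance and locality of the hierarchy. -/

theorem CombA.Mb_gen (r r' : Pat) (z : ℤ) (l : ℕ) (x : ℤ)
    (h : ∀ j, x ≤ j → j < x + nn l → (r l j ↔ r' l (j + z))) : Mb r l x ↔ Mb r' l (x + z) := by
  unfold Mb
  have : ((Finset.Ico x (x + nn l)).filter (fun j => ¬ r l j)).card =
      ((Finset.Ico (x + z) (x + z + nn l)).filter (fun j => ¬ r' l j)).card := by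
    apply Finset.card_nbij' (fun j => j + z) (fun j => j - z)
    · intro j hj
      simp only [Finset.coe_filter, Finset.mem_Ico, Set.mem_setOf_eq] at hj ⊢
      refine ⟨⟨by omega, by omega⟩, fun h' => hj.2 ((h j hj.1.1 hj.1.2).2 h')⟩
    · intro j hj
      simp only [Finset.coe_filter, Finset.mem_Ico, Set.mem_setOf_eq] at hj ⊢
      refine ⟨⟨by omega, by omega⟩, fun h' => hj.2 ?_⟩
      have := (h (j - z) (by omega) (by omega)).1 h'
      rwa [sub_add_cancel] at this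
    · intro j _; simp
    · intro j _; simp
  rw [this]

theorem CombA.Rem_imp (r r' : Pat) (z : ℤ) (l : ℕ) (S S' : ℤ → Prop) (y : ℤ)
    (hS : ∀ w, |w - y| ≤ 250 * (NN l : ℤ) + 12 * (NN (l + 1) : ℤ) → (S w ↔ S' (w + z)))
    (hM : ∀ x, |x - y| ≤ 250 * (NN l : ℤ) + 4 * (NN (l + 1) : ℤ) →
      (Mb r (l + 1) x ↔ Mb r' (l + 1) (x + z))) :
    Rem r l S y → Rem r' l S' (y + z) := by
  rintro ⟨yL, yR, h1, h2, h3, h4, h5, h6, h7, h8⟩
  have p0 : (0 : ℤ) ≤ NN l := by positivity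
  have p1 : (0 : ℤ) ≤ NN (l + 1) := by positivity
  refine ⟨yL + z, yR + z, by omega, by omega, (hS yL (by rw [abs_le]; omega)).1 h3,
    (hS yR (by rw [abs_le]; omega)).1 h4, by omega, ?_, ?_, ?_⟩
  · intro w a b c
    refine h6 (w - z) (by omega) (by omega) ((hS (w - z) (by rw [abs_le]; omega)).2 ?_)
    rwa [sub_add_cancel]
  · intro w a b c
    refine h7 (w - z) (by omega) (by omega) ((hS (w - z) (by rw [abs_le]; omega)).2 ?_)
    rwa [sub_add_cancel]
  · intro w a b c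
    refine h8 (w - z) (by omega) (by omega) ((hM (w - z) (by rw [abs_le]; omega)).2 ?_)
    rwa [sub_add_cancel]

theorem CombA.Rem_gen (r r' : Pat) (z : ℤ) (l : ℕ) (S S' : ℤ → Prop) (y : ℤ)
    (hS : ∀ w, |w - y| ≤ 250 * (NN l : ℤ) + 12 * (NN (l + 1) : ℤ) → (S w ↔ S' (w + z)))
    (hM : ∀ x, |x - y| ≤ 250 * (NN l : ℤ) + 4 * (NN (l + 1) : ℤ) →
      (Mb r (l + 1) x ↔ Mb r' (l + 1) (x + z))) :
    Rem r l S y ↔ Rem r' l S' (y + z) := by
  refine ⟨CombA.Rem_imp r r' z l S S' y hS hM, fun h => ?_⟩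
  have := CombA.Rem_imp r' r (-z) l S' S (y + z) (fun w hw => by
      have e := hS (w + -z) (by rw [abs_le] at hw ⊢; omega)
      rw [show w + -z + z = w by ring] at e
      exact e.symm)
    (fun w hw => by
      have e := hM (w + -z) (by rw [abs_le] at hw ⊢; omega)
      rw [show w + -z + z = w by ring] at e
      exact e.symm) h
  rwa [show y + z + -z = y by ring] at this

theorem CombA.NN_z (l : ℕ) : (NN l : ℤ) = 10 * (nn l : ℤ) := by exact_mod_cast NN_eq l
theorem CombA.NN_succ_z (l : ℕ) : (NN (l + 1) : ℤ) = 1000000000 * (NN l : ℤ) := by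
  have := NN_succ l; rw [this]; push_cast; ring
theorem CombA.nn_succ_z (l : ℕ) : (nn (l + 1) : ℤ) = 1000000000 * (nn l : ℤ) := by
  have := nn_succ l; rw [this]; push_cast; ring
theorem CombA.nn_ge_z (l : ℕ) : (4 : ℤ) ≤ (nn l : ℤ) := by exact_mod_cast nn_ge l

theorem CombA.SS_gen (r r' : Pat) (z : ℤ) (l : ℕ) : ∀ (y : ℤ),
    (∀ l' ≤ l, ∀ j, |j - y| ≤ 13 * (NN l : ℤ) → (r l' j ↔ r' l' (j + z))) →
      (SS r l y ↔ SS r' l (y + z)) := by
  induction l with
  | zero =>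
    intro y h
    have e1 := CombA.NN_z 0
    have e2 := CombA.nn_ge_z 0
    exact CombA.Mb_gen r r' z 0 y fun j a b => h 0 le_rfl j (by rw [abs_le]; omega)
  | succ l ih =>
    intro y h
    have e1 := CombA.NN_z l
    have e2 := CombA.nn_ge_z l
    have e3 := CombA.NN_succ_z l
    have e4 := CombA.nn_succ_z l
    have hS : ∀ w, |w - y| ≤ 250 * (NN l : ℤ) + 12 * (NN (l + 1) : ℤ) →
        (SS r l w ↔ SS r' l (w + z)) := fun w hw =>
      ih w fun l' hl' j hj => h l' (by omega) j (by rw [abs_le] at hw hj ⊢; omega)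
    have hM : ∀ x, |x - y| ≤ 250 * (NN l : ℤ) + 4 * (NN (l + 1) : ℤ) →
        (Mb r (l + 1) x ↔ Mb r' (l + 1) (x + z)) := fun x hx =>
      CombA.Mb_gen r r' z (l + 1) x fun j a b => h (l + 1) le_rfl j (by rw [abs_le] at hx ⊢; omega)
    show (SS r l y ∧ ¬ Rem r l (SS r l) y) ↔ (SS r' l (y + z) ∧ ¬ Rem r' l (SS r' l) (y + z))
    rw [CombA.Rem_gen r r' z l _ _ y hS hM, hS y (by rw [sub_self, abs_zero]; omega)]


theorem Mb_shp (z : ℤ) (r : Pat) (l : ℕ) (x : ℤ) : Mb (shp z r) l x ↔ Mb r l (x + z) :=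
  CombA.Mb_gen _ _ z l x fun _ _ _ => Iff.rfl

theorem SS_shp (z : ℤ) (r : Pat) (l : ℕ) (y : ℤ) : SS (shp z r) l y ↔ SS r l (y + z) :=
  CombA.SS_gen _ _ z l y fun _ _ _ _ => Iff.rfl

theorem LE_shp (z : ℤ) (r : Pat) (l : ℕ) (y : ℤ) : LE (shp z r) l y ↔ LE r l (y + z) := by
  unfold LE
  simp only [SS_shp]
  refine and_congr Iff.rfl ⟨fun h w a b c => h (w - z) (by omega) (by omega) ?_,
    fun h w a b => h (w + z) (by omega) (by omega)⟩
  rwa [sub_add_cancel]

theorem RE_shp (z : ℤ) (r : Pat) (l : ℕ) (y : ℤ) : RE (shp z r) l y ↔ RE r l (y + z) := by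
  unfold RE
  simp only [SS_shp]
  refine and_congr Iff.rfl ⟨fun h w a b c => h (w - z) (by omega) (by omega) ?_,
    fun h w a b => h (w + z) (by omega) (by omega)⟩
  rwa [sub_add_cancel]

theorem PEm_shp (z : ℤ) (r : Pat) (l : ℕ) (y m : ℤ) : PEm (shp z r) l y m ↔ PEm r l (y + z) m := by
  unfold PEm
  simp only [SS_shp]
  rw [show y + m + z = y + z + m by ring]
  refine and_congr Iff.rfl (and_congr Iff.rfl ⟨fun h w a b c => h (w - z) (by omega) (by omega) ?_,
    fun h w a b => h (w + z) (by omega) (by omega)⟩)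
  rwa [sub_add_cancel]

theorem PE_shp (z : ℤ) (r : Pat) (l : ℕ) (y : ℤ) : PE (shp z r) l y ↔ PE r l (y + z) := by
  unfold PE
  simp only [PEm_shp]

theorem Cov_shp (z : ℤ) (r : Pat) (l : ℕ) (y : ℤ) : Cov (shp z r) l y ↔ Cov r l (y + z) := by
  unfold Cov
  simp only [SS_shp]
  constructor
  · intro h w a b
    obtain ⟨v, h1, h2, h3⟩ := h (w - z) (by omega) (by omega)
    exact ⟨v + z, by omega, by omega, h3⟩
  · intro h w a b
    obtain ⟨v, h1, h2, h3⟩ := h (w + z) (by omega) (by omega)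
    exact ⟨v - z, by omega, by omega, by rwa [sub_add_cancel]⟩

theorem Sig_shp (z : ℤ) (r : Pat) (l : ℕ) (y : ℤ) : Sig (shp z r) l y ↔ Sig r l (y + z) := by
  unfold Sig
  simp only [Cov_shp, LE_shp]
  refine and_congr Iff.rfl ⟨?_, ?_⟩
  · rintro ⟨v, h1, h2⟩
    exact ⟨v + z, by rw [abs_le] at h1 ⊢; omega, h2⟩
  · rintro ⟨v, h1, h2⟩
    exact ⟨v - z, by rw [abs_le] at h1 ⊢; omega, by rwa [sub_add_cancel]⟩


/-- induction on `l` (for all `y`): `250 N + 12 N' + 13 N ≤ 13 N'` and `250 N + 4 N' + n' ≤ 13 N'`. -/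
theorem SS_local (r r' : Pat) (l : ℕ) (y : ℤ)
    (h : ∀ l' ≤ l, ∀ j, |j - y| ≤ 13 * (NN l : ℤ) → (r l' j ↔ r' l' j)) : SS r l y ↔ SS r' l y := by
  have := CombA.SS_gen r r' 0 l y fun l' hl j hj => by rw [add_zero]; exact h l' hl j hj
  rwa [add_zero] at this

theorem LE_local (r r' : Pat) (l : ℕ) (y : ℤ)
    (h : ∀ l' ≤ l, ∀ j, |j - y| ≤ 14 * (NN l : ℤ) → (r l' j ↔ r' l' j)) : LE r l y ↔ LE r' l y := by
  have p0 : (0 : ℤ) ≤ NN l := by positivity
  have hS : ∀ w, |w - y| ≤ (NN l : ℤ) → (SS r l w ↔ SS r' l w) := fun w hw =>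
    SS_local r r' l w fun l' hl j hj => h l' hl j (by rw [abs_le] at hw hj ⊢; omega)
  unfold LE
  refine and_congr (hS y (by rw [sub_self, abs_zero]; omega)) (forall_congr' fun w =>
    forall_congr' fun a => forall_congr' fun b => not_congr (hS w (by rw [abs_le]; omega)))

theorem RE_local (r r' : Pat) (l : ℕ) (y : ℤ)
    (h : ∀ l' ≤ l, ∀ j, |j - y| ≤ 14 * (NN l : ℤ) → (r l' j ↔ r' l' j)) : RE r l y ↔ RE r' l y := by
  have p0 : (0 : ℤ) ≤ NN l := by positivity
  have hS : ∀ w, |w - y| ≤ (NN l : ℤ) → (SS r l w ↔ SS r' l w) := fun w hw =>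
    SS_local r r' l w fun l' hl j hj => h l' hl j (by rw [abs_le] at hw hj ⊢; omega)
  unfold RE
  refine and_congr (hS y (by rw [sub_self, abs_zero]; omega)) (forall_congr' fun w =>
    forall_congr' fun a => forall_congr' fun b => not_congr (hS w (by rw [abs_le]; omega)))


theorem SS_succ {r : Pat} {l : ℕ} {y : ℤ} (h : SS r (l + 1) y) : SS r l y := h.1


/-- otherwise every `l`-regular bond of the window is `(l+1)`-regular (`Hyp`), and the window splits in `10^9` windows of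
length `nn l`, each with less than `nn l / 10` irregular bonds. -/
theorem Mb_succ {r : Pat} (hr : Hyp r) {l : ℕ} {x : ℤ} (h : Mb r (l + 1) x) :
    ∃ z, |z - x| ≤ 2 * (NN (l + 1) : ℤ) ∧ Mb r l z := by
  by_contra hc
  push Not at hc
  have e1 := CombA.NN_z l
  have e2 := CombA.nn_ge_z l
  have e3 := CombA.NN_succ_z l
  have e4 := CombA.nn_succ_z l
  have key : ∀ k : ℕ, k ≤ 1000000000 →
      10 * (((Finset.Ico x (x + k * nn l)).filter (fun j => ¬ r l j)).card : ℤ) + k ≤ k * nn l := by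
    intro k
    induction k with
    | zero => intro _; simp
    | succ k ih =>
      intro hk
      have i1 := ih (by omega)
      have k0 : (0 : ℤ) ≤ (k : ℤ) * nn l := by positivity
      have k1 : (k : ℤ) * nn l ≤ 1000000000 * nn l :=
        mul_le_mul_of_nonneg_right (by exact_mod_cast (by omega : k ≤ 1000000000)) (by omega)
      have i2 := hc (x + k * nn l) (by rw [abs_le]; omega)
      unfold Mb at i2
      have i3 : (Finset.Ico x (x + ((k + 1 : ℕ) : ℤ) * nn l)).filter (fun j => ¬ r l j) ⊆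
          (Finset.Ico x (x + k * nn l)).filter (fun j => ¬ r l j) ∪
            (Finset.Ico (x + k * nn l) (x + k * nn l + nn l)).filter (fun j => ¬ r l j) := by
        intro j hj
        simp only [Finset.mem_filter, Finset.mem_Ico, Finset.mem_union] at hj ⊢
        have e : ((k + 1 : ℕ) : ℤ) * nn l = k * nn l + nn l := by push_cast; ring
        rw [e] at hj
        by_cases hj' : j < x + k * nn l
        · exact Or.inl ⟨⟨hj.1.1, hj'⟩, hj.2⟩
        · exact Or.inr ⟨⟨by omega, by omega⟩, hj.2⟩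
      have i4 := (Finset.card_le_card i3).trans (Finset.card_union_le _ _)
      have e : ((k + 1 : ℕ) : ℤ) * nn l = k * nn l + nn l := by push_cast; ring
      have i4' : (((Finset.Ico x (x + ((k + 1 : ℕ) : ℤ) * nn l)).filter (fun j => ¬ r l j)).card : ℤ) ≤
          (((Finset.Ico x (x + k * nn l)).filter (fun j => ¬ r l j)).card : ℤ) +
            (((Finset.Ico (x + k * nn l) (x + k * nn l + nn l)).filter (fun j => ¬ r l j)).card : ℤ) := by
        exact_mod_cast i4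
      have i2' : 10 * (((Finset.Ico (x + k * nn l) (x + k * nn l + nn l)).filter
          (fun j => ¬ r l j)).card : ℤ) < nn l := by exact_mod_cast not_le.1 i2
      have e' : ((k + 1 : ℕ) : ℤ) = k + 1 := by push_cast; ring
      rw [e] at i4' ⊢
      rw [e']
      linarith
  have k1 := key 1000000000 le_rfl
  unfold Mb at h
  have i3 : (Finset.Ico x (x + nn (l + 1))).filter (fun j => ¬ r (l + 1) j) ⊆
      (Finset.Ico x (x + ((1000000000 : ℕ) : ℤ) * nn l)).filter (fun j => ¬ r l j) := by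
    intro j hj
    simp only [Finset.mem_filter, Finset.mem_Ico] at hj ⊢
    refine ⟨⟨hj.1.1, by push_cast; omega⟩, fun h' => hj.2 (hr l j (fun w hw => hc w ?_) h')⟩
    rw [abs_le] at hw ⊢
    omega
  have i4 : (((Finset.Ico x (x + nn (l + 1))).filter (fun j => ¬ r (l + 1) j)).card : ℤ) ≤
      (((Finset.Ico x (x + ((1000000000 : ℕ) : ℤ) * nn l)).filter (fun j => ¬ r l j)).card : ℤ) := by
    exact_mod_cast Finset.card_le_card i3
  have h' : (nn (l + 1) : ℤ) ≤
      10 * (((Finset.Ico x (x + nn (l + 1))).filter (fun j => ¬ r (l + 1) j)).card : ℤ) := by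
    exact_mod_cast h
  have e5 : ((1000000000 : ℕ) : ℤ) = 1000000000 := by norm_num
  rw [e5] at k1 i4
  linarith


/-- induction with `Mb_succ`; a removed point would forbid `Mb r (l+1) x`. -/
theorem SS_near {r : Pat} (hr : Hyp r) {l : ℕ} {x : ℤ} (h : Mb r l x) :
    ∃ y, |y - x| ≤ 3 * (NN l : ℤ) ∧ SS r l y := by
  induction l generalizing x with
  | zero => exact ⟨x, by rw [sub_self, abs_zero]; positivity, h⟩
  | succ l ih =>
    obtain ⟨z, hz, hm⟩ := Mb_succ hr h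
    obtain ⟨y, hy, hs⟩ := ih hm
    have e1 := CombA.NN_z l
    have e2 := CombA.nn_ge_z l
    have e3 := CombA.NN_succ_z l
    rw [abs_le] at hz hy
    refine ⟨y, by rw [abs_le]; omega, hs, ?_⟩
    rintro ⟨yL, yR, h1, h2, -, -, h5, -, -, h8⟩
    exact h8 x (by omega) (by omega) h


theorem irr_succ {r : Pat} (hr : Hyp r) {l : ℕ} {j : ℤ} (h : ¬ r (l + 1) j) :
    ¬ r l j ∨ ∃ y, |y - j| ≤ 3 * (NN (l + 1) : ℤ) ∧ SS r l y := by
  by_cases h0 : r l j
  · right
    by_contra hc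
    apply h
    refine hr l j (fun z hz hm => hc ?_) h0
    obtain ⟨y, hy, hs⟩ := SS_near hr hm
    have e1 := CombA.NN_z l
    have e2 := CombA.nn_ge_z l
    have e3 := CombA.NN_succ_z l
    exact ⟨y, by rw [abs_le] at hz hy ⊢; omega, hs⟩
  · exact Or.inl h0


/-- if some point is within `NN (l+1)` of `0` use `SS_succ`; otherwise the point nearest to `0` on the relevant side is an edge. -/
theorem near_step {r : Pat} {l : ℕ} (h : ∃ y, |y| ≤ 3 * (NN (l + 2) : ℤ) ∧ SS r (l + 1) y) :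
    (∃ y, |y| ≤ 3 * (NN (l + 1) : ℤ) ∧ SS r l y) ∨
      ∃ y, |y| ≤ 3 * (NN (l + 2) : ℤ) ∧ (LE r (l + 1) y ∨ RE r (l + 1) y) := by
  obtain ⟨y0, hy0, hs0⟩ := h
  have hex : ∃ n : ℕ, ∃ y : ℤ, y.natAbs = n ∧ SS r (l + 1) y := ⟨_, y0, rfl, hs0⟩
  obtain ⟨y, hy, hs⟩ := Nat.find_spec hex
  have hmin : ∀ w, SS r (l + 1) w → y.natAbs ≤ w.natAbs := fun w hw => by
    rw [hy]; exact Nat.find_min' hex ⟨w, rfl, hw⟩
  have h0 := hmin y0 hs0
  have p1 : (0 : ℤ) ≤ NN (l + 1) := by positivity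
  rw [abs_le] at hy0
  by_cases h1 : |y| ≤ (NN (l + 1) : ℤ)
  · exact Or.inl ⟨y, by rw [abs_le] at h1 ⊢; omega, SS_succ hs⟩
  · right
    rw [abs_le] at h1
    refine ⟨y, by rw [abs_le]; omega, ?_⟩
    by_cases h2 : 0 < y
    · refine Or.inl ⟨hs, fun w a b c => ?_⟩
      have := hmin w c
      omega
    · refine Or.inr ⟨hs, fun w a b c => ?_⟩
      have := hmin w c
      omega


theorem irr_incl {r : Pat} (hr : Hyp r) (l : ℕ) (h : ¬ r l 0) :
    ¬ r 0 0 ∨ (∃ y, |y| ≤ 3 * (NN 1 : ℤ) ∧ Mb r 0 y) ∨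
      ∃ l' < l, ∃ y, |y| ≤ 3 * (NN (l' + 1) : ℤ) ∧ (LE r l' y ∨ RE r l' y) := by
  have aux : ∀ l : ℕ, (∃ y, |y| ≤ 3 * (NN (l + 1) : ℤ) ∧ SS r l y) →
      (∃ y, |y| ≤ 3 * (NN 1 : ℤ) ∧ Mb r 0 y) ∨
        ∃ l' < l + 1, ∃ y, |y| ≤ 3 * (NN (l' + 1) : ℤ) ∧ (LE r l' y ∨ RE r l' y) := by
    intro l
    induction l with
    | zero => intro h; exact Or.inl h
    | succ l ih =>
      intro h
      rcases near_step h with h | h
      · rcases ih h with h | ⟨l', hl', h⟩
        · exact Or.inl h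
        · exact Or.inr ⟨l', by omega, h⟩
      · exact Or.inr ⟨l + 1, by omega, h⟩
  induction l with
  | zero => exact Or.inl h
  | succ l ih =>
    rcases irr_succ hr h with h | h
    · rcases ih h with h | h | ⟨l', hl', h⟩
      · exact Or.inl h
      · exact Or.inr (Or.inl h)
      · exact Or.inr (Or.inr ⟨l', by omega, h⟩)
    · simp only [sub_zero] at h
      exact Or.inr (aux l h)


end Crest.Agent.R128
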