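import Crest.Agent.R128.CombA

set_option autoImplicit false
open MeasureTheory Set

namespace Crest.Agent.R128
open Classical

/-! CombB: the main combinatorial inclusion and the covering inequalities. -/

namespace CombBX

theorem last {S : ℤ → Prop} {y₀ z : ℤ} (h : S y₀) (hz : y₀ < z) :
    ∃ y, y₀ ≤ y ∧ y < z ∧ S y ∧ ∀ w, y < w → w < z → ¬ S w := by
  obtain ⟨y, ⟨h1, h2⟩, h3⟩ := Int.exists_greatest_of_bdd (P := fun y => y < z ∧ S y)
    ⟨z, fun w hw => hw.1.le⟩ ⟨y₀, hz, h⟩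
  exact ⟨y, h3 _ ⟨hz, h⟩, h1, h2, fun w a b c => absurd (h3 w ⟨b, c⟩) (by omega)⟩

theorem gap {r : Pat} {l : ℕ} {y y' : ℤ} (h : SS r l y) (h' : SS r l y') (h1 : y < y')
    (h2 : y' ≤ y + 120 * NN (l + 1)) (h3 : ∀ w, y < w → w ≤ y + 120 * NN l → ¬ SS r l w) :
    PE r l y := by
  obtain ⟨v, ⟨a1, a2⟩, a3⟩ := Int.exists_least_of_bdd (P := fun v => y < v ∧ SS r l v)
    ⟨y, fun w hw => hw.1.le⟩ ⟨y', h1, h'⟩
  have a4 := a3 y' ⟨h1, h'⟩
  refine ⟨v - y, not_le.1 fun c => h3 v a1 (by omega) a2, by omega, h, by rwa [add_sub_cancel],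
    fun w b1 b2 b3 => absurd (a3 w ⟨b1, b3⟩) (by omega)⟩

theorem pn {r : Pat} {l : ℕ} (h : Cov r (l + 1) 0) {z : ℤ} (h1 : -NN (l + 1) ≤ z)
    (h2 : z ≤ NN (l + 1)) (h3 : ∀ w, z ≤ w → w < z + 120 * NN l → ¬ SS r l w) : PN r l 0 := by
  obtain ⟨y₀, a1, a2, a3⟩ := h (-121 * NN (l + 1)) (by omega) (by omega)
  obtain ⟨y, b1, b2, b3, b4⟩ := last (SS_succ a3) (show y₀ < z by omega)
  obtain ⟨y', c1, c2, c3⟩ := h (y + 1) (by omega) (by omega)
  refine ⟨y, by rw [abs_le]; omega, gap b3 (SS_succ c3) (by omega) (by omega) fun w d1 d2 => ?_⟩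
  by_cases c : w < z
  · exact b4 w d1 c
  · exact h3 w (by omega) (by omega)

end CombBX

open CombBX

/-- an `l`-point `y' ∈ [y - N', y)` is removed with some `yL ≤ y' ≤ yR`; if `y ≤ yR` then `y` is removed, otherwise
`y ∈ (yR, yR + 12 N']` is not an `l`-point. -/
theorem LE_succ_free {r : Pat} {l : ℕ} {y : ℤ} (h : LE r (l + 1) y) :
    SS r l y ∧ ∀ z, y - NN (l + 1) ≤ z → z < y → ¬ SS r l z := by
  refine ⟨h.1.1, fun z h1 h2 h3 => h.2 z h1 h2 ⟨h3, ?_⟩⟩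
  rintro ⟨yL, yR, a1, a2, a3, a4, a5, a6, a7, a8⟩
  by_cases c : y ≤ yR
  · exact h.1.2 ⟨yL, yR, by omega, c, a3, a4, a5, a6, a7, a8⟩
  · exact a7 y (by omega) (by omega) h.1.1

theorem LE_succ {r : Pat} {l : ℕ} {y : ℤ} (h : LE r (l + 1) y) : LE r l y := by
  have e := CombA.NN_succ_z l
  exact ⟨h.1.1, fun z h1 h2 => (LE_succ_free h).2 z (by omega) h2⟩

theorem LE_sep {r : Pat} {l : ℕ} {y y' : ℤ} (h : LE r l y) (h' : LE r l y') (hne : y ≠ y') :
    (NN l : ℤ) < |y - y'| := by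
  by_contra c
  rw [not_lt, abs_le] at c
  rcases lt_or_gt_of_ne hne with a | a
  · exact h'.2 y (by omega) a h.1
  · exact h.2 y' (by omega) a h'.1

theorem PEm_facts {r : Pat} (hr : Hyp r) {l : ℕ} {y m : ℤ} (h : PEm r l y m) (hm : (NN l : ℤ) < m) :
    RE r l y ∧ LE r l (y + m) ∧ ∀ x, y + 3 * NN l < x → x < y + m - 3 * NN l → ¬ Mb r l x := by
  obtain ⟨h1, h2, h3⟩ := h
  refine ⟨⟨h1, fun z a b => h3 z a (by omega)⟩, ⟨h2, fun z a b => h3 z (by omega) b⟩,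
    fun x a b c => ?_⟩
  obtain ⟨w, d, e⟩ := SS_near hr c
  rw [abs_le] at d
  exact h3 w (by omega) (by omega) e

/-- Either every `z ∈ [0, 250N]` has an `l`-point in `[z, z + 120N)` (first case), or there is a last point `yR ∈ [0, 250 N)` followed by a gap
`> 120 N`.  If the next point is within `120 N'`: third case.  If the previous point of `0` is within `120 N'`: second case.
Otherwise the cluster `[0, yR]` is isolated (`Iso` by `SS_near`), and it was not removed. -/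
theorem main_incl {r : Pat} (hr : Hyp r) {l : ℕ} (h : LE r (l + 1) 0) :
    (∀ z : ℤ, 121 * NN l ≤ z → z ≤ 129 * NN l → Sig r l z) ∨ PEL r l 0 ∨
      (∃ y : ℤ, 0 ≤ y ∧ y ≤ 250 * NN l ∧ PE r l y) ∨
      (Iso r l ∧ ∃ x : ℤ, -4 * NN (l + 1) ≤ x ∧ x ≤ 4 * NN (l + 1) ∧ Mb r (l + 1) x) := by
  have e1 := CombA.NN_z l
  have e2 := CombA.nn_ge_z l
  have e3 := CombA.NN_succ_z l
  obtain ⟨s0, f0⟩ := LE_succ_free h
  by_cases cA : ∀ z : ℤ, 0 ≤ z → z ≤ 250 * NN l → ∃ y, z ≤ y ∧ y < z + 120 * NN l ∧ SS r l y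
  · exact Or.inl fun z a b => ⟨fun w c d => cA w (by omega) (by omega), 0, by rw [abs_le]; omega, h⟩
  right
  push Not at cA
  obtain ⟨z, z1, z2, z3⟩ := cA
  have z4 : 0 < z := z1.lt_of_ne fun c => z3 0 (by omega) (by omega) s0
  obtain ⟨yR, b1, b2, b3, b4⟩ := last s0 z4
  by_cases cB : ∃ y', y' < 0 ∧ -120 * (NN (l + 1) : ℤ) ≤ y' ∧ SS r l y'
  · obtain ⟨y', c1, c2, c3⟩ := cB
    obtain ⟨y, d1, d2, d3, d4⟩ := last c3 c1
    have d5 : y < 0 - NN (l + 1) := not_le.1 fun c => f0 y c d2 d3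
    exact Or.inl ⟨-y, by omega, by omega, by simpa using d3, by simpa using s0,
      fun w a b => d4 w (by omega) (by omega)⟩
  right
  by_cases cC : ∃ y', yR < y' ∧ y' ≤ yR + 120 * NN (l + 1) ∧ SS r l y'
  · obtain ⟨y', c1, c2, c3⟩ := cC
    refine Or.inl ⟨yR, b1, by omega, gap b3 c3 c1 c2 fun w d1 d2 => ?_⟩
    by_cases c : w < z
    · exact b4 w d1 c
    · exact z3 w (by omega) (by omega)
  right
  push Not at cB cC
  refine ⟨fun x hx hm => ?_, ?_⟩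
  · obtain ⟨w, d, e⟩ := SS_near hr hm
    rw [abs_le] at d
    rcases hx with hx | hx
    · exact cB w (by omega) (by omega) e
    · exact cC w (by omega) (by omega) e
  · by_contra c
    push Not at c
    exact h.1.2 ⟨0, yR, le_rfl, b1, s0, b3, by omega, fun w a b => cB w b (by omega),
      fun w a b => cC w a (by omega), fun x a b => c x (by omega) (by omega)⟩

/-- if `[z, z + 120N)` is free of `l`-points take the last `l`-point `y < z` (there is one `≥ -121 N'`) and the next one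
(within `120 N'` by `Cov` at `y+1`). -/
theorem cov_step {r : Pat} {l : ℕ} (h : Cov r (l + 1) 0) : Cov r l 0 ∨ PN r l 0 := by
  have e3 := CombA.NN_succ_z l
  refine or_iff_not_imp_left.2 fun c => ?_
  unfold Cov at c
  push Not at c
  obtain ⟨z, z1, z2, z3⟩ := c
  exact pn h (by omega) (by omega) z3

theorem sig_step {r : Pat} {l : ℕ} (h : Sig r l 0) (h' : Cov r (l + 1) 0) : PN r l 0 := by
  have e3 := CombA.NN_succ_z l
  obtain ⟨-, y, h1, h2⟩ := h
  rw [abs_le] at h1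
  exact pn h' (z := y - 120 * NN l) (by omega) (by omega) fun w a b =>
    (LE_succ_free h2).2 w (by omega) (by omega)

/-- with `G = ` no point in `[0, N)`: `LE r l N ↔ G r ∧ ¬ G (shp 1 r)`, `RE r l 0 ↔ G (shp 1 r) ∧ ¬ G r`. -/
theorem edge_iff (r : Pat) (l : ℕ) :
    (LE r l (NN l) ↔ (∀ z : ℤ, 0 ≤ z → z < NN l → ¬ SS r l z) ∧
      ¬ (∀ z : ℤ, 0 ≤ z → z < NN l → ¬ SS (shp 1 r) l z)) ∧
    (RE r l 0 ↔ (∀ z : ℤ, 0 ≤ z → z < NN l → ¬ SS (shp 1 r) l z) ∧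
      ¬ (∀ z : ℤ, 0 ≤ z → z < NN l → ¬ SS r l z)) := by
  have e1 := CombA.NN_z l
  have e2 := CombA.nn_ge_z l
  simp only [SS_shp]
  refine ⟨⟨fun h => ⟨fun z a b => h.2 z (by omega) b, fun c =>
    c (NN l - 1) (by omega) (by omega) (by rw [sub_add_cancel]; exact h.1)⟩, fun ⟨h1, h2⟩ =>
      ⟨?_, fun z a b => h1 z (by omega) b⟩⟩,
    ⟨fun h => ⟨fun z a b => h.2 (z + 1) (by omega) (by omega), fun c => c 0 le_rfl (by omega) h.1⟩,
      fun ⟨h1, h2⟩ => ⟨?_, fun z a b c =>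
        h1 (z - 1) (by omega) (by omega) (by rwa [sub_add_cancel])⟩⟩⟩
  · by_contra c
    refine h2 fun z a b d => ?_
    by_cases e : z + 1 = NN l
    · exact c (e ▸ d)
    · exact h1 (z + 1) (by omega) (by omega) d
  · by_contra c
    refine h2 fun z a b d => ?_
    by_cases e : z = 0
    · exact c (e ▸ d)
    · exact h1 (z - 1) (by omega) (by omega) (by rwa [sub_add_cancel])

end Crest.Agent.R128
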