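import Crest.Agent.R128.Ext

set_option autoImplicit false
open MeasureTheory Set

namespace Crest.Agent.R128
open Classical

/-! Cross: crossing a non-resonant cluster. -/

/-- `p = q(1+g)`, `R = 21000000 N`.  Take a regular `j* ∈ [j₁ - 220000 N - n, j₁ - 220000 N)`.
(1) At every regular `i ≤ j₁` in range `|u i| ≤ |u (i+1)| ≤ B^(-99 (j₁ - i - 500N))` (`ng_L`), so
`max |s i| |s (i+1)| ≥ B^(-R + 99 (j₁-i-500N)) / 2`.
(2) `RC s j*`: otherwise `LC s j*`, `cp_L` gives `|s (j*+1)| ≤ |s (j₁+1)| ≤ B^(101 (j₂-j₁))`, contradiction with (1).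
(3) `cp_R`: `RC s` at all regular bonds of `[j, j*]`; normalise `s / s j`.
(4) `j + r ≤ j* - 2n + 2`: `chain_R`.  `j* - 2n < i = j + r ≤ j₂`: `|s i| ≤ B^(101 (j₂-i))` and (1) at `j` give
`|s i| ≤ B^(-90 (i-j)) |s j|`.  `i ≥ j₂`: `|s i| ≤ p^(i-j₂)` and `1 ≤ B^(-90 (j₂-j)) |s j|`. -/
theorem cross_L {B c₀ : ℝ} (hB : 10 ^ 8 ≤ c₀ * B) (h0 : 0 < c₀) (h1 : c₀ ≤ 1) {V u s : ℤ → ℝ}
    (hV : Bdd B V) {n N N' : ℕ} {q g q' : ℝ} (hp : Par n N q g) (hN : N = 10 * n) (hu : Sol V u)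
    (hs : Sol V s) {j₁ j₂ j : ℤ} (h12 : j₁ < j₂) (hT : j₂ - j₁ ≤ 260 * N) (hj1 : Reg V N q j₁)
    (hu1 : u (j₁ + 1) = 1) (hs1 : s j₂ = 1)
    (hsd : ∀ r : ℕ, r ≤ N' → |s (j₂ + r)| ≤ (q * (1 + g)) ^ r)
    (huc : ∀ i, j ≤ i → i ≤ j₁ → Reg V N q i → LC u i) (hw : Win (Reg V N q) n j j₁)
    (hbad : badN B c₀ V N q j j₁ ≤ 500 * N) (hW : B ^ (-21000000 * (N : ℤ)) ≤ |Wr u s 0|)
    (hj : Reg V N q j) (hjj : j ≤ j₁ - 2990000 * N) (hq' : q * (1 + g) ≤ q')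
    (hq'' : B ^ (-90 : ℤ) ≤ q') : RR V j N' q' := by
  rcases Nat.eq_zero_or_pos N' with rfl | hN'
  · obtain ⟨s', a1, a2, -⟩ := hj.1
    refine ⟨s', a1, a2, fun r hr => ?_⟩
    obtain rfl : r = 0 := by omega
    simp [a2]
  have hB0 : 0 < B := by
    by_contra hc
    have : c₀ * B ≤ 0 := mul_nonpos_of_nonneg_of_nonpos h0.le (not_lt.1 hc)
    linarith
  have hB2 : 2 ≤ B := by nlinarith
  have hB1 : 1 ≤ B := by linarith
  have hnN := hp.nN
  have hp0 : 0 ≤ q * (1 + g) := mul_nonneg hp.q0.le (by linarith [hp.g0])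
  have hp1 : q * (1 + g) ≤ 1 := by nlinarith [hp.q0, hp.q1, hp.g0, hp.g1]
  have hq0 : 0 ≤ q' := hp0.trans hq'
  have hpow : ∀ a b : ℤ, a ≤ b → B ^ a ≤ B ^ b := fun a b h => zpow_le_zpow_right₀ hB1 h
  have hgrow : ∀ i, i ≤ j₂ → |s i| ≤ B ^ (101 * (j₂ - i)) := fun i hi => by
    have := hs.growth_left hB2 hV (a := j₂) (M := 1) (by simp [hs1])
      (by simpa using (hsd 1 hN').trans (by simpa using hp1)) i hi
    rwa [mul_one] at this
  have key1 : ∀ i, j ≤ i → i ≤ j₁ → Reg V N q i →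
      B ^ (-21000000 * (N : ℤ) + 99 * (j₁ - i - 500 * N)) ≤ |s i| + |s (i + 1)| := by
    intro i hi1 hi2 hi
    have a1 := huc i hi1 hi2 hi
    have a2 := ng_L hB h0 h1 hp hu hi a1 (hw.mono hi1 le_rfl) hj1 hi2
      ((badN_mono B c₀ V N q (by omega) le_rfl).trans hbad)
    rw [hu1, abs_one, mul_one] at a2
    push_cast at a2
    have a3 : |Wr u s 0| ≤ B ^ (-99 * (j₁ - i - 500 * N)) * (|s i| + |s (i + 1)|) := by
      rw [Wr_const hu hs 0 i]
      unfold Wr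
      have b1 : |u i * s (i + 1) - u (i + 1) * s i| ≤ |u i| * |s (i + 1)| + |u (i + 1)| * |s i| := by
        rw [← abs_mul, ← abs_mul]; exact abs_sub _ _
      have b2 := mul_le_mul_of_nonneg_right (a1.trans a2) (abs_nonneg (s (i + 1)))
      have b3 := mul_le_mul_of_nonneg_right a2 (abs_nonneg (s i))
      simp only [neg_mul] at b2 b3 ⊢
      linarith
    have a4 := mul_le_mul_of_nonneg_left (hW.trans a3)
      (zpow_pos hB0 (99 * (j₁ - i - 500 * N))).le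
    rw [← mul_assoc, ← zpow_add₀ hB0.ne', ← zpow_add₀ hB0.ne',
      show 99 * (j₁ - i - 500 * (N : ℤ)) + -99 * (j₁ - i - 500 * N) = 0 by ring, zpow_zero,
      one_mul, add_comm] at a4
    exact a4
  have htwo : ∀ a : ℤ, 2 * B ^ a ≤ B ^ (a + 1) := fun a => by
    rw [zpow_add_one₀ hB0.ne', mul_comm]
    exact mul_le_mul_of_nonneg_left hB2 (zpow_pos hB0 a).le
  obtain ⟨J, hJ1, hJ2, hJ⟩ := hw (j₁ - 220000 * N - n) (by omega) (by omega)
  have hRC : RC s J := by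
    by_contra hc
    have a1 : LC s J := (not_le.1 hc).le
    have a2 := (cp_L hp hs hJ a1 (hw.mono (by omega) le_rfl) hj1 (by omega) le_rfl).2
    have a3 := hgrow (j₁ + 1) (by omega)
    have a4 := key1 J (by omega) (by omega) hJ
    have a5 := htwo (101 * (j₂ - (j₁ + 1)))
    have a6 : B ^ (101 * (j₂ - (j₁ + 1)) + 1) <
        B ^ (-21000000 * (N : ℤ) + 99 * (j₁ - J - 500 * N)) :=
      zpow_lt_zpow_right₀ (by linarith) (by omega)
    unfold LC at a1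
    linarith
  have hcone : ∀ j', j ≤ j' → j' ≤ J → Reg V N q j' → RC s j' := fun j' a1 a2 a3 =>
    (cp_R hp hs hJ hRC (hw.mono le_rfl (by omega)) a3 a1 a2).1
  have hsj : B ^ (-21000000 * (N : ℤ) + 99 * (j₁ - j - 500 * N) - 1) ≤ |s j| := by
    have a1 := key1 j le_rfl (by omega) hj
    have a2 : |s (j + 1)| ≤ |s j| := hcone j le_rfl (by omega) hj
    have a3 := htwo (-21000000 * (N : ℤ) + 99 * (j₁ - j - 500 * N) - 1)
    rw [sub_add_cancel] at a3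
    linarith
  have hsj0 : 0 < |s j| := (zpow_pos hB0 _).trans_le hsj
  have mid : ∀ r : ℕ, J - 2 * n + 2 < j + r → j + r ≤ j₂ → |s (j + r)| ≤ q' ^ r * |s j| := by
    intro r a1 a2
    have a3 : B ^ (-90 * (r : ℤ)) ≤ q' ^ r := by
      rw [zpow_mul, zpow_natCast]
      exact pow_le_pow_left₀ (zpow_pos hB0 _).le hq'' r
    refine (hgrow _ a2).trans (le_trans ?_ (mul_le_mul a3 hsj (zpow_pos hB0 _).le
      (pow_nonneg hq0 r)))
    rw [← zpow_add₀ hB0.ne']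
    exact hpow _ _ (by omega)
  have all : ∀ r : ℕ, r ≤ N' → |s (j + r)| ≤ q' ^ r * |s j| := by
    intro r hr
    by_cases c1 : j + r ≤ J - 2 * n + 2
    · exact (chain_R hp hs hj (hw.mono le_rfl (by omega)) hcone r c1).trans
        (mul_le_mul_of_nonneg_right (pow_le_pow_left₀ hp0 hq' r) hsj0.le)
    by_cases c2 : j + r ≤ j₂
    · exact mid r (by omega) c2
    obtain ⟨r₁, e1⟩ : ∃ r₁ : ℕ, j + r₁ = j₂ := ⟨(j₂ - j).toNat, by omega⟩
    obtain ⟨r₂, rfl⟩ : ∃ r₂ : ℕ, r = r₂ + r₁ := ⟨r - r₁, by omega⟩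
    have a1 := mid r₁ (by omega) e1.le
    rw [e1, hs1, abs_one] at a1
    have a2 := (hsd r₂ (by omega)).trans (pow_le_pow_left₀ hp0 hq' r₂)
    rw [show j + ((r₂ + r₁ : ℕ) : ℤ) = j₂ + r₂ by push_cast; omega, pow_add, mul_assoc]
    exact a2.trans (le_mul_of_one_le_right (pow_nonneg hq0 _) a1)
  refine ⟨fun i => (s j)⁻¹ * s i, hs.smul _, inv_mul_cancel₀ (abs_pos.1 hsj0), fun r hr => ?_⟩
  rw [abs_mul, abs_inv, inv_mul_le_iff₀ hsj0, mul_comm]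
  exact all r hr

/-- reflection of `cross_L`. -/
theorem cross_R {B c₀ : ℝ} (hB : 10 ^ 8 ≤ c₀ * B) (h0 : 0 < c₀) (h1 : c₀ ≤ 1) {V u s : ℤ → ℝ}
    (hV : Bdd B V) {n N N' : ℕ} {q g q' : ℝ} (hp : Par n N q g) (hN : N = 10 * n) (hu : Sol V u)
    (hs : Sol V s) {j₁ j₂ j : ℤ} (h12 : j₁ < j₂) (hT : j₂ - j₁ ≤ 260 * N) (hj2 : Reg V N q j₂)
    (hu1 : u (j₁ + 1) = 1) (hs1 : s j₂ = 1)
    (hud : ∀ r : ℕ, r ≤ N' → |u (j₁ + 1 - r)| ≤ (q * (1 + g)) ^ r)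
    (hsc : ∀ i, j₂ ≤ i → i ≤ j → Reg V N q i → RC s i) (hw : Win (Reg V N q) n j₂ j)
    (hbad : badN B c₀ V N q (j₂ + 1) (j + 1) ≤ 500 * N) (hW : B ^ (-21000000 * (N : ℤ)) ≤ |Wr u s 0|)
    (hj : Reg V N q j) (hjj : j₂ + 2990000 * N ≤ j) (hq' : q * (1 + g) ≤ q')
    (hq'' : B ^ (-90 : ℤ) ≤ q') : LR V j N' q' := by
  have key := cross_L (N' := N') (j₁ := -j₂ - 1) (j₂ := -j₁ - 1) (j := -j - 1) hB h0 h1 hV.refl hp hN
    hs.refl hu.refl (by omega) (by omega)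
    ((Reg_refl _ _ _ _).2 (by rwa [show -(-j₂ - 1) - 1 = j₂ by ring]))
    (by unfold refl; rwa [show -(-j₂ - 1 + 1) = j₂ by ring])
    (by unfold refl; rwa [show -(-j₁ - 1) = j₁ + 1 by ring])
    (fun r hr => by
      unfold refl
      rw [show -(-j₁ - 1 + (r : ℤ)) = j₁ + 1 - r by ring]
      exact hud r hr)
    (fun i a1 a2 a3 => (LC_refl _ _).2 (hsc _ (by omega) (by omega) ((Reg_refl _ _ _ _).1 a3)))
    ((Win_refl _ _ _ _ _ _).2 (hw.mono (by omega) (by omega)))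
    (by rwa [badN_refl, show -(-j₂ - 1) = j₂ + 1 by ring, show -(-j - 1) = j + 1 by ring])
    (by
      have e : Wr (refl s) (refl u) 0 = Wr u s (-1) := by
        simp only [Wr, refl]
        norm_num
        ring
      rwa [e, Wr_const hu hs (-1) 0])
    ((Reg_refl _ _ _ _).2 (by rwa [show -(-j - 1) - 1 = j by ring])) (by omega) hq' hq''
  rwa [RR_refl, show -(-j - 1) - 1 = j by ring] at key

/-- pick `j₁`, `j₂` from the windows starting at `-4N` and `254 N`; `ext_L`, `ext_R` with `L = 8 N'`. -/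
theorem frame_exists {B c₀ : ℝ} {V : ℤ → ℝ} {n N N' : ℕ} {q g : ℝ} (hp : Par n N q g) (hN : N = 10 * n)
    (hN' : N' = 10 ^ 9 * N) (hV : Bdd B V) (hqB : q * (1 + g) ≤ B ^ (-89 : ℤ))
    (winL : Win (Reg V N q) n (-9 * N') (-3 * N)) (winR : Win (Reg V N q) n (254 * N) (9 * N'))
    (crL : badN B c₀ V N q (-6 * N') (-70 * N) ≤ N) (crR : badN B c₀ V N q (700 * N) (6 * N') ≤ N) :
    ∃ j₁ j₂ u s, Frame B c₀ V n N N' q g j₁ j₂ u s := by
  have hnN := hp.nN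
  obtain ⟨j₁, a1, a2, a3⟩ := winL (-4 * N) (by omega) (by omega)
  obtain ⟨j₂, b1, b2, b3⟩ := winR (254 * N) le_rfl (by omega)
  obtain ⟨u, c1, c2, c3, c4⟩ := ext_L hp a3 (8 * N') (winL.mono (by omega) (by omega))
  obtain ⟨s, d1, d2, d3, d4⟩ := ext_R hp b3 (8 * N') (winR.mono (by omega) (by omega))
  exact ⟨j₁, j₂, u, s, hp, hN, hN', hV, hqB, a1, a2, b1, b2, a3, b3, winL, winR, c1, d1, c2, d2,
    fun r hr => c3 r (by omega), fun r hr => d3 r (by omega),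
    fun j e1 e2 e3 => c4 j e2 (by omega) e3, fun j e1 e2 e3 => d4 j e1 (by omega) e3, crL, crR⟩

/-- left bonds: `RR` from `cross_L`, `LR` from `ext_L` with `L = N'`; right bonds symmetrically
(`badN_mono`, `badN_le_add`: the extra sites are at most `70 N`, resp. `446 N`). -/
theorem Frame.reg_up {B c₀ : ℝ} (hB : 10 ^ 8 ≤ c₀ * B) (h0 : 0 < c₀) (h1 : c₀ ≤ 1) {V u s : ℤ → ℝ}
    {n N N' : ℕ} {q g q' : ℝ} {j₁ j₂ : ℤ} (F : Frame B c₀ V n N N' q g j₁ j₂ u s)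
    (hW : B ^ (-21000000 * (N : ℤ)) ≤ |Wr u s 0|) (hq' : q * (1 + g) ≤ q') (hq'' : B ^ (-90 : ℤ) ≤ q')
    (j : ℤ) (hj : (-5 * N' ≤ j ∧ j ≤ -3000000 * N) ∨ (3000000 * N ≤ j ∧ j ≤ 5 * N'))
    (hr : Reg V N q j) : Reg V N' q' j := by
  have hp := F.par
  have hnN := hp.nN
  have hN := F.hN
  have hN' := F.hN'
  have a1 := F.j1a
  have a2 := F.j1b
  have b1 := F.j2a
  have b2 := F.j2b
  have hp0 : 0 ≤ q * (1 + g) := mul_nonneg hp.q0.le (by linarith [hp.g0])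
  rcases hj with ⟨e1, e2⟩ | ⟨e1, e2⟩
  · constructor
    · refine cross_L hB h0 h1 F.bdd hp hN F.solu F.sols (by omega) (by omega) F.reg1 F.u1 F.s1
        (fun r hr => F.sdec r (by omega)) (fun i c1 c2 c3 => F.ucone i (by omega) c2 c3)
        (F.winL.mono (by omega) (by omega)) ?_ hW hr (by omega) hq' hq''
      have c1 := badN_le_add B c₀ V N q (-6 * N') (-70 * N) 0 (70 * N)
      have c2 := badN_mono B c₀ V N q (α := -6 * N' - (0 : ℕ)) (β := -70 * N + (70 * N : ℕ))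
        (α' := j) (β' := j₁) (by omega) (by omega)
      have c3 := F.crL
      omega
    · obtain ⟨v, c1, c2, c3, -⟩ := ext_L hp hr N' (F.winL.mono (by omega) (by omega))
      exact ⟨v, c1, c2, fun r hr => (c3 r (by omega)).trans (pow_le_pow_left₀ hp0 hq' r)⟩
  · constructor
    · obtain ⟨v, c1, c2, c3, -⟩ := ext_R hp hr N' (F.winR.mono (by omega) (by omega))
      exact ⟨v, c1, c2, fun r hr => (c3 r (by omega)).trans (pow_le_pow_left₀ hp0 hq' r)⟩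
    · refine cross_R hB h0 h1 F.bdd hp hN F.solu F.sols (by omega) (by omega) F.reg2 F.u1 F.s1
        (fun r hr => F.udec r (by omega)) (fun i c1 c2 c3 => F.scone i c1 (by omega) c3)
        (F.winR.mono (by omega) (by omega)) ?_ hW hr (by omega) hq' hq''
      have c1 := badN_le_add B c₀ V N q (700 * N) (6 * N') (446 * N) 0
      have c2 := badN_mono B c₀ V N q (α := 700 * N - (446 * N : ℕ)) (β := 6 * N' + (0 : ℕ))
        (α' := j₂ + 1) (β' := j + 1) (by omega) (by omega)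
      have c3 := F.crR
      omega

end Crest.Agent.R128
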