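import Mathlib
import Crest.Prelude.Def_StandardMap

/-! Row 128 (S0172): definitions.  See `R128/Guide.lean` for the proof plan.
Conventions: `B` large, `A = B^100 = 2πk`; all powers of `B` with possibly negative exponents are `zpow`.
A "bond" `j` is the pair of sites `(j, j+1)`. -/

set_option autoImplicit false
open MeasureTheory Set

namespace Crest.Agent.R128

noncomputable section
open Classical

/-! ### two-sided second order recursions -/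
section rec
variable {α : Type*} [AddCommGroup α]

/-- forward part: `fw n = (u (c+n), u (c+n+1))`. -/
def fw (g : ℤ → α → α) (c : ℤ) (u0 u1 : α) : ℕ → α × α
  | 0 => (u0, u1)
  | n + 1 => ((fw g c u0 u1 n).2, g (c + n + 1) (fw g c u0 u1 n).2 - (fw g c u0 u1 n).1)

/-- backward part: `bw n = (u (c-n), u (c-n+1))`. -/
def bw (g : ℤ → α → α) (c : ℤ) (u0 u1 : α) : ℕ → α × α
  | 0 => (u0, u1)
  | n + 1 => (g (c - n) (bw g c u0 u1 n).1 - (bw g c u0 u1 n).2, (bw g c u0 u1 n).1)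

/-- the unique `u : ℤ → α` with `u c = u0`, `u (c+1) = u1`, `u (i+1) + u (i-1) = g i (u i)`. -/
def rec2 (g : ℤ → α → α) (c : ℤ) (u0 u1 : α) (i : ℤ) : α :=
  if c ≤ i then (fw g c u0 u1 (i - c).toNat).1 else (bw g c u0 u1 (c - i).toNat).1
end rec

section lin
variable {𝕜 : Type*} [Field 𝕜]

/-- solution of the discrete Schrödinger equation with potential `V`. -/
def Sol (V u : ℤ → 𝕜) : Prop := ∀ i, u (i + 1) + u (i - 1) = V i * u i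

/-- the solution with data `u0, u1` at the bond `c`. -/
def sol (V : ℤ → 𝕜) (c : ℤ) (u0 u1 : 𝕜) : ℤ → 𝕜 := rec2 (fun i u => V i * u) c u0 u1

/-- Dirichlet solution: `0` at `c`, `1` at `c+1`, `-1` at `c-1`. -/
def dir (V : ℤ → 𝕜) (c : ℤ) : ℤ → 𝕜 := sol V c 0 1

/-- Wronskian at the bond `i`. -/
def Wr (u v : ℤ → 𝕜) (i : ℤ) : 𝕜 := u i * v (i + 1) - u (i + 1) * v i

/-- potential `V'` on sites `≤ i`, `V` on sites `> i`. -/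
def mix (V V' : ℤ → 𝕜) (i : ℤ) (j : ℤ) : 𝕜 := if j ≤ i then V' j else V j

/-- ratio `ψ 1 / ψ 0` of the solution vanishing at `b+1`. -/
def Th (U : ℤ → 𝕜) (b : ℤ) : 𝕜 := dir U (b + 1) 1 / dir U (b + 1) 0
end lin

/-- reflection of a sequence through the site `0` (bond `j` goes to bond `-j-1`). -/
def refl {β : Type*} (u : ℤ → β) (i : ℤ) : β := u (-i)

/-- shift. -/
def sh {β : Type*} (z : ℤ) (y : ℤ → β) (i : ℤ) : β := y (i + z)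

/-! ### orbits -/
def IsOrb (k : ℝ) (x : ℤ → ℝ) : Prop :=
  ∀ i, x (i + 1) + x (i - 1) = 2 * x i + k * Real.sin (2 * Real.pi * x i)

/-- orbit with `x 0 = P.1`, `x 1 = P.2`. -/
def orb (k : ℝ) (P : ℝ × ℝ) : ℤ → ℝ :=
  rec2 (fun _ x => 2 * x + k * Real.sin (2 * Real.pi * x)) 0 P.1 P.2

/-- complex orbit with `X 0 = s`, `X 1 = u`. -/
def orbC (k : ℝ) (s u : ℂ) : ℤ → ℂ :=
  rec2 (fun _ z => 2 * z + (k : ℂ) * Complex.sin (2 * (Real.pi : ℂ) * z)) 0 s u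

/-- potential of a real sequence. -/
def Vof (B : ℝ) (x : ℤ → ℝ) (i : ℤ) : ℝ := 2 + B ^ 100 * Real.cos (2 * Real.pi * x i)

/-- potential of a complex sequence. -/
def VofC (B : ℝ) (X : ℤ → ℂ) (i : ℤ) : ℂ := 2 + (B : ℂ) ^ 100 * Complex.cos (2 * (Real.pi : ℂ) * X i)

/-- the complex potential along the line `x 0` fixed, `x 1 + t`. -/
def Vt (B k : ℝ) (P : ℝ × ℝ) (t : ℂ) : ℤ → ℂ := VofC B (orbC k P.1 (P.2 + t))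

/-- the telescoping terms. -/
def term (B k : ℝ) (P : ℝ × ℝ) (b i : ℤ) (t : ℂ) : ℂ :=
  Th (mix (Vt B k P 0) (Vt B k P t) i) b - Th (mix (Vt B k P 0) (Vt B k P t) (i - 1)) b

/-- orbit modulo one. -/
def Y (k : ℝ) (P : ℝ × ℝ) (i : ℤ) : ℝ := Int.fract (orb k P i)

def Q : Set (ℝ × ℝ) := Ico (0 : ℝ) 1 ×ˢ Ico (0 : ℝ) 1
def Q3 : Set (ℝ × ℝ) := Ico (-1 : ℝ) 2 ×ˢ Ico (-1 : ℝ) 2

/-- Lebesgue measure of the torus, seen on sequence space. -/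
def nu (k : ℝ) : Measure (ℤ → ℝ) := Measure.map (Y k) (volume.restrict Q)

def Bdd (B : ℝ) (V : ℤ → ℝ) : Prop := ∀ i, |V i - 2| ≤ B ^ 100

/-! ### regular bonds -/
def RR (V : ℤ → ℝ) (j : ℤ) (N : ℕ) (q : ℝ) : Prop :=
  ∃ s, Sol V s ∧ s j = 1 ∧ ∀ r : ℕ, r ≤ N → |s (j + r)| ≤ q ^ r

def LR (V : ℤ → ℝ) (j : ℤ) (N : ℕ) (q : ℝ) : Prop :=
  ∃ u, Sol V u ∧ u (j + 1) = 1 ∧ ∀ r : ℕ, r ≤ N → |u (j + 1 - r)| ≤ q ^ r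

def Reg (V : ℤ → ℝ) (N : ℕ) (q : ℝ) (j : ℤ) : Prop := RR V j N q ∧ LR V j N q

/-- right cone at the bond `j`. -/
def RC (s : ℤ → ℝ) (j : ℤ) : Prop := |s (j + 1)| ≤ |s j|
/-- left cone at the bond `j`. -/
def LC (u : ℤ → ℝ) (j : ℤ) : Prop := |u j| ≤ |u (j + 1)|

/-- every window of `n` bonds inside `[α, β]` contains a good bond. -/
def Win (reg : ℤ → Prop) (n : ℕ) (α β : ℤ) : Prop :=
  ∀ x, α ≤ x → x + n ≤ β + 1 → ∃ j, x ≤ j ∧ j < x + n ∧ reg j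

def Nice (B c₀ : ℝ) (V : ℤ → ℝ) (N : ℕ) (q : ℝ) (i : ℤ) : Prop :=
  Reg V N q (i - 1) ∧ Reg V N q i ∧ c₀ * B ^ 100 ≤ |V i - 2|

/-- number of sites of `[α, β]` that are not nice. -/
def badN (B c₀ : ℝ) (V : ℤ → ℝ) (N : ℕ) (q : ℝ) (α β : ℤ) : ℕ :=
  ((Finset.Icc α β).filter (fun i => ¬ Nice B c₀ V N q i)).card

/-- parameters for which chains of regular bonds extend. -/
structure Par (n N : ℕ) (q g : ℝ) : Prop where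
  nN : 2 * n + 1 ≤ N
  q0 : 0 < q
  q1 : q ≤ 1 / 100
  g0 : 0 < g
  g1 : g ≤ 1
  gn : 4 ≤ g * n
  gq : 8 * q ^ n ≤ g

/-- Pliss growth of `w` on `[c, b]` towards `b`. -/
def PlR (B : ℝ) (w : ℤ → ℝ) (c b : ℤ) : Prop :=
  ∀ i, c ≤ i → i ≤ b → |w i| ≤ B ^ (-80 * (b - i)) * |w b|
/-- Pliss growth of `w` on `[a, c]` towards `a`. -/
def PlL (B : ℝ) (w : ℤ → ℝ) (a c : ℤ) : Prop :=
  ∀ i, a ≤ i → i ≤ c → |w i| ≤ B ^ (-80 * (i - a)) * |w a|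

/-- tolerance for the left half in the independence lemma (`a ≤ -1`, `i ≤ 0`). -/
def tolL (B : ℝ) (a i : ℤ) : ℝ :=
  if a ≤ i then B ^ (101 - 80 * (1 - i)) else B ^ (101 + 101 * (a - i) + 80 * a)

/-! ### Wegner events -/
def TwoCone (B : ℝ) (V : ℤ → ℝ) (a b : ℤ) : Prop :=
  ∃ ψ, Sol V ψ ∧ ψ b = 1 ∧ |ψ (b + 1)| ≤ B ^ (-98 : ℤ) ∧ |ψ (a - 1)| ≤ B ^ (-98 : ℤ) * |ψ a|

def GC (B c₀ : ℝ) (x : ℤ → ℝ) (c a b : ℤ) : Prop :=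
  PlR B (dir (Vof B x) c) c b ∧ PlL B (dir (Vof B x) c) a c ∧
  c₀ ≤ |Real.cos (2 * Real.pi * x a)| ∧ c₀ ≤ |Real.cos (2 * Real.pi * x b)| ∧
  TwoCone B (Vof B x) a b ∧
  |dir (Vof B x) c a| ≤ B ^ 51 * |dir (Vof B x) c b| ∧ |dir (Vof B x) c b| ≤ B ^ 51 * |dir (Vof B x) c a|

def AntiS (B ε : ℝ) (x : ℤ → ℝ) (c a b : ℤ) (σ : ℝ) : Prop :=
  |dir (Vof B x) c a - σ * dir (Vof B x) c b| ≤ ε * max |dir (Vof B x) c a| |dir (Vof B x) c b| ∧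
  ∃ n : ℤ, |x a - σ * x b - 1 / 2 - n| ≤ ε

def Anti (B ε : ℝ) (x : ℤ → ℝ) (c a b : ℤ) : Prop := AntiS B ε x c a b 1 ∨ AntiS B ε x c a b (-1)

def EA (B c₀ ε : ℝ) (c D b par : ℤ) (x : ℤ → ℝ) : Prop :=
  ∃ a, a ≤ c - D ∧ (c - a) % 2 = par ∧ GC B c₀ x c a b ∧ ¬ Anti B ε x c a b

def GB (B ε : ℝ) (c D b par : ℤ) (σ : ℝ) (x : ℤ → ℝ) : Prop :=
  ∃ a, a ≤ c - D ∧ (c - a) % 2 = par ∧ PlR B (dir (Vof B x) c) c b ∧ PlL B (dir (Vof B x) c) a c ∧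
    AntiS B ε x c a b σ ∧ ∃ n : ℤ, |x (a - 1) + σ * x (b + 1) - 1 / 2 - n| ≤ ε

/-- the site `b` is caught by one of the 16 Wegner events. -/
def Caught (B c₀ ε : ℝ) (N : ℕ) (x : ℤ → ℝ) (b : ℤ) : Prop :=
  ∃ c par : ℤ, ∃ σ : ℝ, (c = 0 ∨ c = 1) ∧ (par = 0 ∨ par = 1) ∧ (σ = 1 ∨ σ = -1) ∧
    (EA B c₀ ε c (21000 * N) b par x ∨ EA B c₀ ε c (21000 * N) (b + 1) par x ∨
      GB B ε c (21000 * N) b par σ x)

def Res (B c₀ ε : ℝ) (N : ℕ) (x : ℤ → ℝ) : Prop :=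
  15000 * N ≤ ((Finset.Ico (30000 * N : ℤ) (60000 * N)).filter (Caught B c₀ ε N x)).card

/-- the two long solutions on both sides of an isolated cluster contained in `[0, 250 N]`. -/
structure Frame (B c₀ : ℝ) (V : ℤ → ℝ) (n N N' : ℕ) (q g : ℝ) (j₁ j₂ : ℤ) (u s : ℤ → ℝ) : Prop where
  par : Par n N q g
  hN : N = 10 * n
  hN' : N' = 10 ^ 9 * N
  bdd : Bdd B V
  qB : q * (1 + g) ≤ B ^ (-89 : ℤ)
  j1a : -4 * N ≤ j₁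
  j1b : j₁ < -4 * N + n
  j2a : 254 * N ≤ j₂
  j2b : j₂ < 254 * N + n
  reg1 : Reg V N q j₁
  reg2 : Reg V N q j₂
  winL : Win (Reg V N q) n (-9 * N') (-3 * N)
  winR : Win (Reg V N q) n (254 * N) (9 * N')
  solu : Sol V u
  sols : Sol V s
  u1 : u (j₁ + 1) = 1
  s1 : s j₂ = 1
  udec : ∀ r : ℕ, r ≤ 8 * N' → |u (j₁ + 1 - r)| ≤ (q * (1 + g)) ^ r
  sdec : ∀ r : ℕ, r ≤ 8 * N' → |s (j₂ + r)| ≤ (q * (1 + g)) ^ r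
  ucone : ∀ j : ℤ, -7 * N' ≤ j → j ≤ j₁ → Reg V N q j → LC u j
  scone : ∀ j : ℤ, j₂ ≤ j → j ≤ 7 * N' → Reg V N q j → RC s j
  crL : badN B c₀ V N q (-6 * N') (-70 * N) ≤ N
  crR : badN B c₀ V N q (700 * N) (6 * N') ≤ N

/-! ### scales and the combinatorial hierarchy -/
def NN (l : ℕ) : ℕ := 40 * (10 ^ 9) ^ l
def nn (l : ℕ) : ℕ := 4 * (10 ^ 9) ^ l

/-- a pattern: `r l j` = the bond `j` is regular at level `l`. -/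
abbrev Pat := ℕ → ℤ → Prop

def shp (z : ℤ) (r : Pat) : Pat := fun l j => r l (j + z)

def Mb (r : Pat) (l : ℕ) (x : ℤ) : Prop :=
  nn l ≤ 10 * ((Finset.Ico x (x + nn l)).filter (fun j => ¬ r l j)).card

def Rem (r : Pat) (l : ℕ) (S : ℤ → Prop) (y : ℤ) : Prop :=
  ∃ yL yR : ℤ, yL ≤ y ∧ y ≤ yR ∧ S yL ∧ S yR ∧ yR - yL ≤ 250 * NN l ∧
    (∀ z, yL - 12 * NN (l + 1) ≤ z → z < yL → ¬ S z) ∧
    (∀ z, yR < z → z ≤ yR + 12 * NN (l + 1) → ¬ S z) ∧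
    ∀ x, yL - 4 * NN (l + 1) ≤ x → x ≤ yL + 4 * NN (l + 1) → ¬ Mb r (l + 1) x

def SS (r : Pat) : ℕ → ℤ → Prop
  | 0 => Mb r 0
  | l + 1 => fun y => SS r l y ∧ ¬ Rem r l (SS r l) y

def LE (r : Pat) (l : ℕ) (y : ℤ) : Prop := SS r l y ∧ ∀ z, y - NN l ≤ z → z < y → ¬ SS r l z
def RE (r : Pat) (l : ℕ) (y : ℤ) : Prop := SS r l y ∧ ∀ z, y < z → z ≤ y + NN l → ¬ SS r l z
def PEm (r : Pat) (l : ℕ) (y m : ℤ) : Prop :=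
  SS r l y ∧ SS r l (y + m) ∧ ∀ z, y < z → z < y + m → ¬ SS r l z
def PE (r : Pat) (l : ℕ) (y : ℤ) : Prop :=
  ∃ m : ℤ, 120 * NN l < m ∧ m ≤ 120 * NN (l + 1) ∧ PEm r l y m
def PEL (r : Pat) (l : ℕ) (y : ℤ) : Prop :=
  ∃ m : ℤ, 120 * NN l < m ∧ m ≤ 120 * NN (l + 1) ∧ PEm r l (y - m) m
def Cov (r : Pat) (l : ℕ) (z₀ : ℤ) : Prop :=
  ∀ z, z₀ - 121 * NN l ≤ z → z ≤ z₀ + 121 * NN l → ∃ y, z ≤ y ∧ y < z + 120 * NN l ∧ SS r l y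
def Sig (r : Pat) (l : ℕ) (z₀ : ℤ) : Prop :=
  Cov r l z₀ ∧ ∃ y : ℤ, |y - z₀| ≤ 250 * (NN l : ℤ) ∧ LE r (l + 1) y
def PN (r : Pat) (l : ℕ) (z₀ : ℤ) : Prop := ∃ y : ℤ, |y - z₀| ≤ 121 * (NN (l + 1) : ℤ) ∧ PE r l y
/-- no `Mb` on both sides of a cluster inside `[0, 250 N]`. -/
def Iso (r : Pat) (l : ℕ) : Prop :=
  ∀ x : ℤ, (-9 * NN (l + 1) ≤ x ∧ x ≤ -3 * NN l - 1) ∨ (253 * NN l + 1 ≤ x ∧ x ≤ 9 * NN (l + 1)) →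
    ¬ Mb r l x
def Hyp (r : Pat) : Prop :=
  ∀ (l : ℕ) (j : ℤ), (∀ z : ℤ, |z - j| ≤ (NN (l + 1) : ℤ) + NN l → ¬ Mb r l z) → r l j → r (l + 1) j

def pat (B : ℝ) (q : ℕ → ℝ) (y : ℤ → ℝ) : Pat := fun l j => Reg (Vof B y) (NN l) (q l) j

def QOK (B : ℝ) (q : ℕ → ℝ) : Prop :=
  ∀ l, B ^ (-90 : ℤ) ≤ q l ∧ q l * (1 + (1 / 2) ^ l) ≤ q (l + 1) ∧ q l * (1 + (1 / 2) ^ l) ≤ B ^ (-89 : ℤ)

def ZZ (B : ℝ) : ℕ → ℝ
  | 0 => B ^ (-100 : ℤ)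
  | l + 1 => B ^ (-100 * (NN l : ℤ))

/-- the bond `j` is borderline at some level `≤ l`. -/
def Bd (B : ℝ) (q : ℕ → ℝ) (l : ℕ) (y : ℤ → ℝ) (j : ℤ) : Prop :=
  ∃ l' ≤ l, Reg (Vof B y) (NN l') (q l' + ZZ B (l + 1)) j ∧ ¬ Reg (Vof B y) (NN l') (q l' - ZZ B (l + 1)) j

def bb (B : ℝ) (l : ℕ) : ℝ := 8 * (l + 1) * ZZ B (l + 1) / ZZ B l
def beta (B : ℝ) (l : ℕ) : ℝ := 100 * (NN (l + 1) : ℝ) ^ 2 * bb B l

def GoodQ (B k : ℝ) (q : ℕ → ℝ) : Prop :=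
  QOK B q ∧ ∀ l j, (nu k).real {y | Bd B q l y j} ≤ bb B l

def eps (B k : ℝ) (q : ℕ → ℝ) (l : ℕ) : ℝ := (nu k).real {y | LE (pat B q y) l 0}
/-- `eps` plus the borderline error. -/
def epsh (B k : ℝ) (q : ℕ → ℝ) (l : ℕ) : ℝ := eps B k q l + 29 * NN l * bb B l
def uu (B k : ℝ) (q : ℕ → ℝ) (l : ℕ) : ℝ := (nu k).real {y | ¬ pat B q y l 0}
def CrL (B c₀ : ℝ) (q : ℕ → ℝ) (l : ℕ) (y : ℤ → ℝ) : Prop :=
  NN l < badN B c₀ (Vof B y) (NN l) (q l) (-6 * NN (l + 1)) (-70 * NN l)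
def CrR (B c₀ : ℝ) (q : ℕ → ℝ) (l : ℕ) (y : ℤ → ℝ) : Prop :=
  NN l < badN B c₀ (Vof B y) (NN l) (q l) (700 * NN l) (6 * NN (l + 1))

end
end Crest.Agent.R128
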