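import Crest.Agent.R128.Ext

set_option autoImplicit false
open MeasureTheory Set

namespace Crest.Agent.R128
open Classical

/-! Pert: robustness of regularity, base scale, level parameters. -/

namespace PertX

theorem rr_pert {B : ℝ} (hB : 10 ^ 8 ≤ B) {V V' : ℤ → ℝ} (hV' : Bdd B V') {N M : ℕ}
    (hNM : N ≤ M) {q : ℝ} (hq0 : B ^ (-91 : ℤ) ≤ q) (hq1 : q ≤ 1) {j : ℤ}
    (hd : ∀ i, j ≤ i → i ≤ j + N → |V' i - V i| ≤ B ^ (-400 * (M : ℤ))) (h : RR V j N q) :
    RR V' j N (q + B ^ (-100 * (M : ℤ))) := by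
  obtain ⟨s, h1, h2, h3⟩ := h
  have B2 : (2 : ℝ) ≤ B := by linarith
  have B1 : (1 : ℝ) ≤ B := by linarith
  have B0 : (0 : ℝ) < B := by linarith
  have q0 : 0 < q := (zpow_pos B0 _).trans_le hq0
  have hs' := sol_Sol V' j (s j) (s (j + 1))
  have e0 := sol_zero V' j (s j) (s (j + 1))
  have e1 := sol_one V' j (s j) (s (j + 1))
  generalize sol V' j (s j) (s (j + 1)) = s' at hs' e0 e1
  set η := B ^ (-400 * (M : ℤ)) with hη
  have η0 : 0 < η := zpow_pos B0 _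
  have key : ∀ i, j ≤ i → i ≤ j + N → |s' i - s i| ≤ η * B ^ (102 * (i - j)) := by
    refine LinBX.two_step (P := fun i => |s' i - s i| ≤ η * B ^ (102 * (i - j))) ?_ ?_
      fun i hi hi' a b => ?_
    · rw [e0, sub_self, abs_zero]; positivity
    · rw [e1, sub_self, abs_zero]; positivity
    · have hX : 1 ≤ B ^ (102 * (i - j)) := one_le_zpow₀ B1 (by omega)
      have a' : |s' (i - 1) - s (i - 1)| ≤ η * B ^ (102 * (i - j)) :=
        a.trans (mul_le_mul_of_nonneg_left (zpow_le_zpow_right₀ B1 (by omega)) η0.le)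
      have c := LinBX.norm_step (𝕜 := ℝ) (hV'.norm_le B2 i) b a'
      have hsi : |s i| ≤ 1 := by
        have := h3 (i - j).toNat (by omega)
        rw [show j + ((i - j).toNat : ℤ) = i by omega] at this
        exact this.trans (pow_le_one₀ q0.le hq1)
      have d : |(V' i - V i) * s i| ≤ η := by
        rw [abs_mul]
        exact (mul_le_mul (hd i hi.le hi'.le) hsi (abs_nonneg _) η0.le).trans (mul_one _).le
      have e : s' (i + 1) - s (i + 1) =
          (V' i * (s' i - s i) - (s' (i - 1) - s (i - 1))) + (V' i - V i) * s i := by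
        linear_combination hs' i - h1 i
      have e2 : B ^ (102 * (i + 1 - j)) = B ^ 101 * B * B ^ (102 * (i - j)) := by
        rw [← pow_succ, ← zpow_natCast, ← zpow_add₀ B0.ne']
        congr 1
        push_cast; ring
      rw [e, e2]
      refine (abs_add_le _ _).trans ((add_le_add c d).trans ?_)
      have p1 : 1 ≤ B ^ 101 := one_le_pow₀ B1
      generalize B ^ (102 * (i - j)) = X at hX
      generalize B ^ 101 = Y at p1
      have p2 : 1 ≤ Y * X := one_le_mul_of_one_le_of_one_le p1 hX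
      have p3 : Y * X * 2 ≤ Y * X * B := mul_le_mul_of_nonneg_left B2 (by linarith)
      have p4 : Y * X + 1 ≤ Y * B * X := by linarith
      have := mul_le_mul_of_nonneg_left p4 η0.le
      linarith
  refine ⟨s', hs', e0.trans h2, fun r hr => ?_⟩
  rcases r with _ | r
  · simp [e0, h2]
  have k1 := key (j + (r + 1 : ℕ)) (by omega) (by omega)
  have k2 := h3 (r + 1) hr
  have ζ0 : 0 < B ^ (-100 * (M : ℤ)) := zpow_pos B0 _
  have k3 : η * B ^ (102 * (j + ((r + 1 : ℕ) : ℤ) - j)) ≤ B ^ (-100 * (M : ℤ)) * q ^ r := by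
    have : B ^ (-91 * (r : ℤ)) ≤ q ^ r := by
      rw [zpow_mul, zpow_natCast]
      exact pow_le_pow_left₀ (zpow_pos B0 _).le hq0 r
    refine le_trans ?_ (mul_le_mul_of_nonneg_left this ζ0.le)
    rw [hη, ← zpow_add₀ B0.ne', ← zpow_add₀ B0.ne']
    exact zpow_le_zpow_right₀ B1 (by omega)
  have k4 : q ^ r ≤ (q + B ^ (-100 * (M : ℤ))) ^ r := pow_le_pow_left₀ q0.le (by linarith) r
  have k5 := mul_le_mul_of_nonneg_right k4 (add_pos q0 ζ0).le
  have k6 := abs_sub_abs_le_abs_sub (s' (j + (r + 1 : ℕ))) (s (j + (r + 1 : ℕ)))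
  rw [pow_succ] at k2 ⊢
  linarith

theorem rr_base {B c₀ : ℝ} (hB : 10 ^ 8 ≤ c₀ * B) (h0 : 0 < c₀) (h1 : c₀ ≤ 1) {V : ℤ → ℝ} {N : ℕ}
    {q : ℝ} (hq : B ^ (-90 : ℤ) ≤ q) {j : ℤ}
    (h : ∀ i, j < i → i ≤ j + N → c₀ * B ^ 100 ≤ |V i - 2|) : RR V j N q := by
  have B0 : 0 < B := (mul_pos_iff_of_pos_left h0).1 (by linarith)
  have B1 : 1 ≤ B := by nlinarith
  have p1 : 1 ≤ B ^ 99 := one_le_pow₀ B1
  have hv := dir_Sol V (j + N + 1)
  have e0 := dir_zero V (j + N + 1)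
  have e1 := dir_neg_one V (j + N + 1)
  rw [add_sub_cancel_right] at e1
  generalize dir V (j + N + 1) = v at hv e0 e1
  have key : ∀ k : ℕ, k ≤ N → RC v (j + N - k) ∧ 1 ≤ |v (j + N - k)| := by
    intro k
    induction k with
    | zero => intro _; simp [RC, e0, e1]
    | succ k ih =>
      intro hk
      obtain ⟨a, b⟩ := ih (by omega)
      have c := nice_step_R hB h0 h1 hv a (h _ (by omega) (by omega))
      have d := le_mul_of_one_le_left (abs_nonneg (v (j + N - k))) p1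
      rw [show j + N - ((k + 1 : ℕ) : ℤ) = j + N - k - 1 by push_cast; ring]
      unfold RC
      rw [sub_add_cancel]
      exact ⟨by linarith, by linarith⟩
  have k0 : 0 < |v j| := by
    have := (key N le_rfl).2
    rw [add_sub_cancel_right] at this
    linarith
  have q0 : 0 < q := (zpow_pos B0 _).trans_le hq
  have q1 : 1 ≤ q * B ^ 99 := by
    refine le_trans ?_ (mul_le_mul_of_nonneg_right hq (by positivity))
    rw [← zpow_natCast, ← zpow_add₀ B0.ne']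
    exact one_le_zpow₀ B1 (by norm_num)
  have k1 : ∀ r : ℕ, r ≤ N → |v (j + r)| ≤ q ^ r * |v j| := by
    intro r
    induction r with
    | zero => intro _; simp
    | succ r ih =>
      intro hr
      have a := (key (N - (r + 1)) (by omega)).1
      rw [show j + N - ((N - (r + 1) : ℕ) : ℤ) = j + (r + 1 : ℕ) by omega] at a
      have c := nice_step_R hB h0 h1 hv a (h _ (by omega) (by omega))
      rw [show j + ((r + 1 : ℕ) : ℤ) - 1 = j + r by push_cast; ring] at c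
      have d := le_mul_of_one_le_left (abs_nonneg (v (j + (r + 1 : ℕ)))) q1
      have e := mul_le_mul_of_nonneg_left (c.trans (ih (by omega))) q0.le
      rw [pow_succ]
      linarith
  refine ⟨fun i => (v j)⁻¹ * v i, hv.smul _, inv_mul_cancel₀ (abs_pos.1 k0), fun r hr => ?_⟩
  simp only
  rw [abs_mul, abs_inv, inv_mul_le_iff₀ k0, mul_comm]
  exact k1 r hr

end PertX

/-- keep the data at the bond `j`; the difference `e` of the solutions satisfies `|e (j+r)| ≤ η B^(102 r)`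
(`|s| ≤ 1`), and `(q+ζ)^r - q^r ≥ ζ q^(r-1) ≥ ζ B^(-91 r)`. -/
theorem reg_pert {B : ℝ} (hB : 10 ^ 8 ≤ B) {V V' : ℤ → ℝ} (hV : Bdd B V) (hV' : Bdd B V') {N M : ℕ}
    (hNM : N ≤ M) {q : ℝ} (hq0 : B ^ (-91 : ℤ) ≤ q) (hq1 : q ≤ 1) {j : ℤ}
    (hd : ∀ i, j - N ≤ i → i ≤ j + N + 1 → |V' i - V i| ≤ B ^ (-400 * (M : ℤ))) (h : Reg V N q j) :
    Reg V' N (q + B ^ (-100 * (M : ℤ))) j := by
  refine ⟨PertX.rr_pert hB hV' hNM hq0 hq1 (fun i a b => hd i (by omega) (by omega)) h.1, ?_⟩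
  have e : -(-j - 1) - 1 = j := by ring
  have h2 : RR (refl V) (-j - 1) N q := by rw [RR_refl, e]; exact h.2
  have h3 := PertX.rr_pert hB hV'.refl hNM hq0 hq1
    (fun i a b => hd (-i) (by omega) (by omega)) h2
  rwa [RR_refl, e] at h3

/-- the Dirichlet solution at `j+N+1` grows by `B^99` at each step to the left (`nice_step_R`); mirror. -/
theorem reg_base {B c₀ : ℝ} (hB : 10 ^ 8 ≤ c₀ * B) (h0 : 0 < c₀) (h1 : c₀ ≤ 1) {V : ℤ → ℝ} {N : ℕ}
    {q : ℝ} (hq : B ^ (-90 : ℤ) ≤ q) {j : ℤ}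
    (h : ∀ i, j - N ≤ i → i ≤ j + N + 1 → c₀ * B ^ 100 ≤ |V i - 2|) : Reg V N q j := by
  refine ⟨PertX.rr_base hB h0 h1 hq fun i a b => h i (by omega) (by omega), ?_⟩
  have h3 : RR (refl V) (-j - 1) N q :=
    PertX.rr_base hB h0 h1 hq fun i a b => h (-i) (by omega) (by omega)
  rwa [RR_refl, show -(-j - 1) - 1 = j by ring] at h3

theorem NN_eq (l : ℕ) : NN l = 10 * nn l := by
  unfold NN nn; omega
theorem NN_succ (l : ℕ) : NN (l + 1) = 10 ^ 9 * NN l := by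
  unfold NN; rw [pow_succ]; ring
theorem nn_succ (l : ℕ) : nn (l + 1) = 10 ^ 9 * nn l := by
  unfold nn; rw [pow_succ]; ring
theorem nn_ge (l : ℕ) : 4 ≤ nn l :=
  Nat.le_mul_of_pos_right _ (by positivity)
theorem NN_mono {l l' : ℕ} (h : l ≤ l') : NN l ≤ NN l' :=
  Nat.mul_le_mul_left _ (Nat.pow_le_pow_right (by norm_num) h)

theorem PertX.q_le {B : ℝ} (hB : 10 ^ 8 ≤ B) {q : ℕ → ℝ} (hq : QOK B q) (l : ℕ) :
    0 < q l ∧ q l ≤ 1 / 100 := by
  have B1 : (1 : ℝ) ≤ B := by linarith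
  have B0 : (0 : ℝ) < B := by linarith
  obtain ⟨h1, _, h3⟩ := hq l
  have q0 : 0 < q l := (zpow_pos B0 _).trans_le h1
  have h4 : q l ≤ q l * (1 + (1 / 2) ^ l) :=
    le_mul_of_one_le_right q0.le (le_add_of_nonneg_right (by positivity))
  have h5 : B ^ (-89 : ℤ) ≤ B ^ (-1 : ℤ) := zpow_le_zpow_right₀ B1 (by norm_num)
  have h6 : B ^ (-1 : ℤ) ≤ 1 / 100 := by
    rw [zpow_neg_one, inv_eq_one_div]
    exact one_div_le_one_div_of_le (by norm_num) (by linarith)
  exact ⟨q0, by linarith⟩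

theorem par_ok {B : ℝ} (hB : 10 ^ 8 ≤ B) {q : ℕ → ℝ} (hq : QOK B q) (l : ℕ) :
    Par (nn l) (NN l) (q l) ((1 / 2) ^ l) := by
  obtain ⟨q0, q1⟩ := PertX.q_le hB hq l
  refine ⟨by have := nn_ge l; have := NN_eq l; omega, q0, q1, by positivity,
    pow_le_one₀ (by norm_num) (by norm_num), ?_, ?_⟩
  · unfold nn
    rw [Nat.cast_mul, Nat.cast_pow, mul_left_comm, ← mul_pow]
    have : (1 : ℝ) ≤ (1 / 2 * ((10 ^ 9 : ℕ) : ℝ)) ^ l := one_le_pow₀ (by norm_num)
    push_cast at this ⊢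
    linarith
  · have h1 : l + 1 ≤ nn l := by
      have : l < (10 ^ 9) ^ l := Nat.lt_pow_self (by norm_num)
      unfold nn; omega
    have h2 : q l ^ nn l ≤ q l ^ (l + 1) := pow_le_pow_of_le_one q0.le (by linarith) h1
    have h3 : q l ^ l ≤ (1 / 2) ^ l := pow_le_pow_left₀ q0.le (by linarith) l
    have h4 := mul_le_mul h3 q1 q0.le (by positivity)
    have h5 : (0 : ℝ) < (1 / 2) ^ l := by positivity
    rw [pow_succ] at h2
    linarith

theorem win_of_notM (r : Pat) (l : ℕ) {α β : ℤ} (h : ∀ x, α ≤ x → x + nn l ≤ β + 1 → ¬ Mb r l x) :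
    Win (r l) (nn l) α β := by
  intro x h1 h2
  by_contra hc
  refine h x h1 h2 ?_
  unfold Mb
  rw [Finset.filter_true_of_mem (p := fun j => ¬ r l j) fun j hj hr =>
    hc ⟨j, (Finset.mem_Ico.1 hj).1, (Finset.mem_Ico.1 hj).2, hr⟩, Int.card_Ico]
  omega

/-- `ext_R`, `ext_L` with `L = NN (l+1)`, then `Reg.mono`. -/
theorem hyp_pat {B : ℝ} (hB : 10 ^ 8 ≤ B) {q : ℕ → ℝ} (hq : QOK B q) (y : ℤ → ℝ) : Hyp (pat B q y) := by
  intro l j h hj
  have hp := par_ok hB hq l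
  have w1 : Win (pat B q y l) (nn l) j (j + NN (l + 1)) := win_of_notM _ l fun x a b =>
    h x (abs_le.2 ⟨by omega, by have := nn_ge l; omega⟩)
  have w2 : Win (pat B q y l) (nn l) (j - NN (l + 1)) j := win_of_notM _ l fun x a b =>
    h x (abs_le.2 ⟨by omega, by have := nn_ge l; omega⟩)
  obtain ⟨s, s1, s2, s3, -⟩ := ext_R hp hj (NN (l + 1)) w1
  obtain ⟨u, u1, u2, u3, -⟩ := ext_L hp hj (NN (l + 1)) w2
  have h0 : 0 ≤ q l * (1 + (1 / 2) ^ l) := by have := hp.q0; positivity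
  exact Reg.mono ⟨⟨s, s1, s2, fun r hr => s3 r (by omega)⟩, ⟨u, u1, u2, fun r hr => u3 r (by omega)⟩⟩
    h0 (hq l).2.1

/-- `→`: `reg_pert` to `q + ζ`, no borderline gives `q - ζ`, `mono`.  `←`: `mono` to `q + ζ`, no borderline gives
`q - ζ ≥ B^(-91)`, `reg_pert` backwards.  Here `ζ = ZZ B (l+1) = B^(-100 NN l)`. -/
theorem rob {B : ℝ} (hB : 10 ^ 8 ≤ B) {q : ℕ → ℝ} (hq : QOK B q) (l : ℕ) {y y' : ℤ → ℝ} {α β : ℤ}
    (hd : ∀ i, α - NN l ≤ i → i ≤ β + NN l + 1 → |Vof B y' i - Vof B y i| ≤ B ^ (-400 * (NN l : ℤ)))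
    (hb : ∀ j, α ≤ j → j ≤ β → ¬ Bd B q l y' j) {l' : ℕ} (hl : l' ≤ l) {j : ℤ} (h1 : α ≤ j) (h2 : j ≤ β) :
    pat B q y l' j ↔ pat B q y' l' j := by
  have B1 : (1 : ℝ) ≤ B := by linarith
  have B0 : (0 : ℝ) < B := by linarith
  obtain ⟨q0, q1⟩ := PertX.q_le hB hq l'
  have hN := NN_mono hl
  have hZ : ZZ B (l + 1) = B ^ (-100 * (NN l : ℤ)) := rfl
  have z0 : 0 < ZZ B (l + 1) := zpow_pos B0 _
  have z1 : ZZ B (l + 1) ≤ B ^ (-91 : ℤ) := by
    rw [hZ]
    exact zpow_le_zpow_right₀ B1 (by have := nn_ge l; have := NN_eq l; omega)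
  have z2 : B ^ (-91 : ℤ) * 2 ≤ B ^ (-90 : ℤ) := by
    rw [show (-90 : ℤ) = -91 + 1 by norm_num, zpow_add_one₀ B0.ne']
    exact mul_le_mul_of_nonneg_left (by linarith) (zpow_pos B0 _).le
  have z3 := (hq l').1
  have z4 : 0 < B ^ (-91 : ℤ) := zpow_pos B0 _
  have hn : Reg (Vof B y') (NN l') (q l' + ZZ B (l + 1)) j →
      Reg (Vof B y') (NN l') (q l' - ZZ B (l + 1)) j := fun h => by
    by_contra hc
    exact hb j h1 h2 ⟨l', hl, h, hc⟩
  constructor
  · intro h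
    exact (hn (reg_pert hB (Vof_bdd B y) (Vof_bdd B y') hN (by linarith) (by linarith)
      (fun i a b => hd i (by omega) (by omega)) h)).mono (by linarith) (by linarith)
  · intro h
    have := reg_pert hB (Vof_bdd B y') (Vof_bdd B y) hN (by linarith) (by linarith)
      (fun i a b => by rw [abs_sub_comm]; exact hd i (by omega) (by omega))
      (hn (Reg.mono h q0.le (by linarith)))
    rwa [← hZ, sub_add_cancel] at this

end Crest.Agent.R128
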