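import Crest.Agent.R128.SelB
import Crest.Agent.R128.Pert

set_option autoImplicit false
open MeasureTheory Set

namespace Crest.Agent.R128
open Classical

/-! Dich: an isolated cluster that survives is crowded or resonant. -/

/-- `win_of_notM`, `frame_exists` (`n = nn l`, `g = (1/2)^l`, `par_ok`).  If `|W u s| ≤ B^(-21000000 N)` use `Frame.sel`.  Otherwise
`Frame.reg_up` with `q' = q (l+1)`: an `(l+1)`-irregular bond of `[x, x + n')` lies in `(-3000000N, 3000000N)` or is `l`-irregular,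
hence a non nice site of one of the two crowd windows; so there are at most `6000000 N + 2N` of them, and
`10 (6000002 N) < n' = 10^8 N`. -/
theorem dich {B c₀ ε : ℝ} (hB : 10 ^ 8 ≤ c₀ * B) (h0 : 0 < c₀) (h1 : c₀ ≤ 1) (hε0 : 0 ≤ ε) (hε : ε ≤ c₀ / 100)
    {q : ℕ → ℝ} (hq : QOK B q) (l : ℕ) (y : ℤ → ℝ) (hI : Iso (pat B q y) l) (hL : ¬ CrL B c₀ q l y)
    (hR : ¬ CrR B c₀ q l y)
    (hM : ∃ x : ℤ, -4 * NN (l + 1) ≤ x ∧ x ≤ 4 * NN (l + 1) ∧ Mb (pat B q y) (l + 1) x) :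
    Res B c₀ ε (NN l) y := by
  have hB' : 10 ^ 8 ≤ B := SelAX.B_ge hB h0 h1
  have e1 : (NN l : ℤ) = 10 * (nn l : ℤ) := by exact_mod_cast NN_eq l
  have e2 : (NN (l + 1) : ℤ) = 1000000000 * (NN l : ℤ) := by exact_mod_cast NN_succ l
  have e3 : (4 : ℤ) ≤ (nn l : ℤ) := by exact_mod_cast nn_ge l
  have e4 : (nn (l + 1) : ℤ) = 1000000000 * (nn l : ℤ) := by exact_mod_cast nn_succ l
  have crL : badN B c₀ (Vof B y) (NN l) (q l) (-6 * NN (l + 1)) (-70 * NN l) ≤ NN l := not_lt.1 hL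
  have crR : badN B c₀ (Vof B y) (NN l) (q l) (700 * NN l) (6 * NN (l + 1)) ≤ NN l := not_lt.1 hR
  obtain ⟨j₁, j₂, u, s, F⟩ := frame_exists (B := B) (c₀ := c₀) (V := Vof B y) (N' := NN (l + 1))
    (par_ok hB' hq l) (NN_eq l) (NN_succ l) (Vof_bdd B y) (hq l).2.2
    (win_of_notM (pat B q y) l fun x hx1 hx2 => hI x (Or.inl ⟨hx1, by omega⟩))
    (win_of_notM (pat B q y) l fun x hx1 hx2 => hI x (Or.inr ⟨by omega, by omega⟩)) crL crR
  rcases le_total |Wr u s 0| (B ^ (-21000000 * (NN l : ℤ))) with hW | hW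
  · exact F.sel hB h0 h1 hε0 hε hW
  · exfalso
    obtain ⟨x, hx1, hx2, hx3⟩ := hM
    have hsub : (Finset.Ico x (x + nn (l + 1))).filter (fun j => ¬ pat B q y (l + 1) j) ⊆
        Finset.Ico (-3000000 * (NN l : ℤ)) (3000000 * (NN l : ℤ)) ∪
          ((Finset.Icc (-6 * (NN (l + 1) : ℤ)) (-70 * (NN l : ℤ))).filter
            (fun i => ¬ Nice B c₀ (Vof B y) (NN l) (q l) i) ∪
          (Finset.Icc (700 * (NN l : ℤ)) (6 * (NN (l + 1) : ℤ))).filter
            (fun i => ¬ Nice B c₀ (Vof B y) (NN l) (q l) i)) := by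
      intro j hj
      simp only [Finset.mem_filter, Finset.mem_Ico, Finset.mem_union, Finset.mem_Icc] at hj ⊢
      obtain ⟨⟨a1, a2⟩, a3⟩ := hj
      by_cases b1 : j ≤ -3000000 * (NN l : ℤ)
      · exact Or.inr (Or.inl ⟨⟨by omega, by omega⟩, fun hn => a3
          (F.reg_up hB h0 h1 hW (hq l).2.1 (hq (l + 1)).1 j (Or.inl ⟨by omega, b1⟩) hn.2.1)⟩)
      · by_cases b2 : 3000000 * (NN l : ℤ) ≤ j
        · exact Or.inr (Or.inr ⟨⟨by omega, by omega⟩, fun hn => a3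
            (F.reg_up hB h0 h1 hW (hq l).2.1 (hq (l + 1)).1 j (Or.inr ⟨b2, by omega⟩) hn.2.1)⟩)
        · exact Or.inl ⟨by omega, by omega⟩
    have hc := (Finset.card_le_card hsub).trans ((Finset.card_union_le _ _).trans
      (Nat.add_le_add_left (Finset.card_union_le _ _) _))
    unfold badN at crL crR
    unfold Mb at hx3
    rw [Int.card_Ico] at hc
    omega

end Crest.Agent.R128
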