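import Crest.Agent.R128.TP

set_option autoImplicit false
open MeasureTheory Set

namespace Crest.Agent.R128
open Classical

/-! Ext: long decaying solutions from chains of regular bonds, and Pliss rates (D3). -/

namespace ExtX

theorem n_ge {n N : ℕ} {q g : ℝ} (hp : Par n N q g) : 4 ≤ n := by
  have h1 := hp.gn
  have h2 := hp.g1
  have h3 : (0 : ℝ) ≤ n := Nat.cast_nonneg _
  have : (4 : ℝ) ≤ n := by nlinarith
  exact_mod_cast this

theorem p_nonneg {n N : ℕ} {q g : ℝ} (hp : Par n N q g) : 0 ≤ q * (1 + g) := by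
  have := hp.q0
  have := hp.g0
  positivity

theorem p_le_one {n N : ℕ} {q g : ℝ} (hp : Par n N q g) : q * (1 + g) ≤ 1 := by
  have := hp.q0
  have := hp.q1
  have := hp.g1
  nlinarith

theorem q_le_p {n N : ℕ} {q g : ℝ} (hp : Par n N q g) : q ≤ q * (1 + g) := by
  have := hp.q0
  have := hp.g0
  nlinarith

theorem RC_smul {s : ℤ → ℝ} {j : ℤ} (c : ℝ) (h : RC s j) : RC (fun i => c * s i) j := by
  unfold RC at h ⊢
  simp only [abs_mul]
  exact mul_le_mul_of_nonneg_left h (abs_nonneg _)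

end ExtX

/-- for a gap `m ∈ [n, 2n)` and `1 ≤ r ≤ m`: `q^r + 3 q^(2m+1-r) ≤ (q(1+g))^r`
(if `2r ≤ m` the factor is `≤ 1 + 3 q^(n+1) ≤ 1 + g`, otherwise `≤ 2 ≤ 1 + g r`). -/
theorem gap_bound {n N : ℕ} {q g : ℝ} (hp : Par n N q g) {m r : ℕ} (hm : n ≤ m) (hr1 : 1 ≤ r) (hr : r ≤ m) :
    q ^ r + 3 * q ^ (2 * m + 1 - r) ≤ (q * (1 + g)) ^ r := by
  have hq0 := hp.q0
  have hq1 := hp.q1
  have hg0 := hp.g0
  have e : 2 * m + 1 - r = r + (2 * m + 1 - 2 * r) := by omega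
  have hb : 1 + (r : ℝ) * g ≤ (1 + g) ^ r := one_add_mul_le_pow (by linarith) r
  have hr1' : (1 : ℝ) ≤ r := by exact_mod_cast hr1
  have key : 3 * q ^ (2 * m + 1 - 2 * r) ≤ r * g := by
    by_cases h : 2 * r ≤ m
    · have h1 : q ^ (2 * m + 1 - 2 * r) ≤ q ^ n :=
        pow_le_pow_of_le_one hq0.le (by linarith) (by omega)
      have h2 := hp.gq
      have h3 : 0 ≤ q ^ n := by positivity
      nlinarith
    · have h1 : q ^ (2 * m + 1 - 2 * r) ≤ q ^ 1 :=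
        pow_le_pow_of_le_one hq0.le (by linarith) (by omega)
      have h2 : (n : ℝ) ≤ 2 * r := by exact_mod_cast (by omega : n ≤ 2 * r)
      have h3 := hp.gn
      rw [pow_one] at h1
      nlinarith
  rw [e, pow_add, mul_pow]
  have h4 : 0 ≤ q ^ r := by positivity
  nlinarith

/-- one gap of the chain -/
theorem ExtX.gap {V s : ℤ → ℝ} {n N : ℕ} {q g : ℝ} (hp : Par n N q g) (hs : Sol V s) {j : ℤ} {m : ℕ}
    (hm : n ≤ m) (hm' : m < 2 * n) (hj : Reg V N q j) (hj' : Reg V N q (j + m)) (hc : RC s (j + m))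
    (r : ℕ) (hr : r ≤ m) : |s (j + r)| ≤ (q * (1 + g)) ^ r * |s j| := by
  rcases Nat.eq_zero_or_pos r with h0 | h0
  · subst h0; simp
  have hn := ExtX.n_ge hp
  have hN := hp.nN
  have h := (tp_R hp.q0 hp.q1 (by omega : 1 ≤ m) (by omega) hj.1 hj'.2 hs hc).2 r h0 (by omega)
  exact h.trans (mul_le_mul_of_nonneg_right (gap_bound hp hm h0 hr) (abs_nonneg _))

/-- chain `j = j₀ < j₁ < …` with `j_{i+1} ∈ [j_i + n, j_i + 2n)` while `j_i + 2n ≤ J + 1`; strong induction on `J - j`. -/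
theorem chain_R {V s : ℤ → ℝ} {n N : ℕ} {q g : ℝ} (hp : Par n N q g) (hs : Sol V s) {j J : ℤ}
    (hj : Reg V N q j) (hw : Win (Reg V N q) n j J)
    (hc : ∀ j', j ≤ j' → j' ≤ J → Reg V N q j' → RC s j') (r : ℕ) (hr : j + r ≤ J - 2 * n + 2) :
    |s (j + r)| ≤ (q * (1 + g)) ^ r * |s j| := by
  have hn := ExtX.n_ge hp
  induction r using Nat.strong_induction_on generalizing j with
  | _ r ih =>
  rcases Nat.eq_zero_or_pos r with h0 | h0
  · subst h0; simp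
  obtain ⟨j₁, h1, h2, h3⟩ := hw (j + n) (by omega) (by omega)
  obtain ⟨m, rfl⟩ : ∃ m : ℕ, j₁ = j + m := ⟨(j₁ - j).toNat, by omega⟩
  have hc1 : RC s (j + m) := hc _ (by omega) (by omega) h3
  have hg := ExtX.gap hp hs (by omega : n ≤ m) (by omega) hj h3 hc1
  by_cases hrm : r ≤ m
  · exact hg r hrm
  obtain ⟨r', rfl⟩ : ∃ r', r = m + r' := ⟨r - m, by omega⟩
  have h4 := ih r' (by omega) h3 (hw.mono (by omega) le_rfl)
    (fun j' a b c => hc j' (by omega) b c) (by push_cast at hr; omega)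
  have h5 := hg m le_rfl
  have hp0 := ExtX.p_nonneg hp
  rw [show j + ((m + r' : ℕ) : ℤ) = j + m + r' by push_cast; ring, pow_add]
  calc |s (j + m + r')| ≤ (q * (1 + g)) ^ r' * |s (j + m)| := h4
    _ ≤ (q * (1 + g)) ^ r' * ((q * (1 + g)) ^ m * |s j|) := by gcongr
    _ = _ := by ring

/-- strong induction on `L`: if `L + 1 < 2n` take the `RR` solution at `j`; otherwise take a regular
`j₁ ∈ [j+n, j+2n)`, the solution given by induction at `j₁`, and normalise (`tp_R`, `gap_bound`, `cp_R`). -/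
theorem ext_R {V : ℤ → ℝ} {n N : ℕ} {q g : ℝ} (hp : Par n N q g) {j : ℤ} (hj : Reg V N q j) (L : ℕ)
    (hw : Win (Reg V N q) n j (j + L)) :
    ∃ s, Sol V s ∧ s j = 1 ∧ (∀ r : ℕ, r ≤ L + 1 → |s (j + r)| ≤ (q * (1 + g)) ^ r) ∧
      ∀ j', j ≤ j' → j' ≤ j + L - 2 * n → Reg V N q j' → RC s j' := by
  have hn := ExtX.n_ge hp
  have hN := hp.nN
  have hp0 := ExtX.p_nonneg hp
  induction L using Nat.strong_induction_on generalizing j with
  | _ L ih =>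
  by_cases hL : L + 1 < 2 * n
  · obtain ⟨s, h1, h2, h3⟩ := hj.1
    refine ⟨s, h1, h2, fun r hr => (h3 r (by omega)).trans ?_, fun j' a b _ => by omega⟩
    exact pow_le_pow_left₀ hp.q0.le (ExtX.q_le_p hp) r
  obtain ⟨j₁, h1, h2, h3⟩ := hw (j + n) (by omega) (by omega)
  obtain ⟨m, rfl⟩ : ∃ m : ℕ, j₁ = j + m := ⟨(j₁ - j).toNat, by omega⟩
  obtain ⟨L', rfl⟩ : ∃ L', L = m + L' := ⟨L - m, by omega⟩
  obtain ⟨s, hs, hs1, hsd, hsc⟩ := ih L' (by omega) h3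
    (hw.mono (by omega) (by push_cast; omega))
  have hc1 : RC s (j + m) := by
    have := hsd 1 (by omega)
    unfold RC
    rw [hs1, abs_one]
    simp only [Nat.cast_one, pow_one] at this
    exact this.trans (ExtX.p_le_one hp)
  have hg := ExtX.gap hp hs (by omega : n ≤ m) (by omega) hj h3 hc1
  have h5 := hg m le_rfl
  rw [hs1, abs_one] at h5
  have hsj : s j ≠ 0 := by
    intro h; rw [h] at h5; norm_num at h5
  have hsj' : 0 < |s j| := abs_pos.2 hsj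
  refine ⟨fun i => (s j)⁻¹ * s i, hs.smul _, inv_mul_cancel₀ hsj, fun r hr => ?_,
    fun j' a b c => ExtX.RC_smul _ ?_⟩
  · rw [abs_mul, abs_inv, inv_mul_le_iff₀ hsj', mul_comm]
    by_cases hrm : r ≤ m
    · exact hg r hrm
    obtain ⟨r', rfl⟩ : ∃ r', r = m + r' := ⟨r - m, by omega⟩
    have h4 := hsd r' (by omega)
    rw [show j + ((m + r' : ℕ) : ℤ) = j + m + r' by push_cast; ring, pow_add]
    calc |s (j + m + r')| ≤ (q * (1 + g)) ^ r' * 1 := by rwa [mul_one]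
      _ ≤ (q * (1 + g)) ^ r' * ((q * (1 + g)) ^ m * |s j|) := by gcongr
      _ = _ := by ring
  · by_cases hj' : j + m ≤ j'
    · exact hsc j' hj' (by push_cast at b; omega) c
    · exact (cp_R hp hs h3 hc1 (hw.mono le_rfl (by push_cast; omega)) c a (by omega)).1

theorem ext_L {V : ℤ → ℝ} {n N : ℕ} {q g : ℝ} (hp : Par n N q g) {j : ℤ} (hj : Reg V N q j) (L : ℕ)
    (hw : Win (Reg V N q) n (j - L) j) :
    ∃ u, Sol V u ∧ u (j + 1) = 1 ∧ (∀ r : ℕ, r ≤ L + 1 → |u (j + 1 - r)| ≤ (q * (1 + g)) ^ r) ∧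
      ∀ j', j' ≤ j → j - L + 2 * n ≤ j' → Reg V N q j' → LC u j' := by
  have hj' : Reg (refl V) N q (-j - 1) := by
    rw [Reg_refl, show -(-j - 1) - 1 = j by ring]; exact hj
  have hw' : Win (Reg (refl V) N q) n (-j - 1) (-j - 1 + L) := by
    rw [Win_refl, show -(-j - 1) - 1 = j by ring, show -(-j - 1 + L) - 1 = j - L by ring]; exact hw
  obtain ⟨s, h1, h2, h3, h4⟩ := ext_R hp hj' L hw'
  refine ⟨refl s, by simpa [refl_refl] using h1.refl, ?_, fun r hr => ?_, fun j' a b c => ?_⟩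
  · unfold Crest.Agent.R128.refl
    rw [show -(j + 1) = -j - 1 by ring]; exact h2
  · unfold Crest.Agent.R128.refl
    rw [show -(j + 1 - r) = -j - 1 + r by ring]; exact h3 r hr
  · rw [LC_refl]
    refine h4 _ (by omega) (by omega) ?_
    rw [Reg_refl, show -(-j' - 1) - 1 = j' by ring]; exact c

/-- `m = j+1-j'`.  `W(u,s) v = W(v,s) u + W(u,v) s`, `|W(u,s)| ≤ 2 p^(m-1)`, `|W(u,v)| ≤ 2 B^Q2 p^(m-1)`.
Hence `|W(u,s)| |v (j+1)| ≥ |W(v,s)|/2 > 0`.  For `i ∈ [j', j]`, `t = j+1-i`: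
`|v i| / |v (j+1)| ≤ 2 p^t + 4 B^(Q1+Q2) p^(m-1) ≤ B^(-80 t)`; for `i ∈ [a, j']`:
`|v i| / |v (j+1)| ≤ 4 B^(Q1+Q2) p^(m-1) ≤ B^(-80 (m + j' - a))`. -/
theorem d3_R {B p : ℝ} (hB : 10 ^ 8 ≤ B) (hp0 : 0 ≤ p) (hp : p ≤ B ^ (-89 : ℤ)) {V u s v : ℤ → ℝ}
    (hu : Sol V u) (hs : Sol V s) (hv : Sol V v) {a j' j Q1 Q2 : ℤ} (ha : a ≤ j') (hjj : j' < j)
    (hQ1 : 0 ≤ Q1) (hQ2 : 0 ≤ Q2) (hu1 : u (j + 1) = 1)
    (hud : ∀ r : ℕ, (r : ℤ) ≤ j + 1 - j' → |u (j + 1 - r)| ≤ p ^ r) (hs1 : s j' = 1)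
    (hsd : ∀ r : ℕ, (r : ℤ) ≤ j + 1 - j' → |s (j' + r)| ≤ p ^ r)
    (hW : B ^ (-Q1) ≤ |Wr v s 0|) (hvb : ∀ i, a ≤ i → i ≤ j' + 1 → |v i| ≤ B ^ Q2)
    (hm : Q1 + Q2 + 90 + 80 * (j' - a) ≤ 9 * (j + 1 - j')) : PlR B v a (j + 1) := by
  have hB8 : (8 : ℝ) ≤ B := by linarith
  have hB1 : (1 : ℝ) ≤ B := by linarith
  have hB0 : (0 : ℝ) < B := by linarith
  have hp1 : p ≤ 1 := hp.trans (zpow_le_one_of_nonpos₀ hB1 (by norm_num))
  obtain ⟨M, hM⟩ : ∃ M : ℕ, j = j' + M := ⟨(j - j').toNat, by omega⟩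
  have hpow : ∀ t : ℕ, p ^ t ≤ B ^ (-89 * (t : ℤ)) := fun t => by
    rw [zpow_mul, zpow_natCast]; exact pow_le_pow_left₀ hp0 hp t
  have hpM : 0 ≤ p ^ M := by positivity
  have hu0 : |u j'| ≤ p ^ M := by
    have := hud (M + 1) (by push_cast; omega)
    rw [show j + 1 - ((M + 1 : ℕ) : ℤ) = j' by push_cast; omega] at this
    exact this.trans (pow_le_pow_of_le_one hp0 hp1 (by omega))
  have hu0' : |u (j' + 1)| ≤ p ^ M := by
    have := hud M (by omega)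
    rwa [show j + 1 - (M : ℤ) = j' + 1 by omega] at this
  have hs_le : ∀ i, j' ≤ i → i ≤ j + 1 → |s i| ≤ 1 := fun i h1 h2 => by
    obtain ⟨r, rfl⟩ : ∃ r : ℕ, i = j' + r := ⟨(i - j').toNat, by omega⟩
    exact (hsd r (by omega)).trans (pow_le_one₀ hp0 hp1)
  have hWus : |Wr u s 0| ≤ 2 * p ^ M := by
    rw [Wr_const hu hs 0 j']
    unfold Wr
    refine (abs_sub _ _).trans ?_
    rw [abs_mul, abs_mul, hs1, abs_one]
    have := hs_le (j' + 1) (by omega) (by omega)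
    have := mul_le_mul hu0 this (abs_nonneg _) hpM
    linarith
  have hQ : 0 < B ^ Q2 := zpow_pos hB0 _
  have hQ' : 0 < B ^ Q1 := zpow_pos hB0 _
  have hWuv : |Wr u v 0| ≤ 2 * (p ^ M * B ^ Q2) := by
    rw [Wr_const hu hv 0 j']
    unfold Wr
    refine (abs_sub _ _).trans ?_
    rw [abs_mul, abs_mul]
    have e1 := mul_le_mul hu0 (hvb (j' + 1) (by omega) le_rfl) (abs_nonneg _) hpM
    have e2 := mul_le_mul hu0' (hvb j' ha (by omega)) (abs_nonneg _) hpM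
    linarith
  set w := |Wr v s 0| with hw
  set ω := |Wr u s 0| with hω
  have hw1 : 1 ≤ B ^ Q1 * w := by
    have := mul_le_mul_of_nonneg_left hW hQ'.le
    rwa [← zpow_add₀ hB0.ne', add_neg_cancel, zpow_zero] at this
  have hw0 : 0 < w := lt_of_lt_of_le (zpow_pos hB0 _) hW
  -- the key exponent bound
  have hE : ∀ t : ℤ, t ≤ j + 1 - a → 8 * (p ^ M * B ^ Q2 * B ^ Q1) ≤ B ^ (-80 * t) := by
    intro t ht
    have e1 : p ^ M * B ^ Q2 * B ^ Q1 ≤ B ^ (-89 * (M : ℤ)) * B ^ Q2 * B ^ Q1 := by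
      have := hpow M
      gcongr
    rw [← zpow_add₀ hB0.ne', ← zpow_add₀ hB0.ne'] at e1
    have e2 : B ^ (-89 * (M : ℤ) + Q2 + Q1 + 1) ≤ B ^ (-80 * t) :=
      zpow_le_zpow_right₀ hB1 (by omega)
    rw [zpow_add_one₀ hB0.ne'] at e2
    have e3 : 0 < B ^ (-89 * (M : ℤ) + Q2 + Q1) := zpow_pos hB0 _
    nlinarith
  set E := p ^ M * B ^ Q2 * B ^ Q1 with hEdef
  have hE0 : 0 ≤ E := by positivity
  have hWuv' : |Wr u v 0| ≤ 2 * E * w := by
    refine hWuv.trans ?_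
    have : p ^ M * B ^ Q2 * 1 ≤ p ^ M * B ^ Q2 * (B ^ Q1 * w) := by gcongr
    rw [hEdef]; nlinarith
  have hlow : w ≤ 2 * (ω * |v (j + 1)|) := by
    have e1 := Wr_identity hu hv hs 0 (j + 1)
    rw [hu1, mul_one] at e1
    have e2 : Wr v s 0 = Wr u s 0 * v (j + 1) - Wr u v 0 * s (j + 1) := by linarith
    have e3 : w ≤ ω * |v (j + 1)| + |Wr u v 0| * |s (j + 1)| := by
      rw [hw, e2, hω, ← abs_mul, ← abs_mul]; exact abs_sub _ _
    have e4 := mul_le_mul hWuv' (hs_le (j + 1) (by omega) le_rfl) (abs_nonneg _) (by positivity)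
    have e5 := hE 0 (by omega)
    simp only [mul_zero, zpow_zero] at e5
    nlinarith
  have hω0 : 0 < ω := by
    rcases (abs_nonneg (Wr u s 0)).lt_or_eq with h | h
    · exact h
    · rw [← hω] at h; rw [← h] at hlow; linarith
  have hv0 : 0 ≤ |v (j + 1)| := abs_nonneg _
  intro i hi1 hi2
  by_cases h1 : i = j + 1
  · subst h1; simp
  by_cases h2 : j' ≤ i
  · obtain ⟨t, ht⟩ : ∃ t : ℕ, i = j + 1 - t := ⟨(j + 1 - i).toNat, by omega⟩
    have hut : |u i| ≤ p ^ t := by rw [ht]; exact hud t (by omega)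
    have e1 := Wr_identity hu hv hs 0 i
    have e2 : ω * |v i| ≤ w * |u i| + |Wr u v 0| * |s i| := by
      rw [hω, hw, ← abs_mul, ← abs_mul, ← abs_mul, e1]; exact abs_add_le _ _
    have e3 := mul_le_mul hWuv' (hs_le i h2 hi2) (abs_nonneg _) (by positivity)
    have e4 := mul_le_mul_of_nonneg_left hut hw0.le
    have e5 := hE t (by omega)
    have e6 : 4 * p ^ t ≤ B ^ (-80 * (t : ℤ)) := by
      have f1 : B ^ (-89 * (t : ℤ) + 1) ≤ B ^ (-80 * (t : ℤ)) := zpow_le_zpow_right₀ hB1 (by omega)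
      rw [zpow_add_one₀ hB0.ne'] at f1
      have f2 := hpow t
      have f3 : 0 < B ^ (-89 * (t : ℤ)) := zpow_pos hB0 _
      nlinarith
    rw [show j + 1 - i = (t : ℤ) by omega]
    have e7 : ω * |v i| ≤ (B ^ (-80 * (t : ℤ)) / 2) * w := by nlinarith
    have e8 : 0 < B ^ (-80 * (t : ℤ)) := zpow_pos hB0 _
    have e9 : ω * |v i| ≤ ω * (B ^ (-80 * (t : ℤ)) * |v (j + 1)|) := by nlinarith
    exact le_of_mul_le_mul_left e9 hω0
  · have e1 := hvb i hi1 (by omega)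
    have e2 := hE (j + 1 - i) (by omega)
    have e3 : 1 ≤ B ^ Q1 * (2 * (2 * p ^ M * |v (j + 1)|)) := by
      refine hw1.trans (mul_le_mul_of_nonneg_left (hlow.trans ?_) hQ'.le)
      gcongr
    have e4 : B ^ Q2 * 1 ≤ B ^ Q2 * (B ^ Q1 * (2 * (2 * p ^ M * |v (j + 1)|))) := by gcongr
    have e5 : B ^ Q2 * (B ^ Q1 * (2 * (2 * p ^ M * |v (j + 1)|))) = 4 * E * |v (j + 1)| := by
      rw [hEdef]; ring
    nlinarith

theorem d3_L {B p : ℝ} (hB : 10 ^ 8 ≤ B) (hp0 : 0 ≤ p) (hp : p ≤ B ^ (-89 : ℤ)) {V u s v : ℤ → ℝ}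
    (hu : Sol V u) (hs : Sol V s) (hv : Sol V v) {b j' j Q1 Q2 : ℤ} (hb : j' + 1 ≤ b) (hjj : j < j')
    (hQ1 : 0 ≤ Q1) (hQ2 : 0 ≤ Q2) (hs1 : s j = 1)
    (hsd : ∀ r : ℕ, (r : ℤ) ≤ j' + 1 - j → |s (j + r)| ≤ p ^ r) (hu1 : u (j' + 1) = 1)
    (hud : ∀ r : ℕ, (r : ℤ) ≤ j' + 1 - j → |u (j' + 1 - r)| ≤ p ^ r)
    (hW : B ^ (-Q1) ≤ |Wr v u 0|) (hvb : ∀ i, j' ≤ i → i ≤ b → |v i| ≤ B ^ Q2)
    (hm : Q1 + Q2 + 90 + 80 * (b - (j' + 1)) ≤ 9 * (j' + 1 - j)) : PlL B v j b := by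
  have h := d3_R (B := B) (p := p) hB hp0 hp (V := refl V) (u := refl s) (s := refl u) (v := refl v)
    hs.refl hu.refl hv.refl (a := -b) (j' := -j' - 1) (j := -j - 1) (Q1 := Q1) (Q2 := Q2)
    (by omega) (by omega) hQ1 hQ2 ?_ ?_ ?_ ?_ ?_ ?_ (by omega)
  · rw [PlR_refl] at h
    simpa using h
  · unfold Crest.Agent.R128.refl
    rw [show -(-j - 1 + 1) = j by ring]; exact hs1
  · intro r hr
    unfold Crest.Agent.R128.refl
    rw [show -(-j - 1 + 1 - r) = j + r by ring]; exact hsd r (by omega)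
  · unfold Crest.Agent.R128.refl
    rw [show -(-j' - 1) = j' + 1 by ring]; exact hu1
  · intro r hr
    unfold Crest.Agent.R128.refl
    rw [show -(-j' - 1 + r) = j' + 1 - r by ring]; exact hud r (by omega)
  · have e : Wr (refl v) (refl u) 0 = - Wr v u 0 := by
      rw [Wr_const hv hu 0 (-1)]
      unfold Wr Crest.Agent.R128.refl
      simp
    rw [e, abs_neg]; exact hW
  · intro i h1 h2
    unfold Crest.Agent.R128.refl
    exact hvb _ (by omega) (by omega)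

end Crest.Agent.R128
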