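import Crest.Agent.R128.LinA

set_option autoImplicit false
open MeasureTheory Set

namespace Crest.Agent.R128
open Classical

/-! Mble: measurability.  `RR`, `LR`, `TwoCone` are projections of closed sets along a compact parameter
(`Sol.eq_sol`: the solution is `sol V j 1 θ` with `|θ| ≤ q` when `N ≥ 1`); use e.g. `isClosedMap_fst_of_compactSpace`.
The pattern predicates are countable boolean combinations (`Measurable.forall`, `Measurable.exists`, `Measurable.and`, …;
for cardinalities write the card as a finite sum of `ite`). -/

namespace MbleX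

theorem closed_sol (c : ℤ) (K : ℝ) (C : (ℤ → ℝ) → Prop) (hC : IsClosed {s | C s})
    (hK : ∀ s, C s → |s (c + 1)| ≤ K) : IsClosed {V : ℤ → ℝ | ∃ s, Sol V s ∧ s c = 1 ∧ C s} := by
  have h1 : Continuous fun p : (ℤ → ℝ) × Icc (-K) K => sol p.1 c 1 p.2 :=
    continuous_pi fun i => (continuous_sol c i).comp
      (f := fun p : (ℤ → ℝ) × Icc (-K) K => (p.1, (1 : ℝ), (p.2 : ℝ))) (by fun_prop)
  convert isClosedMap_fst_of_compactSpace _ (hC.preimage h1) using 1
  ext V
  constructor
  · rintro ⟨s, a, b, d⟩
    refine ⟨(V, ⟨s (c + 1), abs_le.1 (hK s d)⟩), ?_, rfl⟩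
    have e := a.eq_sol c
    rw [b] at e
    change C (sol V c 1 (s (c + 1)))
    rw [← e]
    exact d
  · rintro ⟨⟨V', θ⟩, h, rfl⟩
    exact ⟨_, sol_Sol _ _ _ _, sol_zero _ _ _ _, h⟩

theorem closed_RR (N : ℕ) (q : ℝ) (j : ℤ) : IsClosed {V : ℤ → ℝ | RR V j N q} := by
  rcases Nat.eq_zero_or_pos N with rfl | hN
  · convert isClosed_univ (X := ℤ → ℝ) using 1
    refine eq_univ_of_forall fun V => ⟨_, sol_Sol V j 1 0, sol_zero _ _ _ _, fun r hr => ?_⟩
    obtain rfl : r = 0 := by omega
    simp [sol_zero]
  · refine closed_sol j q (fun s => ∀ r : ℕ, r ≤ N → |s (j + r)| ≤ q ^ r) ?_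
      fun s h => by simpa using h 1 hN
    simp only [setOf_forall]
    exact isClosed_iInter fun r => isClosed_iInter fun _ =>
      isClosed_le (by fun_prop) continuous_const

theorem closed_LR (N : ℕ) (q : ℝ) (j : ℤ) : IsClosed {V : ℤ → ℝ | LR V j N q} := by
  have h1 : Continuous (refl : (ℤ → ℝ) → ℤ → ℝ) := continuous_pi fun i => continuous_apply (-i)
  convert (closed_RR N q (-j - 1)).preimage h1 using 1
  ext V
  change _ ↔ RR (refl V) (-j - 1) N q
  rw [RR_refl, show -(-j - 1) - 1 = j by ring]
  rfl

theorem closed_TwoCone (B : ℝ) (a b : ℤ) : IsClosed {V : ℤ → ℝ | TwoCone B V a b} :=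
  closed_sol b (B ^ (-98 : ℤ))
    (fun ψ => |ψ (b + 1)| ≤ B ^ (-98 : ℤ) ∧ |ψ (a - 1)| ≤ B ^ (-98 : ℤ) * |ψ a|)
    (IsClosed.and (isClosed_le (by fun_prop) continuous_const)
      (isClosed_le (by fun_prop) (by fun_prop)))
    fun _ h => h.1

theorem m_card {X : Type*} [MeasurableSpace X] (s : Finset ℤ) (p : X → ℤ → Prop)
    [∀ x, DecidablePred (p x)] (hp : ∀ i, Measurable fun x => p x i) :
    Measurable fun x => (s.filter (p x)).card := by
  simp only [Finset.card_filter]
  exact Finset.measurable_sum _ fun i _ =>
    Measurable.ite (measurableSet_setOfPred.2 (hp i)) measurable_const measurable_const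

theorem m_dir (B : ℝ) (c i : ℤ) : Measurable fun y : ℤ → ℝ => dir (Vof B y) c i :=
  ((continuous_dir c i).comp (continuous_Vof B)).measurable

theorem m_TwoCone (B : ℝ) (a b : ℤ) : Measurable fun y : ℤ → ℝ => TwoCone B (Vof B y) a b :=
  measurableSet_setOfPred.1 ((closed_TwoCone B a b).preimage (continuous_Vof B)).measurableSet

theorem m_AntiS (B ε : ℝ) (c a b : ℤ) (σ : ℝ) :
    Measurable fun y : ℤ → ℝ => AntiS B ε y c a b σ := by
  have h1 := m_dir B c a
  have h2 := m_dir B c b
  exact (Measurable.le' (by fun_prop) (by fun_prop)).and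
    (Measurable.exists fun n => Measurable.le' (by fun_prop) measurable_const)

end MbleX

open MbleX

theorem isClosed_Reg (N : ℕ) (q : ℝ) (j : ℤ) : IsClosed {V : ℤ → ℝ | Reg V N q j} :=
  (closed_RR N q j).inter (closed_LR N q j)
theorem measurable_Vof (B : ℝ) : Measurable (Vof B) := (continuous_Vof B).measurable
theorem measurableSet_Reg (B : ℝ) (N : ℕ) (q : ℝ) (j : ℤ) :
    MeasurableSet {y : ℤ → ℝ | Reg (Vof B y) N q j} :=
  ((isClosed_Reg N q j).preimage (continuous_Vof B)).measurableSet
theorem measurableSet_PlR (B : ℝ) (c a m : ℤ) :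
    MeasurableSet {y : ℤ → ℝ | PlR B (dir (Vof B y) c) a m} :=
  measurableSet_setOfPred.2 (Measurable.forall fun i => measurable_const.imp (measurable_const.imp
    (Measurable.le' (m_dir B c i).abs (measurable_const.mul (m_dir B c m).abs))))
theorem measurableSet_PlL (B : ℝ) (c a m : ℤ) :
    MeasurableSet {y : ℤ → ℝ | PlL B (dir (Vof B y) c) a m} :=
  measurableSet_setOfPred.2 (Measurable.forall fun i => measurable_const.imp (measurable_const.imp
    (Measurable.le' (m_dir B c i).abs (measurable_const.mul (m_dir B c a).abs))))
theorem measurableSet_EA (B c₀ ε : ℝ) (c D b par : ℤ) : MeasurableSet {y | EA B c₀ ε c D b par y} := by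
  refine measurableSet_setOfPred.2 (Measurable.exists fun a => measurable_const.and
    (measurable_const.and (Measurable.and ?_ ((m_AntiS B ε c a b 1).or (m_AntiS B ε c a b (-1))).not)))
  exact (measurableSet_setOfPred.1 (measurableSet_PlR B c c b)).and
    ((measurableSet_setOfPred.1 (measurableSet_PlL B c a c)).and
      ((Measurable.le' measurable_const (by fun_prop)).and
        ((Measurable.le' measurable_const (by fun_prop)).and ((m_TwoCone B a b).and
          ((Measurable.le' (m_dir B c a).abs (measurable_const.mul (m_dir B c b).abs)).and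
            (Measurable.le' (m_dir B c b).abs (measurable_const.mul (m_dir B c a).abs)))))))
theorem measurableSet_GB (B ε : ℝ) (c D b par : ℤ) (σ : ℝ) : MeasurableSet {y | GB B ε c D b par σ y} :=
  measurableSet_setOfPred.2 (Measurable.exists fun a => measurable_const.and
    (measurable_const.and ((measurableSet_setOfPred.1 (measurableSet_PlR B c c b)).and
      ((measurableSet_setOfPred.1 (measurableSet_PlL B c a c)).and ((m_AntiS B ε c a b σ).and
        (Measurable.exists fun n => Measurable.le' (by fun_prop) measurable_const))))))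

theorem MbleX.m_badN (B c₀ : ℝ) (N : ℕ) (q : ℝ) (α β : ℤ) :
    Measurable fun y : ℤ → ℝ => badN B c₀ (Vof B y) N q α β :=
  m_card _ (fun y i => ¬ Nice B c₀ (Vof B y) N q i) fun i =>
    ((measurableSet_setOfPred.1 (measurableSet_Reg B N q (i - 1))).and
      ((measurableSet_setOfPred.1 (measurableSet_Reg B N q i)).and
        (Measurable.le' measurable_const
          (((measurable_pi_apply i).comp (measurable_Vof B)).sub measurable_const).abs))).not

theorem measurableSet_CrL (B c₀ : ℝ) (q : ℕ → ℝ) (l : ℕ) : MeasurableSet {y | CrL B c₀ q l y} :=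
  measurableSet_lt measurable_const (m_badN ..)
theorem measurableSet_CrR (B c₀ : ℝ) (q : ℕ → ℝ) (l : ℕ) : MeasurableSet {y | CrR B c₀ q l y} :=
  measurableSet_lt measurable_const (m_badN ..)
theorem measurable_pat (B : ℝ) (q : ℕ → ℝ) : Measurable (pat B q) :=
  measurable_pi_lambda _ fun l => measurable_pi_lambda _ fun j =>
    measurableSet_setOfPred.1 (measurableSet_Reg B (NN l) (q l) j)
theorem measurable_Mb (l : ℕ) (x : ℤ) : Measurable fun r : Pat => Mb r l x :=
  Measurable.le' measurable_const (measurable_const.mul (m_card _ (fun (r : Pat) j => ¬ r l j)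
    fun j => Measurable.not ((measurable_pi_apply j).comp (measurable_pi_apply l))))
theorem measurable_SS (l : ℕ) (y : ℤ) : Measurable fun r : Pat => SS r l y := by
  induction l generalizing y with
  | zero => exact measurable_Mb 0 y
  | succ l ih =>
    exact (ih y).and (Measurable.not (Measurable.exists fun yL => Measurable.exists fun yR =>
      measurable_const.and (measurable_const.and ((ih yL).and ((ih yR).and (measurable_const.and
        ((Measurable.forall fun z => measurable_const.imp (measurable_const.imp (ih z).not)).and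
          ((Measurable.forall fun z => measurable_const.imp (measurable_const.imp (ih z).not)).and
            (Measurable.forall fun x => measurable_const.imp
              (measurable_const.imp (measurable_Mb (l + 1) x).not))))))))))
theorem measurable_LE (l : ℕ) (y : ℤ) : Measurable fun r : Pat => LE r l y :=
  (measurable_SS l y).and (Measurable.forall fun z => measurable_const.imp
    (measurable_const.imp (measurable_SS l z).not))
theorem measurable_RE (l : ℕ) (y : ℤ) : Measurable fun r : Pat => RE r l y :=
  (measurable_SS l y).and (Measurable.forall fun z => measurable_const.imp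
    (measurable_const.imp (measurable_SS l z).not))
theorem measurable_PE (l : ℕ) (y : ℤ) : Measurable fun r : Pat => PE r l y :=
  Measurable.exists fun m => measurable_const.and (measurable_const.and
    ((measurable_SS l y).and ((measurable_SS l (y + m)).and (Measurable.forall fun z =>
      measurable_const.imp (measurable_const.imp (measurable_SS l z).not)))))
theorem measurable_Cov (l : ℕ) (y : ℤ) : Measurable fun r : Pat => Cov r l y :=
  Measurable.forall fun _ => measurable_const.imp (measurable_const.imp (Measurable.exists fun z =>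
    measurable_const.and (measurable_const.and (measurable_SS l z))))
theorem measurable_Sig (l : ℕ) (y : ℤ) : Measurable fun r : Pat => Sig r l y :=
  (measurable_Cov l y).and (Measurable.exists fun z =>
    measurable_const.and (measurable_LE (l + 1) z))
theorem measurable_PN (l : ℕ) (y : ℤ) : Measurable fun r : Pat => PN r l y :=
  Measurable.exists fun z => measurable_const.and (measurable_PE l z)
/-- how to use the above. -/
theorem measurableSet_pat (B : ℝ) (q : ℕ → ℝ) {p : Pat → Prop} (hp : Measurable p) :
    MeasurableSet {y | p (pat B q y)} :=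
  measurableSet_setOfPred.2 (hp.comp (measurable_pat B q))

end Crest.Agent.R128
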