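import Crest.Agent.R128.Meas
import Crest.Agent.R128.Mble

set_option autoImplicit false
open MeasureTheory Set

namespace Crest.Agent.R128
open Classical

/-! Fin: from regular bonds to the growth of the derivative. -/
open Crest.AnalysisR.StandardFamily

namespace FinX

theorem step (k : ℝ) (z : ℝ × ℝ) : ∃ L : (ℝ × ℝ) →L[ℝ] (ℝ × ℝ),
    HasFDerivAt (standardMapLift k) L z ∧ ∀ a b : ℝ, L (a, b) =
      (a + b + 2 * Real.pi * k * Real.cos (2 * Real.pi * z.1) * a,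
        b + 2 * Real.pi * k * Real.cos (2 * Real.pi * z.1) * a) := by
  have h1 := (((hasFDerivAt_fst (𝕜 := ℝ) (p := z)).const_mul (2 * Real.pi)).sin).const_mul k
  refine ⟨_, (((hasFDerivAt_fst (𝕜 := ℝ) (p := z)).add (hasFDerivAt_snd (𝕜 := ℝ) (p := z))).add
    h1).prodMk ((hasFDerivAt_snd (𝕜 := ℝ) (p := z)).add h1), fun a b => ?_⟩
  simp
  ring

theorem iter {B k : ℝ} (hk : 2 * Real.pi * k = B ^ 100) (p : ℝ × ℝ) {x : ℤ → ℝ} (hx : IsOrb k x)
    (h0 : p = (x 0, x 0 - x (-1))) (n : ℕ) :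
    (standardMapLift k)^[n] p = (x n, x n - x (n - 1)) ∧ ∃ L : (ℝ × ℝ) →L[ℝ] (ℝ × ℝ),
      HasFDerivAt (standardMapLift k)^[n] L p ∧
        L (0, 1) = (dir (Vof B x) 0 n, dir (Vof B x) 0 n - dir (Vof B x) 0 (n - 1)) := by
  induction n with
  | zero =>
    refine ⟨by simpa using h0, ContinuousLinearMap.id ℝ _, hasFDerivAt_id p, ?_⟩
    rw [Nat.cast_zero, dir_zero, dir_neg_one]
    simp
  | succ n ih =>
    obtain ⟨h1, L, h2, h3⟩ := ih
    obtain ⟨M, h4, h5⟩ := step k ((standardMapLift k)^[n] p)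
    rw [Function.iterate_succ']
    push_cast
    rw [add_sub_cancel_right]
    refine ⟨?_, M.comp L, h4.comp p h2, ?_⟩
    · rw [Function.comp_apply, h1]
      unfold standardMapLift
      have := hx n
      ext <;> simp only <;> linarith
    · rw [ContinuousLinearMap.comp_apply, h3, h5, h1, hk]
      have := dir_Sol (Vof B x) 0 n
      unfold Vof at this ⊢
      ext <;> simp only <;> linarith

end FinX

/-- `x = orb k (p.1, p.1 + p.2 + k sin 2πp.1)`, `F^[n] p = (x n, x n - x (n-1))`; by the chain rule the derivative of `F^[n]` at `p`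
sends `(0,-1)` to `(v n, v n - v (n-1))` with `v = - dir V 0`.  The Wronskian of `v` with the `RR` solution is `±1`; at the bond `N-1`
it is `≤ 2 q^(N-1) max |v (N-1)| |v N|`. -/
theorem deriv_lower {B k q : ℝ} (hk : 2 * Real.pi * k = B ^ 100) (p : ℝ × ℝ) {N : ℕ} (hN : 1 ≤ N) (hq0 : 0 < q)
    (hq : q ≤ 1 / 2)
    (h : RR (Vof B (orb k (p.1, p.1 + p.2 + k * Real.sin (2 * Real.pi * p.1)))) 0 N q) :
    (2 : ℝ) ^ (N - 1) / 4 ≤ ‖fderiv ℝ (standardMapLift k)^[N] p‖ := by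
  set x := orb k (p.1, p.1 + p.2 + k * Real.sin (2 * Real.pi * p.1)) with hx
  have hO : IsOrb k x := orb_isOrb k _
  have x0 : x 0 = p.1 := orb_zero k _
  have x1 : x 1 = p.1 + p.2 + k * Real.sin (2 * Real.pi * p.1) := orb_one k _
  obtain ⟨-, L, h2, h3⟩ := FinX.iter hk p hO (by
    have := hO 0
    rw [zero_add, zero_sub, x0, x1] at this
    ext <;> simp only [x0]
    linarith) N
  rw [h2.fderiv]
  have a1 := L.le_opNorm (0, 1)
  rw [h3, Prod.norm_def, Prod.norm_def] at a1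
  simp only [Real.norm_eq_abs, abs_zero, abs_one, zero_le_one, max_eq_right, mul_one,
    max_le_iff] at a1
  obtain ⟨s, s1, s2, s3⟩ := h
  obtain ⟨n, rfl⟩ : ∃ n, N = n + 1 := ⟨N - 1, by omega⟩
  have w := Wr_dir s1 0 n
  have b1 := s3 n (by omega)
  have b2 := s3 (n + 1) le_rfl
  unfold Wr at w
  push_cast at a1 b2
  rw [zero_add] at b1 b2
  rw [add_sub_cancel_right] at a1
  rw [s2] at w
  rw [Nat.add_sub_cancel]
  have c1 : |dir (Vof B x) 0 n| ≤ 2 * ‖L‖ := by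
    have := abs_sub (dir (Vof B x) 0 (n + 1)) (dir (Vof B x) 0 (n + 1) - dir (Vof B x) 0 n)
    rw [sub_sub_cancel] at this
    linarith [a1.1, a1.2]
  have c2 : q ^ n ≤ (1 / 2) ^ n := pow_le_pow_left₀ hq0.le hq n
  have c3 : q ^ (n + 1) ≤ (1 / 2) ^ n * (1 / 2) := by
    rw [← pow_succ]; exact pow_le_pow_left₀ hq0.le hq _
  have c4 := abs_sub (dir (Vof B x) 0 n * s (n + 1)) (dir (Vof B x) 0 (n + 1) * s n)
  rw [w, abs_neg, abs_one, abs_mul, abs_mul] at c4
  have L0 := norm_nonneg L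
  have c5 := mul_le_mul c1 (b2.trans c3) (abs_nonneg _) (by positivity)
  have c6 := mul_le_mul a1.1 (b1.trans c2) (abs_nonneg _) L0
  have c7 : (2 : ℝ) ^ n * (1 / 2) ^ n = 1 := by rw [← mul_pow]; norm_num
  have c8 : 1 ≤ 2 * ‖L‖ * (1 / 2) ^ n := by linarith
  have c9 := mul_le_mul_of_nonneg_left c8 (by positivity : (0 : ℝ) ≤ 2 ^ n)
  rw [mul_one, mul_left_comm, c7] at c9
  linarith

/-- Let `I l ⊆ Q` be the points `p` whose bond `0` is `l`-irregular (`nu_p`: volume `≤ 1/2`).  The increasing union over `m` of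
`⋂_{l ≥ m} I l` has volume `≤ 1/2` (`Monotone.measure_iUnion`); a point of `Q` outside it is regular for infinitely many `l`, and
`deriv_lower` with `N = NN l ≥ 40` gives `N/2 ≤ log ‖…‖`, so it lies in the target set with `c = 1/2`. -/
theorem final {B k : ℝ} (hB : 2 ≤ B) (hk : 2 * Real.pi * k = B ^ 100) {q : ℕ → ℝ} (hq : QOK B q)
    (hu : ∀ l, uu B k q l ≤ 1 / 2) :
    0 < MeasureTheory.volume ({p : ℝ × ℝ | ∃ c : ℝ, 0 < c ∧
          ∃ᶠ n : ℕ in Filter.atTop, c * n ≤ Real.log ‖fderiv ℝ (standardMapLift k)^[n] p‖} ∩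
        Set.Ico (0 : ℝ) 1 ×ˢ Set.Ico (0 : ℝ) 1) := by
  set I : ℕ → Set (ℝ × ℝ) := fun l => {p : ℝ × ℝ |
    Y k (p.1, p.1 + p.2 + k * Real.sin (2 * Real.pi * p.1)) ∈ {y | ¬ pat B q y l 0}} ∩ Q with hI
  have h1 : ∀ l, volume (I l) ≤ ENNReal.ofReal (1 / 2) := fun l => by
    rw [hI]
    beta_reduce
    rw [← nu_p k (E := {y | ¬ pat B q y l 0}) (measurableSet_Reg B (NN l) (q l) 0).compl,
      ← ofReal_measureReal]
    exact ENNReal.ofReal_le_ofReal (hu l)
  have h2 : volume (⋃ m, ⋂ l ≥ m, I l) ≤ ENNReal.ofReal (1 / 2) := by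
    rw [Monotone.measure_iUnion fun m m' h => biInter_subset_biInter_left fun l hl => h.trans hl]
    exact iSup_le fun m => (measure_mono (iInter₂_subset m le_rfl)).trans (h1 m)
  rw [pos_iff_ne_zero]
  intro h0
  have h3 : Q ⊆ (⋃ m, ⋂ l ≥ m, I l) ∪ ({p : ℝ × ℝ | ∃ c : ℝ, 0 < c ∧
      ∃ᶠ n : ℕ in Filter.atTop, c * n ≤ Real.log ‖fderiv ℝ (standardMapLift k)^[n] p‖} ∩
        Set.Ico (0 : ℝ) 1 ×ˢ Set.Ico (0 : ℝ) 1) := by
    intro p hp
    refine or_iff_not_imp_left.2 fun hn => ⟨⟨1 / 2, by norm_num, ?_⟩, hp⟩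
    refine Filter.frequently_atTop.2 fun m => ?_
    simp only [mem_iUnion, mem_iInter, not_exists, not_forall] at hn
    obtain ⟨l, hl, hpl⟩ := hn m
    have a1 : pat B q (Y k (p.1, p.1 + p.2 + k * Real.sin (2 * Real.pi * p.1))) l 0 :=
      not_not.1 fun h => hpl ⟨h, hp⟩
    have a2 := a1.1
    rw [Vof_Y] at a2
    have a3 : l < (10 ^ 9) ^ l := Nat.lt_pow_self (by norm_num)
    have a4 : 40 ≤ NN l ∧ m ≤ NN l := by unfold NN; omega
    have B0 : 0 < B := by linarith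
    have q0 : 0 < q l := (zpow_pos B0 _).trans_le (hq l).1
    have q1 : q l ≤ 1 / 2 := by
      have b1 : B ^ (-89 : ℤ) ≤ B ^ (-1 : ℤ) := zpow_le_zpow_right₀ (by linarith) (by norm_num)
      have b2 : B⁻¹ ≤ 1 / 2 := by rw [one_div]; exact inv_anti₀ (by norm_num) hB
      have b3 : 0 ≤ q l * (1 / 2) ^ l := by positivity
      rw [zpow_neg_one] at b1
      linarith [(hq l).2.2]
    have a5 := Real.log_le_log (by positivity) (deriv_lower hk p (by omega) q0 q1 a2)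
    refine ⟨NN l, a4.2, le_trans ?_ a5⟩
    rw [Real.log_div (by positivity) (by norm_num), Real.log_pow,
      show (4 : ℝ) = 2 ^ 2 by norm_num, Real.log_pow, Nat.cast_sub (by omega)]
    have a6 : (40 : ℝ) ≤ NN l := by exact_mod_cast a4.1
    push_cast
    nlinarith [Real.log_two_gt_d9]
  have h4 := (measure_mono h3).trans ((measure_union_le (μ := volume) _ _).trans
    (add_le_add h2 h0.le))
  rw [MeasX.vol_Q, add_zero, ENNReal.one_le_ofReal] at h4
  norm_num at h4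

end Crest.Agent.R128
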