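import Crest.Agent.R128.LinB

set_option autoImplicit false
open MeasureTheory Set

namespace Crest.Agent.R128
open Classical

/-! Half: shadowing of two real orbits along a Pliss segment (left half of the independence lemma). -/

namespace HalfX

theorem taylor (θ d : ℝ) (hd : |d| ≤ 2 * Real.pi) :
    |Real.sin (θ + d) - Real.sin θ - Real.cos θ * d| ≤ 400 * |d| ^ 2 := by
  have := norm_sin_taylor (θ : ℂ) (d : ℂ) (by simp) (by simpa using hd)
  rw [← Complex.ofReal_add, ← Complex.ofReal_sin, ← Complex.ofReal_sin, ← Complex.ofReal_cos,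
    ← Complex.ofReal_mul, ← Complex.ofReal_sub, ← Complex.ofReal_sub, Complex.norm_real,
    Complex.norm_real] at this
  exact this

theorem k_nonneg {B k : ℝ} (hk : 2 * Real.pi * k = B ^ 100) : 0 ≤ k := by
  have h1 : 0 ≤ B ^ 100 := by positivity
  have := Real.pi_pos
  by_contra hc
  have : 2 * Real.pi * k < 0 := mul_neg_of_pos_of_neg (by positivity) (not_le.1 hc)
  linarith

theorem quad {B k : ℝ} (hB : 10 ^ 8 ≤ B) (hk : 2 * Real.pi * k = B ^ 100) {x x' : ℤ → ℝ}
    (hx : IsOrb k x) (hx' : IsOrb k x') (i : ℤ) (h : |x' i - x i| ≤ 1) :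
    |x' (i + 1) - x (i + 1) + (x' (i - 1) - x (i - 1)) - Vof B x i * (x' i - x i)| ≤
      B ^ 101 * |x' i - x i| ^ 2 := by
  have hp := Real.pi_pos
  have hp4 := Real.pi_le_four
  have hk0 := k_nonneg hk
  have e0 : |2 * Real.pi * (x' i - x i)| = 2 * Real.pi * |x' i - x i| := by
    rw [abs_mul, abs_of_pos (by positivity)]
  have h1 := taylor (2 * Real.pi * x i) (2 * Real.pi * (x' i - x i)) (by rw [e0]; nlinarith)
  have e1 : 2 * Real.pi * x i + 2 * Real.pi * (x' i - x i) = 2 * Real.pi * x' i := by ring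
  rw [e1, e0] at h1
  have e2 : x' (i + 1) - x (i + 1) + (x' (i - 1) - x (i - 1)) - Vof B x i * (x' i - x i) =
      k * (Real.sin (2 * Real.pi * x' i) - Real.sin (2 * Real.pi * x i) -
        Real.cos (2 * Real.pi * x i) * (2 * Real.pi * (x' i - x i))) := by
    unfold Vof
    rw [← hk]
    linear_combination hx' i - hx i
  rw [e2, abs_mul, abs_of_nonneg hk0]
  refine (mul_le_mul_of_nonneg_left h1 hk0).trans ?_
  have e3 : k * (400 * (2 * Real.pi * |x' i - x i|) ^ 2) =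
      B ^ 100 * (800 * Real.pi) * |x' i - x i| ^ 2 := by rw [← hk]; ring
  rw [e3, pow_succ B 100]
  have hB0 : 0 ≤ B ^ 100 := by positivity
  refine mul_le_mul_of_nonneg_right (mul_le_mul_of_nonneg_left ?_ hB0) (by positivity)
  linarith

theorem Vof_lip {B : ℝ} (hB : 10 ^ 8 ≤ B) (x x' : ℤ → ℝ) (i : ℤ) :
    |Vof B x' i - Vof B x i| ≤ B ^ 101 * |x' i - x i| := by
  have hp := Real.pi_pos
  have hp4 := Real.pi_le_four
  have hB0 : 0 ≤ B ^ 100 := by positivity
  have h1 := Real.abs_cos_sub_cos_le (2 * Real.pi * x' i) (2 * Real.pi * x i)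
  rw [← mul_sub, abs_mul, abs_of_pos (by positivity : 0 < 2 * Real.pi)] at h1
  have e : Vof B x' i - Vof B x i =
      B ^ 100 * (Real.cos (2 * Real.pi * x' i) - Real.cos (2 * Real.pi * x i)) := by
    unfold Vof
    ring
  have e' : B ^ 101 * |x' i - x i| = B ^ 100 * (B * |x' i - x i|) := by ring
  have h2 : 2 * Real.pi * |x' i - x i| ≤ B * |x' i - x i| :=
    mul_le_mul_of_nonneg_right (by linarith) (abs_nonneg _)
  rw [e, abs_mul, abs_of_nonneg hB0, e']
  exact mul_le_mul_of_nonneg_left (h1.trans h2) hB0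

/-- the difference quotient potential -/
theorem exists_U {B k : ℝ} (hB : 10 ^ 8 ≤ B) (hk : 2 * Real.pi * k = B ^ 100) {x x' : ℤ → ℝ}
    (hx : IsOrb k x) (hx' : IsOrb k x') :
    ∃ U : ℤ → ℝ, Sol U (fun i => x' i - x i) ∧ Bdd B U ∧
      ∀ i, |x' i - x i| ≤ 1 → |U i - Vof B x i| ≤ B ^ 101 * |x' i - x i| := by
  have hp := Real.pi_pos
  have hk0 := k_nonneg hk
  have key : ∀ i, x' (i + 1) - x (i + 1) + (x' (i - 1) - x (i - 1)) = 2 * (x' i - x i) +
      k * (Real.sin (2 * Real.pi * x' i) - Real.sin (2 * Real.pi * x i)) := fun i => by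
    linear_combination hx' i - hx i
  refine ⟨fun i => if x' i - x i = 0 then Vof B x i else
    (x' (i + 1) - x (i + 1) + (x' (i - 1) - x (i - 1))) / (x' i - x i), fun i => ?_, fun i => ?_,
    fun i hi => ?_⟩
  · simp only
    split_ifs with h
    · rw [key i, h, sub_eq_zero.1 h]
      simp
    · rw [div_mul_cancel₀ _ h]
  · simp only
    split_ifs with h
    · exact Vof_bdd B x i
    · have h1 := Real.abs_sin_sub_sin_le (2 * Real.pi * x' i) (2 * Real.pi * x i)
      rw [← mul_sub, abs_mul, abs_of_pos (by positivity : 0 < 2 * Real.pi)] at h1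
      have e : (x' (i + 1) - x (i + 1) + (x' (i - 1) - x (i - 1))) / (x' i - x i) - 2 =
          k * (Real.sin (2 * Real.pi * x' i) - Real.sin (2 * Real.pi * x i)) / (x' i - x i) := by
        rw [key i]
        field_simp
        ring
      rw [e, abs_div, div_le_iff₀ (abs_pos.2 h), abs_mul, abs_of_nonneg hk0, ← hk]
      refine (mul_le_mul_of_nonneg_left h1 hk0).trans (le_of_eq ?_)
      ring
  · simp only
    split_ifs with h
    · rw [sub_self, abs_zero]
      exact mul_nonneg (pow_nonneg (by linarith) _) (abs_nonneg _)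
    · have e : (x' (i + 1) - x (i + 1) + (x' (i - 1) - x (i - 1))) / (x' i - x i) - Vof B x i =
          (x' (i + 1) - x (i + 1) + (x' (i - 1) - x (i - 1)) - Vof B x i * (x' i - x i)) /
            (x' i - x i) := by
        field_simp
      rw [e, abs_div, div_le_iff₀ (abs_pos.2 h)]
      refine (quad hB hk hx hx' i hi).trans (le_of_eq ?_)
      ring

theorem pw {B : ℝ} (hB : 10 ^ 8 ≤ B) {m n : ℤ} (h : 101 + m + 1 ≤ n) :
    100 * (B ^ 101 * B ^ m) ≤ B ^ n := by
  have hB1 : 1 ≤ B := by linarith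
  have hB0 : 0 < B := by linarith
  have h1 : B ^ (101 + m + 1) ≤ B ^ n := zpow_le_zpow_right₀ hB1 h
  rw [zpow_add_one₀ hB0.ne', zpow_add₀ hB0.ne'] at h1
  have h2 : 0 < B ^ (101 : ℤ) * B ^ m := by positivity
  have h3 : B ^ (101 : ℤ) = B ^ (101 : ℕ) := zpow_natCast B 101
  rw [h3] at h1 h2
  nlinarith

theorem mirror_dir (B : ℝ) (x : ℤ → ℝ) (b i : ℤ) :
    dir (Vof B (refl (sh 1 x))) (1 - b) i = -dir (Vof B x) b (1 - i) := by
  rw [Vof_refl, Vof_sh, dir_refl, dir_sh]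
  congr 2 <;> ring

theorem mirror (x : ℤ → ℝ) (i : ℤ) : refl (sh 1 x) i = x (1 - i) := by
  unfold refl sh
  congr 1
  ring

theorem mirror_pl {B : ℝ} {x : ℤ → ℝ} {b : ℤ} (hP : PlL B (dir (Vof B x) b) 0 b) :
    PlR B (dir (Vof B (refl (sh 1 x))) (1 - b)) (1 - b) 1 := by
  intro i h1 h2
  rw [mirror_dir, mirror_dir, abs_neg, abs_neg, sub_self]
  have := hP (1 - i) (by omega) (by omega)
  rwa [sub_zero] at this

end HalfX

open HalfX in
/-- `pl` with `δ = x' - x`, `t = δ (a+1)`, `X = 1/5`, `W = |w 1|`; to the left of `a` the step map is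
`(B^100+2)`-Lipschitz. -/
theorem hl1 {B k : ℝ} (hB : 10 ^ 8 ≤ B) (hk : 2 * Real.pi * k = B ^ 100) {x x' : ℤ → ℝ} (hx : IsOrb k x)
    (hx' : IsOrb k x') {a : ℤ} (ha : a ≤ -1) (hP : PlR B (dir (Vof B x) a) a 1)
    (h0 : |x' a - x a| ≤ B ^ (-160 * (2 - a)))
    (h1 : |x' (a + 1) - x (a + 1)| * |dir (Vof B x) a 1| ≤ 1 / 5) :
    (∀ i, a ≤ i → i ≤ 1 → |x' i - x i| ≤ 1 / 4 * B ^ (-80 * (1 - i))) ∧
    (∀ i, i < a → |x' i - x i| ≤ B ^ (101 * (a - i) + 80 * a)) ∧
    (∀ i, i ≤ 0 → |Vof B x' i - Vof B x i| ≤ tolL B a i) := by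
  have hB1 : 1 ≤ B := by linarith
  have hB0 : 0 < B := by linarith
  have A1 : ∀ i, a ≤ i → i ≤ 1 → |x' i - x i| ≤ 1 / 4 * B ^ (-80 * (1 - i)) := by
    intro i hi hi1
    have h := pl (𝕜 := ℝ) (B := B) (by linarith) (V := Vof B x) (w := dir (Vof B x) a)
      (δ := fun i => x' i - x i) (t := x' (a + 1) - x (a + 1)) (a := a) (m := 1)
      (W := |dir (Vof B x) a 1|) (X := 1 / 5)
      (fun i _ _ => (Vof_bdd B x).norm_le (by linarith) i) (fun i _ _ => dir_Sol _ _ i)
      (fun i _ _ h => quad hB hk hx hx' i h) hP h1 (by norm_num)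
      (le_trans (by norm_num) (one_le_pow₀ hB1))
      (by
        rw [dir_zero, mul_zero, sub_zero, show (1 : ℤ) - a + 1 = 2 - a by ring]
        refine le_trans h0 (le_mul_of_one_le_left (by positivity) ?_)
        have : B ≤ B ^ 101 := le_self_pow₀ hB1 (by norm_num)
        linarith)
      (by
        rw [dir_one, mul_one, sub_self, norm_zero]
        positivity) i hi hi1
    rw [Real.norm_eq_abs] at h
    have h2 := pw hB (m := -160 * (1 - i + 1)) (n := -80 * (1 - i)) (by omega)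
    have h3 := hP i hi hi1
    have h4 : |(x' (a + 1) - x (a + 1)) * dir (Vof B x) a i| ≤ 1 / 5 * B ^ (-80 * (1 - i)) := by
      rw [abs_mul]
      refine (mul_le_mul_of_nonneg_left h3 (abs_nonneg _)).trans ?_
      rw [mul_left_comm, mul_comm (1 / 5 : ℝ)]
      exact mul_le_mul_of_nonneg_left h1 (by positivity)
    have h5 := abs_add_le (x' i - x i - (x' (a + 1) - x (a + 1)) * dir (Vof B x) a i)
      ((x' (a + 1) - x (a + 1)) * dir (Vof B x) a i)
    rw [sub_add_cancel] at h5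
    have h6 : 0 < B ^ (-80 * (1 - i)) := by positivity
    linarith
  have A2 : ∀ i, i < a → |x' i - x i| ≤ B ^ (101 * (a - i) + 80 * a) := by
    intro i hi
    obtain ⟨U, hU, hb, -⟩ := exists_U hB hk hx hx'
    have h6 : 0 < B ^ (80 * a) := by positivity
    rw [zpow_add₀ hB0.ne']
    refine hU.growth_left (by linarith) hb ?_ ?_ i hi.le
    · have h2 := A1 a le_rfl (by omega)
      have h3 : B ^ (-80 * (1 - a)) ≤ B ^ (80 * a) := zpow_le_zpow_right₀ hB1 (by omega)
      linarith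
    · have h2 := A1 (a + 1) (by omega) (by omega)
      rw [show -80 * (1 - (a + 1)) = 80 * a by ring] at h2
      linarith
  refine ⟨A1, A2, fun i hi => (Vof_lip hB x x' i).trans ?_⟩
  have h3 : B ^ (101 : ℤ) = B ^ (101 : ℕ) := zpow_natCast B 101
  unfold tolL
  split_ifs with h
  · rw [show 101 - 80 * (1 - i) = 101 + -80 * (1 - i) by ring, zpow_add₀ hB0.ne', h3]
    refine mul_le_mul_of_nonneg_left ((A1 i h (by omega)).trans ?_) (by positivity)
    have h6 : 0 < B ^ (-80 * (1 - i)) := by positivity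
    linarith
  · rw [add_assoc, zpow_add₀ hB0.ne', h3]
    exact mul_le_mul_of_nonneg_left (A2 i (not_le.1 h)) (by positivity)

open HalfX in
/-- `ll` (with `μ = B^101`, `m = 1`) for `Vof B x'` gives the first claim.  `δ = x' - x` solves `Sol U δ` with the
difference quotient potential `U i` (`= Vof B x i` if `δ i = 0`), `|U i - Vof B x i| ≤ B^101 |δ i|`; `ll` for
`ŵ = dir U a`; `Wr_dir`: `- δ a = ŵ 0 δ 1 - ŵ 1 δ 0`. -/
theorem hl2 {B k : ℝ} (hB : 10 ^ 8 ≤ B) (hk : 2 * Real.pi * k = B ^ 100) {x x' : ℤ → ℝ} (hx : IsOrb k x)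
    (hx' : IsOrb k x') {a : ℤ} (ha : a ≤ -1) (hP : PlR B (dir (Vof B x) a) a 1)
    (h0 : |x' a - x a| ≤ B ^ (-160 * (2 - a)))
    (h1 : |x' (a + 1) - x (a + 1)| * |dir (Vof B x) a 1| ≤ 1 / 5) :
    |dir (Vof B x') a 1| ≤ 2 * |dir (Vof B x) a 1| ∧
    |x' 0 - x 0| * |dir (Vof B x) a 1| ≤
      1 / 4 * |x' 1 - x 1| * |dir (Vof B x) a 1| + 2 * |x' a - x a| := by
  have hB1 : 1 ≤ B := by linarith
  have hB0 : 0 < B := by linarith
  obtain ⟨A1, -, -⟩ := hl1 hB hk hx hx' ha hP h0 h1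
  have A2 : ∀ i, a ≤ i → i ≤ 1 → |x' i - x i| ≤ B ^ (-80 * (1 - i)) := fun i hi hi1 => by
    have h2 := A1 i hi hi1
    have h6 : 0 < B ^ (-80 * (1 - i)) := by positivity
    linarith
  have A3 : ∀ i, a ≤ i → i ≤ 1 → |x' i - x i| ≤ 1 := fun i hi hi1 =>
    (A2 i hi hi1).trans (zpow_le_one_of_nonpos₀ hB1 (by omega))
  have L : ∀ V' : ℤ → ℝ, (∀ i, a < i → i < 1 → |V' i - Vof B x i| ≤ B ^ 101 * |x' i - x i|) →
      ∀ i, a ≤ i → i ≤ 1 → |dir V' a i - dir (Vof B x) a i| ≤ 1 / 25 * |dir (Vof B x) a 1| := by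
    intro V' hV' i hi hi1
    have h := ll (𝕜 := ℝ) (B := B) (by linarith) (V := Vof B x) (V' := V') (w := dir (Vof B x) a)
      (w' := dir V' a) (a := a) (m := 1) (W := |dir (Vof B x) a 1|) (μ := B ^ 101)
      (fun i _ _ => (Vof_bdd B x).norm_le (by linarith) i) (fun i _ _ => dir_Sol _ _ i)
      (fun i _ _ => dir_Sol _ _ i)
      (fun i c1 c2 => (hV' i c1 c2).trans
        (mul_le_mul_of_nonneg_left (A2 i c1.le c2.le) (by positivity)))
      hP (by positivity) (pow_le_pow_right₀ hB1 (by norm_num)) (abs_nonneg _)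
      (by rw [dir_zero, dir_zero]) (by rw [dir_one, dir_one]) i hi hi1
    refine le_trans h (mul_le_mul_of_nonneg_right ?_ (abs_nonneg _))
    have h2 := pw hB (m := -160 * (1 - i + 1)) (n := 0) (by omega)
    rw [zpow_zero] at h2
    linarith
  have hW := abs_nonneg (dir (Vof B x) a 1)
  constructor
  · have h2 := L (Vof B x') (fun i _ _ => Vof_lip hB x x' i) 1 (by omega) le_rfl
    have h3 := abs_sub_abs_le_abs_sub (dir (Vof B x') a 1) (dir (Vof B x) a 1)
    linarith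
  · obtain ⟨U, hU, -, hUV⟩ := exists_U hB hk hx hx'
    have L' := L U fun i c1 c2 => hUV i (A3 i c1.le c2.le)
    have h2 := L' 1 (by omega) le_rfl
    have h3 := L' 0 (by omega) (by omega)
    have h4 := hP 0 (by omega) (by omega)
    have h5 : B ^ (-80 * (1 - 0) : ℤ) ≤ 1 / 100 := by
      have c1 := pw hB (m := -80 * (1 - 0) - 101) (n := 0) (by omega)
      have c2 : B ^ (101 : ℕ) * B ^ (-80 * (1 - 0) - 101 : ℤ) = B ^ (-80 * (1 - 0) : ℤ) := by
        rw [← zpow_natCast B 101, ← zpow_add₀ hB0.ne']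
        norm_num
      rw [zpow_zero, c2] at c1
      generalize B ^ (-80 * (1 - 0) : ℤ) = r at c1 ⊢
      linarith
    have h6 := h4.trans (mul_le_mul_of_nonneg_right h5 hW)
    clear h4 h5
    have h7 : |dir U a 0| ≤ 1 / 8 * |dir (Vof B x) a 1| := by
      have := abs_sub_abs_le_abs_sub (dir U a 0) (dir (Vof B x) a 0)
      linarith
    have h8 : 1 / 2 * |dir (Vof B x) a 1| ≤ |dir U a 1| := by
      have := abs_sub_abs_le_abs_sub (dir (Vof B x) a 1) (dir U a 1)
      rw [abs_sub_comm] at this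
      linarith
    have h9 := Wr_dir hU a 0
    simp only [Wr, zero_add] at h9
    have h10 : dir U a 1 * (x' 0 - x 0) = dir U a 0 * (x' 1 - x 1) + (x' a - x a) := by linarith
    have h11 := abs_add_le (dir U a 0 * (x' 1 - x 1)) (x' a - x a)
    rw [← h10, abs_mul, abs_mul] at h11
    have h12 := mul_le_mul_of_nonneg_right h7 (abs_nonneg (x' 1 - x 1))
    have h13 := mul_le_mul_of_nonneg_right h8 (abs_nonneg (x' 0 - x 0))
    linarith

open HalfX in
/-- mirror (`i ↦ 1 - i`, i.e. `refl` of `sh`) of `hl1`. -/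
theorem hr1 {B k : ℝ} (hB : 10 ^ 8 ≤ B) (hk : 2 * Real.pi * k = B ^ 100) {x x' : ℤ → ℝ} (hx : IsOrb k x)
    (hx' : IsOrb k x') {b : ℤ} (hb : 2 ≤ b) (hP : PlL B (dir (Vof B x) b) 0 b)
    (h0 : |x' b - x b| ≤ B ^ (-160 * (1 + b)))
    (h1 : |x' (b - 1) - x (b - 1)| * |dir (Vof B x) b 0| ≤ 1 / 5) :
    (∀ i, 0 ≤ i → i ≤ b → |x' i - x i| ≤ 1 / 4 * B ^ (-80 * i)) ∧
    (∀ i, 1 ≤ i → |Vof B x' i - Vof B x i| ≤ tolL B (1 - b) (1 - i)) := by
  obtain ⟨A1, -, A3⟩ := hl1 hB hk (hx.sh 1).refl (hx'.sh 1).refl (a := 1 - b) (by omega) (mirror_pl hP)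
    (by
      rw [mirror, mirror, sub_sub_cancel, show (2 : ℤ) - (1 - b) = 1 + b by ring]
      exact h0)
    (by
      rw [mirror, mirror, mirror_dir, abs_neg, sub_self,
        show (1 : ℤ) - (1 - b + 1) = b - 1 by ring]
      exact h1)
  refine ⟨fun i hi hib => ?_, fun i hi => ?_⟩
  · have := A1 (1 - i) (by omega) (by omega)
    rwa [mirror, mirror, sub_sub_cancel] at this
  · have := A3 (1 - i) (by omega)
    rwa [Vof_refl, Vof_refl, Vof_sh, Vof_sh, mirror, mirror, sub_sub_cancel] at this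

open HalfX in
theorem hr2 {B k : ℝ} (hB : 10 ^ 8 ≤ B) (hk : 2 * Real.pi * k = B ^ 100) {x x' : ℤ → ℝ} (hx : IsOrb k x)
    (hx' : IsOrb k x') {b : ℤ} (hb : 2 ≤ b) (hP : PlL B (dir (Vof B x) b) 0 b)
    (h0 : |x' b - x b| ≤ B ^ (-160 * (1 + b)))
    (h1 : |x' (b - 1) - x (b - 1)| * |dir (Vof B x) b 0| ≤ 1 / 5) :
    |dir (Vof B x') b 0| ≤ 2 * |dir (Vof B x) b 0| ∧
    |x' 1 - x 1| * |dir (Vof B x) b 0| ≤
      1 / 4 * |x' 0 - x 0| * |dir (Vof B x) b 0| + 2 * |x' b - x b| := by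
  have := hl2 hB hk (hx.sh 1).refl (hx'.sh 1).refl (a := 1 - b) (by omega) (mirror_pl hP)
    (by
      rw [mirror, mirror, sub_sub_cancel, show (2 : ℤ) - (1 - b) = 1 + b by ring]
      exact h0)
    (by
      rw [mirror, mirror, mirror_dir, abs_neg, sub_self,
        show (1 : ℤ) - (1 - b + 1) = b - 1 by ring]
      exact h1)
  simp only [mirror, mirror_dir, abs_neg, sub_self, sub_zero, sub_sub_cancel] at this
  exact this

end Crest.Agent.R128
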