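import Crest.Agent.R128.Defs

set_option autoImplicit false
open MeasureTheory Set

namespace Crest.Agent.R128
open Classical

/-! MT: multiple covers, mass transport, edge symmetry; packing; Vitali covering along lines. -/

/-- no measurability needed: replace `E j` by `toMeasurable`, integrate the indicators. -/
theorem mc {Ω ι : Type*} [MeasurableSpace Ω] (μ : Measure Ω) [IsFiniteMeasure μ] (J : Finset ι)
    (E : ι → Set Ω) (F : Set Ω) (m : ℝ) (h : ∀ y ∈ F, m ≤ ((J.filter (fun j => y ∈ E j)).card : ℝ)) :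
    m * μ.real F ≤ ∑ j ∈ J, μ.real (E j) := by
  rcases le_or_gt m 0 with hm | hm
  · exact (mul_nonpos_of_nonpos_of_nonneg hm measureReal_nonneg).trans
      (Finset.sum_nonneg fun _ _ => measureReal_nonneg)
  have hi : ∀ j ∈ J, Integrable ((toMeasurable μ (E j)).indicator fun _ => (1 : ℝ)) μ :=
    fun j _ => (integrable_const 1).indicator (measurableSet_toMeasurable μ _)
  have h1 := mul_meas_ge_le_integral_of_nonneg (μ := μ)
    (f := fun y => ∑ j ∈ J, (toMeasurable μ (E j)).indicator (fun _ => (1 : ℝ)) y)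
    (Filter.Eventually.of_forall fun y => Finset.sum_nonneg fun j _ =>
      Set.indicator_nonneg (fun _ _ => zero_le_one) y)
    (integrable_finset_sum J hi) m
  rw [integral_finset_sum J hi] at h1
  refine le_trans (mul_le_mul_of_nonneg_left (measureReal_mono fun y hy => ?_) hm.le)
    (h1.trans (le_of_eq (Finset.sum_congr rfl fun j _ => ?_)))
  · refine (h y hy).trans ?_
    rw [Finset.card_filter, Nat.cast_sum]
    refine Finset.sum_le_sum fun j _ => ?_
    split_ifs with hj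
    · rw [Set.indicator_of_mem (subset_toMeasurable μ _ hj)]; simp
    · simpa using Set.indicator_nonneg (fun _ _ => zero_le_one) y
  · rw [integral_indicator_const _ (measurableSet_toMeasurable μ _), smul_eq_mul, mul_one,
      measureReal_def, measure_toMeasurable, measureReal_def]

theorem measurable_sh (z : ℤ) : Measurable (sh z : (ℤ → ℝ) → ℤ → ℝ) :=
  measurable_pi_lambda _ fun i => measurable_pi_apply (i + z)

theorem MTX.sh_sh (z z' : ℤ) (y : ℤ → ℝ) : sh z (sh z' y) = sh (z + z') y := by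
  funext i; simp only [sh, add_assoc]

theorem MTX.sh_zero (y : ℤ → ℝ) : sh 0 y = y := by
  funext i; simp only [sh, add_zero]

/-- the shift as a measurable equivalence -/
def MTX.shE (z : ℤ) : (ℤ → ℝ) ≃ᵐ (ℤ → ℝ) where
  toFun := sh z
  invFun := sh (-z)
  left_inv y := by rw [MTX.sh_sh, neg_add_cancel, MTX.sh_zero]
  right_inv y := by rw [MTX.sh_sh, add_neg_cancel, MTX.sh_zero]
  measurable_toFun := measurable_sh z
  measurable_invFun := measurable_sh (-z)

/-- `sh z` is a measurable equivalence, so invariance holds for all sets. -/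
theorem real_sh (μ : Measure (ℤ → ℝ)) (hμ : ∀ z, MeasurePreserving (sh z) μ μ) (E : Set (ℤ → ℝ)) (z : ℤ) :
    μ.real {y | sh z y ∈ E} = μ.real E := by
  have h : MeasurePreserving (MTX.shE z) μ μ := hμ z
  rw [measureReal_def, measureReal_def, ← h.measure_preimage_equiv E]
  rfl

/-- `m μ F ≤ ∑_z μ (F ∩ sh z ⁻¹ E) = ∑_z μ (sh (-z) ⁻¹ F ∩ E) ≤ μ E` (disjoint measurable pieces). -/
theorem mt (μ : Measure (ℤ → ℝ)) [IsProbabilityMeasure μ] (hμ : ∀ z, MeasurePreserving (sh z) μ μ)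
    (E F : Set (ℤ → ℝ)) (hF : MeasurableSet F) (r : ℤ) (m : ℝ)
    (hsep : ∀ y ∈ F, ∀ z : ℤ, z ≠ 0 → |z| ≤ 2 * r → sh z y ∉ F)
    (hcov : ∀ y ∈ F, m ≤ (((Finset.Icc (-r) r).filter (fun z => sh z y ∈ E)).card : ℝ)) :
    m * μ.real F ≤ μ.real E := by
  have h1 := mc μ (Finset.Icc (-r) r) (fun z => {y | y ∈ F ∧ sh z y ∈ E}) F m fun y hy => by
    refine (hcov y hy).trans (le_of_eq ?_)
    congr 2
    ext z
    simp [hy]
  have hA : ∀ z : ℤ, MeasurableSet {w : ℤ → ℝ | sh (-z) w ∈ F} := fun z => measurable_sh (-z) hF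
  have h2 : ∀ z : ℤ, μ.real {y | y ∈ F ∧ sh z y ∈ E} = (μ.restrict E).real {w | sh (-z) w ∈ F} := by
    intro z
    rw [measureReal_restrict_apply (hA z), ← real_sh μ hμ ({w | sh (-z) w ∈ F} ∩ E) z]
    congr 1
    ext y
    simp only [mem_setOf_eq, mem_inter_iff, MTX.sh_sh, neg_add_cancel, MTX.sh_zero]
  simp only [h2] at h1
  rw [← measureReal_biUnion_finset (fun z hz z' hz' hne => ?_) fun z _ => hA z] at h1
  · refine h1.trans ((measureReal_mono (subset_univ _)).trans (le_of_eq ?_))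
    rw [measureReal_restrict_apply MeasurableSet.univ, univ_inter]
  · refine Set.disjoint_left.2 fun w hw hw' => ?_
    have a1 := Finset.mem_Icc.1 (Finset.mem_coe.1 hz)
    have a2 := Finset.mem_Icc.1 (Finset.mem_coe.1 hz')
    refine hsep _ hw (z - z') (sub_ne_zero.2 hne) (abs_le.2 ⟨by omega, by omega⟩) ?_
    rw [MTX.sh_sh, show z - z' + -z = -z' by ring]
    exact hw'

theorem edge_eq (μ : Measure (ℤ → ℝ)) [IsProbabilityMeasure μ] (hμ : ∀ z, MeasurePreserving (sh z) μ μ)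
    (G : Set (ℤ → ℝ)) (hG : MeasurableSet G) :
    μ.real {y | y ∈ G ∧ sh 1 y ∉ G} = μ.real {y | sh 1 y ∈ G ∧ y ∉ G} := by
  have hA : MeasurableSet {y : ℤ → ℝ | sh 1 y ∈ G} := measurable_sh 1 hG
  have h1 := measureReal_inter_add_diff (μ := μ) (s := G) hA
  have h2 := measureReal_inter_add_diff (μ := μ) (s := {y : ℤ → ℝ | sh 1 y ∈ G}) hG
  have h3 := real_sh μ hμ G 1
  rw [inter_comm] at h2
  have e1 : {y | y ∈ G ∧ sh 1 y ∉ G} = G \ {y : ℤ → ℝ | sh 1 y ∈ G} := rfl
  have e2 : {y | sh 1 y ∈ G ∧ y ∉ G} = {y : ℤ → ℝ | sh 1 y ∈ G} \ G := rfl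
  rw [e1, e2]
  linarith

theorem two_sets {Ω : Type*} [MeasurableSpace Ω] (μ : Measure Ω) [IsFiniteMeasure μ] (S C' C P : Set Ω)
    (hS : MeasurableSet S) (hP : MeasurableSet P) (h1 : S ∪ C' ⊆ C ∪ P) (h2 : S ∩ C' ⊆ C ∩ P) :
    μ.real S + μ.real C' ≤ μ.real C + μ.real P := by
  rw [← measureReal_union_add_inter' hS, ← measureReal_union_add_inter hP]
  exact add_le_add (measureReal_mono h1) (measureReal_mono h2)

/-- Use `Vitali.exists_disjoint_subfamily_covering_enlargement_closedBall` with constant radius `r`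
(countable disjoint subfamily; the `Z p` of its centres are disjoint; the `5r` balls cover `F`;
a sup-norm ball of radius `5r` has area `(10 r)^2`). -/
theorem pack {X : Type*} [MeasurableSpace X] (μ : Measure X) (F : Set (ℝ × ℝ)) (r : ℝ) (hr : 0 < r)
    (v : ENNReal) (Z : ℝ × ℝ → Set X) (Zt : Set X) (hZ : ∀ p ∈ F, MeasurableSet (Z p))
    (hv : ∀ p ∈ F, v ≤ μ (Z p)) (hsub : ∀ p ∈ F, Z p ⊆ Zt)
    (hd : ∀ p ∈ F, ∀ p' ∈ F, (Z p ∩ Z p').Nonempty → dist p p' ≤ r) :
    v * volume F ≤ ENNReal.ofReal (100 * r ^ 2) * μ Zt := by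
  obtain ⟨u, huF, hdis, hcov⟩ := Vitali.exists_disjoint_subfamily_covering_enlargement_closedBall
    F (fun p => p) (fun _ => r) r (fun _ _ => le_rfl) 5 (by norm_num)
  have hc : u.Countable := hdis.countable_of_nonempty_interior fun p _ =>
    ⟨p, mem_interior_iff_mem_nhds.2 (Metric.closedBall_mem_nhds p hr)⟩
  have h1 : volume F ≤ ∑' _ : u, ENNReal.ofReal (100 * r ^ 2) := by
    have : F ⊆ ⋃ p ∈ u, Metric.closedBall p (5 * r) := fun p hp => by
      obtain ⟨b, hb, h⟩ := hcov p hp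
      exact mem_biUnion hb (h (Metric.mem_closedBall_self hr.le))
    refine (measure_mono this).trans ((measure_biUnion_le _ hc _).trans
      (ENNReal.tsum_le_tsum fun p => le_of_eq ?_))
    obtain ⟨⟨a, b⟩, _⟩ := p
    simp only
    rw [← closedBall_prod_same, Measure.volume_eq_prod, Measure.prod_prod, Real.volume_closedBall,
      Real.volume_closedBall, ← ENNReal.ofReal_mul (by positivity)]
    congr 1
    ring
  have h2 : ∑' p : u, μ (Z p) ≤ μ Zt := by
    rw [← measure_biUnion hc (fun p hp p' hp' hne => ?_) fun p hp => hZ p (huF hp)]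
    · exact measure_mono (iUnion₂_subset fun p hp => hsub p (huF hp))
    · refine Set.disjoint_iff_inter_eq_empty.2 (not_nonempty_iff_eq_empty.1 fun hn => ?_)
      have h3 := hd p (huF hp) p' (huF hp') hn
      exact Set.disjoint_left.1 (hdis hp hp' hne) (Metric.mem_closedBall_self hr.le) h3
  calc v * volume F ≤ v * ∑' _ : u, ENNReal.ofReal (100 * r ^ 2) := by gcongr
    _ = ENNReal.ofReal (100 * r ^ 2) * ∑' _ : u, v := by
        rw [← ENNReal.tsum_mul_left, ← ENNReal.tsum_mul_left]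
        simp only [mul_comm]
    _ ≤ ENNReal.ofReal (100 * r ^ 2) * ∑' p : u, μ (Z p) := by
        gcongr with p
        exact hv p (huF p.2)
    _ ≤ _ := by gcongr

theorem MTX.cov_line (E G : Set ℝ) (κ : ℝ) (hκ : 0 ≤ κ) (T : Set ℝ) (hT : T ⊆ E)
    (h : ∀ p ∈ T, ∃ ρ : ℝ, 0 < ρ ∧ ρ ≤ 1 ∧
      volume {t : ℝ | |t| ≤ ρ ∧ p + t ∈ E} ≤ ENNReal.ofReal (κ * ρ) ∧
      ∀ t : ℝ, |t| ≤ ρ / 5 → p + t ∈ G) :
    volume T ≤ ENNReal.ofReal (3 * κ) * volume G := by
  choose! ρ h0 h1 h2 h3 using h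
  obtain ⟨u, huT, hdis, hcov⟩ := Vitali.exists_disjoint_subfamily_covering_enlargement_closedBall
    T (fun p => p) (fun p => ρ p / 5) 1
    (fun p hp => by have := h1 p hp; have := h0 p hp; linarith) 5 (by norm_num)
  have hc : u.Countable := hdis.countable_of_nonempty_interior fun p hp =>
    ⟨p, mem_interior_iff_mem_nhds.2
      (Metric.closedBall_mem_nhds p (by have := h0 p (huT hp); positivity))⟩
  have a1 : T ⊆ ⋃ p ∈ u, (fun x => -p + x) ⁻¹' {t : ℝ | |t| ≤ ρ p ∧ p + t ∈ E} := fun p hp => by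
    obtain ⟨b, hb, h⟩ := hcov p hp
    have h4 := h (Metric.mem_closedBall_self (by have := h0 p hp; positivity))
    rw [Metric.mem_closedBall, Real.dist_eq] at h4
    refine mem_biUnion hb ⟨?_, ?_⟩
    · beta_reduce; rw [neg_add_eq_sub]; linarith
    · beta_reduce; rw [add_neg_cancel_left]; exact hT hp
  have a2 : ∑' p : u, volume (Metric.closedBall (p : ℝ) (ρ p / 5)) ≤ volume G := by
    rw [← measure_biUnion hc hdis fun p _ => measurableSet_closedBall]
    refine measure_mono (iUnion₂_subset fun p hp x hx => ?_)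
    have := h3 p (huT hp) (x - p) (by rwa [Metric.mem_closedBall, Real.dist_eq] at hx)
    rwa [add_sub_cancel] at this
  refine (measure_mono a1).trans ((measure_biUnion_le _ hc _).trans ?_)
  refine le_trans ?_ (mul_le_mul_right a2 _)
  rw [← ENNReal.tsum_mul_left]
  refine ENNReal.tsum_le_tsum fun p => ?_
  rw [measure_preimage_add, Real.volume_closedBall, ← ENNReal.ofReal_mul (by positivity)]
  refine (h2 p (huT p.2)).trans (ENNReal.ofReal_le_ofReal ?_)
  have := mul_nonneg hκ (h0 p (huT p.2)).le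
  linarith

/-- On each line `p.1 = s` use Vitali with radii `ρ/5` (disjoint small intervals lie in the section of `G`, inside
`[-1,2)`; their 5-fold enlargements are the given intervals), then `Measure.prod_apply` for the measurable
`E ∩ Q` and for `toMeasurable (G ∩ Q3)`. -/
theorem cov (E G : Set (ℝ × ℝ)) (hE : MeasurableSet E) (κ : ℝ) (hκ : 0 ≤ κ)
    (h : ∀ p ∈ E ∩ Q, ∃ ρ : ℝ, 0 < ρ ∧ ρ ≤ 1 ∧
      volume {t : ℝ | |t| ≤ ρ ∧ (p.1, p.2 + t) ∈ E} ≤ ENNReal.ofReal (κ * ρ) ∧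
      ∀ t : ℝ, |t| ≤ ρ → (p.1, p.2 + t) ∈ G) :
    volume (E ∩ Q) ≤ ENNReal.ofReal (3 * κ) * volume (G ∩ Q3) := by
  have hQ : MeasurableSet Q := measurableSet_Ico.prod measurableSet_Ico
  have hM := measurableSet_toMeasurable (volume : Measure (ℝ × ℝ)) (G ∩ Q3)
  rw [← measure_toMeasurable (G ∩ Q3)]
  generalize hH : toMeasurable (volume : Measure (ℝ × ℝ)) (G ∩ Q3) = H at hM
  have hGH : G ∩ Q3 ⊆ H := hH ▸ subset_toMeasurable _ _
  rw [Measure.volume_eq_prod, Measure.prod_apply (hE.inter hQ), Measure.prod_apply hM,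
    ← lintegral_const_mul' _ _ ENNReal.ofReal_ne_top]
  refine lintegral_mono fun s => ?_
  refine MTX.cov_line (Prod.mk s ⁻¹' E) _ κ hκ _ (fun t ht => ht.1) fun t ht => ?_
  obtain ⟨ρ, h0, h1, h2, h3⟩ := h (s, t) ht
  refine ⟨ρ, h0, h1, h2, fun x hx => hGH ⟨h3 x (by linarith [abs_nonneg x]), ?_⟩⟩
  obtain ⟨⟨b1, b2⟩, b3, b4⟩ := ht.2
  have := abs_le.1 hx
  simp only at b1 b2 b3 b4
  exact ⟨⟨by simp only; linarith, by simp only; linarith⟩, by simp only; linarith,
    by simp only; linarith⟩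

end Crest.Agent.R128
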