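import Crest.Agent.R128.LinA
import Crest.Agent.R128.MT

set_option autoImplicit false
open MeasureTheory Set

namespace Crest.Agent.R128
open Classical

/-! Meas: the invariant measure.  Key tool: for measurable `g` and a `ℤ²`-periodic measurable set `S`,
the shear `(x,y) ↦ (x, y + g x)`, the swap and `(x,y) ↦ (x,-y)` preserve `volume (S ∩ Q)` (Fubini; on each line a
1-periodic set has the same measure in every interval of length one, e.g. `Function.Periodic.intervalIntegral_add_eq`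
or `AddCircle`/`IsAddFundamentalDomain`).  `sh 1 (Y k P) = Y k (P.2, f P.2 - P.1)` by `Y_sh`. -/

namespace MeasX

theorem per_Ioc {A : Set ℝ} (hA : MeasurableSet A) (hp : ∀ (x : ℝ) (n : ℤ), x + n ∈ A ↔ x ∈ A)
    (a : ℝ) : volume (A ∩ Ioc a (a + 1)) = volume (A ∩ Ico 0 1) := by
  have h1 := isAddFundamentalDomain_Ioc (T := (1 : ℝ)) one_pos a volume
  have h0 := isAddFundamentalDomain_Ioc (T := (1 : ℝ)) one_pos 0 volume
  have h := h1.measure_set_eq h0 hA (by
    rintro ⟨g, hg⟩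
    obtain ⟨n, rfl⟩ := AddSubgroup.mem_zmultiples_iff.1 hg
    ext x
    simp only [mem_preimage]
    have : (⟨n • (1 : ℝ), hg⟩ : AddSubgroup.zmultiples (1 : ℝ)) +ᵥ x = x + n := by
      change n • (1 : ℝ) + x = x + n
      simp [add_comm]
    rw [this]
    exact hp x n)
  rw [h, zero_add]
  exact measure_congr (ae_eq_set_inter (ae_eq_refl _) Ico_ae_eq_Ioc.symm)

theorem per_add {A : Set ℝ} (hA : MeasurableSet A) (hp : ∀ (x : ℝ) (n : ℤ), x + n ∈ A ↔ x ∈ A)
    (c : ℝ) : volume ({y | y + c ∈ A} ∩ Ico 0 1) = volume (A ∩ Ico 0 1) := by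
  rw [← per_Ioc hA hp c, ← measure_preimage_add_right volume c (A ∩ Ioc c (c + 1))]
  have : (fun h => h + c) ⁻¹' (A ∩ Ioc c (c + 1)) = {y | y + c ∈ A} ∩ Ioc 0 1 := by
    ext y
    simp only [mem_preimage, mem_inter_iff, mem_Ioc, mem_ofPred_eq]
    constructor
    · rintro ⟨h1, h2, h3⟩; exact ⟨h1, by linarith, by linarith⟩
    · rintro ⟨h1, h2, h3⟩; exact ⟨h1, by linarith, by linarith⟩
  rw [this]
  exact measure_congr (ae_eq_set_inter (ae_eq_refl _) Ico_ae_eq_Ioc)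

theorem per_sub {A : Set ℝ} (hA : MeasurableSet A) (hp : ∀ (x : ℝ) (n : ℤ), x + n ∈ A ↔ x ∈ A)
    (c : ℝ) : volume ({y | c - y ∈ A} ∩ Ico 0 1) = volume (A ∩ Ico 0 1) := by
  rw [← per_Ioc hA hp (c - 1), ← (Measure.measurePreserving_sub_left volume c).measure_preimage
    (hA.inter measurableSet_Ioc).nullMeasurableSet]
  congr 1
  ext y
  simp only [mem_preimage, mem_inter_iff, mem_Ioc, mem_Ico, mem_ofPred_eq]
  constructor
  · rintro ⟨h1, h2, h3⟩; exact ⟨h1, by linarith, by linarith⟩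
  · rintro ⟨h1, h2, h3⟩; exact ⟨h1, by linarith, by linarith⟩

theorem measurableSet_Q : MeasurableSet Q := measurableSet_Ico.prod measurableSet_Ico

theorem vol_Q : volume Q = 1 := by
  unfold Q
  rw [Measure.volume_eq_prod, Measure.prod_prod]
  simp

/-- `ℤ²`-periodic sets -/
def Per (S : Set (ℝ × ℝ)) : Prop := ∀ (P : ℝ × ℝ) (m n : ℤ), (P.1 + m, P.2 + n) ∈ S ↔ P ∈ S

/-- Fubini comparison of two sets inside `Q`. -/
theorem fub {S T : Set (ℝ × ℝ)} (hS : MeasurableSet S) (hT : MeasurableSet T)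
    (h : ∀ x : ℝ, volume ({y | (x, y) ∈ T} ∩ Ico 0 1) = volume ({y | (x, y) ∈ S} ∩ Ico 0 1)) :
    volume (T ∩ Q) = volume (S ∩ Q) := by
  rw [Measure.volume_eq_prod, Measure.prod_apply (hT.inter measurableSet_Q),
    Measure.prod_apply (hS.inter measurableSet_Q)]
  refine lintegral_congr fun x => ?_
  by_cases hx : x ∈ Ico (0 : ℝ) 1
  · have e : ∀ U : Set (ℝ × ℝ), Prod.mk x ⁻¹' (U ∩ Q) = {y | (x, y) ∈ U} ∩ Ico 0 1 := by
      intro U; ext y
      simp only [Q, mem_preimage, mem_inter_iff, mem_prod, mem_ofPred_eq]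
      tauto
    rw [e, e, h]
  · have e : ∀ U : Set (ℝ × ℝ), Prod.mk x ⁻¹' (U ∩ Q) = ∅ := by
      intro U; ext y
      simp only [Q, mem_preimage, mem_inter_iff, mem_prod, mem_empty_iff_false]
      tauto
    rw [e, e]

theorem sec_meas {S : Set (ℝ × ℝ)} (hS : MeasurableSet S) (x : ℝ) :
    MeasurableSet {y : ℝ | (x, y) ∈ S} := measurable_prodMk_left hS

theorem sec_per {S : Set (ℝ × ℝ)} (hp : Per S) (x y : ℝ) (n : ℤ) :
    y + n ∈ {y : ℝ | (x, y) ∈ S} ↔ y ∈ {y : ℝ | (x, y) ∈ S} := by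
  have := hp (x, y) 0 n
  simpa using this

theorem shear_add {S : Set (ℝ × ℝ)} (hS : MeasurableSet S) (hp : Per S) {g : ℝ → ℝ}
    (hg : Measurable g) :
    volume ({p : ℝ × ℝ | (p.1, p.2 + g p.1) ∈ S} ∩ Q) = volume (S ∩ Q) := by
  have hm : Measurable fun p : ℝ × ℝ => (p.1, p.2 + g p.1) :=
    measurable_fst.prodMk (measurable_snd.add (hg.comp measurable_fst))
  refine fub hS (hm hS) fun x => ?_
  exact per_add (sec_meas hS x) (sec_per hp x) (g x)

theorem shear_sub {S : Set (ℝ × ℝ)} (hS : MeasurableSet S) (hp : Per S) {g : ℝ → ℝ}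
    (hg : Measurable g) :
    volume ({p : ℝ × ℝ | (p.1, g p.1 - p.2) ∈ S} ∩ Q) = volume (S ∩ Q) := by
  have hm : Measurable fun p : ℝ × ℝ => (p.1, g p.1 - p.2) :=
    measurable_fst.prodMk ((hg.comp measurable_fst).sub measurable_snd)
  refine fub hS (hm hS) fun x => ?_
  exact per_sub (sec_meas hS x) (sec_per hp x) (g x)

theorem swap_Q {S : Set (ℝ × ℝ)} (hS : MeasurableSet S) :
    volume ({p : ℝ × ℝ | (p.2, p.1) ∈ S} ∩ Q) = volume (S ∩ Q) := by
  have h := (Measure.measurePreserving_swap (μ := (volume : Measure ℝ)) (ν := (volume : Measure ℝ))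
    ).measure_preimage (hS.inter measurableSet_Q).nullMeasurableSet
  rw [Measure.volume_eq_prod, ← h]
  congr 1
  ext p
  simp only [Q, mem_preimage, mem_inter_iff, mem_prod, mem_ofPred_eq, Prod.fst_swap, Prod.snd_swap]
  have : p.swap = (p.2, p.1) := rfl
  rw [this]
  tauto

theorem per_Y (k : ℝ) (E : Set (ℤ → ℝ)) : Per (Y k ⁻¹' E) := by
  intro P m n
  simp only [mem_preimage, Y_add_int]

theorem transl {S : Set (ℝ × ℝ)} (hp : Per S) (m n : ℤ) :
    volume (S ∩ {p : ℝ × ℝ | (p.1 - m, p.2 - n) ∈ Q}) = volume (S ∩ Q) := by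
  rw [← measure_preimage_add_right volume ((m : ℝ), (n : ℝ))
    (S ∩ {p : ℝ × ℝ | (p.1 - m, p.2 - n) ∈ Q})]
  congr 1
  ext p
  simp only [mem_preimage, mem_inter_iff, mem_ofPred_eq, Prod.fst_add, Prod.snd_add,
    add_sub_cancel_right]
  have : p + ((m : ℝ), (n : ℝ)) = (p.1 + m, p.2 + n) := rfl
  rw [this, hp p m n]

theorem cos_small {c x : ℝ} (hx : x ∈ Ico (0 : ℝ) 1) (h : |Real.cos (2 * Real.pi * x)| < c) :
    x ∈ Ioo (1 / 4 - c / 4) (1 / 4 + c / 4) ∪ Ioo (3 / 4 - c / 4) (3 / 4 + c / 4) := by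
  have hpi := Real.pi_pos
  have key : ∀ t : ℝ, |t| ≤ 1 / 4 → |Real.sin (2 * Real.pi * t)| < c → |t| < c / 4 := by
    intro t ht hs
    have h1 : |2 * Real.pi * t| = 2 * Real.pi * |t| := by
      rw [abs_mul, abs_of_pos (by positivity : (0 : ℝ) < 2 * Real.pi)]
    have h2 := Real.mul_abs_le_abs_sin (x := 2 * Real.pi * t) (by rw [h1]; nlinarith)
    rw [h1] at h2
    have h3 : 2 / Real.pi * (2 * Real.pi * |t|) = 4 * |t| := by field_simp; ring
    linarith
  rcases le_total x (1 / 2) with h1 | h1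
  · left
    have e : Real.sin (2 * Real.pi * (1 / 4 - x)) = Real.cos (2 * Real.pi * x) := by
      rw [← Real.sin_pi_div_two_sub]; congr 1; ring
    have := key (1 / 4 - x) (abs_le.2 ⟨by linarith, by linarith [hx.1]⟩) (by rw [e]; exact h)
    rw [abs_lt] at this
    exact ⟨by linarith [this.2], by linarith [this.1]⟩
  · right
    have e : Real.sin (2 * Real.pi * (x - 3 / 4)) = Real.cos (2 * Real.pi * x) := by
      rw [← Real.sin_add_pi_div_two, ← Real.sin_add_two_pi]; congr 1; ring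
    have := key (x - 3 / 4) (abs_le.2 ⟨by linarith, by linarith [hx.2]⟩) (by rw [e]; exact h)
    rw [abs_lt] at this
    exact ⟨by linarith [this.1], by linarith [this.2]⟩

end MeasX

open MeasX

theorem measurable_Y (k : ℝ) : Measurable (Y k) :=
  measurable_pi_lambda _ fun i => (continuous_orb k i).measurable.fract
instance nu_prob (k : ℝ) : IsProbabilityMeasure (nu k) := by
  have : IsProbabilityMeasure (volume.restrict Q) := ⟨by rw [Measure.restrict_apply_univ, vol_Q]⟩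
  exact Measure.isProbabilityMeasure_map (measurable_Y k).aemeasurable
theorem nu_apply (k : ℝ) {E : Set (ℤ → ℝ)} (hE : MeasurableSet E) :
    nu k E = volume (Y k ⁻¹' E ∩ Q) := by
  unfold nu
  rw [Measure.map_apply (measurable_Y k) hE, Measure.restrict_apply (measurable_Y k hE)]

theorem MeasX.nu_shift_one (k : ℝ) : MeasurePreserving (sh 1) (nu k) (nu k) := by
  refine ⟨measurable_sh 1, ?_⟩
  ext E hE
  rw [Measure.map_apply (measurable_sh 1) hE, nu_apply k (measurable_sh 1 hE), nu_apply k hE]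
  have hg : Measurable fun x : ℝ => 2 * x + k * Real.sin (2 * Real.pi * x) := by fun_prop
  have hS : MeasurableSet (Y k ⁻¹' E) := measurable_Y k hE
  have hm : Measurable fun p : ℝ × ℝ =>
      (p.1, 2 * p.1 + k * Real.sin (2 * Real.pi * p.1) - p.2) := by fun_prop
  have hT : MeasurableSet {p : ℝ × ℝ |
      (p.1, 2 * p.1 + k * Real.sin (2 * Real.pi * p.1) - p.2) ∈ Y k ⁻¹' E} := hm hS
  rw [← shear_sub hS (per_Y k E) hg, ← swap_Q hT]
  congr 2
  ext P
  simp only [mem_preimage, mem_ofPred_eq]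
  rw [← Y_sh k P 1]
  have h2 := orb_isOrb k P 1
  have e0 : (1 : ℤ) - 1 = 0 := by norm_num
  rw [e0, orb_zero, orb_one] at h2
  have h3 : orb k P (1 + 1) = 2 * P.2 + k * Real.sin (2 * Real.pi * P.2) - P.1 := by linarith
  rw [h3, orb_one]

theorem MeasX.nu_shift_neg_one (k : ℝ) : MeasurePreserving (sh (-1)) (nu k) (nu k) := by
  refine ⟨measurable_sh _, ?_⟩
  conv_lhs => rw [← (MeasX.nu_shift_one k).map_eq]
  rw [Measure.map_map (measurable_sh _) (measurable_sh _)]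
  have : (sh (-1) ∘ sh 1 : (ℤ → ℝ) → ℤ → ℝ) = id := by
    funext y i
    simp [sh]
  rw [this, Measure.map_id]

theorem nu_shift (k : ℝ) (z : ℤ) : MeasurePreserving (sh z) (nu k) (nu k) := by
  induction z using Int.induction_on with
  | zero =>
    have : (sh 0 : (ℤ → ℝ) → ℤ → ℝ) = id := by
      funext y i
      simp [sh]
    rw [this]
    exact MeasurePreserving.id _
  | succ n ih =>
    have : (sh ((n : ℤ) + 1) : (ℤ → ℝ) → ℤ → ℝ) = sh (n : ℤ) ∘ sh 1 := by
      funext y i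
      simp [sh, add_assoc]
    rw [this]
    exact ih.comp (MeasX.nu_shift_one k)
  | pred n ih =>
    have : (sh (-(n : ℤ) - 1) : (ℤ → ℝ) → ℤ → ℝ) = sh (-(n : ℤ)) ∘ sh (-1) := by
      funext y i
      simp only [sh, Function.comp]
      congr 1
      ring
    rw [this]
    exact ih.comp (MeasX.nu_shift_neg_one k)
theorem nu_real_sh (k : ℝ) (E : Set (ℤ → ℝ)) (z : ℤ) : (nu k).real {y | sh z y ∈ E} = (nu k).real E :=
  real_sh (nu k) (nu_shift k) E z
/-- for arbitrary `E` pass to `toMeasurable`; `Q3` is the union of nine translates of `Q`. -/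
theorem nu_Q3 (k : ℝ) (E : Set (ℤ → ℝ)) : volume (Y k ⁻¹' E ∩ Q3) ≤ 9 * nu k E := by
  rw [← measure_toMeasurable E, nu_apply k (measurableSet_toMeasurable _ _)]
  set S := Y k ⁻¹' toMeasurable (nu k) E with hS
  have hsub : Y k ⁻¹' E ∩ Q3 ⊆ ⋃ a ∈ (Finset.Icc (-1 : ℤ) 1 ×ˢ Finset.Icc (-1 : ℤ) 1),
      (S ∩ {p : ℝ × ℝ | (p.1 - a.1, p.2 - a.2) ∈ Q}) := by
    rintro p ⟨hp, h1, h2⟩
    simp only [mem_iUnion]
    have fl : ∀ x : ℝ, x ∈ Ico (-1 : ℝ) 2 → ⌊x⌋ ∈ Finset.Icc (-1 : ℤ) 1 := by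
      intro x hx
      rw [Finset.mem_Icc]
      constructor
      · exact Int.le_floor.2 (by push_cast; exact hx.1)
      · have : ⌊x⌋ < 2 := Int.floor_lt.2 (by push_cast; exact hx.2)
        omega
    refine ⟨(⌊p.1⌋, ⌊p.2⌋), Finset.mem_product.2 ⟨fl _ h1, fl _ h2⟩,
      subset_toMeasurable _ _ hp, ?_, ?_⟩
    · exact ⟨Int.fract_nonneg _, Int.fract_lt_one _⟩
    · exact ⟨Int.fract_nonneg _, Int.fract_lt_one _⟩
  refine (measure_mono hsub).trans ((measure_biUnion_finset_le _ _).trans ?_)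
  rw [Finset.sum_congr rfl (fun a _ => transl (per_Y k _) a.1 a.2), Finset.sum_const]
  have : (Finset.Icc (-1 : ℤ) 1 ×ˢ Finset.Icc (-1 : ℤ) 1).card = 9 := by decide
  rw [this, nsmul_eq_mul]
  exact le_of_eq (by norm_num [hS])
theorem nu_cos (k c : ℝ) (hc : 0 ≤ c) (i : ℤ) :
    (nu k).real {y | |Real.cos (2 * Real.pi * y i)| < c} ≤ 2 * c := by
  have e : {y : ℤ → ℝ | |Real.cos (2 * Real.pi * y i)| < c}
      = {y | sh i y ∈ {y : ℤ → ℝ | |Real.cos (2 * Real.pi * y 0)| < c}} := by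
    ext y
    simp [sh]
  rw [e, nu_real_sh]
  have hm : MeasurableSet {y : ℤ → ℝ | |Real.cos (2 * Real.pi * y 0)| < c} :=
    measurableSet_lt (by fun_prop) measurable_const
  unfold Measure.real
  rw [nu_apply k hm]
  refine ENNReal.toReal_le_of_le_ofReal (by positivity) ?_
  have hsub : Y k ⁻¹' {y : ℤ → ℝ | |Real.cos (2 * Real.pi * y 0)| < c} ∩ Q ⊆
      (Ioo (1 / 4 - c / 4) (1 / 4 + c / 4) ∪ Ioo (3 / 4 - c / 4) (3 / 4 + c / 4)) ×ˢ Ico (0 : ℝ) 1 := by
    rintro p ⟨hp, h1, h2⟩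
    refine ⟨cos_small h1 ?_, h2⟩
    have : Y k p 0 = p.1 := by
      unfold Y
      rw [orb_zero, Int.fract_eq_self.2 h1]
    simpa [this] using hp
  refine (measure_mono hsub).trans ?_
  rw [Measure.volume_eq_prod, Measure.prod_prod]
  refine le_trans (mul_le_mul_left (measure_union_le _ _) _) ?_
  simp only [Real.volume_Ioo, Real.volume_Ico, sub_zero, ENNReal.ofReal_one, mul_one]
  rw [← ENNReal.ofReal_add (by linarith) (by linarith)]
  exact ENNReal.ofReal_le_ofReal (by linarith)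
theorem nu_p (k : ℝ) {E : Set (ℤ → ℝ)} (hE : MeasurableSet E) :
    nu k E = volume ({p : ℝ × ℝ | Y k (p.1, p.1 + p.2 + k * Real.sin (2 * Real.pi * p.1)) ∈ E} ∩ Q) := by
  have hg : Measurable fun x : ℝ => x + k * Real.sin (2 * Real.pi * x) := by fun_prop
  rw [nu_apply k hE, ← shear_add (measurable_Y k hE) (per_Y k E) hg]
  congr 2
  ext p
  simp only [mem_preimage, mem_ofPred_eq]
  have : p.2 + (p.1 + k * Real.sin (2 * Real.pi * p.1))
      = p.1 + p.2 + k * Real.sin (2 * Real.pi * p.1) := by ring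
  rw [this]

end Crest.Agent.R128
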