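import Crest.Agent.R128.Half
import Crest.Agent.R128.Meas
import Crest.Agent.R128.Mble

set_option autoImplicit false
open MeasureTheory Set

namespace Crest.Agent.R128
open Classical

/-! Ind: independence across a hyperbolic bond `(0,1)` by rectangle packing. -/

namespace IndX

open HalfX

theorem D_ge {B : ℝ} (hB : 1 ≤ B) {V : ℤ → ℝ} {a : ℤ} (ha : a ≤ -1) (hP : PlR B (dir V a) a 1) :
    1 ≤ |dir V a 1| := by
  have h := hP (a + 1) (by omega) (by omega)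
  rw [dir_one, abs_one] at h
  exact h.trans (mul_le_of_le_one_left (abs_nonneg _) (zpow_le_one_of_nonpos₀ hB (by omega)))

theorem rD_le {B r : ℝ} (hB : 2 ≤ B) (x : ℤ → ℝ) {a : ℤ} (ha : a ≤ -1)
    (hr : r ≤ B ^ (-300 * (4 - a))) : r * |dir (Vof B x) a 1| ≤ B ^ (-160 * (2 - a)) := by
  have B0 : 0 < B := by linarith
  have h := Sol.growth_right hB (Vof_bdd B x) (dir_Sol _ a) (a := a) (M := 1)
    (by rw [dir_zero]; simp) (by rw [dir_one]; simp) 1 (by omega)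
  rw [mul_one] at h
  refine (mul_le_mul hr h (abs_nonneg _) (zpow_pos B0 _).le).trans ?_
  rw [← zpow_add₀ B0.ne']
  exact zpow_le_zpow_right₀ (by linarith) (by omega)

theorem Vof_add_int (B : ℝ) (x : ℤ → ℝ) (c : ℤ → ℤ) :
    Vof B (fun i => x i + ((c i : ℤ) : ℝ)) = Vof B x := by
  funext i
  simp only [Vof]
  rw [show 2 * Real.pi * (x i + (c i : ℝ)) = 2 * Real.pi * x i + (c i : ℝ) * (2 * Real.pi) by ring,
    Real.cos_add_int_mul_two_pi]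

section
variable {B k r : ℝ} {x x' : ℤ → ℝ} {a : ℤ}

theorem left0 (hB : 10 ^ 8 ≤ B) (hk : 2 * Real.pi * k = B ^ 100) (hx : IsOrb k x)
    (hx' : IsOrb k x') (ha : a ≤ -1) (r0 : 0 ≤ r) (hr : r ≤ B ^ (-300 * (4 - a)))
    (hL : PlR B (dir (Vof B x) a) a 1) (hD : |dir (Vof B x) a 1| ≤ |dir (Vof B x') a 1|)
    (h1 : |x' a - x a| ≤ r / 10 * (|dir (Vof B x) a 1| + |dir (Vof B x') a 1|))
    (h2 : |x' (a + 1) - x (a + 1)| ≤
      1 / 10 / |dir (Vof B x) a 1| + 1 / 10 / |dir (Vof B x') a 1|) :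
    |x' 0 - x 0| ≤ 1 / 4 ∧ |x' 1 - x 1| ≤ 1 / 4 ∧ |x' 0 - x 0| ≤ |x' 1 - x 1| / 4 + 6 * r / 10 := by
  have B1 : 1 ≤ B := by linarith
  have D1 := D_ge B1 ha hL
  have a1 := rD_le (by linarith) x ha hr
  have a2 := rD_le (by linarith) x' ha hr
  have a0 := zpow_pos (by linarith : 0 < B) (-160 * (2 - a))
  have D0 : 0 < |dir (Vof B x) a 1| := by linarith
  have b0 : |x' a - x a| ≤ B ^ (-160 * (2 - a)) := by linarith
  have b1 : |x' (a + 1) - x (a + 1)| * |dir (Vof B x) a 1| ≤ 1 / 5 := by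
    have c1 : 1 / 10 / |dir (Vof B x') a 1| ≤ 1 / 10 / |dir (Vof B x) a 1| :=
      div_le_div_of_nonneg_left (by norm_num) D0 hD
    have c2 : |x' (a + 1) - x (a + 1)| ≤ 1 / 5 / |dir (Vof B x) a 1| := by
      have : 1 / 5 / |dir (Vof B x) a 1| = 2 * (1 / 10 / |dir (Vof B x) a 1|) := by ring
      linarith
    rwa [le_div_iff₀ D0] at c2
  obtain ⟨c1, -, -⟩ := hl1 hB hk hx hx' ha hL b0 b1
  obtain ⟨c2, c3⟩ := hl2 hB hk hx hx' ha hL b0 b1
  have c4 : ∀ i, a ≤ i → i ≤ 1 → |x' i - x i| ≤ 1 / 4 := fun i h h' =>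
    (c1 i h h').trans (mul_le_of_le_one_right (by norm_num)
      (zpow_le_one_of_nonpos₀ B1 (by omega)))
  refine ⟨c4 0 (by omega) (by omega), c4 1 (by omega) le_rfl, le_of_mul_le_mul_right ?_ D0⟩
  have c5 := mul_le_mul_of_nonneg_left c2 r0
  linarith

theorem left1 (hB : 10 ^ 8 ≤ B) (hk : 2 * Real.pi * k = B ^ 100) (hx : IsOrb k x)
    (hx' : IsOrb k x') (ha : a ≤ -1) (r0 : 0 ≤ r) (hr : r ≤ B ^ (-300 * (4 - a)))
    (hL : PlR B (dir (Vof B x) a) a 1) (hL' : PlR B (dir (Vof B x') a) a 1)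
    (h1 : |x' a - x a| ≤ r / 10 * (|dir (Vof B x) a 1| + |dir (Vof B x') a 1|))
    (h2 : |x' (a + 1) - x (a + 1)| ≤
      1 / 10 / |dir (Vof B x) a 1| + 1 / 10 / |dir (Vof B x') a 1|) :
    |x' 0 - x 0| ≤ 1 / 4 ∧ |x' 1 - x 1| ≤ 1 / 4 ∧ |x' 0 - x 0| ≤ |x' 1 - x 1| / 4 + 6 * r / 10 := by
  rcases le_total |dir (Vof B x) a 1| |dir (Vof B x') a 1| with h | h
  · exact left0 hB hk hx hx' ha r0 hr hL h h1 h2
  · have := left0 hB hk hx' hx ha r0 hr hL' h (by rwa [abs_sub_comm, add_comm])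
      (by rwa [abs_sub_comm, add_comm (1 / 10 / _)])
    rwa [abs_sub_comm (x 0), abs_sub_comm (x 1)] at this

theorem left2 (hB : 10 ^ 8 ≤ B) (hk : 2 * Real.pi * k = B ^ 100) (hx : IsOrb k x)
    (hx' : IsOrb k x') (ha : a ≤ -1) (r0 : 0 ≤ r) (hr : r ≤ B ^ (-300 * (4 - a)))
    (hL : PlR B (dir (Vof B x) a) a 1) (hL' : PlR B (dir (Vof B x') a) a 1) (m₀ m₁ : ℤ)
    (h1 : |x' a - x a - m₀| ≤ r / 10 * (|dir (Vof B x) a 1| + |dir (Vof B x') a 1|))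
    (h2 : |x' (a + 1) - x (a + 1) - m₁| ≤
      1 / 10 / |dir (Vof B x) a 1| + 1 / 10 / |dir (Vof B x') a 1|) :
    ∃ m n : ℤ, |x' 0 - x 0 - m| ≤ 1 / 4 ∧ |x' 1 - x 1 - n| ≤ 1 / 4 ∧
      |x' 0 - x 0 - m| ≤ |x' 1 - x 1 - n| / 4 + 6 * r / 10 := by
  have e := Vof_add_int B x' fun i => (-m₀ - (m₀ - m₁) * a) + (m₀ - m₁) * i
  have h := left1 hB hk hx (hx'.add_int (-m₀ - (m₀ - m₁) * a) (m₀ - m₁)) ha r0 hr hL
    (by rwa [e]) (by rw [e]; convert h1 using 2; push_cast; ring)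
    (by rw [e]; convert h2 using 2; push_cast; ring)
  refine ⟨-((-m₀ - (m₀ - m₁) * a) + (m₀ - m₁) * 0), -((-m₀ - (m₀ - m₁) * a) + (m₀ - m₁) * 1), ?_⟩
  have e' : ∀ (u v : ℝ) (c : ℤ), u - v - ((-c : ℤ) : ℝ) = u + c - v := fun u v c => by
    push_cast; ring
  rw [e', e']
  exact h

end

theorem int_eq {u : ℝ} {m m' : ℤ} (h : |u - m| ≤ 1 / 4) (h' : |u - m'| ≤ 1 / 4) : m = m' := by
  have h1 := abs_le.1 h
  have h2 := abs_le.1 h'
  have a1 : (m : ℝ) < m' + 1 := by linarith [h1.1, h2.2]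
  have a2 : (m' : ℝ) < m + 1 := by linarith [h1.2, h2.1]
  have a3 : m < m' + 1 := by exact_mod_cast a1
  have a4 : m' < m + 1 := by exact_mod_cast a2
  omega

theorem int_zero {u r : ℝ} {m : ℤ} (hu : |u| ≤ 1 / 2) (hr : r < 1 / 2) (h : |u - m| ≤ r) :
    |u| ≤ r := by
  have h1 := abs_le.1 h
  have h2 := abs_le.1 hu
  have a1 : (m : ℝ) < 1 := by linarith [h1.1, h2.2]
  have a2 : (-1 : ℝ) < m := by linarith [h1.2, h2.1]
  have a3 : m < 1 := by exact_mod_cast a1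
  have a4 : -1 < m := by exact_mod_cast a2
  obtain rfl : m = 0 := by omega
  simpa using h

theorem fract_sub {u v z ρ ρ' : ℝ} (h : z ∈ Metric.closedBall (Int.fract u) ρ)
    (h' : z ∈ Metric.closedBall (Int.fract v) ρ') : |v - u - ((⌊v⌋ - ⌊u⌋ : ℤ) : ℝ)| ≤ ρ + ρ' := by
  rw [Metric.mem_closedBall, Real.dist_eq, Int.fract, abs_le] at h h'
  push_cast
  rw [abs_le]
  constructor <;> linarith [h.1, h.2, h'.1, h'.2]

theorem mem_Ico3 {u z ρ : ℝ} (h : z ∈ Metric.closedBall (Int.fract u) ρ) (hρ : ρ ≤ 1) :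
    z ∈ Ico (-1 : ℝ) 2 := by
  rw [Metric.mem_closedBall, Real.dist_eq, abs_le] at h
  exact ⟨by linarith [Int.fract_nonneg u, h.1], by linarith [Int.fract_lt_one u, h.2]⟩

/-- the orbit through a point of a box at the bond `c` -/
theorem exists_orb (B k : ℝ) (x : ℤ → ℝ) (c : ℤ) (z : ℝ × ℝ) {ρ ρ' : ℝ}
    (h : z ∈ Metric.closedBall (Int.fract (x c)) ρ ×ˢ Metric.closedBall (Int.fract (x (c + 1))) ρ') :
    ∃ x', IsOrb k x' ∧ Vof B (sh (-c) (Y k z)) = Vof B x' ∧ |x' c - x c| ≤ ρ ∧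
      |x' (c + 1) - x (c + 1)| ≤ ρ' := by
  obtain ⟨h1, h2⟩ := h
  rw [Metric.mem_closedBall, Real.dist_eq, Int.fract] at h1 h2
  refine ⟨sh (-c) (orb k (z.1 + ⌊x c⌋, z.2 + ⌊x (c + 1)⌋)), (orb_isOrb k _).sh _, ?_, ?_, ?_⟩
  · rw [Vof_sh, Vof_sh, ← Y_add_int k z ⌊x c⌋ ⌊x (c + 1)⌋, Vof_Y]
  · simp only [sh]
    rw [add_neg_cancel, orb_zero]
    convert h1 using 2
    ring
  · simp only [sh]
    rw [show c + 1 + -c = 1 by ring, orb_one]
    convert h2 using 2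
    ring

theorem vol_box (c c' : ℝ) {r D : ℝ} (hr : 0 ≤ r) (hD : 0 < D) :
    volume (Metric.closedBall c (r / 10 * D) ×ˢ Metric.closedBall c' (1 / 10 / D)) =
      ENNReal.ofReal (r / 25) := by
  rw [Measure.volume_eq_prod, Measure.prod_prod, Real.volume_closedBall, Real.volume_closedBall,
    ← ENNReal.ofReal_mul (by positivity)]
  congr 1
  field_simp
  ring

theorem vol_box' (c c' : ℝ) {r D : ℝ} (hr : 0 ≤ r) (hD : 0 < D) :
    volume (Metric.closedBall c (1 / 10 / D) ×ˢ Metric.closedBall c' (r / 10 * D)) =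
      ENNReal.ofReal (r / 25) := by
  rw [Measure.volume_eq_prod, Measure.prod_prod, Real.volume_closedBall, Real.volume_closedBall,
    ← ENNReal.ofReal_mul (by positivity)]
  congr 1
  field_simp
  ring

end IndX

open IndX HalfX

/-- deterministic core.  `x, x'` orbits with Pliss data on both sides; `r = B^(-300 (b-a+2))`,
`D = |dir V a 1|`, `D' = |dir V' a 1|`, `E = |dir V b 0|`, `E' = |dir V' b 0|`.  Subtract from `x'` the integer progression with values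
`m₀, m₁` at `a, a+1` (`IsOrb.add_int`; `Vof` unchanged).  By symmetry assume `D ≤ D'` for the left part (else exchange the roles, the
conclusion is symmetric); `r (D + D')/10 ≤ B^(-160(2-a))` since `D, D' ≤ B^(101 (-a))`; `hl1` gives `|δ 0|, |δ 1| ≤ 1/4`, `hl2` gives `D' ≤ 2D` and
`|δ 0| ≤ |δ 1|/4 + 6 r/10`.  Same on the right with another progression; the two progressions agree at `0` and `1` (integers at
distance `≤ 1/2`), so `|δ 0|, |δ 1| ≤ 8r/10`. -/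
theorem ind_core {B k : ℝ} (hB : 10 ^ 8 ≤ B) (hk : 2 * Real.pi * k = B ^ 100) {x x' : ℤ → ℝ} (hx : IsOrb k x)
    (hx' : IsOrb k x') {a b : ℤ} (ha : a ≤ -1) (hb : 2 ≤ b)
    (hL : PlR B (dir (Vof B x) a) a 1) (hL' : PlR B (dir (Vof B x') a) a 1)
    (hR : PlL B (dir (Vof B x) b) 0 b) (hR' : PlL B (dir (Vof B x') b) 0 b) (m₀ m₁ n₀ n₁ : ℤ)
    (h1 : |x' a - x a - m₀| ≤
      B ^ (-300 * (b - a + 2)) / 10 * (|dir (Vof B x) a 1| + |dir (Vof B x') a 1|))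
    (h2 : |x' (a + 1) - x (a + 1) - m₁| ≤ 1 / 10 / |dir (Vof B x) a 1| + 1 / 10 / |dir (Vof B x') a 1|)
    (h3 : |x' b - x b - n₀| ≤
      B ^ (-300 * (b - a + 2)) / 10 * (|dir (Vof B x) b 0| + |dir (Vof B x') b 0|))
    (h4 : |x' (b - 1) - x (b - 1) - n₁| ≤ 1 / 10 / |dir (Vof B x) b 0| + 1 / 10 / |dir (Vof B x') b 0|) :
    ∃ m n : ℤ, |x' 0 - x 0 - m| ≤ B ^ (-300 * (b - a + 2)) ∧ |x' 1 - x 1 - n| ≤ B ^ (-300 * (b - a + 2)) := by
  have B1 : 1 ≤ B := by linarith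
  have r0 := (zpow_pos (by linarith : 0 < B) (-300 * (b - a + 2))).le
  obtain ⟨m, n, a1, a2, a3⟩ := left2 hB hk hx hx' ha r0 (zpow_le_zpow_right₀ B1 (by omega))
    hL hL' m₀ m₁ h1 h2
  obtain ⟨n', m', b1, b2, b3⟩ := left2 hB hk (hx.sh 1).refl (hx'.sh 1).refl (a := 1 - b) (by omega)
    r0 (zpow_le_zpow_right₀ B1 (by omega)) (mirror_pl hR) (mirror_pl hR') n₀ n₁
    (by
      rw [mirror, mirror, mirror_dir, mirror_dir, abs_neg, abs_neg, sub_self, sub_sub_cancel]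
      exact h3)
    (by
      rw [mirror, mirror, mirror_dir, mirror_dir, abs_neg, abs_neg, sub_self,
        show (1 : ℤ) - (1 - b + 1) = b - 1 by ring]
      exact h4)
  simp only [mirror, sub_zero, sub_self] at b1 b2 b3
  obtain rfl := int_eq a1 b2
  obtain rfl := int_eq a2 b1
  exact ⟨m, n, by linarith, by linarith⟩

/-- `F = Y ⁻¹' (event) ∩ Q`, cut in four squares of side `1/2` (no wrap-around: `ind_core` then gives `m = n = 0`).
For `p ∈ F`, `x = orb k p`: `Z p = L p ×ˢ R p ⊆ (ℝ×ℝ)×(ℝ×ℝ)` with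
`L p = Icc (fract (x a) ∓ rD/10) ×ˢ Icc (fract (x (a+1)) ∓ 1/(10 D))`, `R p = Icc (fract (x (b-1)) ∓ 1/(10E)) ×ˢ Icc (fract (x b) ∓ rE/10)`,
volume `(r/25)^2`.  A point `z ∈ L p` is the data at the bond `a` of the orbit `x' = sh (-a) (orb k z')`, `z' = z + ` integer vector;
`hl1` and `hA` give `sh (-a) (Y k z) ∈ 𝒜p` (`Vof_Y`, `Y_add_int`).  So `Z p ⊆ Zt = (Y ⁻¹' {y | sh (-a) y ∈ 𝒜p} ∩ Q3) ×ˢ (Y ⁻¹' {y | sh (-(b-1)) y ∈ ℬp} ∩ Q3)`,
of measure `≤ 81 ν 𝒜p ν ℬp` (`Measure.prod_prod`, `nu_Q3`, `real_sh`).  `pack`: `4 * 100 * 625 * 81 ≤ 10^8`. -/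
theorem ind {B k : ℝ} (hB : 10 ^ 8 ≤ B) (hk : 2 * Real.pi * k = B ^ 100) {a b : ℤ} (ha : a ≤ -1) (hb : 2 ≤ b)
    (𝒜 ℬ 𝒜p ℬp : Set (ℤ → ℝ)) (h𝒜 : MeasurableSet 𝒜) (hℬ : MeasurableSet ℬ)
    (hA : ∀ y ∈ 𝒜, ∀ y' : ℤ → ℝ, (∀ i, i ≤ 0 → |Vof B y' i - Vof B y i| ≤ tolL B a i) → y' ∈ 𝒜p)
    (hBB : ∀ y ∈ ℬ, ∀ y' : ℤ → ℝ, (∀ i, 1 ≤ i → |Vof B y' i - Vof B y i| ≤ tolL B (1 - b) (1 - i)) → y' ∈ ℬp) :
    (nu k).real (𝒜 ∩ ℬ ∩ {y | PlR B (dir (Vof B y) a) a 1} ∩ {y | PlL B (dir (Vof B y) b) 0 b}) ≤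
      10 ^ 8 * (nu k).real 𝒜p * (nu k).real ℬp := by
  have B1 : 1 ≤ B := by linarith
  have B2 : 2 ≤ B := by linarith
  have B0 : 0 < B := by linarith
  set r := B ^ (-300 * (b - a + 2)) with hr
  have r0 : 0 < r := zpow_pos B0 _
  have r1 : r < 1 / 2 := by
    have h1 : r ≤ B ^ (-1 : ℤ) := zpow_le_zpow_right₀ B1 (by omega)
    rw [zpow_neg_one] at h1
    refine h1.trans_lt ?_
    rw [one_div]
    exact inv_strictAnti₀ (by norm_num) (by linarith)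
  set ev := 𝒜 ∩ ℬ ∩ {y | PlR B (dir (Vof B y) a) a 1} ∩ {y | PlL B (dir (Vof B y) b) 0 b} with hev
  have mev : MeasurableSet ev :=
    ((h𝒜.inter hℬ).inter (measurableSet_PlR B a a 1)).inter (measurableSet_PlL B b 0 b)
  set F := Y k ⁻¹' ev ∩ Q with hF
  have dat : ∀ p ∈ F, PlR B (dir (Vof B (orb k p)) a) a 1 ∧ PlL B (dir (Vof B (orb k p)) b) 0 b :=
    fun p hp => by
      rw [← Vof_Y]
      exact ⟨hp.1.1.2, hp.1.2⟩
  have dD : ∀ p ∈ F, 1 ≤ |dir (Vof B (orb k p)) a 1| ∧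
      r / 10 * |dir (Vof B (orb k p)) a 1| ≤ B ^ (-160 * (2 - a)) := fun p hp => by
    have h1 := rD_le (r := r) B2 (orb k p) ha (zpow_le_zpow_right₀ B1 (by omega))
    have h2 := zpow_pos B0 (-160 * (2 - a))
    exact ⟨D_ge B1 ha (dat p hp).1, by linarith⟩
  have dE : ∀ p ∈ F, 1 ≤ |dir (Vof B (orb k p)) b 0| ∧
      r / 10 * |dir (Vof B (orb k p)) b 0| ≤ B ^ (-160 * (1 + b)) := fun p hp => by
    have h0 := D_ge B1 (by omega) (mirror_pl (dat p hp).2)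
    have h1 := rD_le (r := r) (a := 1 - b) B2 (refl (sh 1 (orb k p))) (by omega)
      (zpow_le_zpow_right₀ B1 (by omega))
    rw [mirror_dir, abs_neg, sub_self] at h0 h1
    rw [show (2 : ℤ) - (1 - b) = 1 + b by ring] at h1
    have h2 := zpow_pos B0 (-160 * (1 + b))
    exact ⟨h0, by linarith⟩
  have inv1 : ∀ D : ℝ, 1 ≤ D → 1 / 10 / D ≤ 1 ∧ 1 / 10 / D * D ≤ 1 / 5 := fun D hD => by
    have D0 : 0 < D := by linarith
    refine ⟨by rw [div_le_one D0]; linarith, ?_⟩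
    rw [div_mul_cancel₀ _ D0.ne']
    norm_num
  have piece : ∀ S : Set (ℝ × ℝ),
      (∀ p ∈ S, ∀ p' ∈ S, |p'.1 - p.1| ≤ 1 / 2 ∧ |p'.2 - p.2| ≤ 1 / 2) →
      volume (F ∩ S) ≤ ENNReal.ofReal (10 ^ 8 / 4 * (nu k).real 𝒜p * (nu k).real ℬp) := by
    intro S hS
    have h := pack (volume : Measure ((ℝ × ℝ) × (ℝ × ℝ))) (F ∩ S) r r0
      (ENNReal.ofReal (r / 25) * ENNReal.ofReal (r / 25))
      (fun p => (Metric.closedBall (Int.fract (orb k p a)) (r / 10 * |dir (Vof B (orb k p)) a 1|) ×ˢ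
          Metric.closedBall (Int.fract (orb k p (a + 1))) (1 / 10 / |dir (Vof B (orb k p)) a 1|)) ×ˢ
        (Metric.closedBall (Int.fract (orb k p (b - 1))) (1 / 10 / |dir (Vof B (orb k p)) b 0|) ×ˢ
          Metric.closedBall (Int.fract (orb k p (b - 1 + 1)))
            (r / 10 * |dir (Vof B (orb k p)) b 0|)))
      ((Y k ⁻¹' {y | sh (-a) y ∈ 𝒜p} ∩ Q3) ×ˢ (Y k ⁻¹' {y | sh (-(b - 1)) y ∈ ℬp} ∩ Q3))
      (fun p _ => (measurableSet_closedBall.prod measurableSet_closedBall).prod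
        (measurableSet_closedBall.prod measurableSet_closedBall))
      (fun p hp => by
        rw [Measure.volume_eq_prod, Measure.prod_prod,
          vol_box _ _ r0.le (one_pos.trans_le (dD p hp.1).1),
          vol_box' _ _ r0.le (one_pos.trans_le (dE p hp.1).1)])
      (fun p hp z hz => by
        obtain ⟨d1, d2⟩ := dD p hp.1
        obtain ⟨e1, e2⟩ := dE p hp.1
        refine ⟨⟨?_, mem_Ico3 hz.1.1 (d2.trans (zpow_le_one_of_nonpos₀ B1 (by omega))),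
          mem_Ico3 hz.1.2 (inv1 _ d1).1⟩, ?_, mem_Ico3 hz.2.1 (inv1 _ e1).1,
          mem_Ico3 hz.2.2 (e2.trans (zpow_le_one_of_nonpos₀ B1 (by omega)))⟩
        · obtain ⟨x', c1, c2, c3, c4⟩ := exists_orb B k (orb k p) a z.1 hz.1
          refine hA _ hp.1.1.1.1.1 _ fun i hi => ?_
          rw [c2, Vof_Y]
          exact (hl1 hB hk (orb_isOrb k p) c1 ha (dat p hp.1).1 (c3.trans d2)
            ((mul_le_mul_of_nonneg_right c4 (abs_nonneg _)).trans (inv1 _ d1).2)).2.2 i hi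
        · obtain ⟨x', c1, c2, c3, c4⟩ := exists_orb B k (orb k p) (b - 1) z.2 hz.2
          refine hBB _ hp.1.1.1.1.2 _ fun i hi => ?_
          rw [c2, Vof_Y]
          rw [sub_add_cancel] at c4
          exact (hr1 hB hk (orb_isOrb k p) c1 hb (dat p hp.1).2 (c4.trans e2)
            ((mul_le_mul_of_nonneg_right c3 (abs_nonneg _)).trans (inv1 _ e1).2)).2 i hi)
      (fun p hp p' hp' ⟨z, hz, hz'⟩ => by
        have c3 := fract_sub hz.2.2 hz'.2.2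
        rw [sub_add_cancel, ← mul_add] at c3
        obtain ⟨m, n, c5, c6⟩ := ind_core hB hk (orb_isOrb k p) (orb_isOrb k p') ha hb
          (dat p hp.1).1 (dat p' hp'.1).1 (dat p hp.1).2 (dat p' hp'.1).2 _ _ _ _
          (by rw [mul_add]; exact fract_sub hz.1.1 hz'.1.1) (fract_sub hz.1.2 hz'.1.2) c3
          (fract_sub hz.2.1 hz'.2.1)
        rw [orb_zero, orb_zero] at c5
        rw [orb_one, orb_one] at c6
        obtain ⟨s1, s2⟩ := hS p hp.2 p' hp'.2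
        rw [dist_comm, Prod.dist_eq, Real.dist_eq, Real.dist_eq]
        exact max_le (int_zero s1 r1 c5) (int_zero s2 r1 c6))
    rw [Measure.volume_eq_prod ((ℝ × ℝ)) (ℝ × ℝ), Measure.prod_prod] at h
    have q : ∀ (E : Set (ℤ → ℝ)) (z : ℤ), volume (Y k ⁻¹' {y | sh z y ∈ E} ∩ Q3) ≤
        ENNReal.ofReal (9 * (nu k).real E) := fun E z => by
      refine (nu_Q3 k _).trans (le_of_eq ?_)
      rw [← nu_real_sh k E z, ENNReal.ofReal_mul (by norm_num), ofReal_measureReal]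
      simp
    have h2 := h.trans (mul_le_mul_right (mul_le_mul' (q 𝒜p _) (q ℬp _)) _)
    have A0 : 0 ≤ (nu k).real 𝒜p := measureReal_nonneg
    have A1 : 0 ≤ (nu k).real ℬp := measureReal_nonneg
    rw [← ENNReal.ofReal_mul (by positivity), ← ENNReal.ofReal_mul (by positivity),
      ← ENNReal.ofReal_mul (by positivity)] at h2
    have v0 : ENNReal.ofReal (r / 25 * (r / 25)) ≠ 0 :=
      (ENNReal.ofReal_pos.2 (by positivity)).ne'
    refine (ENNReal.mul_le_mul_iff_right v0 ENNReal.ofReal_ne_top).1 (h2.trans ?_)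
    rw [← ENNReal.ofReal_mul (by positivity)]
    refine ENNReal.ofReal_le_ofReal ?_
    nlinarith [mul_nonneg (mul_nonneg A0 A1) (sq_nonneg r)]
  have half : ∀ {u v : ℝ} {c : ℝ}, u ∈ Icc c (c + 1 / 2) → v ∈ Icc c (c + 1 / 2) →
      |v - u| ≤ 1 / 2 := fun hu hv =>
    abs_le.2 ⟨by linarith [hu.2, hv.1], by linarith [hu.1, hv.2]⟩
  have sq : ∀ c d : ℝ, volume (F ∩ Icc c (c + 1 / 2) ×ˢ Icc d (d + 1 / 2)) ≤
      ENNReal.ofReal (10 ^ 8 / 4 * (nu k).real 𝒜p * (nu k).real ℬp) := fun c d =>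
    piece _ fun p hp p' hp' => ⟨half hp.1 hp'.1, half hp.2 hp'.2⟩
  have cover : F ⊆ (F ∩ Icc 0 (0 + 1 / 2) ×ˢ Icc 0 (0 + 1 / 2) ∪
      F ∩ Icc 0 (0 + 1 / 2) ×ˢ Icc (1 / 2) (1 / 2 + 1 / 2)) ∪
      (F ∩ Icc (1 / 2) (1 / 2 + 1 / 2) ×ˢ Icc 0 (0 + 1 / 2) ∪
      F ∩ Icc (1 / 2) (1 / 2 + 1 / 2) ×ˢ Icc (1 / 2) (1 / 2 + 1 / 2)) := by
    intro p hp
    obtain ⟨⟨c1, c2⟩, c3, c4⟩ := hp.2
    rcases le_total p.1 (1 / 2) with u | u <;> rcases le_total p.2 (1 / 2) with v | v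
    · exact Or.inl (Or.inl ⟨hp, ⟨c1, by linarith⟩, c3, by linarith⟩)
    · exact Or.inl (Or.inr ⟨hp, ⟨c1, by linarith⟩, v, by linarith⟩)
    · exact Or.inr (Or.inl ⟨hp, ⟨u, by linarith⟩, c3, by linarith⟩)
    · exact Or.inr (Or.inr ⟨hp, ⟨u, by linarith⟩, v, by linarith⟩)
  have A0 : 0 ≤ 10 ^ 8 / 4 * (nu k).real 𝒜p * (nu k).real ℬp := by positivity
  have fin := (measure_mono cover).trans ((measure_union_le _ _).trans (add_le_add
    ((measure_union_le _ _).trans (add_le_add (sq _ _) (sq _ _)))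
    ((measure_union_le _ _).trans (add_le_add (sq _ _) (sq _ _)))))
  rw [← ENNReal.ofReal_add A0 A0, ← ENNReal.ofReal_add (add_nonneg A0 A0) (add_nonneg A0 A0)] at fin
  rw [measureReal_def, nu_apply k mev]
  refine ENNReal.toReal_le_of_le_ofReal (by positivity) (fin.trans (le_of_eq ?_))
  congr 1
  ring

end Crest.Agent.R128
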