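import Crest.Agent.R128.Ind
import Crest.Agent.R128.Pert

set_option autoImplicit false
open MeasureTheory Set

namespace Crest.Agent.R128
open Classical

/-! Ind2: independence across a stretch without `Mb`. -/

/-- regular `j' ∈ [a₀+1, a₀+n]`, `s` from `ext_R` at `j'` (`L = j - j'`), `u` from `ext_L` at `j`; one of `|s a₀|, |s (a₀+1)|` is
`≥ B^(-101 n)`; `d3_R` with `Q1 = Q2 = 101 n` (`Wr_dir`). -/
theorem pliss_pair_R {B : ℝ} (hB : 10 ^ 8 ≤ B) {V : ℤ → ℝ} (hV : Bdd B V) {n N : ℕ} {q g : ℝ}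
    (hp : Par n N q g) (hqB : q * (1 + g) ≤ B ^ (-89 : ℤ)) {a₀ j : ℤ} (hw : Win (Reg V N q) n a₀ j)
    (hj : Reg V N q j) (hd : a₀ + 60 * n ≤ j) :
    ∃ a, (a = a₀ ∨ a = a₀ + 1) ∧ PlR B (dir V a) a (j + 1) := by
  have hn := ExtX.n_ge hp
  have hB2 : (2 : ℝ) ≤ B := by linarith
  have hB1 : (1 : ℝ) ≤ B := by linarith
  have hB0 : (0 : ℝ) < B := by linarith
  obtain ⟨j', h1, h2, h3⟩ := hw (a₀ + 1) (by omega) (by omega)
  obtain ⟨L, rfl⟩ : ∃ L : ℕ, j = j' + L := ⟨(j - j').toNat, by omega⟩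
  obtain ⟨s, hs, hs1, hsd, -⟩ := ext_R hp h3 L (hw.mono (by omega) le_rfl)
  obtain ⟨u, hu, hu1, hud, -⟩ := ext_L hp hj L (hw.mono (by omega) le_rfl)
  have hex : ∃ a, (a = a₀ ∨ a = a₀ + 1) ∧ B ^ (-(101 * (n : ℤ))) ≤ |s a| := by
    by_contra hcon
    push Not at hcon
    have e0 := hcon a₀ (Or.inl rfl)
    have e1 := hcon (a₀ + 1) (Or.inr rfl)
    have e2 := hs.growth_right hB2 hV (le_max_left |s a₀| |s (a₀ + 1)|) (le_max_right _ _) j' (by omega)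
    rw [hs1, abs_one] at e2
    have e3 : max |s a₀| |s (a₀ + 1)| < B ^ (-(101 * (n : ℤ))) := max_lt e0 e1
    have e4 : B ^ (101 * (j' - a₀ - 1)) * B ^ (-(101 * (n : ℤ))) ≤ 1 := by
      rw [← zpow_add₀ hB0.ne']
      exact zpow_le_one_of_nonpos₀ hB1 (by omega)
    have e5 := mul_lt_mul_of_pos_left e3 (zpow_pos hB0 (101 * (j' - a₀ - 1)))
    linarith
  obtain ⟨a, ha, hsa⟩ := hex
  refine ⟨a, ha, d3_R hB (ExtX.p_nonneg hp) hqB hu hs (dir_Sol V a) (j' := j') (Q1 := 101 * n)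
    (Q2 := 101 * n) (by omega) (by omega) (by omega) (by omega) hu1 (fun r hr => hud r (by omega)) hs1
    (fun r hr => hsd r (by omega)) ?_ (fun i hi1 hi2 => ?_) (by omega)⟩
  · rw [Wr_dir hs, abs_neg]; exact hsa
  · rcases hi1.eq_or_lt with h | h
    · rw [← h, dir_zero, abs_zero]; exact (zpow_pos hB0 _).le
    · have := (dir_Sol V a).growth_right hB2 hV (a := a) (M := 1) (by rw [dir_zero]; simp)
        (by rw [dir_one]; simp) i h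
      rw [mul_one] at this
      exact this.trans (zpow_le_zpow_right₀ hB1 (by omega))

theorem pliss_pair_L {B : ℝ} (hB : 10 ^ 8 ≤ B) {V : ℤ → ℝ} (hV : Bdd B V) {n N : ℕ} {q g : ℝ}
    (hp : Par n N q g) (hqB : q * (1 + g) ≤ B ^ (-89 : ℤ)) {b₀ j : ℤ} (hw : Win (Reg V N q) n j (b₀ - 1))
    (hj : Reg V N q j) (hd : j + 1 + 60 * n ≤ b₀) :
    ∃ b, (b = b₀ ∨ b = b₀ - 1) ∧ PlL B (dir V b) j b := by
  have hj' : Reg (refl V) N q (-j - 1) := by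
    rw [Reg_refl, show -(-j - 1) - 1 = j by ring]; exact hj
  have hw' : Win (Reg (refl V) N q) n (-b₀) (-j - 1) := by
    rw [Win_refl, show -(-j - 1) - 1 = j by ring, neg_neg]; exact hw
  obtain ⟨a, ha, h⟩ := pliss_pair_R hB hV.refl hp hqB hw' hj' (by omega)
  refine ⟨-a, by omega, fun i hi1 hi2 => ?_⟩
  have := h (-i) (by omega) (by omega)
  rw [dir_refl, dir_refl, abs_neg, abs_neg, neg_neg, show -(-j - 1 + 1) = j by ring,
    show -j - 1 + 1 - -i = i - j by ring] at this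
  exact this

/-- `ind` shifted to the bond `j`. -/
theorem Ind2X.shifted {B k : ℝ} (hB : 10 ^ 8 ≤ B) (hk : 2 * Real.pi * k = B ^ 100) {a b j : ℤ}
    (ha : a - j ≤ -1) (hb : 2 ≤ b - j)
    (𝒜 ℬ 𝒜p ℬp : Set (ℤ → ℝ)) (h𝒜 : MeasurableSet 𝒜) (hℬ : MeasurableSet ℬ)
    (hA : ∀ y ∈ 𝒜, ∀ y' : ℤ → ℝ,
      (∀ i, i ≤ j → |Vof B y' i - Vof B y i| ≤ tolL B (a - j) (i - j)) → y' ∈ 𝒜p)
    (hBB : ∀ y ∈ ℬ, ∀ y' : ℤ → ℝ,
      (∀ i, j + 1 ≤ i → |Vof B y' i - Vof B y i| ≤ tolL B (1 - (b - j)) (1 - (i - j))) → y' ∈ ℬp) :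
    (nu k).real (𝒜 ∩ ℬ ∩ {y | PlR B (dir (Vof B y) a) a (j + 1)} ∩ {y | PlL B (dir (Vof B y) b) j b}) ≤
      10 ^ 8 * (nu k).real 𝒜p * (nu k).real ℬp := by
  have h := ind hB hk ha hb {y | sh (-j) y ∈ 𝒜} {y | sh (-j) y ∈ ℬ} {y | sh (-j) y ∈ 𝒜p}
    {y | sh (-j) y ∈ ℬp} (measurable_sh (-j) h𝒜) (measurable_sh (-j) hℬ)
    (fun y hy y' h => hA _ hy _ fun i hi => h (i - j) (by omega))
    (fun y hy y' h => hBB _ hy _ fun i hi => h (i - j) (by omega))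
  rw [nu_real_sh, nu_real_sh, ← nu_real_sh k _ j] at h
  refine le_trans (measureReal_mono ?_) h
  rintro y ⟨⟨⟨h1, h2⟩, h3⟩, h4⟩
  have e : sh (-j) (sh j y) = y := by rw [sh_sh, neg_add_cancel, sh_zero]
  refine ⟨⟨⟨?_, ?_⟩, ?_⟩, ?_⟩
  · show sh (-j) (sh j y) ∈ 𝒜
    rwa [e]
  · show sh (-j) (sh j y) ∈ ℬ
    rwa [e]
  · intro i hi1 hi2
    have := h3 (i + j) (by omega) (by omega)
    rw [Vof_sh, dir_sh, dir_sh, sub_add_cancel, add_comm 1 j, show 1 - i = j + 1 - (i + j) by ring]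
    exact this
  · intro i hi1 hi2
    have := h4 (i + j) (by omega) (by omega)
    rw [Vof_sh, dir_sh, dir_sh, sub_add_cancel, zero_add, show i - 0 = i + j - j by ring]
    exact this

/-- Each `y` of the event has at least `0.9 n` regular bonds `j ∈ [j₀, j₀+n)` (`¬ Mb … j₀`); for each of them `y` lies in one of the four
events (`a ∈ {a₀, a₀+1}`, `b ∈ {b₀, b₀-1}`) which, shifted by `j`, are bounded by `ind` (the numeric hypotheses give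
`tolL ≤ B^(-400 N)` on the windows).  `mc`: `0.9 n ν ≤ n * 4 * 10^8 ν ν`. -/
theorem ind2 {B k : ℝ} (hB : 10 ^ 8 ≤ B) (hk : 2 * Real.pi * k = B ^ 100) {q : ℕ → ℝ} (hq : QOK B q) (l : ℕ)
    (a₀ j₀ b₀ αL βL αR βR : ℤ) (𝒜 ℬ 𝒜p ℬp : Set (ℤ → ℝ)) (h𝒜 : MeasurableSet 𝒜) (hℬ : MeasurableSet ℬ)
    (h1 : a₀ + 10 * NN l ≤ j₀) (h2 : j₀ + 11 * NN l ≤ b₀) (h3 : βL + 10 * NN l ≤ j₀)
    (h4 : j₀ + 11 * NN l ≤ αR)
    (h5 : a₀ + 1 ≤ αL ∨ 101 * (a₀ + 1 - αL) + 400 * NN l + 300 ≤ 80 * (j₀ - a₀))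
    (h6 : βR ≤ b₀ - 1 ∨ 101 * (βR - b₀ + 1) + 400 * NN l + 300 ≤ 80 * (b₀ - j₀ - NN l))
    (hA : ∀ y ∈ 𝒜, ∀ y' : ℤ → ℝ,
      (∀ i, αL ≤ i → i ≤ βL → |Vof B y' i - Vof B y i| ≤ B ^ (-400 * (NN l : ℤ))) → y' ∈ 𝒜p)
    (hBB : ∀ y ∈ ℬ, ∀ y' : ℤ → ℝ,
      (∀ i, αR ≤ i → i ≤ βR → |Vof B y' i - Vof B y i| ≤ B ^ (-400 * (NN l : ℤ))) → y' ∈ ℬp) :
    (nu k).real (𝒜 ∩ ℬ ∩ {y | ∀ x, a₀ ≤ x → x ≤ b₀ → ¬ Mb (pat B q y) l x}) ≤
      10 ^ 9 * (nu k).real 𝒜p * (nu k).real ℬp := by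
  have hB1 : (1 : ℝ) ≤ B := by linarith
  have hB0 : (0 : ℝ) < B := by linarith
  have hN := NN_eq l
  have hn := nn_ge l
  have hp := par_ok hB hq l
  let G : ℤ → ℤ → ℤ → Set (ℤ → ℝ) := fun j a b =>
    𝒜 ∩ ℬ ∩ {y | PlR B (dir (Vof B y) a) a (j + 1)} ∩ {y | PlL B (dir (Vof B y) b) j b}
  let E : ℤ → Set (ℤ → ℝ) := fun j =>
    (G j a₀ b₀ ∪ G j a₀ (b₀ - 1)) ∪ (G j (a₀ + 1) b₀ ∪ G j (a₀ + 1) (b₀ - 1))
  set c := 10 ^ 8 * (nu k).real 𝒜p * (nu k).real ℬp with hc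
  have hG : ∀ j ∈ Finset.Ico j₀ (j₀ + nn l), ∀ a b, (a = a₀ ∨ a = a₀ + 1) → (b = b₀ ∨ b = b₀ - 1) →
      (nu k).real (G j a b) ≤ c := by
    intro j hj a b ha hb
    obtain ⟨hj1, hj2⟩ := Finset.mem_Ico.1 hj
    refine Ind2X.shifted hB hk (by omega) (by omega) 𝒜 ℬ 𝒜p ℬp h𝒜 hℬ
      (fun y hy y' h => hA y hy y' fun i hi1 hi2 => (h i (by omega)).trans ?_)
      (fun y hy y' h => hBB y hy y' fun i hi1 hi2 => (h i (by omega)).trans ?_)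
    · unfold tolL
      split_ifs with hh
      · exact zpow_le_zpow_right₀ hB1 (by omega)
      · exact zpow_le_zpow_right₀ hB1 (by omega)
    · unfold tolL
      split_ifs with hh
      · exact zpow_le_zpow_right₀ hB1 (by omega)
      · exact zpow_le_zpow_right₀ hB1 (by omega)
  have hE : ∀ j ∈ Finset.Ico j₀ (j₀ + nn l), (nu k).real (E j) ≤ 4 * c := by
    intro j hj
    have e1 := hG j hj _ _ (Or.inl rfl) (Or.inl rfl)
    have e2 := hG j hj _ _ (Or.inl rfl) (Or.inr rfl)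
    have e3 := hG j hj _ _ (Or.inr rfl) (Or.inl rfl)
    have e4 := hG j hj _ _ (Or.inr rfl) (Or.inr rfl)
    have f1 := measureReal_union_le (μ := nu k) (G j a₀ b₀ ∪ G j a₀ (b₀ - 1))
      (G j (a₀ + 1) b₀ ∪ G j (a₀ + 1) (b₀ - 1))
    have f2 := measureReal_union_le (μ := nu k) (G j a₀ b₀) (G j a₀ (b₀ - 1))
    have f3 := measureReal_union_le (μ := nu k) (G j (a₀ + 1) b₀) (G j (a₀ + 1) (b₀ - 1))
    show (nu k).real ((G j a₀ b₀ ∪ G j a₀ (b₀ - 1)) ∪ (G j (a₀ + 1) b₀ ∪ G j (a₀ + 1) (b₀ - 1))) ≤ _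
    linarith
  have hcard : (Finset.Ico j₀ (j₀ + nn l)).card = nn l := by simp
  have hm := mc (nu k) (Finset.Ico j₀ (j₀ + nn l)) E
    (𝒜 ∩ ℬ ∩ {y | ∀ x, a₀ ≤ x → x ≤ b₀ → ¬ Mb (pat B q y) l x}) (9 / 10 * nn l) (by
      rintro y ⟨⟨hy1, hy2⟩, hy3⟩
      have hw : Win (Reg (Vof B y) (NN l) (q l)) (nn l) a₀ b₀ :=
        win_of_notM (pat B q y) l fun x hx1 hx2 => hy3 x hx1 (by omega)
      have hM := hy3 j₀ (by omega) (by omega)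
      unfold Mb at hM
      have hsum := Finset.card_filter_add_card_filter_not (s := Finset.Ico j₀ (j₀ + nn l))
        (fun j => pat B q y l j)
      rw [hcard] at hsum
      have hsub : (Finset.Ico j₀ (j₀ + nn l)).filter (fun j => pat B q y l j)
          ⊆ (Finset.Ico j₀ (j₀ + nn l)).filter (fun j => y ∈ E j) := by
        intro j hj
        obtain ⟨hj1, hj2⟩ := Finset.mem_filter.1 hj
        refine Finset.mem_filter.2 ⟨hj1, ?_⟩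
        obtain ⟨hj3, hj4⟩ := Finset.mem_Ico.1 hj1
        obtain ⟨a, ha, hPa⟩ := pliss_pair_R hB (Vof_bdd B y) hp (hq l).2.2
          (hw.mono le_rfl (by omega : j ≤ b₀)) hj2 (by omega)
        obtain ⟨b, hb, hPb⟩ := pliss_pair_L hB (Vof_bdd B y) hp (hq l).2.2
          (b₀ := b₀) (hw.mono (by omega : a₀ ≤ j) (by omega)) hj2 (by omega)
        rcases ha with rfl | rfl <;> rcases hb with rfl | rfl
        · exact Or.inl (Or.inl ⟨⟨⟨hy1, hy2⟩, hPa⟩, hPb⟩)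
        · exact Or.inl (Or.inr ⟨⟨⟨hy1, hy2⟩, hPa⟩, hPb⟩)
        · exact Or.inr (Or.inl ⟨⟨⟨hy1, hy2⟩, hPa⟩, hPb⟩)
        · exact Or.inr (Or.inr ⟨⟨⟨hy1, hy2⟩, hPa⟩, hPb⟩)
      have hle := Finset.card_le_card hsub
      have : 9 * nn l ≤ 10 * ((Finset.Ico j₀ (j₀ + nn l)).filter (fun j => y ∈ E j)).card := by
        omega
      have h' : (9 : ℝ) * nn l ≤ 10 * ((Finset.Ico j₀ (j₀ + nn l)).filter (fun j => y ∈ E j)).card := by
        exact_mod_cast this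
      have h'' : (9 : ℝ) / 10 * nn l
          ≤ ((Finset.Ico j₀ (j₀ + nn l)).filter (fun j => y ∈ E j)).card := by linarith
      convert h'')
  have hs := Finset.sum_le_sum hE
  rw [Finset.sum_const, hcard, nsmul_eq_mul] at hs
  have hn0 : (0 : ℝ) < nn l := by exact_mod_cast (by omega : 0 < nn l)
  have hc0 : 0 ≤ c := by positivity
  have h7 := hm.trans hs
  have h8 : (nn l : ℝ) * (9 / 10 * (nu k).real
      (𝒜 ∩ ℬ ∩ {y | ∀ x, a₀ ≤ x → x ≤ b₀ → ¬ Mb (pat B q y) l x})) ≤ nn l * (4 * c) := by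
    linarith
  have h9 := le_of_mul_le_mul_left h8 hn0
  have : (10 : ℝ) ^ 9 * (nu k).real 𝒜p * (nu k).real ℬp = 10 * c := by rw [hc]; ring
  rw [this]
  linarith

end Crest.Agent.R128
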