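import Crest.Agent.R128.Defs

set_option autoImplicit false
open MeasureTheory Set

namespace Crest.Agent.R128
open Classical

/-! LinA: basic API for `rec2`, `Sol`, `dir`, `Wr`, `orb`, `orbC`, reflection, shift, casts. -/

namespace LinAX
variable {α : Type*} [AddCommGroup α]
theorem rec2_fw (g : ℤ → α → α) (c : ℤ) (u0 u1 : α) (n : ℕ) :
    rec2 g c u0 u1 (c + n) = (fw g c u0 u1 n).1 := by
  simp [rec2]
theorem rec2_bw (g : ℤ → α → α) (c : ℤ) (u0 u1 : α) (n : ℕ) :
    rec2 g c u0 u1 (c - n) = (bw g c u0 u1 n).1 := by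
  cases n with
  | zero => simp [rec2, fw, bw]
  | succ n =>
    unfold rec2
    rw [if_neg (by omega), sub_sub_cancel, Int.toNat_natCast]
theorem rec2_bw' (g : ℤ → α → α) (c : ℤ) (u0 u1 : α) (n : ℕ) :
    rec2 g c u0 u1 (c - n + 1) = (bw g c u0 u1 n).2 := by
  cases n with
  | zero => simp [rec2, fw, bw]
  | succ n =>
    rw [show c - ((n + 1 : ℕ) : ℤ) + 1 = c - n by push_cast; ring, rec2_bw]
    rfl
theorem ind2 (P : ℤ → Prop) (c : ℤ) (h0 : P c) (h1 : P (c + 1))
    (hf : ∀ i, c < i → P (i - 1) → P i → P (i + 1)) (hb : ∀ i, i ≤ c → P (i + 1) → P i → P (i - 1)) :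
    ∀ i, P i := by
  have f : ∀ n : ℕ, P (c + n) ∧ P (c + n + 1) := fun n => by
    induction n with
    | zero => simpa using ⟨h0, h1⟩
    | succ n ih =>
      rw [show c + ((n + 1 : ℕ) : ℤ) = c + n + 1 by push_cast; ring]
      exact ⟨ih.2, hf _ (by omega) (by simpa using ih.1) ih.2⟩
  have b : ∀ n : ℕ, P (c - n) ∧ P (c - n + 1) := fun n => by
    induction n with
    | zero => simpa using ⟨h0, h1⟩
    | succ n ih =>
      rw [show c - ((n + 1 : ℕ) : ℤ) = c - n - 1 by push_cast; ring]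
      exact ⟨hb _ (by omega) ih.2 ih.1, by simpa using ih.1⟩
  intro i
  rcases le_total c i with h | h
  · obtain ⟨n, rfl⟩ : ∃ n : ℕ, i = c + n := ⟨(i - c).toNat, by omega⟩
    exact (f n).1
  · obtain ⟨n, rfl⟩ : ∃ n : ℕ, i = c - n := ⟨(c - i).toNat, by omega⟩
    exact (b n).1
end LinAX

section rec
variable {α : Type*} [AddCommGroup α]
theorem rec2_zero (g : ℤ → α → α) (c : ℤ) (u0 u1 : α) : rec2 g c u0 u1 c = u0 := by
  simp [rec2, fw]
theorem rec2_one (g : ℤ → α → α) (c : ℤ) (u0 u1 : α) : rec2 g c u0 u1 (c + 1) = u1 := by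
  simp [rec2, fw]
theorem rec2_step (g : ℤ → α → α) (c : ℤ) (u0 u1 : α) (i : ℤ) :
    rec2 g c u0 u1 (i + 1) + rec2 g c u0 u1 (i - 1) = g i (rec2 g c u0 u1 i) := by
  rcases lt_or_ge c i with h | h
  · obtain ⟨n, rfl⟩ : ∃ n : ℕ, i = c + n + 1 := ⟨(i - c - 1).toNat, by omega⟩
    have e1 := LinAX.rec2_fw g c u0 u1 (n + 2)
    have e2 := LinAX.rec2_fw g c u0 u1 (n + 1)
    have e3 := LinAX.rec2_fw g c u0 u1 n
    rw [show c + (n : ℤ) + 1 + 1 = c + ((n + 2 : ℕ) : ℤ) by push_cast; ring, e1,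
      show c + (n : ℤ) + 1 - 1 = c + n by ring, e3]
    rw [show c + ((n + 1 : ℕ) : ℤ) = c + n + 1 by push_cast; ring] at e2
    rw [e2]
    simp [fw]
  · obtain ⟨n, rfl⟩ : ∃ n : ℕ, i = c - n := ⟨(c - i).toNat, by omega⟩
    have e1 := LinAX.rec2_bw g c u0 u1 (n + 1)
    have e2 := LinAX.rec2_bw g c u0 u1 n
    have e3 := LinAX.rec2_bw' g c u0 u1 n
    rw [show c - (n : ℤ) - 1 = c - ((n + 1 : ℕ) : ℤ) by push_cast; ring, e1, e2, e3]
    simp [bw]
/-- uniqueness: two sequences with the same recursion and the same data at one bond agree. -/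
theorem rec_unique (g : ℤ → α → α) (u v : ℤ → α) (hu : ∀ i, u (i + 1) + u (i - 1) = g i (u i))
    (hv : ∀ i, v (i + 1) + v (i - 1) = g i (v i)) (c : ℤ) (h0 : u c = v c)
    (h1 : u (c + 1) = v (c + 1)) : u = v := by
  funext i
  refine LinAX.ind2 (fun i => u i = v i) c h0 h1 (fun i _ a b => ?_) (fun i _ a b => ?_) i
  · have h := hu i
    rw [a, b, ← hv i] at h
    exact add_right_cancel h
  · have h := hu i
    rw [a, b, ← hv i] at h
    exact add_left_cancel h
/-- two sided induction over bonds. -/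
theorem int_ind2 (P : ℤ → Prop) (c : ℤ) (h0 : P c) (h1 : P (c + 1))
    (hf : ∀ i, c < i → P (i - 1) → P i → P (i + 1)) (hb : ∀ i, i ≤ c → P (i + 1) → P i → P (i - 1)) :
    ∀ i, P i :=
  LinAX.ind2 P c h0 h1 hf hb
end rec

section lin
variable {𝕜 : Type*} [Field 𝕜]
theorem sol_Sol (V : ℤ → 𝕜) (c : ℤ) (u0 u1 : 𝕜) : Sol V (sol V c u0 u1) :=
  fun i => rec2_step (fun i u => V i * u) c u0 u1 i
theorem sol_zero (V : ℤ → 𝕜) (c : ℤ) (u0 u1 : 𝕜) : sol V c u0 u1 c = u0 :=
  rec2_zero _ c u0 u1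
theorem sol_one (V : ℤ → 𝕜) (c : ℤ) (u0 u1 : 𝕜) : sol V c u0 u1 (c + 1) = u1 :=
  rec2_one _ c u0 u1
theorem Sol.ext {V u v : ℤ → 𝕜} (hu : Sol V u) (hv : Sol V v) (c : ℤ) (h0 : u c = v c)
    (h1 : u (c + 1) = v (c + 1)) : u = v :=
  rec_unique (fun i u => V i * u) u v hu hv c h0 h1
theorem Sol.eq_sol {V u : ℤ → 𝕜} (hu : Sol V u) (c : ℤ) : u = sol V c (u c) (u (c + 1)) :=
  hu.ext (sol_Sol V c _ _) c (sol_zero V c _ _).symm (sol_one V c _ _).symm
theorem dir_Sol (V : ℤ → 𝕜) (c : ℤ) : Sol V (dir V c) :=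
  sol_Sol V c 0 1
theorem dir_zero (V : ℤ → 𝕜) (c : ℤ) : dir V c c = 0 :=
  sol_zero V c 0 1
theorem dir_one (V : ℤ → 𝕜) (c : ℤ) : dir V c (c + 1) = 1 :=
  sol_one V c 0 1
theorem dir_neg_one (V : ℤ → 𝕜) (c : ℤ) : dir V c (c - 1) = -1 := by
  have h := dir_Sol V c c
  rw [dir_zero, dir_one] at h
  linear_combination h
theorem Sol.smul {V u : ℤ → 𝕜} (hu : Sol V u) (a : 𝕜) : Sol V (fun i => a * u i) := fun i => by
  linear_combination a * hu i
theorem Sol.add {V u v : ℤ → 𝕜} (hu : Sol V u) (hv : Sol V v) : Sol V (fun i => u i + v i) := fun i => by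
  linear_combination hu i + hv i
theorem Sol.sub {V u v : ℤ → 𝕜} (hu : Sol V u) (hv : Sol V v) : Sol V (fun i => u i - v i) := fun i => by
  linear_combination hu i - hv i
theorem Sol.eq_zero {V u : ℤ → 𝕜} (hu : Sol V u) (c : ℤ) (h0 : u c = 0) (h1 : u (c + 1) = 0) (i : ℤ) :
    u i = 0 :=
  congrFun (hu.ext (v := fun _ => 0) (fun i => by simp) c h0 h1) i
theorem Wr_const {V u v : ℤ → 𝕜} (hu : Sol V u) (hv : Sol V v) (i j : ℤ) : Wr u v i = Wr u v j := by
  have step : ∀ i, Wr u v i = Wr u v (i - 1) := fun i => by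
    unfold Wr
    rw [sub_add_cancel]
    linear_combination u i * hv i - v i * hu i
  have key : ∀ i, Wr u v i = Wr u v 0 := fun i => by
    induction i using Int.induction_on with
    | zero => rfl
    | succ n ih => rw [step, add_sub_cancel_right, ih]
    | pred n ih => rw [← step, ih]
  rw [key i, key j]
/-- `W(u,s) v = W(v,s) u + W(u,v) s`. -/
theorem Wr_identity {V u v s : ℤ → 𝕜} (hu : Sol V u) (hv : Sol V v) (hs : Sol V s) (j i : ℤ) :
    Wr u s j * v i = Wr v s j * u i + Wr u v j * s i := by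
  rw [Wr_const hu hs j i, Wr_const hv hs j i, Wr_const hu hv j i]
  unfold Wr
  ring
theorem Wr_dir {V s : ℤ → 𝕜} (hs : Sol V s) (c j : ℤ) : Wr (dir V c) s j = - s c := by
  rw [Wr_const (dir_Sol V c) hs j c]
  unfold Wr
  rw [dir_zero, dir_one]
  ring
theorem dir_symm (V : ℤ → 𝕜) (c d : ℤ) : dir V c d = - dir V d c := by
  have h1 := Wr_dir (dir_Sol V d) c 0
  have h2 := Wr_dir (dir_Sol V c) d 0
  unfold Wr at h1 h2
  linear_combination h1 + h2
/-- going right from the bond `c`, the value at `i` only sees the potential on `(c, i)`. -/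
theorem Sol.congr_right {V V' u u' : ℤ → 𝕜} (hu : Sol V u) (hu' : Sol V' u') (c i : ℤ) (hi : c ≤ i)
    (h0 : u c = u' c) (h1 : u (c + 1) = u' (c + 1)) (hV : ∀ j, c < j → j < i → V j = V' j) :
    u i = u' i := by
  refine LinAX.ind2 (fun j => c ≤ j → j ≤ i → u j = u' j) c (fun _ _ => h0) (fun _ _ => h1)
    (fun j hj a b _ h => ?_) (fun j hj _ _ h => by omega) i hi le_rfl
  have e := hu j
  rw [a (by omega) (by omega), b (by omega) (by omega), hV j hj (by omega), ← hu' j] at e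
  exact add_right_cancel e
/-- going left from the bond `c`, the value at `i` only sees the potential on `(i, c]`. -/
theorem Sol.congr_left {V V' u u' : ℤ → 𝕜} (hu : Sol V u) (hu' : Sol V' u') (c i : ℤ) (hi : i ≤ c + 1)
    (h0 : u c = u' c) (h1 : u (c + 1) = u' (c + 1)) (hV : ∀ j, i < j → j ≤ c → V j = V' j) :
    u i = u' i := by
  refine LinAX.ind2 (fun j => j ≤ c + 1 → i ≤ j → u j = u' j) c (fun _ _ => h0) (fun _ _ => h1)
    (fun j hj _ _ h => by omega) (fun j hj a b _ h => ?_) i hi le_rfl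
  have e := hu j
  rw [a (by omega) (by omega), b (by omega) (by omega), hV j (by omega) hj, ← hu' j] at e
  exact add_left_cancel e
theorem Sol.refl {V u : ℤ → 𝕜} (hu : Sol V u) : Sol (refl V) (refl u) := fun i => by
  have h := hu (-i)
  unfold Crest.Agent.R128.refl
  rw [show -(i + 1) = -i - 1 by ring, show -(i - 1) = -i + 1 by ring, add_comm]
  exact h
theorem Sol.sh {V u : ℤ → 𝕜} (hu : Sol V u) (z : ℤ) : Sol (sh z V) (sh z u) := fun i => by
  have h := hu (i + z)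
  unfold Crest.Agent.R128.sh
  rw [show i + 1 + z = i + z + 1 by ring, show i - 1 + z = i + z - 1 by ring]
  exact h
theorem dir_refl (V : ℤ → 𝕜) (c i : ℤ) : dir (refl V) c i = - dir V (-c) (-i) := by
  have h := (dir_Sol (refl V) c).ext (((dir_Sol V (-c)).refl).smul (-1)) c
    (by simp [refl, dir_zero])
    (by
      simp only [refl, dir_one]
      rw [show -(c + 1) = -c - 1 by ring, dir_neg_one]; ring)
  rw [h]
  simp [refl]
theorem dir_sh (V : ℤ → 𝕜) (z c i : ℤ) : dir (sh z V) c i = dir V (c + z) (i + z) := by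
  have h := (dir_Sol (sh z V) c).ext ((dir_Sol V (c + z)).sh z) c
    (by simp [sh, dir_zero])
    (by
      simp only [sh, dir_one]
      rw [show c + 1 + z = c + z + 1 by ring, dir_one])
  rw [h]
  rfl
end lin

theorem refl_refl {β : Type*} (u : ℤ → β) : refl (refl u) = u := by
  funext i; simp [refl]
theorem sh_sh {β : Type*} (z z' : ℤ) (u : ℤ → β) : sh z (sh z' u) = sh (z + z') u := by
  funext i; simp [sh, add_assoc]
theorem sh_zero {β : Type*} (u : ℤ → β) : sh 0 u = u := by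
  funext i; simp [sh]

/-! reflection and shift of the predicates -/
theorem RR_refl (V : ℤ → ℝ) (j : ℤ) (N : ℕ) (q : ℝ) : RR (refl V) j N q ↔ LR V (-j - 1) N q := by
  constructor
  · rintro ⟨s, h1, h2, h3⟩
    refine ⟨refl s, by simpa [refl_refl] using h1.refl, by simpa [refl] using h2, fun r hr => ?_⟩
    have := h3 r hr
    simp only [refl]
    rwa [show -(-j - 1 + 1 - (r : ℤ)) = j + r by ring]
  · rintro ⟨s, h1, h2, h3⟩
    refine ⟨refl s, h1.refl, by simpa [refl] using h2, fun r hr => ?_⟩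
    have := h3 r hr
    simp only [refl]
    rwa [show -(j + (r : ℤ)) = -j - 1 + 1 - r by ring]
theorem LR_refl (V : ℤ → ℝ) (j : ℤ) (N : ℕ) (q : ℝ) : LR (refl V) j N q ↔ RR V (-j - 1) N q := by
  have := RR_refl (refl V) (-j - 1) N q
  rw [refl_refl, show -(-j - 1) - 1 = j by ring] at this
  exact this.symm
theorem Reg_refl (V : ℤ → ℝ) (j : ℤ) (N : ℕ) (q : ℝ) : Reg (refl V) N q j ↔ Reg V N q (-j - 1) := by
  unfold Reg
  rw [RR_refl, LR_refl, and_comm]
theorem Nice_refl (B c₀ : ℝ) (V : ℤ → ℝ) (N : ℕ) (q : ℝ) (i : ℤ) :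
    Nice B c₀ (refl V) N q i ↔ Nice B c₀ V N q (-i) := by
  unfold Nice
  rw [Reg_refl, Reg_refl, show -(i - 1) - 1 = -i by ring]
  simp only [refl]
  tauto
theorem badN_refl (B c₀ : ℝ) (V : ℤ → ℝ) (N : ℕ) (q : ℝ) (α β : ℤ) :
    badN B c₀ (refl V) N q α β = badN B c₀ V N q (-β) (-α) := by
  unfold badN
  refine Finset.card_bij (fun i _ => -i) (fun i hi => ?_) (fun a _ b _ h => neg_injective h)
    (fun i hi => ⟨-i, ?_, neg_neg i⟩)
  · simp only [Finset.mem_filter, Finset.mem_Icc, Nice_refl] at hi ⊢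
    exact ⟨⟨by omega, by omega⟩, hi.2⟩
  · simp only [Finset.mem_filter, Finset.mem_Icc, Nice_refl, neg_neg] at hi ⊢
    exact ⟨⟨by omega, by omega⟩, hi.2⟩
theorem Win_refl (V : ℤ → ℝ) (N n : ℕ) (q : ℝ) (α β : ℤ) :
    Win (Reg (refl V) N q) n α β ↔ Win (Reg V N q) n (-β - 1) (-α - 1) := by
  unfold Win
  constructor
  · intro h x h1 h2
    obtain ⟨j, a, b, c⟩ := h (-x - n) (by omega) (by omega)
    exact ⟨-j - 1, by omega, by omega, (Reg_refl V j N q).1 c⟩
  · intro h x h1 h2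
    obtain ⟨j, a, b, c⟩ := h (-x - n) (by omega) (by omega)
    refine ⟨-j - 1, by omega, by omega, (Reg_refl V _ N q).2 ?_⟩
    rwa [show -(-j - 1) - 1 = j by ring]
theorem RC_refl (u : ℤ → ℝ) (j : ℤ) : RC (refl u) j ↔ LC u (-j - 1) := by
  unfold RC LC refl
  rw [show -(j + 1) = -j - 1 by ring, sub_add_cancel]
theorem LC_refl (u : ℤ → ℝ) (j : ℤ) : LC (refl u) j ↔ RC u (-j - 1) := by
  unfold RC LC refl
  rw [show -(j + 1) = -j - 1 by ring, sub_add_cancel]
theorem PlR_refl (B : ℝ) (w : ℤ → ℝ) (c b : ℤ) : PlR B (refl w) c b ↔ PlL B w (-b) (-c) := by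
  unfold PlR PlL refl
  constructor
  · intro h i h1 h2
    have := h (-i) (by omega) (by omega)
    rwa [neg_neg, show b - -i = i - -b by ring] at this
  · intro h i h1 h2
    have := h (-i) (by omega) (by omega)
    rwa [show -i - -b = b - i by ring] at this
theorem PlL_refl (B : ℝ) (w : ℤ → ℝ) (a c : ℤ) : PlL B (refl w) a c ↔ PlR B w (-c) (-a) := by
  have := PlR_refl B (refl w) (-c) (-a)
  rw [refl_refl, neg_neg, neg_neg] at this
  exact this.symm
theorem Bdd.refl {B : ℝ} {V : ℤ → ℝ} (h : Bdd B V) : Bdd B (refl V) :=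
  fun i => h (-i)
theorem Win.mono {reg : ℤ → Prop} {n : ℕ} {α β α' β' : ℤ} (h : Win reg n α β) (ha : α ≤ α')
    (hb : β' ≤ β) : Win reg n α' β' :=
  fun x h1 h2 => h x (by omega) (by omega)
theorem Reg_sh (V : ℤ → ℝ) (z j : ℤ) (N : ℕ) (q : ℝ) : Reg (sh z V) N q j ↔ Reg V N q (j + z) := by
  have key : ∀ (V : ℤ → ℝ) (z j : ℤ), Reg V N q (j + z) → Reg (sh z V) N q j := by
    rintro V z j ⟨⟨s, h1, h2, h3⟩, ⟨u, g1, g2, g3⟩⟩
    refine ⟨⟨sh z s, h1.sh z, h2, fun r hr => ?_⟩, ⟨sh z u, g1.sh z, ?_, fun r hr => ?_⟩⟩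
    · have := h3 r hr
      simp only [sh]
      rwa [show j + (r : ℤ) + z = j + z + r by ring]
    · simp only [sh]
      rwa [show j + 1 + z = j + z + 1 by ring]
    · have := g3 r hr
      simp only [sh]
      rwa [show j + 1 - (r : ℤ) + z = j + z + 1 - r by ring]
  refine ⟨fun h => ?_, key V z j⟩
  have := key (sh z V) (-z) (j + z) (by rwa [add_neg_cancel_right])
  rwa [sh_sh, neg_add_cancel, sh_zero] at this
theorem Vof_sh (B : ℝ) (z : ℤ) (x : ℤ → ℝ) : Vof B (sh z x) = sh z (Vof B x) :=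
  rfl
theorem Vof_refl (B : ℝ) (x : ℤ → ℝ) : Vof B (refl x) = refl (Vof B x) :=
  rfl
theorem pat_sh (B : ℝ) (q : ℕ → ℝ) (z : ℤ) (y : ℤ → ℝ) : pat B q (sh z y) = shp z (pat B q y) := by
  funext l j
  simp only [pat, shp, Vof_sh, Reg_sh]
theorem Reg.mono {V : ℤ → ℝ} {N : ℕ} {q q' : ℝ} {j : ℤ} (h : Reg V N q j) (h0 : 0 ≤ q) (hq : q ≤ q') :
    Reg V N q' j := by
  obtain ⟨⟨s, h1, h2, h3⟩, ⟨u, g1, g2, g3⟩⟩ := h
  exact ⟨⟨s, h1, h2, fun r hr => (h3 r hr).trans (pow_le_pow_left₀ h0 hq r)⟩,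
    ⟨u, g1, g2, fun r hr => (g3 r hr).trans (pow_le_pow_left₀ h0 hq r)⟩⟩
theorem Vof_bdd (B : ℝ) (x : ℤ → ℝ) : Bdd B (Vof B x) := fun i => by
  have h : (0 : ℝ) ≤ B ^ 100 := Even.pow_nonneg (by decide) B
  unfold Vof
  rw [add_sub_cancel_left, abs_mul, abs_of_nonneg h]
  exact mul_le_of_le_one_right h (Real.abs_cos_le_one _)

/-! orbits -/
theorem orb_isOrb (k : ℝ) (P : ℝ × ℝ) : IsOrb k (orb k P) :=
  fun i => rec2_step (fun _ x => 2 * x + k * Real.sin (2 * Real.pi * x)) 0 P.1 P.2 i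
theorem orb_zero (k : ℝ) (P : ℝ × ℝ) : orb k P 0 = P.1 :=
  rec2_zero _ 0 P.1 P.2
theorem orb_one (k : ℝ) (P : ℝ × ℝ) : orb k P 1 = P.2 :=
  rec2_one _ 0 P.1 P.2
theorem IsOrb.eq_orb {k : ℝ} {x : ℤ → ℝ} (h : IsOrb k x) : x = orb k (x 0, x 1) :=
  rec_unique (fun _ x => 2 * x + k * Real.sin (2 * Real.pi * x)) _ _ h (orb_isOrb k _) 0
    (orb_zero k (x 0, x 1)).symm (orb_one k (x 0, x 1)).symm
theorem IsOrb.sh {k : ℝ} {x : ℤ → ℝ} (h : IsOrb k x) (z : ℤ) : IsOrb k (sh z x) := fun i => by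
  have := h (i + z)
  unfold Crest.Agent.R128.sh
  rwa [show i + 1 + z = i + z + 1 by ring, show i - 1 + z = i + z - 1 by ring]
theorem IsOrb.refl {k : ℝ} {x : ℤ → ℝ} (h : IsOrb k x) : IsOrb k (refl x) := fun i => by
  have := h (-i)
  unfold Crest.Agent.R128.refl
  rwa [show -(i + 1) = -i - 1 by ring, show -(i - 1) = -i + 1 by ring, add_comm]
/-- adding an integer arithmetic progression keeps orbits. -/
theorem IsOrb.add_int {k : ℝ} {x : ℤ → ℝ} (h : IsOrb k x) (m n : ℤ) :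
    IsOrb k (fun i => x i + ((m + n * i : ℤ) : ℝ)) := fun i => by
  have := h i
  simp only
  rw [show 2 * Real.pi * (x i + ((m + n * i : ℤ) : ℝ)) =
    2 * Real.pi * x i + ((m + n * i : ℤ) : ℝ) * (2 * Real.pi) by ring, Real.sin_add_int_mul_two_pi]
  push_cast
  linear_combination this
theorem orb_sh (k : ℝ) (P : ℝ × ℝ) (a : ℤ) : orb k (orb k P a, orb k P (a + 1)) = sh a (orb k P) := by
  rw [((orb_isOrb k P).sh a).eq_orb]
  simp [sh, add_comm]
theorem orb_refl (k : ℝ) (P : ℝ × ℝ) : orb k (P.1, orb k P (-1)) = refl (orb k P) := by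
  rw [((orb_isOrb k P).refl).eq_orb]
  simp [refl, orb_zero]
theorem Y_sh (k : ℝ) (P : ℝ × ℝ) (a : ℤ) : Y k (orb k P a, orb k P (a + 1)) = sh a (Y k P) := by
  funext i
  simp only [Y, orb_sh, sh]
theorem Y_add_int (k : ℝ) (P : ℝ × ℝ) (m n : ℤ) : Y k (P.1 + m, P.2 + n) = Y k P := by
  funext i
  have h := ((orb_isOrb k P).add_int m (n - m)).eq_orb
  simp only [orb_zero, orb_one, mul_zero, add_zero, mul_one, add_sub_cancel] at h
  simp only [Y, ← h, Int.fract_add_intCast]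
theorem Vof_Y (B k : ℝ) (P : ℝ × ℝ) : Vof B (Y k P) = Vof B (orb k P) := by
  funext i
  simp only [Vof, Y]
  rw [show 2 * Real.pi * Int.fract (orb k P i) =
    2 * Real.pi * orb k P i - (⌊orb k P i⌋ : ℤ) * (2 * Real.pi) by rw [Int.fract]; ring,
    Real.cos_sub_int_mul_two_pi]
theorem orbC_zero (k : ℝ) (s u : ℂ) : orbC k s u 0 = s :=
  rec2_zero _ 0 s u
theorem orbC_one (k : ℝ) (s u : ℂ) : orbC k s u 1 = u :=
  rec2_one _ 0 s u
theorem orbC_step (k : ℝ) (s u : ℂ) (i : ℤ) : orbC k s u (i + 1) + orbC k s u (i - 1) =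
    2 * orbC k s u i + (k : ℂ) * Complex.sin (2 * (Real.pi : ℂ) * orbC k s u i) :=
  rec2_step (fun _ z => 2 * z + (k : ℂ) * Complex.sin (2 * (Real.pi : ℂ) * z)) 0 s u i
theorem orbC_ofReal (k s u : ℝ) (i : ℤ) : orbC k s u i = ((orb k (s, u) i : ℝ) : ℂ) :=
  congrFun (rec_unique (fun _ z => 2 * z + (k : ℂ) * Complex.sin (2 * (Real.pi : ℂ) * z))
    _ (fun i => ((orb k (s, u) i : ℝ) : ℂ)) (orbC_step k s u)
    (fun i => by exact_mod_cast orb_isOrb k (s, u) i) 0
    (by rw [orbC_zero, orb_zero]) (by rw [zero_add, orbC_one, orb_one])) i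
theorem orbC_refl (k : ℝ) (P : ℝ × ℝ) (t : ℂ) (i : ℤ) :
    orbC k P.1 (P.2 + t) (-i) = orbC k P.1 ((orb k P (-1) : ℝ) + -t) i :=
  congrFun (rec_unique (fun _ z => 2 * z + (k : ℂ) * Complex.sin (2 * (Real.pi : ℂ) * z))
    (fun i => orbC k P.1 (P.2 + t) (-i)) _
    (fun i => by
      have := orbC_step k P.1 (P.2 + t) (-i)
      rwa [show -(i + 1) = -i - 1 by ring, show -(i - 1) = -i + 1 by ring, add_comm])
    (orbC_step k _ _) 0 (by rw [neg_zero, orbC_zero, orbC_zero])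
    (by
      have h1 := orbC_step k P.1 (P.2 + t) 0
      have h2 := orb_isOrb k P 0
      rw [zero_add, zero_sub, orbC_one, orbC_zero] at h1
      rw [zero_add, zero_sub, orb_one, orb_zero] at h2
      have h3 : (P.2 : ℂ) + (orb k P (-1) : ℝ) =
          2 * P.1 + (k : ℂ) * Complex.sin (2 * (Real.pi : ℂ) * P.1) := by exact_mod_cast h2
      rw [zero_add, orbC_one]
      linear_combination h1 - h3)) i
theorem Vt_ofReal (B k : ℝ) (P : ℝ × ℝ) (t : ℝ) (i : ℤ) :
    Vt B k P t i = ((Vof B (orb k (P.1, P.2 + t)) i : ℝ) : ℂ) := by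
  unfold Vt VofC Vof
  rw [← Complex.ofReal_add, orbC_ofReal]
  push_cast
  rfl
theorem Vt_zero (B k : ℝ) (P : ℝ × ℝ) (i : ℤ) : Vt B k P 0 i = ((Vof B (orb k P) i : ℝ) : ℂ) := by
  simpa using Vt_ofReal B k P 0 i
theorem dir_ofReal (V : ℤ → ℝ) (c i : ℤ) : dir (fun j => ((V j : ℝ) : ℂ)) c i = ((dir V c i : ℝ) : ℂ) :=
  congrFun ((dir_Sol _ c).ext (v := fun i => ((dir V c i : ℝ) : ℂ))
    (fun i => by beta_reduce; exact_mod_cast dir_Sol V c i) c (by simp [dir_zero]) (by simp [dir_one])) i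

/-! regularity in parameters -/
theorem continuous_orb (k : ℝ) (i : ℤ) : Continuous fun P => orb k P i := by
  refine int_ind2 (fun i => Continuous fun P => orb k P i) 0 ?_ ?_ (fun i _ a b => ?_)
    (fun i _ a b => ?_) i
  · simpa [orb_zero] using continuous_fst
  · simpa [orb_one] using continuous_snd
  · have : (fun P => orb k P (i + 1)) = fun P =>
        2 * orb k P i + k * Real.sin (2 * Real.pi * orb k P i) - orb k P (i - 1) :=
      funext fun P => by linear_combination orb_isOrb k P i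
    rw [this]
    fun_prop
  · have : (fun P => orb k P (i - 1)) = fun P =>
        2 * orb k P i + k * Real.sin (2 * Real.pi * orb k P i) - orb k P (i + 1) :=
      funext fun P => by linear_combination orb_isOrb k P i
    rw [this]
    fun_prop
theorem differentiable_orbC (k : ℝ) (s u : ℂ) (i : ℤ) :
    Differentiable ℂ fun t : ℂ => orbC k s (u + t) i := by
  refine int_ind2 (fun i => Differentiable ℂ fun t : ℂ => orbC k s (u + t) i) 0 ?_ ?_
    (fun i _ a b => ?_) (fun i _ a b => ?_) i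
  · simp [orbC_zero]
  · simp only [zero_add, orbC_one]
    fun_prop
  · have : (fun t : ℂ => orbC k s (u + t) (i + 1)) = fun t => 2 * orbC k s (u + t) i +
        (k : ℂ) * Complex.sin (2 * (Real.pi : ℂ) * orbC k s (u + t) i) - orbC k s (u + t) (i - 1) :=
      funext fun t => by linear_combination orbC_step k s (u + t) i
    rw [this]
    fun_prop
  · have : (fun t : ℂ => orbC k s (u + t) (i - 1)) = fun t => 2 * orbC k s (u + t) i +
        (k : ℂ) * Complex.sin (2 * (Real.pi : ℂ) * orbC k s (u + t) i) - orbC k s (u + t) (i + 1) :=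
      funext fun t => by linear_combination orbC_step k s (u + t) i
    rw [this]
    fun_prop
theorem differentiable_Vt (B k : ℝ) (P : ℝ × ℝ) (i : ℤ) : Differentiable ℂ fun t => Vt B k P t i := by
  have := differentiable_orbC k P.1 P.2 i
  unfold Vt VofC
  fun_prop
theorem differentiable_dir (U : ℂ → ℤ → ℂ) (hU : ∀ j, Differentiable ℂ fun t => U t j) (c i : ℤ) :
    Differentiable ℂ fun t => dir (U t) c i := by
  refine int_ind2 (fun i => Differentiable ℂ fun t => dir (U t) c i) c ?_ ?_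
    (fun i _ a b => ?_) (fun i _ a b => ?_) i
  · simp [dir_zero]
  · simp [dir_one]
  · have : (fun t => dir (U t) c (i + 1)) = fun t => U t i * dir (U t) c i - dir (U t) c (i - 1) :=
      funext fun t => by linear_combination dir_Sol (U t) c i
    rw [this]
    exact ((hU i).mul b).sub a
  · have : (fun t => dir (U t) c (i - 1)) = fun t => U t i * dir (U t) c i - dir (U t) c (i + 1) :=
      funext fun t => by linear_combination dir_Sol (U t) c i
    rw [this]
    exact ((hU i).mul b).sub a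
theorem continuous_sol (c i : ℤ) :
    Continuous fun p : (ℤ → ℝ) × ℝ × ℝ => sol p.1 c p.2.1 p.2.2 i := by
  refine int_ind2 (fun i => Continuous fun p : (ℤ → ℝ) × ℝ × ℝ => sol p.1 c p.2.1 p.2.2 i) c ?_ ?_
    (fun i _ a b => ?_) (fun i _ a b => ?_) i
  · simp only [sol_zero]
    fun_prop
  · simp only [sol_one]
    fun_prop
  · have : (fun p : (ℤ → ℝ) × ℝ × ℝ => sol p.1 c p.2.1 p.2.2 (i + 1)) = fun p =>
        p.1 i * sol p.1 c p.2.1 p.2.2 i - sol p.1 c p.2.1 p.2.2 (i - 1) :=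
      funext fun p => by linear_combination sol_Sol p.1 c p.2.1 p.2.2 i
    rw [this]
    exact (((continuous_apply i).comp continuous_fst).mul b).sub a
  · have : (fun p : (ℤ → ℝ) × ℝ × ℝ => sol p.1 c p.2.1 p.2.2 (i - 1)) = fun p =>
        p.1 i * sol p.1 c p.2.1 p.2.2 i - sol p.1 c p.2.1 p.2.2 (i + 1) :=
      funext fun p => by linear_combination sol_Sol p.1 c p.2.1 p.2.2 i
    rw [this]
    exact (((continuous_apply i).comp continuous_fst).mul b).sub a
theorem continuous_dir (c i : ℤ) : Continuous fun V : ℤ → ℝ => dir V c i :=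
  (continuous_sol c i).comp
    (f := fun V : ℤ → ℝ => (V, (0 : ℝ), (1 : ℝ))) (by fun_prop)
theorem continuous_Vof (B : ℝ) : Continuous (Vof B) := by
  refine continuous_pi fun i => ?_
  unfold Vof
  fun_prop

end Crest.Agent.R128
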