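import Crest.Agent.R128.LinA

set_option autoImplicit false
open MeasureTheory Set

namespace Crest.Agent.R128
open Classical

/-! LinB: growth and perturbation lemmas over `ℝ` or `ℂ`.
All are inductions on bonds carrying the bound for two consecutive sites. -/

namespace LinBX

theorem two_step {P : ℤ → Prop} {a m : ℤ} (h0 : P a) (h1 : P (a + 1))
    (hs : ∀ i, a < i → i < m → P (i - 1) → P i → P (i + 1)) (i : ℤ) (hi : a ≤ i) (him : i ≤ m) :
    P i := by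
  have key : ∀ j, a + 1 ≤ j → j ≤ m → P (j - 1) ∧ P j := by
    intro j hj
    induction j, hj using Int.leInduction with
    | base => intro _; exact ⟨by rwa [add_sub_cancel_right], h1⟩
    | succ j hj ih =>
      intro hjm
      obtain ⟨a1, a2⟩ := ih (by omega)
      exact ⟨by rwa [add_sub_cancel_right], hs j (by omega) (by omega) a1 a2⟩
  rcases hi.eq_or_lt with rfl | h
  · exact h0
  · exact (key i (by omega) him).2

theorem norm_step {𝕜 : Type*} [NormedField 𝕜] {v x y : 𝕜} {K c : ℝ} (hv : ‖v‖ + 1 ≤ K)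
    (hx : ‖x‖ ≤ c) (hy : ‖y‖ ≤ c) : ‖v * x - y‖ ≤ K * c := by
  have c0 : 0 ≤ c := (norm_nonneg _).trans hx
  refine (norm_sub_le _ _).trans ?_
  rw [norm_mul]
  have h1 := mul_le_mul_of_nonneg_left hx (norm_nonneg v)
  have h2 := mul_le_mul_of_nonneg_right hv c0
  linarith

/-- the scales used in `pl` and `ll` -/
theorem scales {B : ℝ} (hB : 1000 ≤ B) {n : ℤ} (hn : 0 < n) :
    ∃ r s : ℝ, 0 < r ∧ 0 < s ∧ r * B ^ 80 ≤ 1 ∧ s * B ^ 160 = 1 ∧ B ^ (-80 * n) = r ∧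
      B ^ (-160 * n) = r ^ 2 ∧ B ^ (-160 * (n + 1)) = r ^ 2 * s ∧
      B ^ (-160 * (n + 1 + 1)) ≤ r ^ 2 * s := by
  have B0 : 0 < B := by linarith
  have B1 : 1 ≤ B := by linarith
  have e1 : B ^ (-160 * n) = (B ^ (-80 * n)) ^ 2 := by
    rw [sq, ← zpow_add₀ B0.ne']; congr 1; ring
  have e2 : B ^ (-160 * (n + 1)) = (B ^ (-80 * n)) ^ 2 * B ^ (-160 : ℤ) := by
    rw [← e1, ← zpow_add₀ B0.ne']; congr 1; ring
  refine ⟨B ^ (-80 * n), B ^ (-160 : ℤ), by positivity, by positivity, ?_, ?_, rfl, e1, e2, ?_⟩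
  · rw [← zpow_natCast, ← zpow_add₀ B0.ne']
    exact zpow_le_one_of_nonpos₀ B1 (by push_cast; omega)
  · rw [← zpow_natCast, ← zpow_add₀ B0.ne']; simp
  · rw [← e2]
    exact zpow_le_zpow_right₀ B1 (by omega)

theorem small {B s : ℝ} (hB : 1000 ≤ B) (hs0 : 0 < s) (hs : s * B ^ 160 = 1) {k : ℕ}
    (hk : k < 160) : 8 * (B ^ k * s) ≤ 1 := by
  have B1 : 1 ≤ B := by linarith
  have h1 : B ^ k * B ≤ B ^ 160 := by
    rw [← pow_succ]; exact pow_le_pow_right₀ B1 hk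
  have h2 : B ^ k * 8 ≤ B ^ k * B := mul_le_mul_of_nonneg_left (by linarith) (by positivity)
  have h3 := mul_le_mul_of_nonneg_left (h2.trans h1) hs0.le
  linarith

theorem norm_exp_I (z : ℂ) : ‖Complex.exp (z * Complex.I)‖ = Real.exp (-z.im) := by
  rw [Complex.norm_exp]; simp

theorem norm_exp_neg_I (z : ℂ) : ‖Complex.exp (-z * Complex.I)‖ = Real.exp z.im := by
  rw [Complex.norm_exp]; simp

theorem norm_sin_le (z : ℂ) : ‖Complex.sin z‖ ≤ Real.cosh z.im := by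
  rw [Complex.sin, Real.cosh_eq, norm_div, norm_mul, Complex.norm_I, mul_one, Complex.norm_two]
  refine div_le_div_of_nonneg_right ((norm_sub_le _ _).trans (le_of_eq ?_)) (by norm_num)
  rw [norm_exp_neg_I, norm_exp_I]

theorem cos_lip {c K : ℝ} (hc : 0 ≤ c) (hK : Real.cosh c ≤ K) (z z' : ℂ) (hz : |z.im| ≤ c)
    (hz' : |z'.im| ≤ c) : ‖Complex.cos z - Complex.cos z'‖ ≤ K * ‖z - z'‖ := by
  refine Convex.norm_image_sub_le_of_norm_deriv_le (𝕜 := ℂ)
    (s := {w : ℂ | -c ≤ w.im} ∩ {w : ℂ | w.im ≤ c})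
    (fun w _ => Complex.differentiable_cos w) (fun w hw => ?_)
    ((convex_halfSpace_im_ge _).inter (convex_halfSpace_im_le _)) (abs_le.1 hz') (abs_le.1 hz)
  rw [Complex.deriv_cos, norm_neg]
  refine (norm_sin_le w).trans (le_trans (Real.cosh_le_cosh.2 ?_) hK)
  rw [abs_of_nonneg hc]
  exact abs_le.2 hw

theorem exp_nat_le (n : ℕ) : Real.exp n ≤ 2.72 ^ n := by
  rw [← mul_one (n : ℝ), Real.exp_nat_mul]
  exact pow_le_pow_left₀ (Real.exp_pos _).le (by linarith [Real.exp_one_lt_d9]) n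

theorem cosh_le (n : ℕ) : Real.cosh n ≤ (2.72 ^ n + 1) / 2 := by
  have h1 := exp_nat_le n
  have h2 : Real.exp (-(n : ℝ)) ≤ 1 := Real.exp_le_one_iff.2 (by simp)
  rw [Real.cosh_eq]
  linarith

theorem cosh_one_le : Real.cosh 1 ≤ 2 := by
  have := cosh_le 1
  norm_num at this
  linarith

theorem im_le (x : ℝ) (z : ℂ) : |z.im| ≤ ‖z - x‖ := by
  simpa using Complex.abs_im_le_norm (z - x)

theorem exp_taylor (w : ℂ) (hw : ‖w‖ ≤ 7) : ‖Complex.exp w - 1 - w‖ ≤ 200 * ‖w‖ ^ 2 := by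
  rcases le_total ‖w‖ 5 with h | h
  · have h1 := Complex.norm_exp_sub_sum_le_norm_mul_exp w 2
    have e : ∑ m ∈ Finset.range 2, w ^ m / (m.factorial : ℂ) = 1 + w := by
      simp [Finset.sum_range_succ]
    rw [e, ← sub_sub] at h1
    have h2 : Real.exp ‖w‖ ≤ 200 := by
      have h3 := exp_nat_le 5
      have h4 : Real.exp ‖w‖ ≤ Real.exp (5 : ℕ) := Real.exp_le_exp.2 (by simpa using h)
      norm_num at h3 h4
      linarith [Real.exp_le_exp.2 h4]
    exact h1.trans (by rw [mul_comm]; gcongr)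
  · have h1 := Complex.norm_exp_le_exp_norm w
    have h2 : Real.exp ‖w‖ ≤ 2000 := by
      have h3 := exp_nat_le 7
      have h4 : Real.exp ‖w‖ ≤ Real.exp (7 : ℕ) := Real.exp_le_exp.2 (by simpa using hw)
      norm_num at h3 h4
      linarith [Real.exp_le_exp.2 h4]
    have h3 := norm_sub_le (Complex.exp w - 1) w
    have h4 := norm_sub_le (Complex.exp w) 1
    rw [norm_one] at h4
    nlinarith

end LinBX

open LinBX

section
variable {𝕜 : Type*} [NormedField 𝕜]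

/-- growth to the right: only the equation at the sites of `(a, i)` is used. -/
theorem growth_right {B : ℝ} (hB : 2 ≤ B) {V u : ℤ → 𝕜} {a m : ℤ} {M : ℝ}
    (hV : ∀ i, a < i → i < m → ‖V i‖ + 1 ≤ B ^ 101)
    (hu : ∀ i, a < i → i < m → u (i + 1) + u (i - 1) = V i * u i)
    (h0 : ‖u a‖ ≤ M) (h1 : ‖u (a + 1)‖ ≤ M) (i : ℤ) (hi : a < i) (him : i ≤ m) :
    ‖u i‖ ≤ B ^ (101 * (i - a - 1)) * M := by
  have B0 : 0 < B := by linarith
  have M0 : 0 ≤ M := (norm_nonneg _).trans h0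
  have hM : ∀ j, a < j → M ≤ B ^ (101 * (j - a - 1)) * M := fun j hj =>
    le_mul_of_one_le_left M0 (one_le_zpow₀ (by linarith) (by omega))
  refine two_step (P := fun i => ∀ j, a < j → i ≤ j → ‖u i‖ ≤ B ^ (101 * (j - a - 1)) * M)
    (m := m) (fun j hj _ => h0.trans (hM j hj)) (fun j hj _ => h1.trans (hM j hj))
    (fun i hi him a1 a2 j _ hj => ?_) i hi.le him i hi le_rfl
  rw [eq_sub_of_add_eq (hu i hi him)]
  refine (norm_step (hV i hi him) (a2 (j - 1) (by omega) (by omega))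
    (a1 (j - 1) (by omega) (by omega))).trans (le_of_eq ?_)
  rw [← mul_assoc, ← zpow_natCast, ← zpow_add₀ B0.ne']
  congr 2
  push_cast
  ring

/-- growth to the left from the bond `a`. -/
theorem growth_left {B : ℝ} (hB : 2 ≤ B) {V u : ℤ → 𝕜} {a m : ℤ} {M : ℝ}
    (hV : ∀ i, m < i → i ≤ a → ‖V i‖ + 1 ≤ B ^ 101)
    (hu : ∀ i, m < i → i ≤ a → u (i + 1) + u (i - 1) = V i * u i)
    (h0 : ‖u a‖ ≤ M) (h1 : ‖u (a + 1)‖ ≤ M) (i : ℤ) (hi : i ≤ a) (him : m ≤ i) :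
    ‖u i‖ ≤ B ^ (101 * (a - i)) * M := by
  have h := growth_right hB (V := fun j => V (-j)) (u := fun j => u (-j)) (a := -a - 1) (m := -m)
    (M := M) (fun j h1 h2 => hV _ (by omega) (by omega))
    (fun j h1 h2 => by
      have := hu (-j) (by omega) (by omega)
      rw [show -(j + 1) = -j - 1 by ring, show -(j - 1) = -j + 1 by ring, add_comm]
      exact this)
    (by rwa [show -(-a - 1) = a + 1 by ring]) (by rwa [show -(-a - 1 + 1) = a by ring])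
    (-i) (by omega) (by omega)
  rwa [neg_neg, show -i - (-a - 1) - 1 = a - i by ring] at h

/-- nonlinear perturbation.  Put `e i = δ i - t w i`, `φ i = 8 B^101 X² B^(-160 (m-i+1))`; induct on `i`:
`φ i ≤ X B^(-80(m-i))` so `‖δ i‖ ≤ 2 X B^(-80 (m-i)) ≤ 1` for `i < m`, and
`‖e (i+1)‖ ≤ B^101 φ i + 4 B^101 X² B^(-160(m-i)) = (B^(-59) + 1/2) φ (i+1)`. -/
theorem pl {B : ℝ} (hB : 1000 ≤ B) {V w δ : ℤ → 𝕜} {t : 𝕜} {a m : ℤ} {W X : ℝ}
    (hV : ∀ i, a < i → i < m → ‖V i‖ + 1 ≤ B ^ 101)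
    (hw : ∀ i, a < i → i < m → w (i + 1) + w (i - 1) = V i * w i)
    (hδ : ∀ i, a < i → i < m → ‖δ i‖ ≤ 1 → ‖δ (i + 1) + δ (i - 1) - V i * δ i‖ ≤ B ^ 101 * ‖δ i‖ ^ 2)
    (hP : ∀ i, a ≤ i → i ≤ m → ‖w i‖ ≤ B ^ (-80 * (m - i)) * W)
    (hX : ‖t‖ * W ≤ X) (hX0 : 0 ≤ X) (hX1 : X ≤ B ^ 55)
    (h0 : ‖δ a - t * w a‖ ≤ 8 * B ^ 101 * X ^ 2 * B ^ (-160 * (m - a + 1)))
    (h1 : ‖δ (a + 1) - t * w (a + 1)‖ ≤ 8 * B ^ 101 * X ^ 2 * B ^ (-160 * (m - a)))
    (i : ℤ) (hi : a ≤ i) (him : i ≤ m) :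
    ‖δ i - t * w i‖ ≤ 8 * B ^ 101 * X ^ 2 * B ^ (-160 * (m - i + 1)) := by
  have B0 : 0 < B := by linarith
  have B1 : 1 ≤ B := by linarith
  refine two_step (P := fun i => ‖δ i - t * w i‖ ≤ 8 * B ^ 101 * X ^ 2 * B ^ (-160 * (m - i + 1)))
    (m := m) h0 (by rwa [show m - (a + 1) + 1 = m - a by ring]) (fun i hi him a1 a2 => ?_) i hi him
  obtain ⟨r, s, r0, s0, r1, s1, e1, e2, e3, e4⟩ := scales hB (n := m - i) (by omega)
  have hw1 := hP i hi.le him.le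
  rw [show m - (i - 1) + 1 = m - i + 1 + 1 by ring] at a1
  rw [show m - (i + 1) + 1 = m - i by ring, e2]
  rw [e3] at a2
  rw [e1] at hw1
  replace a1 := a1.trans (mul_le_mul_of_nonneg_left e4 (by positivity))
  have r2 : r ≤ 1 := (le_mul_of_one_le_right r0.le (one_le_pow₀ B1)).trans r1
  have b1 : ‖t * w i‖ ≤ X * r := by
    rw [norm_mul]
    refine (mul_le_mul_of_nonneg_left hw1 (norm_nonneg _)).trans ?_
    nlinarith [mul_le_mul_of_nonneg_left hX r0.le]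
  have b2 : 8 * B ^ 101 * X ^ 2 * (r ^ 2 * s) ≤ X * r := by
    have c1 := small hB s0 s1 (k := 156) (by norm_num)
    have c2 : 8 * (B ^ 101 * X * s) * r ≤ 8 * (B ^ 101 * B ^ 55 * s) * 1 := by gcongr
    rw [← pow_add, mul_one] at c2
    have c3 : 8 * (B ^ 101 * X * s) * r ≤ 1 := c2.trans c1
    calc 8 * B ^ 101 * X ^ 2 * (r ^ 2 * s) = (X * r) * (8 * (B ^ 101 * X * s) * r) := by ring
      _ ≤ X * r := mul_le_of_le_one_right (by positivity) c3
  have b3 : ‖δ i‖ ≤ 2 * (X * r) := by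
    have := norm_add_le (δ i - t * w i) (t * w i)
    rw [sub_add_cancel] at this
    linarith
  have b4 : 2 * (X * r) ≤ 1 := by
    have c1 : B ^ 55 * B ≤ B ^ 80 := by
      rw [← pow_succ]; exact pow_le_pow_right₀ B1 (by norm_num)
    have c2 : X * 2 ≤ B ^ 55 * B := mul_le_mul hX1 (by linarith) (by norm_num) (by positivity)
    have c3 := mul_le_mul_of_nonneg_left (c2.trans c1) r0.le
    linarith
  have b5 := hδ i hi him (b3.trans b4)
  have b6 : B ^ 101 * ‖δ i‖ ^ 2 ≤ B ^ 101 * (2 * (X * r)) ^ 2 := by gcongr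
  have b7 := norm_step (hV i hi him) a2 a1
  have e : δ (i + 1) - t * w (i + 1) = (δ (i + 1) + δ (i - 1) - V i * δ i) +
      (V i * (δ i - t * w i) - (δ (i - 1) - t * w (i - 1))) := by
    rw [eq_sub_of_add_eq (hw i hi him)]; ring
  rw [e]
  refine (norm_add_le _ _).trans ?_
  have c1 := small hB s0 s1 (k := 101) (by norm_num)
  have A0 : 0 < B ^ 101 := by positivity
  generalize B ^ 101 = A at b5 b6 b7 c1 A0 ⊢
  have b8 : A * (8 * A * X ^ 2 * (r ^ 2 * s)) ≤ A * X ^ 2 * r ^ 2 :=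
    calc A * (8 * A * X ^ 2 * (r ^ 2 * s)) = (A * X ^ 2 * r ^ 2) * (8 * (A * s)) := by ring
      _ ≤ _ := mul_le_of_le_one_right (by positivity) c1
  have b9 : 0 ≤ A * X ^ 2 * r ^ 2 := by positivity
  have b10 : A * (2 * (X * r)) ^ 2 = 4 * (A * X ^ 2 * r ^ 2) := by ring
  have b11 : 8 * A * X ^ 2 * r ^ 2 = 8 * (A * X ^ 2 * r ^ 2) := by ring
  linarith

/-- linear perturbation, same scheme with `φ i = 4 μ B^(-160 (m-i+1)) W`. -/
theorem ll {B : ℝ} (hB : 1000 ≤ B) {V V' w w' : ℤ → 𝕜} {a m : ℤ} {W μ : ℝ}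
    (hV : ∀ i, a < i → i < m → ‖V i‖ + 1 ≤ B ^ 101)
    (hw : ∀ i, a < i → i < m → w (i + 1) + w (i - 1) = V i * w i)
    (hw' : ∀ i, a < i → i < m → w' (i + 1) + w' (i - 1) = V' i * w' i)
    (hVV : ∀ i, a < i → i < m → ‖V' i - V i‖ ≤ μ * B ^ (-80 * (m - i)))
    (hP : ∀ i, a ≤ i → i ≤ m → ‖w i‖ ≤ B ^ (-80 * (m - i)) * W)
    (hμ0 : 0 ≤ μ) (hμ : μ ≤ B ^ 156) (hW : 0 ≤ W)
    (h0 : w' a = w a) (h1 : w' (a + 1) = w (a + 1))
    (i : ℤ) (hi : a ≤ i) (him : i ≤ m) :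
    ‖w' i - w i‖ ≤ 4 * μ * B ^ (-160 * (m - i + 1)) * W := by
  have B0 : 0 < B := by linarith
  have B1 : 1 ≤ B := by linarith
  refine two_step (P := fun i => ‖w' i - w i‖ ≤ 4 * μ * B ^ (-160 * (m - i + 1)) * W)
    (m := m) (by rw [h0, sub_self, norm_zero]; positivity)
    (by rw [h1, sub_self, norm_zero]; positivity) (fun i hi him a1 a2 => ?_) i hi him
  obtain ⟨r, s, r0, s0, r1, s1, e1, e2, e3, e4⟩ := scales hB (n := m - i) (by omega)
  have hw1 := hP i hi.le him.le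
  have hV1 := hVV i hi him
  rw [show m - (i - 1) + 1 = m - i + 1 + 1 by ring] at a1
  rw [show m - (i + 1) + 1 = m - i by ring, e2]
  rw [e3] at a2
  rw [e1] at hw1 hV1
  replace a1 := a1.trans
    (mul_le_mul_of_nonneg_right (mul_le_mul_of_nonneg_left e4 (by positivity)) hW)
  have r2 : r ≤ 1 := (le_mul_of_one_le_right r0.le (one_le_pow₀ B1)).trans r1
  have b2 : 4 * μ * (r ^ 2 * s) * W ≤ r * W := by
    have c1 := small hB s0 s1 (k := 156) (by norm_num)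
    have c2 : 4 * (μ * s) * r ≤ 8 * (B ^ 156 * s) * 1 := by gcongr; norm_num
    have c3 : 4 * (μ * s) * r ≤ 1 := by linarith
    calc 4 * μ * (r ^ 2 * s) * W = (r * W) * (4 * (μ * s) * r) := by ring
      _ ≤ r * W := mul_le_of_le_one_right (by positivity) c3
  have b3 : ‖w' i‖ ≤ 2 * (r * W) := by
    have := norm_add_le (w' i - w i) (w i)
    rw [sub_add_cancel] at this
    linarith
  have b5 : ‖(V' i - V i) * w' i‖ ≤ μ * r * (2 * (r * W)) := by
    rw [norm_mul]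
    exact mul_le_mul hV1 b3 (norm_nonneg _) (by positivity)
  have b7 := norm_step (hV i hi him) a2 a1
  have e : w' (i + 1) - w (i + 1) = (V' i - V i) * w' i +
      (V i * (w' i - w i) - (w' (i - 1) - w (i - 1))) := by
    rw [eq_sub_of_add_eq (hw i hi him), eq_sub_of_add_eq (hw' i hi him)]; ring
  rw [e]
  refine (norm_add_le _ _).trans ?_
  have b8 : B ^ 101 * (4 * μ * (r ^ 2 * s) * W) ≤ μ * r ^ 2 * W / 2 :=
    calc B ^ 101 * (4 * μ * (r ^ 2 * s) * W)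
        = (μ * r ^ 2 * W / 2) * (8 * (B ^ 101 * s)) := by ring
      _ ≤ _ := mul_le_of_le_one_right (by positivity) (small hB s0 s1 (by norm_num))
  have b9 : 0 ≤ μ * r ^ 2 * W := by positivity
  have b10 : μ * r * (2 * (r * W)) = 2 * (μ * r ^ 2 * W) := by ring
  have b11 : 4 * μ * r ^ 2 * W = 4 * (μ * r ^ 2 * W) := by ring
  linarith
end

theorem Bdd.norm_le {B : ℝ} (hB : 2 ≤ B) {V : ℤ → ℝ} (h : Bdd B V) (i : ℤ) : ‖V i‖ + 1 ≤ B ^ 101 := by
  have h1 := abs_le.1 (h i)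
  have h2 : (2 : ℝ) ^ 2 ≤ B ^ 100 :=
    (pow_le_pow_left₀ (by norm_num) hB 2).trans (pow_le_pow_right₀ (by linarith) (by norm_num))
  have h3 : B ^ 100 * 2 ≤ B ^ 101 := by
    rw [pow_succ B 100]; exact mul_le_mul_of_nonneg_left hB (by positivity)
  have h4 : |V i| ≤ B ^ 100 + 2 := abs_le.2 ⟨by linarith [h1.1], by linarith [h1.2]⟩
  rw [Real.norm_eq_abs]
  linarith

theorem Sol.growth_right {B : ℝ} (hB : 2 ≤ B) {V u : ℤ → ℝ} (hV : Bdd B V) (hu : Sol V u) {a : ℤ} {M : ℝ}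
    (h0 : |u a| ≤ M) (h1 : |u (a + 1)| ≤ M) (i : ℤ) (hi : a < i) :
    |u i| ≤ B ^ (101 * (i - a - 1)) * M :=
  R128.growth_right (𝕜 := ℝ) hB (m := i) (fun j _ _ => hV.norm_le hB j) (fun j _ _ => hu j) h0 h1
    i hi le_rfl

theorem Sol.growth_left {B : ℝ} (hB : 2 ≤ B) {V u : ℤ → ℝ} (hV : Bdd B V) (hu : Sol V u) {a : ℤ} {M : ℝ}
    (h0 : |u a| ≤ M) (h1 : |u (a + 1)| ≤ M) (i : ℤ) (hi : i ≤ a) :
    |u i| ≤ B ^ (101 * (a - i)) * M :=
  R128.growth_left (𝕜 := ℝ) hB (m := i) (fun j _ _ => hV.norm_le hB j) (fun j _ _ => hu j) h0 h1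
    i hi le_rfl

/-! complex trigonometric estimates near the real axis -/
theorem norm_cos_sub_le (x : ℝ) (z : ℂ) (h : ‖z - x‖ ≤ 1) :
    ‖Complex.cos z - Complex.cos x‖ ≤ 2 * ‖z - x‖ :=
  cos_lip zero_le_one cosh_one_le z x ((im_le x z).trans h) (by simp)
theorem norm_cos_sub_cos_le (z z' : ℂ) (hz : |z.im| ≤ 1) (hz' : |z'.im| ≤ 1) :
    ‖Complex.cos z - Complex.cos z'‖ ≤ 2 * ‖z - z'‖ :=
  cos_lip zero_le_one cosh_one_le z z' hz hz'
/-- valid up to distance `4π`: constant `cosh (4π) ≤ 10^6`. -/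
theorem norm_cos_sub_le' (x : ℝ) (z : ℂ) (h : ‖z - x‖ ≤ 4 * Real.pi) :
    ‖Complex.cos z - Complex.cos x‖ ≤ 10 ^ 6 * ‖z - x‖ := by
  refine cos_lip (c := (13 : ℕ)) (Nat.cast_nonneg _) ((cosh_le 13).trans (by norm_num)) z x
    ((im_le x z).trans (h.trans ?_)) (by simp)
  push_cast
  linarith [Real.pi_lt_d2]
/-- second order Taylor bound for `sin` at a point of height `≤ 1`; `cosh (1 + 2π) / 2 ≤ 400`. -/
theorem norm_sin_taylor (z d : ℂ) (hz : |z.im| ≤ 1) (hd : ‖d‖ ≤ 2 * Real.pi) :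
    ‖Complex.sin (z + d) - Complex.sin z - Complex.cos z * d‖ ≤ 400 * ‖d‖ ^ 2 := by
  have e : Complex.sin (z + d) - Complex.sin z - Complex.cos z * d =
      (Complex.exp (-z * Complex.I) * (Complex.exp (-d * Complex.I) - 1 - -d * Complex.I) -
        Complex.exp (z * Complex.I) * (Complex.exp (d * Complex.I) - 1 - d * Complex.I)) *
        Complex.I / 2 := by
    simp only [Complex.sin, Complex.cos, neg_add, add_mul, Complex.exp_add]
    linear_combination (-(d / 2) * (Complex.exp (-z * Complex.I) + Complex.exp (z * Complex.I))) *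
      Complex.I_mul_I
  have n1 : ‖-d * Complex.I‖ = ‖d‖ := by simp
  have n2 : ‖d * Complex.I‖ = ‖d‖ := by simp
  have hd' : ‖d‖ ≤ 7 := by linarith [Real.pi_lt_d2]
  have h1 := exp_taylor (-d * Complex.I) (n1 ▸ hd')
  have h2 := exp_taylor (d * Complex.I) (n2 ▸ hd')
  rw [n1] at h1
  rw [n2] at h2
  have h3 : Real.cosh z.im ≤ 2 :=
    (Real.cosh_le_cosh.2 (by rwa [abs_one])).trans cosh_one_le
  rw [Real.cosh_eq] at h3
  rw [e, norm_div, norm_mul, Complex.norm_I, mul_one, Complex.norm_two, div_le_iff₀ (by norm_num)]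
  refine (norm_sub_le _ _).trans ?_
  rw [norm_mul, norm_mul, norm_exp_neg_I, norm_exp_I]
  have h4 := mul_le_mul_of_nonneg_left h1 (Real.exp_pos z.im).le
  have h5 := mul_le_mul_of_nonneg_left h2 (Real.exp_pos (-z.im)).le
  have h6 := mul_le_mul_of_nonneg_right h3 (by positivity : 0 ≤ 400 * ‖d‖ ^ 2)
  linarith

end Crest.Agent.R128
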