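import Crest.Agent.R128.Defs

set_option autoImplicit false
open MeasureTheory Set

namespace Crest.Agent.R128
open Classical

/-! Poly: Taylor remainders by iterating the Schwarz lemma (`dslope`,
`Complex.norm_dslope_le_div_of_mapsTo_ball`, `Complex.differentiableOn_dslope`). -/

theorem schwarz_step (f : ℂ → ℂ) (R M : ℝ) (hR : 0 < R) (hf : DifferentiableOn ℂ f (Metric.ball 0 R))
    (hM : ∀ t ∈ Metric.ball (0 : ℂ) R, ‖f t‖ ≤ M) :
    ∃ g : ℂ → ℂ, DifferentiableOn ℂ g (Metric.ball 0 R) ∧ (∀ t ∈ Metric.ball (0 : ℂ) R, ‖g t‖ ≤ 2 * M / R) ∧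
      ∀ t, f t = f 0 + t * g t := by
  refine ⟨dslope f 0, (Complex.differentiableOn_dslope (Metric.ball_mem_nhds _ hR)).2 hf,
    fun t ht => Complex.norm_dslope_le_div_of_mapsTo_ball hf (fun z hz => ?_) ht, fun t => ?_⟩
  · rw [Metric.mem_closedBall, dist_eq_norm]
    have h1 := hM z hz
    have h2 := hM 0 (Metric.mem_ball_self hR)
    have h3 := norm_sub_le (f z) (f 0)
    linarith
  · have := sub_smul_dslope f 0 t
    rw [sub_zero, smul_eq_mul] at this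
    rw [this]; ring

theorem poly3 (f : ℂ → ℂ) (R M : ℝ) (hR : 0 < R) (hf : DifferentiableOn ℂ f (Metric.ball 0 R))
    (hM : ∀ t ∈ Metric.ball (0 : ℂ) R, ‖f t‖ ≤ M) :
    ∃ p0 p1 p2 p3 : ℂ, ∀ t ∈ Metric.ball (0 : ℂ) R,
      ‖f t - (p0 + p1 * t + p2 * t ^ 2 + p3 * t ^ 3)‖ ≤ 16 * M * (‖t‖ / R) ^ 4 := by
  obtain ⟨g1, d1, b1, e1⟩ := schwarz_step f R M hR hf hM
  obtain ⟨g2, d2, b2, e2⟩ := schwarz_step g1 R _ hR d1 b1
  obtain ⟨g3, d3, b3, e3⟩ := schwarz_step g2 R _ hR d2 b2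
  obtain ⟨g4, -, b4, e4⟩ := schwarz_step g3 R _ hR d3 b3
  refine ⟨f 0, g1 0, g2 0, g3 0, fun t ht => ?_⟩
  have e : f t - (f 0 + g1 0 * t + g2 0 * t ^ 2 + g3 0 * t ^ 3) = t ^ 4 * g4 t := by
    rw [e1 t, e2 t, e3 t, e4 t]; ring
  rw [e, norm_mul, norm_pow]
  calc ‖t‖ ^ 4 * ‖g4 t‖ ≤ ‖t‖ ^ 4 * (2 * (2 * (2 * (2 * M / R) / R) / R) / R) := by
        gcongr; exact b4 t ht
    _ = _ := by field_simp; ring

/-- `f t / t²` extends analytically, bounded by `C`, real on the reals. -/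
theorem poly2r (f : ℂ → ℂ) (R C : ℝ) (hR : 0 < R) (hf : DifferentiableOn ℂ f (Metric.ball 0 R))
    (hC : ∀ t ∈ Metric.ball (0 : ℂ) R, ‖f t‖ ≤ C * ‖t‖ ^ 2)
    (hre : ∀ t : ℝ, |t| < R → (f t).im = 0) :
    ∃ e : ℝ, |e| ≤ C ∧ ∀ t ∈ Metric.ball (0 : ℂ) R, ‖f t - e * t ^ 2‖ ≤ 2 * C * ‖t‖ ^ 3 / R := by
  have hB : Metric.ball (0 : ℂ) R ∈ nhds (0 : ℂ) := Metric.ball_mem_nhds _ hR
  have hf0 : f 0 = 0 := by simpa using hC 0 (Metric.mem_ball_self hR)
  have d1 := (Complex.differentiableOn_dslope hB).2 hf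
  have e1 : ∀ t, f t = t * dslope f 0 t := fun t => by
    have := sub_smul_dslope f 0 t
    rw [sub_zero, smul_eq_mul, hf0, sub_zero] at this
    exact this.symm
  generalize dslope f 0 = g1 at d1 e1
  have hev : ∀ᶠ t in nhdsWithin (0 : ℂ) {0}ᶜ, t ∈ Metric.ball (0 : ℂ) R ∧ t ≠ 0 :=
    (Filter.Eventually.filter_mono nhdsWithin_le_nhds hB).and self_mem_nhdsWithin
  have hg0 : g1 0 = 0 := by
    have c1 : Filter.Tendsto (fun t => ‖g1 t‖) (nhdsWithin (0 : ℂ) {0}ᶜ) (nhds ‖g1 0‖) :=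
      ((d1.differentiableAt hB).continuousAt.norm.tendsto).mono_left nhdsWithin_le_nhds
    have c2 : Filter.Tendsto (fun t : ℂ => C * ‖t‖) (nhdsWithin (0 : ℂ) {0}ᶜ) (nhds (C * ‖(0 : ℂ)‖)) :=
      ((continuous_const.mul continuous_norm).tendsto 0).mono_left nhdsWithin_le_nhds
    have := le_of_tendsto_of_tendsto c1 c2 (hev.mono fun t ht => by
      have h1 := hC t ht.1
      have h2 : 0 < ‖t‖ := norm_pos_iff.2 ht.2
      rw [e1 t, norm_mul] at h1
      exact le_of_mul_le_mul_left (h1.trans_eq (by ring)) h2)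
    simpa using this
  have d2 := (Complex.differentiableOn_dslope hB).2 d1
  have e2 : ∀ t, g1 t = t * dslope g1 0 t := fun t => by
    have := sub_smul_dslope g1 0 t
    rw [sub_zero, smul_eq_mul, hg0, sub_zero] at this
    exact this.symm
  generalize dslope g1 0 = g2 at d2 e2
  have e3 : ∀ t, f t = t ^ 2 * g2 t := fun t => by rw [e1 t, e2 t]; ring
  have c0 : ContinuousAt g2 0 := (d2.differentiableAt hB).continuousAt
  have b2' : ∀ t ∈ Metric.ball (0 : ℂ) R, t ≠ 0 → ‖g2 t‖ ≤ C := fun t ht h0 => by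
    have h1 := hC t ht
    have h2 : 0 < ‖t‖ ^ 2 := pow_pos (norm_pos_iff.2 h0) 2
    rw [e3 t, norm_mul, norm_pow] at h1
    exact le_of_mul_le_mul_left (h1.trans_eq (by ring)) h2
  have b0 : ‖g2 0‖ ≤ C :=
    le_of_tendsto (c0.norm.tendsto.mono_left (nhdsWithin_le_nhds (s := {0}ᶜ)))
      (hev.mono fun t ht => b2' t ht.1 ht.2)
  have b2 : ∀ t ∈ Metric.ball (0 : ℂ) R, ‖g2 t‖ ≤ C := fun t ht => by
    by_cases h0 : t = 0
    · rw [h0]; exact b0
    · exact b2' t ht h0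
  have him : (g2 0).im = 0 := by
    have c1 : ContinuousAt (fun x : ℝ => (g2 x).im) 0 :=
      Complex.continuous_im.continuousAt.comp
        (ContinuousAt.comp (by simpa using c0) Complex.continuous_ofReal.continuousAt)
    have c2 := c1.tendsto.mono_left (nhdsWithin_le_nhds (s := {0}ᶜ))
    have hev' : ∀ᶠ x : ℝ in nhdsWithin (0 : ℝ) {0}ᶜ, (g2 x).im = 0 := by
      have h1 : ∀ᶠ x in nhdsWithin (0 : ℝ) {0}ᶜ, x ∈ Metric.ball (0 : ℝ) R :=
        Filter.Eventually.filter_mono nhdsWithin_le_nhds (Metric.ball_mem_nhds _ hR)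
      filter_upwards [h1, self_mem_nhdsWithin] with x hx hx0
      have h2 := hre x (by simpa using hx)
      rw [e3, ← Complex.ofReal_pow, Complex.im_ofReal_mul] at h2
      exact (mul_eq_zero.1 h2).resolve_left (pow_ne_zero 2 hx0)
    have := tendsto_nhds_unique c2 (tendsto_const_nhds.congr' (hev'.mono fun x hx => hx.symm))
    simpa using this
  obtain ⟨g3, -, b3, e4⟩ := schwarz_step g2 R C hR d2 b2
  refine ⟨(g2 0).re, (Complex.abs_re_le_norm _).trans b0, fun t ht => ?_⟩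
  have e5 : (((g2 0).re : ℝ) : ℂ) = g2 0 := Complex.ext (by simp) (by simp [him])
  have e : f t - (((g2 0).re : ℝ) : ℂ) * t ^ 2 = t ^ 3 * g3 t := by
    rw [e5, e3 t, e4 t]; ring
  rw [e, norm_mul, norm_pow]
  calc ‖t‖ ^ 3 * ‖g3 t‖ ≤ ‖t‖ ^ 3 * (2 * C / R) := by gcongr; exact b3 t ht
    _ = _ := by ring

/-- Cauchy estimate, and the real derivative of the real part. -/
theorem deriv_re_bound (f : ℂ → ℂ) (h M : ℝ) (hh : 0 < h) (hf : DifferentiableOn ℂ f (Metric.ball 0 (2 * h)))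
    (hM : ∀ t ∈ Metric.ball (0 : ℂ) (2 * h), ‖f t‖ ≤ M) (τ : ℝ) (hτ : |τ| ≤ h) :
    HasDerivAt (fun x : ℝ => (f x).re) (deriv f τ).re τ ∧ |(deriv f τ).re| ≤ 2 * M / h := by
  have hsub : Metric.ball (τ : ℂ) h ⊆ Metric.ball 0 (2 * h) :=
    Metric.ball_subset_ball' (by rw [dist_zero_right, Complex.norm_real, Real.norm_eq_abs]; linarith)
  have hτ' := hsub (Metric.mem_ball_self hh)
  refine ⟨(hf.differentiableAt (Metric.isOpen_ball.mem_nhds hτ')).hasDerivAt.real_of_complex,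
    (Complex.abs_re_le_norm _).trans
      (Complex.norm_deriv_le_div_of_mapsTo_ball (hf.mono hsub) (fun z hz => ?_) hh)⟩
  rw [Metric.mem_closedBall, dist_eq_norm]
  have h1 := hM z (hsub hz)
  have h2 := hM τ hτ'
  have h3 := norm_sub_le (f z) (f τ)
  linarith

end Crest.Agent.R128
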