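import Crest.Agent.R128.T2
import Crest.Agent.R128.Poly

set_option autoImplicit false
open MeasureTheory Set

namespace Crest.Agent.R128
open Classical

/-! OSA: one-sided analytic expansion of `ψ 1 / ψ 0`. -/

namespace OSAX

theorem re_poly (x t : ℝ) (p0 p1 p2 p3 : ℂ) :
    |x - (p0.re + p1.re * t + p2.re * t ^ 2 + p3.re * t ^ 3)| ≤
      ‖(x : ℂ) - (p0 + p1 * t + p2 * (t : ℂ) ^ 2 + p3 * (t : ℂ) ^ 3)‖ := by
  refine le_trans (le_of_eq ?_) (Complex.abs_re_le_norm _)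
  simp [← Complex.ofReal_pow]

theorem geo {b : ℤ} (hb : 1 ≤ b) : ∑ i ∈ Finset.Ico 1 b, (2 : ℝ) ^ i ≤ 2 ^ b := by
  induction b, hb using Int.leInduction with
  | base => simp
  | succ b hb ih =>
    rw [← Finset.insert_Ico_right_eq_Ico_add_one hb, Finset.sum_insert (by simp),
      zpow_add_one₀ (by norm_num)]
    linarith

theorem Th_ofReal (V : ℤ → ℝ) (b : ℤ) : Th (fun j => ((V j : ℝ) : ℂ)) b = ((Th V b : ℝ) : ℂ) := by
  unfold Th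
  rw [dir_ofReal, dir_ofReal, Complex.ofReal_div]

theorem W_pos {B : ℝ} {V : ℤ → ℝ} {b : ℤ} (hb : 1 ≤ b) (hP : PlR B (dir V 0) 0 b) :
    0 < |dir V 0 b| := by
  refine lt_of_le_of_ne (abs_nonneg _) fun h => ?_
  have h1 := hP 1 (by norm_num) hb
  have h2 := dir_one V 0
  rw [zero_add] at h2
  rw [h2, ← h] at h1
  norm_num at h1

/-- the remainder of one term `i < b` -/
theorem rem_le {B c₀ W X : ℝ} (hB : 10 ^ 8 ≤ c₀ * B) (h0 : 0 < c₀) (h1 : c₀ ≤ 1) (hW : 0 < W)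
    {m : ℤ} (hm : 1 ≤ m) :
    16 * (16 * B ^ (101 + 177 * m) / (c₀ ^ 2 * B ^ 200 * W ^ 2)) * (X / (B ^ (55 * m) / W)) ^ 4 ≤
      2 ^ (-m) * (B ^ (-35 : ℤ) * (X * W) ^ 4 / (B ^ 100 * W ^ 2)) := by
  have B0 : 0 < B := (mul_pos_iff_of_pos_left h0).1 (by linarith)
  have B8 : 10 ^ 8 ≤ B := by nlinarith
  have B1 : 1 ≤ B := by linarith
  have e1 : B ^ (101 + 177 * m) = B ^ (-35 : ℤ) * B ^ (36 - 42 * m) * B ^ (-m) * B ^ 100 *
      (B ^ (55 * m)) ^ 4 := by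
    rw [← zpow_natCast B 100, ← zpow_natCast (B ^ (55 * m)) 4, ← zpow_mul, ← zpow_add₀ B0.ne',
      ← zpow_add₀ B0.ne', ← zpow_add₀ B0.ne', ← zpow_add₀ B0.ne']
    congr 1; push_cast; ring
  have e2 : B ^ (-m) ≤ 2 ^ (-m) := by
    rw [zpow_neg, zpow_neg]
    exact inv_anti₀ (by positivity) (zpow_le_zpow_left₀ (by omega) (by norm_num) (by linarith))
  have e3 : 256 * B ^ (36 - 42 * m) ≤ c₀ ^ 2 := by
    have a1 : B ^ (36 - 42 * m) ≤ B ^ (-2 : ℤ) := zpow_le_zpow_right₀ B1 (by omega)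
    have a2 : B ^ (-2 : ℤ) * B ^ 2 = 1 := by
      rw [← zpow_natCast B 2, ← zpow_add₀ B0.ne']; norm_num
    have a3 : 256 ≤ (c₀ * B) ^ 2 := by nlinarith
    have a4 : 0 < B ^ (-2 : ℤ) := zpow_pos B0 _
    have a5 := mul_le_mul_of_nonneg_left a3 a4.le
    have a6 : B ^ (-2 : ℤ) * (c₀ * B) ^ 2 = c₀ ^ 2 := by
      rw [mul_pow, mul_left_comm, a2, mul_one]
    linarith
  have p1 : 0 < B ^ (55 * m) := zpow_pos B0 _
  have p2 : 0 < B ^ (-35 : ℤ) := zpow_pos B0 _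
  have p3 : 0 < B ^ (-m) := zpow_pos B0 _
  have e4 : 16 * (16 * B ^ (101 + 177 * m) / (c₀ ^ 2 * B ^ 200 * W ^ 2)) *
      (X / (B ^ (55 * m) / W)) ^ 4 = (256 * B ^ (36 - 42 * m) / c₀ ^ 2) * B ^ (-m) *
        (B ^ (-35 : ℤ) * (X * W) ^ 4 / (B ^ 100 * W ^ 2)) := by
    rw [e1]
    generalize B ^ (55 * m) = y at p1
    generalize B ^ (-35 : ℤ) = z
    generalize B ^ (36 - 42 * m) = u
    generalize B ^ (-m) = v
    field_simp
    ring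
  rw [e4]
  refine mul_le_mul_of_nonneg_right ?_ (by positivity)
  have e5 : 256 * B ^ (36 - 42 * m) / c₀ ^ 2 ≤ 1 := (div_le_one (by positivity)).2 e3
  exact (mul_le_of_le_one_left p3.le e5).trans e2

/-- the sum of the terms `i < b` -/
theorem low {B c₀ k : ℝ} (hB : 10 ^ 8 ≤ c₀ * B) (h0 : 0 < c₀) (h1 : c₀ ≤ 1)
    (hk : 2 * Real.pi * k = B ^ 100)
    (P : ℝ × ℝ) {b : ℤ} (hb : 1 ≤ b) (hP : PlR B (dir (Vof B (orb k P)) 0) 0 b)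
    (hc : c₀ ≤ |Real.cos (2 * Real.pi * orb k P b)|) :
    ∃ q0 q1 q2 q3 : ℂ, ∀ t : ℂ, ‖t‖ * |dir (Vof B (orb k P)) 0 b| < 1 →
      ‖∑ i ∈ Finset.Ico 1 b, term B k P b i t - (q0 + q1 * t + q2 * t ^ 2 + q3 * t ^ 3)‖ ≤
        B ^ (-35 : ℤ) * (‖t‖ * |dir (Vof B (orb k P)) 0 b|) ^ 4 /
          (B ^ 100 * dir (Vof B (orb k P)) 0 b ^ 2) := by
  have B0 : 0 < B := (mul_pos_iff_of_pos_left h0).1 (by linarith)
  have B1 : 1 ≤ B := by nlinarith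
  have hW := W_pos hb hP
  have key : ∀ i : ℤ, ∃ p0 p1 p2 p3 : ℂ, i ∈ Finset.Ico 1 b → ∀ t : ℂ,
      ‖t‖ * |dir (Vof B (orb k P)) 0 b| < 1 →
      ‖term B k P b i t - (p0 + p1 * t + p2 * t ^ 2 + p3 * t ^ 3)‖ ≤
        2 ^ (-(b - i)) * (B ^ (-35 : ℤ) * (‖t‖ * |dir (Vof B (orb k P)) 0 b|) ^ 4 /
          (B ^ 100 * dir (Vof B (orb k P)) 0 b ^ 2)) := by
    intro i
    by_cases hi : i ∈ Finset.Ico 1 b
    · obtain ⟨i1, i2⟩ := Finset.mem_Ico.1 hi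
      obtain ⟨d, m⟩ := t1 hB h0 h1 hk P i1 i2 hP hc
      obtain ⟨p0, p1, p2, p3, hp⟩ := poly3 _ _ _ (div_pos (zpow_pos B0 _) hW) d m
      refine ⟨p0, p1, p2, p3, fun _ t ht => (hp t ?_).trans ?_⟩
      · rw [mem_ball_zero_iff, lt_div_iff₀ hW]
        exact ht.trans_le (one_le_zpow₀ B1 (by omega))
      · have := rem_le (X := ‖t‖) hB h0 h1 hW (m := b - i) (by omega)
        rwa [sq_abs] at this
    · exact ⟨0, 0, 0, 0, fun h => absurd h hi⟩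
  choose p0 p1 p2 p3 hp using key
  refine ⟨∑ i ∈ Finset.Ico 1 b, p0 i, ∑ i ∈ Finset.Ico 1 b, p1 i, ∑ i ∈ Finset.Ico 1 b, p2 i,
    ∑ i ∈ Finset.Ico 1 b, p3 i, fun t ht => ?_⟩
  simp only [Finset.sum_mul, ← Finset.sum_add_distrib, ← Finset.sum_sub_distrib]
  refine (norm_sum_le_of_le _ fun i hi => hp i hi t ht).trans ?_
  rw [← Finset.sum_mul]
  refine mul_le_of_le_one_left (div_nonneg (mul_nonneg (zpow_pos B0 _).le
    (pow_nonneg (mul_nonneg (norm_nonneg _) hW.le) _)) (mul_nonneg (pow_pos B0 _).le (sq_nonneg _))) ?_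
  have e : ∑ i ∈ Finset.Ico 1 b, (2 : ℝ) ^ (-(b - i)) = (∑ i ∈ Finset.Ico 1 b, (2 : ℝ) ^ i) / 2 ^ b := by
    rw [Finset.sum_div]
    refine Finset.sum_congr rfl fun i _ => ?_
    rw [neg_sub, zpow_sub₀ (by norm_num)]
  rw [e, div_le_one (by positivity)]
  exact geo hb

/-- a solution that is small at `b + 1` versus the one that vanishes there -/
theorem noise {B c₀ W : ℝ} (hB : 10 ^ 8 ≤ c₀ * B) (h0 : 0 < c₀) (h1 : c₀ ≤ 1) (hW : 0 < W)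
    {U ψ : ℤ → ℝ} (hψ : Sol U ψ) {b : ℤ} (d1 : c₀ * B ^ 100 * W / 2 ≤ |dir U 0 (b + 1)|)
    (d0 : |dir U 0 b| ≤ 2 * W) (hb : ψ b ≠ 0) (hs : |ψ (b + 1)| ≤ B ^ (-98 : ℤ) * |ψ b|) :
    ψ 0 ≠ 0 ∧ |ψ 1 / ψ 0 - Th U b| ≤ B ^ (-190 : ℤ) / (B ^ 100 * W ^ 2) := by
  have B0 : 0 < B := (mul_pos_iff_of_pos_left h0).1 (by linarith)
  have B1 : 1 ≤ B := by nlinarith
  have pb : 0 < |ψ b| := abs_pos.2 hb
  have a1 : B ^ (-98 : ℤ) ≤ 1 := zpow_le_one_of_nonpos₀ B1 (by norm_num)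
  have a2 : 10 ^ 8 ≤ c₀ * B ^ 100 :=
    hB.trans (mul_le_mul_of_nonneg_left (le_self_pow₀ B1 (by norm_num)) h0.le)
  have a3 : c₀ * B ^ 100 * W / 4 * |ψ b| ≤ |ψ 0| := by
    rw [psi_zero hψ b]
    refine le_trans ?_ (abs_sub_abs_le_abs_sub _ _)
    rw [abs_mul, abs_mul]
    have b1 := mul_le_mul_of_nonneg_right d1 pb.le
    have b2 : |ψ (b + 1)| ≤ |ψ b| := hs.trans (mul_le_of_le_one_left pb.le a1)
    have b3 := mul_le_mul d0 b2 (abs_nonneg _) (by positivity)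
    have b4 := mul_le_mul_of_nonneg_right a2 (mul_pos hW pb).le
    have b5 := mul_pos hW pb
    linarith
  have a4 : 0 < c₀ * B ^ 100 * W / 4 * |ψ b| := by positivity
  have a5 : 0 < c₀ * B ^ 100 * W / 2 := by positivity
  have n0 : ψ 0 ≠ 0 := abs_pos.1 (a4.trans_le a3)
  refine ⟨n0, ?_⟩
  rw [(ratio_sub_Th hψ b n0 (abs_pos.1 (a5.trans_le d1))).2, abs_div, abs_mul]
  refine (div_le_div₀ (by positivity) hs (mul_pos a4 a5)
    (mul_le_mul a3 d1 a5.le (abs_nonneg _))).trans ?_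
  have e1 : B ^ (-190 : ℤ) * B ^ 92 = B ^ (-98 : ℤ) := by
    rw [← zpow_natCast B 92, ← zpow_add₀ B0.ne']; norm_num
  have p1 : 0 < B ^ (-190 : ℤ) := zpow_pos B0 _
  have e2 : B ^ (-98 : ℤ) * |ψ b| / (c₀ * B ^ 100 * W / 4 * |ψ b| * (c₀ * B ^ 100 * W / 2)) =
      8 / ((c₀ * B) ^ 2 * B ^ 6) * (B ^ (-190 : ℤ) / (B ^ 100 * W ^ 2)) := by
    rw [← e1]
    generalize B ^ (-190 : ℤ) = z
    field_simp
    ring
  rw [e2]
  refine mul_le_of_le_one_left (by positivity) ((div_le_one (by positivity)).2 ?_)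
  have c1 : 8 ≤ (c₀ * B) ^ 2 := by nlinarith
  exact c1.trans (le_mul_of_one_le_right (by positivity) (one_le_pow₀ B1))

theorem core {B c₀ k : ℝ} (hB : 10 ^ 8 ≤ c₀ * B) (h0 : 0 < c₀) (h1 : c₀ ≤ 1)
    (hk : 2 * Real.pi * k = B ^ 100)
    (P : ℝ × ℝ) {b : ℤ} (hb : 1 ≤ b) (hP : PlR B (dir (Vof B (orb k P)) 0) 0 b)
    (hc : c₀ ≤ |Real.cos (2 * Real.pi * orb k P b)|) :
    ∃ q0 q1 q2 q3 : ℂ, ∀ t : ℝ, |t| * |dir (Vof B (orb k P)) 0 b| ≤ c₀ / 400 → ∀ ψ : ℤ → ℝ,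
      Sol (Vof B (orb k (P.1, P.2 + t))) ψ → ψ b ≠ 0 → |ψ (b + 1)| ≤ B ^ (-98 : ℤ) * |ψ b| →
      ψ 0 ≠ 0 ∧ ‖((ψ 1 / ψ 0 : ℝ) : ℂ) - (q0 + q1 * t + q2 * (t : ℂ) ^ 2 + q3 * (t : ℂ) ^ 3) -
        term B k P b b t‖ ≤ (B ^ (-35 : ℤ) * (|t| * |dir (Vof B (orb k P)) 0 b|) ^ 4 +
          B ^ (-190 : ℤ)) / (B ^ 100 * dir (Vof B (orb k P)) 0 b ^ 2) := by
  have hW := W_pos hb hP
  obtain ⟨q0, q1, q2, q3, hq⟩ := low hB h0 h1 hk P hb hP hc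
  obtain ⟨-, m, -⟩ := t2 hB h0 h1 hk P hb hP hc
  refine ⟨Th (Vt B k P 0) b + q0, q1, q2, q3, fun t ht ψ hψ hb0 hs => ?_⟩
  have nt : ‖(t : ℂ)‖ = |t| := Complex.norm_real t
  have eV : Vt B k P t = fun j => ((Vof B (orb k (P.1, P.2 + t)) j : ℝ) : ℂ) :=
    funext (Vt_ofReal B k P t)
  obtain ⟨-, d1, d0⟩ := m t (by rw [mem_ball_zero_iff, lt_div_iff₀ hW, nt]; linarith)
  rw [eV, dir_ofReal, Complex.norm_real, Real.norm_eq_abs] at d1 d0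
  obtain ⟨n0, n1⟩ := noise hB h0 h1 hW hψ d1 d0 hb0 hs
  refine ⟨n0, ?_⟩
  have a1 := hq t (by rw [nt]; linarith)
  have a2 := term_sum B k P hb t
  rw [← Finset.Ico_insert_right hb, Finset.sum_insert (by simp), eV, Th_ofReal] at a2
  have a3 : ((ψ 1 / ψ 0 : ℝ) : ℂ) - (Th (Vt B k P 0) b + q0 + q1 * t + q2 * (t : ℂ) ^ 2 +
      q3 * (t : ℂ) ^ 3) - term B k P b b t =
      (∑ i ∈ Finset.Ico 1 b, term B k P b i t - (q0 + q1 * t + q2 * (t : ℂ) ^ 2 + q3 * (t : ℂ) ^ 3)) +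
        ((ψ 1 / ψ 0 - Th (Vof B (orb k (P.1, P.2 + t))) b : ℝ) : ℂ) := by
    rw [Complex.ofReal_sub]
    linear_combination -a2
  rw [a3, add_div]
  refine (norm_add_le _ _).trans (add_le_add (by rwa [nt] at a1) ?_)
  rw [Complex.norm_real, Real.norm_eq_abs]
  rwa [sq_abs] at n1

end OSAX

/-- `ψ 1/ψ 0 = Th (Vt t) b + noise` (`ratio_sub_Th`, cast to `ℂ`), `|noise| ≤ 16 B^(-98) / (c₀ B^100 W)^2 ≤ B^(-190)/(B^100 W²)`;
`Th (Vt t) b = Th (Vt 0) b + ∑ term` (`term_sum`).  `poly3` for each `i < b` (`t1`): remainder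
`≤ 256 B^(1 - 43 (b-i)) (|t| W)^4 / (c₀² B^100 W²)`, total `≤ B^(-35) (|t| W)^4 / (B^100 W²)`.
Term `b`: first claim by the last part of `t2` (the constant goes to `p0`), second claim by `poly3` on the disc of `t2`.
Take real parts of the coefficients. -/
theorem osa_R {B c₀ k : ℝ} (hB : 10 ^ 8 ≤ c₀ * B) (h0 : 0 < c₀) (h1 : c₀ ≤ 1) (hk : 2 * Real.pi * k = B ^ 100)
    (P : ℝ × ℝ) {b : ℤ} (hb : 1 ≤ b) (hP : PlR B (dir (Vof B (orb k P)) 0) 0 b)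
    (hc : c₀ ≤ |Real.cos (2 * Real.pi * orb k P b)|) :
    (∃ p0 p1 p2 p3 : ℝ, ∀ t : ℝ, |t| * |dir (Vof B (orb k P)) 0 b| ≤ c₀ / 400 → ∀ ψ : ℤ → ℝ,
      Sol (Vof B (orb k (P.1, P.2 + t))) ψ → ψ b ≠ 0 → |ψ (b + 1)| ≤ B ^ (-98 : ℤ) * |ψ b| →
      ψ 0 ≠ 0 ∧ |ψ 1 / ψ 0 - (p0 + p1 * t + p2 * t ^ 2 + p3 * t ^ 3) -
        1 / (B ^ 100 * dir (Vof B (orb k P)) 0 b ^ 2 *
          Real.cos (2 * Real.pi * (orb k P b + dir (Vof B (orb k P)) 0 b * t)))| ≤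
        B ^ (-30 : ℤ) / (B ^ 100 * dir (Vof B (orb k P)) 0 b ^ 2)) ∧
    (∃ p0 p1 p2 p3 : ℝ, ∀ t : ℝ, |t| * |dir (Vof B (orb k P)) 0 b| ≤ c₀ / 400 → ∀ ψ : ℤ → ℝ,
      Sol (Vof B (orb k (P.1, P.2 + t))) ψ → ψ b ≠ 0 → |ψ (b + 1)| ≤ B ^ (-98 : ℤ) * |ψ b| →
      ψ 0 ≠ 0 ∧ |ψ 1 / ψ 0 - (p0 + p1 * t + p2 * t ^ 2 + p3 * t ^ 3)| ≤
        (200 * (|t| * |dir (Vof B (orb k P)) 0 b| / (c₀ / 100)) ^ 4 / c₀ + B ^ (-190 : ℤ)) /
          (B ^ 100 * dir (Vof B (orb k P)) 0 b ^ 2)) := by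
  have B0 : 0 < B := (mul_pos_iff_of_pos_left h0).1 (by linarith)
  have B8 : 10 ^ 8 ≤ B := by nlinarith
  have B1 : 1 ≤ B := by linarith
  have hW := OSAX.W_pos hb hP
  have hw : 0 < dir (Vof B (orb k P)) 0 b ^ 2 := by rw [← sq_abs]; positivity
  obtain ⟨q0, q1, q2, q3, hq⟩ := OSAX.core hB h0 h1 hk P hb hP hc
  obtain ⟨d, m, l⟩ := t2 hB h0 h1 hk P hb hP hc
  constructor
  · refine ⟨(q0 - ((1 / (B ^ 100 * dir (Vof B (orb k P)) 0 b ^ 2 *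
      Real.cos (2 * Real.pi * orb k P b)) : ℝ) : ℂ)).re, q1.re, q2.re, q3.re,
      fun t ht ψ hψ hb0 hs => ?_⟩
    obtain ⟨n0, n1⟩ := hq t ht ψ hψ hb0 hs
    refine ⟨n0, ?_⟩
    have n2 := l t (by linarith)
    rw [sub_right_comm]
    refine (OSAX.re_poly _ _ _ _ _ _).trans ?_
    refine le_trans (le_of_eq ?_) ((norm_add_le _ _).trans ((add_le_add n1 n2).trans ?_))
    · congr 1
      rw [sub_div, div_div, div_div, mul_comm (Real.cos _), mul_comm (Real.cos _),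
        Complex.ofReal_sub, Complex.ofReal_sub]
      ring
    · rw [← add_div]
      refine div_le_div_of_nonneg_right ?_ (by positivity)
      have a1 : (|t| * |dir (Vof B (orb k P)) 0 b|) ^ 4 ≤ 1 :=
        pow_le_one₀ (by positivity) (by linarith)
      have a2 : 0 < B ^ (-35 : ℤ) := zpow_pos B0 _
      have a3 := mul_le_of_le_one_right a2.le a1
      have a4 : B ^ (-190 : ℤ) ≤ B ^ (-35 : ℤ) := zpow_le_zpow_right₀ B1 (by norm_num)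
      have a5 : B ^ (-40 : ℤ) ≤ B ^ (-35 : ℤ) := zpow_le_zpow_right₀ B1 (by norm_num)
      have a6 : B ^ (-34 : ℤ) ≤ B ^ (-30 : ℤ) := zpow_le_zpow_right₀ B1 (by norm_num)
      have a7 : B ^ (-34 : ℤ) = B ^ (-35 : ℤ) * B := by
        rw [← zpow_add_one₀ B0.ne']; norm_num
      have a8 := mul_le_mul_of_nonneg_left B8 a2.le
      linarith
  · obtain ⟨p0, p1, p2, p3, hp⟩ := poly3 _ _ _ (div_pos (by positivity) hW) d fun t ht => (m t ht).1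
    refine ⟨(q0 + p0).re, (q1 + p1).re, (q2 + p2).re, (q3 + p3).re, fun t ht ψ hψ hb0 hs => ?_⟩
    obtain ⟨n0, n1⟩ := hq t ht ψ hψ hb0 hs
    refine ⟨n0, ?_⟩
    have nt : ‖(t : ℂ)‖ = |t| := Complex.norm_real t
    have n2 := hp t (by rw [mem_ball_zero_iff, lt_div_iff₀ hW, nt]; linarith)
    refine (OSAX.re_poly _ _ _ _ _ _).trans ?_
    refine le_trans (le_of_eq ?_) ((norm_add_le _ _).trans ((add_le_add n1 n2).trans ?_))
    · congr 1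
      ring
    · have e : 16 * (10 / (c₀ * B ^ 100 * dir (Vof B (orb k P)) 0 b ^ 2)) *
          (‖(t : ℂ)‖ / (c₀ / 100 / |dir (Vof B (orb k P)) 0 b|)) ^ 4 =
          160 * (|t| * |dir (Vof B (orb k P)) 0 b| / (c₀ / 100)) ^ 4 / c₀ /
            (B ^ 100 * dir (Vof B (orb k P)) 0 b ^ 2) := by
        rw [nt, div_div_eq_mul_div |t|]
        generalize |t| * |dir (Vof B (orb k P)) 0 b| / (c₀ / 100) = y
        generalize dir (Vof B (orb k P)) 0 b ^ 2 = z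
        generalize B ^ 100 = u
        ring
      rw [e, ← add_div]
      refine div_le_div_of_nonneg_right ?_ (by positivity)
      have a1 : |t| * |dir (Vof B (orb k P)) 0 b| ≤ |t| * |dir (Vof B (orb k P)) 0 b| / (c₀ / 100) :=
        le_div_self (by positivity) (by positivity) (by linarith)
      have a2 := pow_le_pow_left₀ (by positivity) a1 4
      have a3 : B ^ (-35 : ℤ) ≤ 1 := zpow_le_one_of_nonpos₀ B1 (by norm_num)
      have a4 := mul_le_of_le_one_left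
        (show 0 ≤ (|t| * |dir (Vof B (orb k P)) 0 b|) ^ 4 by positivity) a3
      have a5 : 0 ≤ (|t| * |dir (Vof B (orb k P)) 0 b| / (c₀ / 100)) ^ 4 := by positivity
      have a6 := le_div_self a5 h0 h1
      generalize (|t| * |dir (Vof B (orb k P)) 0 b| / (c₀ / 100)) ^ 4 = y at *
      rw [mul_div_assoc, mul_div_assoc]
      linarith

/-- reflection of `osa_R`: `P' = (P.1, orb k P (-1))`, `t' = -t` (`orb_refl`, `dir_refl`). -/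
theorem osa_L {B c₀ k : ℝ} (hB : 10 ^ 8 ≤ c₀ * B) (h0 : 0 < c₀) (h1 : c₀ ≤ 1) (hk : 2 * Real.pi * k = B ^ 100)
    (P : ℝ × ℝ) {a : ℤ} (ha : a ≤ -1) (hP : PlL B (dir (Vof B (orb k P)) 0) a 0)
    (hc : c₀ ≤ |Real.cos (2 * Real.pi * orb k P a)|) :
    (∃ p0 p1 p2 p3 : ℝ, ∀ t : ℝ, |t| * |dir (Vof B (orb k P)) 0 a| ≤ c₀ / 400 → ∀ ψ : ℤ → ℝ,
      Sol (Vof B (orb k (P.1, P.2 + t))) ψ → ψ a ≠ 0 → |ψ (a - 1)| ≤ B ^ (-98 : ℤ) * |ψ a| →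
      ψ 0 ≠ 0 ∧ |ψ (-1) / ψ 0 - (p0 + p1 * t + p2 * t ^ 2 + p3 * t ^ 3) -
        1 / (B ^ 100 * dir (Vof B (orb k P)) 0 a ^ 2 *
          Real.cos (2 * Real.pi * (orb k P a + dir (Vof B (orb k P)) 0 a * t)))| ≤
        B ^ (-30 : ℤ) / (B ^ 100 * dir (Vof B (orb k P)) 0 a ^ 2)) ∧
    (∃ p0 p1 p2 p3 : ℝ, ∀ t : ℝ, |t| * |dir (Vof B (orb k P)) 0 a| ≤ c₀ / 400 → ∀ ψ : ℤ → ℝ,
      Sol (Vof B (orb k (P.1, P.2 + t))) ψ → ψ a ≠ 0 → |ψ (a - 1)| ≤ B ^ (-98 : ℤ) * |ψ a| →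
      ψ 0 ≠ 0 ∧ |ψ (-1) / ψ 0 - (p0 + p1 * t + p2 * t ^ 2 + p3 * t ^ 3)| ≤
        (200 * (|t| * |dir (Vof B (orb k P)) 0 a| / (c₀ / 100)) ^ 4 / c₀ + B ^ (-190 : ℤ)) /
          (B ^ 100 * dir (Vof B (orb k P)) 0 a ^ 2)) := by
  have e1 : ∀ i, dir (Vof B (orb k (P.1, orb k P (-1)))) 0 i = -dir (Vof B (orb k P)) 0 (-i) := by
    intro i
    rw [orb_refl, Vof_refl, dir_refl, neg_zero]
  have e2 : orb k (P.1, orb k P (-1)) (-a) = orb k P a := by rw [orb_refl, refl, neg_neg]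
  have e3 : ∀ t : ℝ, Vof B (orb k (P.1, orb k P (-1) + -t)) = refl (Vof B (orb k (P.1, P.2 + t))) := by
    intro t
    have a1 := orb_isOrb k P 0
    have a2 := orb_isOrb k (P.1, P.2 + t) 0
    rw [zero_add, zero_sub, orb_one, orb_zero] at a1 a2
    have a3 : orb k P (-1) + -t = orb k (P.1, P.2 + t) (-1) := by linarith
    rw [a3, ← Vof_refl, ← orb_refl]
  have hP' : PlR B (dir (Vof B (orb k (P.1, orb k P (-1)))) 0) 0 (-a) := fun i i1 i2 => by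
    have := hP (-i) (by omega) (by omega)
    rw [e1, e1, abs_neg, abs_neg, neg_neg, show -a - i = -i - a by ring]
    exact this
  obtain ⟨⟨p0, p1, p2, p3, hp⟩, ⟨r0, r1, r2, r3, hr⟩⟩ :=
    osa_R hB h0 h1 hk (P.1, orb k P (-1)) (b := -a) (by omega) hP' (by rwa [e2])
  simp only [e1, e2, neg_neg, abs_neg, neg_sq] at hp hr
  constructor
  · refine ⟨p0, -p1, p2, -p3, fun t ht ψ hψ hb0 hs => ?_⟩
    have := hp (-t) (by rwa [abs_neg]) (refl ψ) (by rw [e3]; exact hψ.refl) (by simpa [refl] using hb0)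
      (by
        simp only [refl, neg_neg]
        rwa [show -(-a + 1) = a - 1 by ring])
    simp only [refl, neg_zero, neg_mul_neg] at this
    refine ⟨this.1, le_trans (le_of_eq ?_) this.2⟩
    congr 3
    ring
  · refine ⟨r0, -r1, r2, -r3, fun t ht ψ hψ hb0 hs => ?_⟩
    have := hr (-t) (by rwa [abs_neg]) (refl ψ) (by rw [e3]; exact hψ.refl) (by simpa [refl] using hb0)
      (by
        simp only [refl, neg_neg]
        rwa [show -(-a + 1) = a - 1 by ring])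
    simp only [refl, neg_zero, abs_neg] at this
    refine ⟨this.1, le_trans (le_of_eq ?_) this.2⟩
    congr 2
    ring

end Crest.Agent.R128
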