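import Crest.Agent.R128.Defs

set_option autoImplicit false
open MeasureTheory Set

namespace Crest.Agent.R128
open Classical

/-! Thr: choice of thresholds, smallness of the borderline errors, and the bootstrap. -/

namespace ThrX

theorem step (F : ℝ → ℝ) (hF : Monotone F) (hF0 : ∀ x, 0 ≤ F x) (hF1 : ∀ x, F x ≤ 1) (Z z p : ℝ)
    (hz : 0 < z) (hZ : 8 * z ≤ Z) :
    ∃ p', p ≤ p' ∧ p' + z ≤ p + Z ∧ ∀ q, p' ≤ q → q ≤ p' + z → F (q + z) - F (q - z) ≤ 8 * z / Z := by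
  have hZ0 : 0 < Z := by linarith
  set n := ⌊Z / (4 * z)⌋₊ with hn
  have h1 : (n : ℝ) ≤ Z / (4 * z) := Nat.floor_le (by positivity)
  have h2 : Z / (4 * z) < n + 1 := Nat.lt_floor_add_one _
  have h1' : (n : ℝ) * (4 * z) ≤ Z := by rwa [le_div_iff₀ (by positivity)] at h1
  have h2' : Z < (n + 1) * (4 * z) := by rwa [div_lt_iff₀ (by positivity)] at h2
  have h3 : Z ≤ n * (8 * z) := by nlinarith
  have hex : ∃ i < n, F (p + 4 * z * (i + 1 : ℕ)) - F (p + 4 * z * i) ≤ 8 * z / Z := by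
    by_contra hcon
    push Not at hcon
    have hn0 : 0 < n := by
      rcases Nat.eq_zero_or_pos n with h | h
      · rw [h] at h3; simp at h3; linarith
      · exact h
    have hlt : ∑ _i ∈ Finset.range n, 8 * z / Z
        < ∑ i ∈ Finset.range n, (F (p + 4 * z * (i + 1 : ℕ)) - F (p + 4 * z * i)) :=
      Finset.sum_lt_sum_of_nonempty (by simpa using hn0.ne') fun i hi =>
        hcon i (Finset.mem_range.1 hi)
    rw [Finset.sum_range_sub (fun i : ℕ => F (p + 4 * z * i)), Finset.sum_const, Finset.card_range,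
      nsmul_eq_mul] at hlt
    have h4 : 1 ≤ (n : ℝ) * (8 * z / Z) := by
      rw [← mul_div_assoc, le_div_iff₀ hZ0]; linarith
    exact absurd (h4.trans_lt hlt) (not_lt.2 ((sub_le_self _ (hF0 _)).trans (hF1 _)))
  obtain ⟨i, hi, hF'⟩ := hex
  have hi' : (i : ℝ) + 1 ≤ n := by exact_mod_cast hi
  have hi0 : (0 : ℝ) ≤ i := Nat.cast_nonneg _
  refine ⟨p + 4 * z * i + z, by nlinarith, by nlinarith, fun q hq1 hq2 => ?_⟩
  have e1 : F (q + z) ≤ F (p + 4 * z * (i + 1 : ℕ)) := hF (by push_cast; nlinarith)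
  have e2 : F (p + 4 * z * i) ≤ F (q - z) := hF (by linarith)
  linarith

theorem zpow_le8 {B : ℝ} (hB : 2 ≤ B) {m n : ℤ} (h : m + 3 ≤ n) : 8 * B ^ m ≤ B ^ n := by
  have hB0 : 0 < B := by linarith
  have h1 : B ^ (m + 3) ≤ B ^ n := zpow_le_zpow_right₀ (by linarith) h
  have h2 : (8 : ℝ) ≤ B ^ (3 : ℤ) := by
    have : (2 : ℝ) ^ 3 ≤ B ^ 3 := pow_le_pow_left₀ (by norm_num) hB 3
    rw [show (3 : ℤ) = ((3 : ℕ) : ℤ) from rfl, zpow_natCast]
    linarith
  rw [zpow_add₀ hB0.ne'] at h1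
  have : 0 < B ^ m := zpow_pos hB0 m
  nlinarith

theorem NN_succ (l : ℕ) : NN (l + 1) = 10 ^ 9 * NN l := by unfold NN; ring

theorem NN_ge (l : ℕ) : 40 ≤ NN l := by
  unfold NN
  have : 1 ≤ (10 ^ 9) ^ l := Nat.one_le_pow _ _ (by norm_num)
  omega

theorem lt_NN (l : ℕ) : l + 1 ≤ NN l := by
  unfold NN
  have : l < (10 ^ 9) ^ l := Nat.lt_pow_self (by norm_num)
  omega

theorem ratio_le {B : ℝ} (hB : 2 ≤ B) (l : ℕ) :
    ZZ B (l + 1) / ZZ B l ≤ B ^ (-50 * (NN l : ℤ)) := by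
  have hB0 : 0 < B := by linarith
  cases l with
  | zero =>
    simp only [ZZ]
    rw [← zpow_sub₀ hB0.ne']
    refine zpow_le_zpow_right₀ (by linarith) ?_
    have := NN_ge 0
    omega
  | succ l =>
    simp only [ZZ]
    rw [← zpow_sub₀ hB0.ne']
    refine zpow_le_zpow_right₀ (by linarith) ?_
    have := NN_succ l
    omega

theorem beta_le {B : ℝ} (hB : 2 ≤ B) (l : ℕ) :
    beta B l ≤ 800 * 10 ^ 18 / B * (1 / 2) ^ l := by
  have hB0 : 0 < B := by linarith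
  have h1 := ratio_le hB l
  set N := NN l with hN
  have hN40 : 40 ≤ N := NN_ge l
  have hl : l + 1 ≤ N := lt_NN l
  have h2 : B ^ (-50 * (N : ℤ)) = (B ^ (50 * N))⁻¹ := by
    rw [← zpow_natCast, ← zpow_neg]; congr 1
  have h3 : B * (2 : ℝ) ^ (4 * N) ≤ B ^ (50 * N) := by
    have e : 50 * N = (50 * N - 1) + 1 := by omega
    rw [e, pow_succ, mul_comm]
    refine mul_le_mul_of_nonneg_right ?_ hB0.le
    exact (pow_le_pow_right₀ (by norm_num) (by omega)).trans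
      (pow_le_pow_left₀ (by norm_num) hB _)
  have h4 : (N : ℝ) ≤ 2 ^ N := by exact_mod_cast (Nat.lt_pow_self (by norm_num : 1 < 2)).le
  have h5 : (2 : ℝ) ^ l ≤ 2 ^ N := pow_le_pow_right₀ (by norm_num) (by omega)
  have h6 : ((l : ℝ) + 1) ≤ N := by exact_mod_cast hl
  have hN0 : (0 : ℝ) ≤ N := Nat.cast_nonneg _
  have h7 : (N : ℝ) ^ 2 * (l + 1) * 2 ^ l ≤ 2 ^ (4 * N) := by
    calc (N : ℝ) ^ 2 * (l + 1) * 2 ^ l ≤ (2 ^ N) ^ 2 * 2 ^ N * 2 ^ N := by
          gcongr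
          exact h6.trans h4
      _ = 2 ^ (4 * N) := by ring
  unfold beta bb
  rw [NN_succ, ← hN, mul_div_assoc]
  push_cast
  calc 100 * (1000000000 * (N : ℝ)) ^ 2 * (8 * (l + 1) * (ZZ B (l + 1) / ZZ B l))
      ≤ 100 * (1000000000 * (N : ℝ)) ^ 2 * (8 * (l + 1) * (B * 2 ^ (4 * N))⁻¹) := by
        gcongr
        refine h1.trans ?_
        rw [h2]
        exact inv_anti₀ (by positivity) h3
    _ = 800 * 10 ^ 18 / B * (1 / 2) ^ l * ((N : ℝ) ^ 2 * (l + 1) * 2 ^ l / 2 ^ (4 * N)) := by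
        rw [one_div, inv_pow]
        field_simp
        norm_num
    _ ≤ 800 * 10 ^ 18 / B * (1 / 2) ^ l * 1 := by
        gcongr
        rwa [div_le_one (by positivity)]
    _ = _ := mul_one _

end ThrX

/-- nested intervals: inside an interval `I m` of length `≥ ζ m` cut `⌊ζ m / (4 ζ (m+1))⌋ ≥ ζ m / (8 ζ (m+1))`
consecutive intervals of length `4 ζ (m+1)`; on one of them, `[c - 2ζ, c + 2ζ]`, the increment of `F` is at most
`8 ζ (m+1) / ζ m`; put `I (m+1) = [c - ζ, c + ζ]`. -/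
theorem thr (F : ℝ → ℝ) (hF : Monotone F) (hF0 : ∀ x, 0 ≤ F x) (hF1 : ∀ x, F x ≤ 1) (ζ : ℕ → ℝ)
    (hζ : ∀ m, 0 < ζ m) (hζ' : ∀ m, 8 * ζ (m + 1) ≤ ζ m) (a : ℝ) :
    ∃ q ∈ Icc a (a + ζ 0), ∀ m, F (q + ζ (m + 1)) - F (q - ζ (m + 1)) ≤ 8 * ζ (m + 1) / ζ m := by
  choose nx h1 h2 h3 using fun (m : ℕ) (p : ℝ) =>
    ThrX.step F hF hF0 hF1 (ζ m) (ζ (m + 1)) p (hζ _) (hζ' m)
  let p : ℕ → ℝ := fun m => Nat.rec a nx m
  have p0 : p 0 = a := rfl
  have ps : ∀ m, p (m + 1) = nx m (p m) := fun _ => rfl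
  have hmono : Monotone p := monotone_nat_of_le_succ fun m => by rw [ps]; exact h1 m _
  have hanti : Antitone fun m => p m + ζ m :=
    antitone_nat_of_succ_le fun m => by rw [ps]; exact h2 m _
  have hle : ∀ m k, p m ≤ p k + ζ k := fun m k => by
    have e1 := hmono (le_max_left m k)
    have e2 : p (max m k) + ζ (max m k) ≤ p k + ζ k := hanti (le_max_right m k)
    have := hζ (max m k)
    linarith
  have hb : BddAbove (range p) := ⟨p 0 + ζ 0, by rintro _ ⟨m, rfl⟩; exact hle m 0⟩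
  have hlo : ∀ k, p k ≤ ⨆ m, p m := fun k => le_ciSup hb k
  have hhi : ∀ k, ⨆ m, p m ≤ p k + ζ k := fun k => ciSup_le fun m => hle m k
  refine ⟨⨆ m, p m, ⟨p0 ▸ hlo 0, p0 ▸ hhi 0⟩, fun m => ?_⟩
  exact h3 m (p m) _ (ps m ▸ hlo (m + 1)) (ps m ▸ hhi (m + 1))

theorem ZZ_pos {B : ℝ} (hB : 0 < B) (l : ℕ) : 0 < ZZ B l := by
  cases l <;> exact zpow_pos hB _
theorem ZZ_succ_le {B : ℝ} (hB : 2 ≤ B) (l : ℕ) : 8 * ZZ B (l + 1) ≤ ZZ B l := by
  cases l with
  | zero =>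
    simp only [ZZ]
    refine ThrX.zpow_le8 hB ?_
    have := ThrX.NN_ge 0
    omega
  | succ l =>
    simp only [ZZ]
    refine ThrX.zpow_le8 hB ?_
    have := ThrX.NN_succ l
    have := ThrX.NN_ge l
    omega
theorem bb_nonneg {B : ℝ} (hB : 0 < B) (l : ℕ) : 0 ≤ bb B l := by
  unfold bb
  have := ZZ_pos hB l
  have := ZZ_pos hB (l + 1)
  positivity

/-- e.g. `ZZ (l+1) / ZZ l ≤ B ^ (-50 NN l)` and `800 (l+1) NN (l+1)^2 B^(-50 NN l) ≤ 10^30 2^(-l) / B` for `B ≥ 2`. -/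
theorem beta_sum (τ : ℝ) (hτ : 0 < τ) :
    ∃ B₀ : ℝ, ∀ B, B₀ ≤ B → ∀ L, ∑ l ∈ Finset.range L, beta B l ≤ τ := by
  refine ⟨max 2 (2 * (800 * 10 ^ 18) / τ), fun B hB L => ?_⟩
  have hB2 : 2 ≤ B := (le_max_left _ _).trans hB
  have hB3 : 2 * (800 * 10 ^ 18) / τ ≤ B := (le_max_right _ _).trans hB
  have hB0 : 0 < B := by linarith
  refine (Finset.sum_le_sum fun l _ => ThrX.beta_le hB2 l).trans ?_
  rw [← Finset.mul_sum]
  have h := sum_geometric_two_le L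
  calc 800 * 10 ^ 18 / B * ∑ i ∈ Finset.range L, (1 / 2 : ℝ) ^ i ≤ 800 * 10 ^ 18 / B * 2 := by gcongr
    _ ≤ τ := by
      rw [div_le_iff₀ hτ] at hB3
      rw [div_mul_eq_mul_div, div_le_iff₀ hB0]
      linarith

/-- Induct on `L`: `∑_{l ≤ L} a l ≤ 4 D τ`.  Telescoping `h2` gives `∑_{l<L} s l ≤ c 0 + D ∑ (a l + β l)^2`;
sums of squares are bounded by the square of the sum; total `≤ 2 D τ + 80 D^4 τ²`. -/
theorem boot (D τ : ℝ) (hD : 1 ≤ D) (hτ : 0 < τ) (hDτ : 100 * D ^ 3 * τ ≤ 1) (a β s c u : ℕ → ℝ)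
    (ha : ∀ l, 0 ≤ a l) (hβ : ∀ l, 0 ≤ β l) (hs : ∀ l, 0 ≤ s l) (hc : ∀ l, 0 ≤ c l) (hu : ∀ l, 0 ≤ u l)
    (ha0 : a 0 ≤ τ) (hc0 : c 0 ≤ τ) (hβs : ∀ L, ∑ l ∈ Finset.range L, β l ≤ τ)
    (h1 : ∀ l, a (l + 1) ≤ D * s l + D * (a l + β l) ^ 2 + D * (u l + τ) * (a l + β l))
    (h2 : ∀ l, s l + c (l + 1) ≤ c l + D * (a l + β l) ^ 2)
    (h3 : ∀ l, u l ≤ τ + D * ∑ i ∈ Finset.range l, a i) : ∀ l, u l ≤ 1 / 2 := by
  have hD0 : 0 < D := by linarith
  have hτD : τ ≤ D * τ := by nlinarith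
  have hDτ0 : 0 < D * τ := by positivity
  have hτD2 : D * τ ≤ D * (D * τ) := by nlinarith
  have tele : ∀ L, ∑ l ∈ Finset.range L, s l + c L
      ≤ c 0 + D * ∑ l ∈ Finset.range L, (a l + β l) ^ 2 := by
    intro L
    induction L with
    | zero => simp
    | succ L ih =>
      rw [Finset.sum_range_succ, Finset.sum_range_succ, mul_add]
      have := h2 L
      linarith
  have key : ∀ L, ∑ l ∈ Finset.range (L + 1), a l ≤ 4 * (D * τ) := by
    intro L
    induction L with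
    | zero => simp only [zero_add, Finset.range_one, Finset.sum_singleton]; linarith
    | succ L ih =>
      rw [Finset.sum_range_succ']
      set X := ∑ l ∈ Finset.range (L + 1), (a l + β l) with hX
      have hX0 : 0 ≤ X := Finset.sum_nonneg fun l _ => add_nonneg (ha l) (hβ l)
      have hX1 : X ≤ 5 * (D * τ) := by
        rw [hX, Finset.sum_add_distrib]
        have := hβs (L + 1)
        linarith
      have hsq : ∑ l ∈ Finset.range (L + 1), (a l + β l) ^ 2 ≤ X ^ 2 :=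
        Finset.sum_sq_le_sq_sum_of_nonneg fun l _ => add_nonneg (ha l) (hβ l)
      have hX2 : X ^ 2 ≤ (5 * (D * τ)) ^ 2 := pow_le_pow_left₀ hX0 hX1 2
      have hs1 : ∑ l ∈ Finset.range (L + 1), s l ≤ τ + D * (5 * (D * τ)) ^ 2 := by
        have := tele (L + 1)
        have := hc (L + 1)
        have : D * ∑ l ∈ Finset.range (L + 1), (a l + β l) ^ 2 ≤ D * (5 * (D * τ)) ^ 2 :=
          mul_le_mul_of_nonneg_left (hsq.trans hX2) hD0.le
        linarith
      have hu1 : ∀ l ∈ Finset.range (L + 1), u l + τ ≤ 6 * (D * (D * τ)) := by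
        intro l hl
        have e1 : ∑ i ∈ Finset.range l, a i ≤ ∑ i ∈ Finset.range (L + 1), a i :=
          Finset.sum_le_sum_of_subset_of_nonneg
            (Finset.range_mono (Finset.mem_range.1 hl).le) fun i _ _ => ha i
        have e2 : D * ∑ i ∈ Finset.range l, a i ≤ D * (4 * (D * τ)) :=
          mul_le_mul_of_nonneg_left (e1.trans ih) hD0.le
        have := h3 l
        linarith
      have hsum : ∑ l ∈ Finset.range (L + 1), a (l + 1) ≤ ∑ l ∈ Finset.range (L + 1),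
          (D * s l + D * (a l + β l) ^ 2 + D * (6 * (D * (D * τ))) * (a l + β l)) := by
        refine Finset.sum_le_sum fun l hl => (h1 l).trans ?_
        have := hu1 l hl
        have := add_nonneg (ha l) (hβ l)
        gcongr
      rw [Finset.sum_add_distrib, Finset.sum_add_distrib, ← Finset.mul_sum, ← Finset.mul_sum,
        ← Finset.mul_sum, ← hX] at hsum
      have f1 := mul_le_mul_of_nonneg_left hs1 hD0.le
      have f2 := mul_le_mul_of_nonneg_left (hsq.trans hX2) hD0.le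
      have f3 : D * (6 * (D * (D * τ))) * X ≤ D * (6 * (D * (D * τ))) * (5 * (D * τ)) :=
        mul_le_mul_of_nonneg_left hX1 (by positivity)
      have g1 : D ^ 3 * τ * (D * τ) ≤ 1 / 100 * (D * τ) :=
        mul_le_mul_of_nonneg_right (by linarith) hDτ0.le
      have g2 : D ^ 2 * τ * (D * τ) ≤ D ^ 3 * τ * (D * τ) := by
        have : D ^ 2 ≤ D ^ 3 := pow_le_pow_right₀ hD (by norm_num)
        gcongr
      nlinarith
  intro l
  have e1 : ∑ i ∈ Finset.range l, a i ≤ ∑ i ∈ Finset.range (l + 1), a i := by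
    rw [Finset.sum_range_succ]; linarith [ha l]
  have e2 : D * ∑ i ∈ Finset.range l, a i ≤ D * (4 * (D * τ)) :=
    mul_le_mul_of_nonneg_left (e1.trans (key l)) hD0.le
  have e3 : D * (D * τ) ≤ D ^ 3 * τ := by
    have : D ^ 2 ≤ D ^ 3 := pow_le_pow_right₀ hD (by norm_num)
    nlinarith
  have := h3 l
  linarith

end Crest.Agent.R128
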