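import Crest.Agent.R128.Meas
import Crest.Agent.R128.Mble
import Crest.Agent.R128.Thr
import Crest.Agent.R128.CombB

set_option autoImplicit false
open MeasureTheory Set

namespace Crest.Agent.R128
open Classical

/-! ProbA: thresholds, base scale, shifts, enlarged edge events. -/

namespace ProbAX

theorem B_ge {B c₀ : ℝ} (hB : 10 ^ 8 ≤ c₀ * B) (h0 : 0 < c₀) (h1 : c₀ ≤ 1) : 10 ^ 8 ≤ B := by
  have hB0 : 0 ≤ B := by
    by_contra h
    push Not at h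
    nlinarith
  nlinarith

theorem NN_pos (l : ℕ) : 40 ≤ NN l := by
  rw [NN_eq]; have := nn_ge l; omega

/-- union bound over a finite set. -/
theorem union_le {ι : Type*} (k : ℝ) (J : Finset ι) (E : ι → Set (ℤ → ℝ)) (F : Set (ℤ → ℝ)) (c : ℝ)
    (hF : ∀ y ∈ F, ∃ j ∈ J, y ∈ E j) (hE : ∀ j ∈ J, (nu k).real (E j) ≤ c) :
    (nu k).real F ≤ J.card * c := by
  have h1 : F ⊆ ⋃ j ∈ J, E j := fun y hy => by
    obtain ⟨j, hj, h⟩ := hF y hy
    exact Set.mem_biUnion hj h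
  calc (nu k).real F ≤ (nu k).real (⋃ j ∈ J, E j) := measureReal_mono h1 (measure_ne_top _ _)
    _ ≤ ∑ j ∈ J, (nu k).real (E j) := measureReal_biUnion_finset_le _ _
    _ ≤ J.card • c := Finset.sum_le_card_nsmul _ _ _ hE
    _ = J.card * c := by simp

theorem reg_shift (B k : ℝ) (N : ℕ) (q q' : ℝ) (j : ℤ) :
    (nu k).real {y | Reg (Vof B y) N q j ∧ ¬ Reg (Vof B y) N q' j} =
      (nu k).real {y | Reg (Vof B y) N q 0 ∧ ¬ Reg (Vof B y) N q' 0} := by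
  rw [← nu_real_sh k {y | Reg (Vof B y) N q 0 ∧ ¬ Reg (Vof B y) N q' 0} j]
  congr 1
  ext y
  simp [Vof_sh, Reg_sh]

theorem reg_mono_all {V : ℤ → ℝ} {N : ℕ} (hN : 1 ≤ N) {q q' : ℝ} (hq : q ≤ q') {j : ℤ} (h : Reg V N q j) :
    Reg V N q' j := by
  refine h.mono ?_ hq
  obtain ⟨s, -, -, hs⟩ := h.1
  have := hs 1 hN
  simp only [pow_one] at this
  exact le_trans (abs_nonneg _) this

noncomputable def QQ (B : ℝ) (l : ℕ) : ℝ := B ^ (-90 : ℤ) * (∏ i ∈ Finset.range l, (1 + (1 / 2 : ℝ) ^ i)) ^ 2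

theorem prod_ge (l : ℕ) : 1 ≤ ∏ i ∈ Finset.range l, (1 + (1 / 2 : ℝ) ^ i) := by
  induction l with
  | zero => simp
  | succ l ih =>
    rw [Finset.prod_range_succ]
    have : (0 : ℝ) ≤ (1 / 2 : ℝ) ^ l := by positivity
    nlinarith

theorem prod_le (l : ℕ) : ∏ i ∈ Finset.range l, (1 + (1 / 2 : ℝ) ^ i) ≤ Real.exp (2 - 2 * (1 / 2) ^ l) := by
  induction l with
  | zero => simp
  | succ l ih =>
    rw [Finset.prod_range_succ]
    have h1 : 1 + (1 / 2 : ℝ) ^ l ≤ Real.exp ((1 / 2) ^ l) := by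
      have := Real.add_one_le_exp ((1 / 2 : ℝ) ^ l); linarith
    calc _ ≤ Real.exp (2 - 2 * (1 / 2) ^ l) * Real.exp ((1 / 2) ^ l) :=
          mul_le_mul ih h1 (by positivity) (by positivity)
      _ = _ := by rw [← Real.exp_add]; congr 1; ring

theorem prod_le' (l : ℕ) : ∏ i ∈ Finset.range l, (1 + (1 / 2 : ℝ) ^ i) ≤ 9 := by
  refine le_trans (prod_le l) ?_
  have h1 : Real.exp (2 - 2 * (1 / 2) ^ l) ≤ Real.exp (1 + 1) := by
    apply Real.exp_le_exp.mpr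
    have : (0 : ℝ) ≤ (1 / 2 : ℝ) ^ l := by positivity
    linarith
  rw [Real.exp_add] at h1
  have h2 := Real.exp_one_lt_d9
  have h3 := Real.exp_pos 1
  nlinarith

theorem ZZ_le {B : ℝ} (hB : 10 ^ 8 ≤ B) (l : ℕ) : ZZ B l ≤ B ^ (-90 : ℤ) * (1 / 2) ^ l := by
  have hB2 : (2 : ℝ) ≤ B := by linarith [show (2 : ℝ) ≤ 10 ^ 8 by norm_num]
  induction l with
  | zero =>
    simp only [ZZ, pow_zero, mul_one]
    exact zpow_le_zpow_right₀ (by linarith) (by norm_num)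
  | succ l ih =>
    have h := ZZ_succ_le hB2 l
    have h0 := ZZ_pos (show 0 < B by linarith) (l + 1)
    rw [pow_succ]
    linarith

end ProbAX
open ProbAX

/-- For each `l'`: `thr` with `F q = ν {Reg (Vof B y) (NN l') q 0}` (monotone: empty for `q < 0`), `ζ m = ZZ B (l' + m)`,
`a = Q l' = B^(-90) ∏_{i<l'} (1 + 2^(-i))^2 ≤ e^4 B^(-90)`; `ZZ B l' ≤ Q l' 2^(-l')`.  For `Bd`: shift to `j = 0` (`Reg_sh`, `Vof_sh`,
`nu_real_sh`), union over `l' ≤ l`, `measureReal_diff`. -/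
theorem exists_q {B : ℝ} (hB : 10 ^ 8 ≤ B) (k : ℝ) : ∃ q, GoodQ B k q := by
  have hB0 : 0 < B := by linarith [show (0 : ℝ) < 10 ^ 8 by norm_num]
  have hB2 : (2 : ℝ) ≤ B := by linarith [show (2 : ℝ) ≤ 10 ^ 8 by norm_num]
  have hN1 : ∀ l, 1 ≤ NN l := fun l => le_trans (by norm_num) (NN_pos l)
  have key : ∀ l' : ℕ, ∃ q ∈ Icc (QQ B l') (QQ B l' + ZZ B (l' + 0)), ∀ m,
      (nu k).real {y | Reg (Vof B y) (NN l') (q + ZZ B (l' + (m + 1))) 0} -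
        (nu k).real {y | Reg (Vof B y) (NN l') (q - ZZ B (l' + (m + 1))) 0} ≤
        8 * ZZ B (l' + (m + 1)) / ZZ B (l' + m) := fun l' =>
    thr (fun q => (nu k).real {y | Reg (Vof B y) (NN l') q 0})
      (fun a b hab => measureReal_mono (fun y hy => reg_mono_all (hN1 l') hab hy))
      (fun _ => measureReal_nonneg) (fun _ => measureReal_le_one) (fun m => ZZ B (l' + m))
      (fun m => ZZ_pos hB0 _) (fun m => ZZ_succ_le hB2 (l' + m)) (QQ B l')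
  choose q hq1 hq2 using key
  have hz : 0 < B ^ (-90 : ℤ) := zpow_pos hB0 _
  have hQ : ∀ l, B ^ (-90 : ℤ) ≤ QQ B l := fun l => by
    unfold QQ
    have := prod_ge l
    have h2 : 1 ≤ (∏ i ∈ Finset.range l, (1 + (1 / 2 : ℝ) ^ i)) ^ 2 := by nlinarith
    nlinarith
  have hQs : ∀ l, QQ B (l + 1) = QQ B l * (1 + (1 / 2) ^ l) ^ 2 := fun l => by
    unfold QQ
    rw [Finset.prod_range_succ]; ring
  have hup : ∀ l, q l * (1 + (1 / 2) ^ l) ≤ QQ B (l + 1) := fun l => by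
    have h1 := (hq1 l).2
    have h2 := ZZ_le hB l
    have h3 := hQ l
    have h4 : (0 : ℝ) ≤ (1 / 2 : ℝ) ^ l := by positivity
    simp only [add_zero] at h1
    have h5 : q l ≤ QQ B l * (1 + (1 / 2) ^ l) := by nlinarith
    rw [hQs, sq, ← mul_assoc]
    exact mul_le_mul_of_nonneg_right h5 (by linarith)
  have hQ89 : ∀ l, QQ B l ≤ B ^ (-89 : ℤ) := fun l => by
    unfold QQ
    have h1 := prod_le' l
    have h2 := prod_ge l
    have h3 : (∏ i ∈ Finset.range l, (1 + (1 / 2 : ℝ) ^ i)) ^ 2 ≤ B := by nlinarith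
    have h4 : B ^ (-89 : ℤ) = B ^ (-90 : ℤ) * B := by
      rw [← zpow_add_one₀ hB0.ne']; norm_num
    rw [h4]
    exact mul_le_mul_of_nonneg_left h3 hz.le
  refine ⟨q, fun l => ⟨le_trans (hQ l) (hq1 l).1, le_trans (hup l) (hq1 (l + 1)).1,
    le_trans (hup l) (hQ89 _)⟩, fun l j => ?_⟩
  have h := union_le k (Finset.range (l + 1))
    (fun l' => {y | Reg (Vof B y) (NN l') (q l' + ZZ B (l + 1)) j ∧
      ¬ Reg (Vof B y) (NN l') (q l' - ZZ B (l + 1)) j}) {y | Bd B q l y j}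
    (8 * ZZ B (l + 1) / ZZ B l) ?_ ?_
  · refine le_trans h (le_of_eq ?_)
    unfold bb
    simp only [Finset.card_range]
    push_cast
    ring
  · rintro y ⟨l', hl', hy⟩
    exact ⟨l', Finset.mem_range.mpr (by omega), hy⟩
  · intro l' hl'
    have hl : l' ≤ l := by have := Finset.mem_range.mp hl'; omega
    obtain ⟨m, rfl⟩ := Nat.exists_eq_add_of_le hl
    rw [reg_shift]
    have h2 := hq2 l' m
    have hζ := ZZ_pos hB0 (l' + m + 1)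
    have h3 : {y | Reg (Vof B y) (NN l') (q l' + ZZ B (l' + m + 1)) 0 ∧
        ¬ Reg (Vof B y) (NN l') (q l' - ZZ B (l' + m + 1)) 0} =
        {y | Reg (Vof B y) (NN l') (q l' + ZZ B (l' + m + 1)) 0} \
          {y | Reg (Vof B y) (NN l') (q l' - ZZ B (l' + m + 1)) 0} := rfl
    have h4 : {y | Reg (Vof B y) (NN l') (q l' - ZZ B (l' + m + 1)) 0} ⊆
        {y | Reg (Vof B y) (NN l') (q l' + ZZ B (l' + m + 1)) 0} :=
      fun y hy => reg_mono_all (hN1 l') (by linarith) hy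
    rw [h3, measureReal_sdiff h4 (measurableSet_Reg _ _ _ _) (measure_ne_top _ _)]
    exact h2

theorem uu_shift (B k : ℝ) (q : ℕ → ℝ) (l : ℕ) (j : ℤ) :
    (nu k).real {y | ¬ pat B q y l j} = uu B k q l := by
  unfold uu
  rw [← nu_real_sh k {y | ¬ pat B q y l 0} j]
  congr 1
  ext y
  simp [pat_sh, shp]
theorem LE_shift (B k : ℝ) (q : ℕ → ℝ) (l : ℕ) (y₀ : ℤ) :
    (nu k).real {y | LE (pat B q y) l y₀} = eps B k q l := by
  unfold eps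
  rw [← nu_real_sh k {y | LE (pat B q y) l 0} y₀]
  congr 1
  ext y
  simp [pat_sh, LE_shp]
/-- `edge_eq`, `edge_iff`. -/
theorem RE_shift (B k : ℝ) (q : ℕ → ℝ) (l : ℕ) (y₀ : ℤ) :
    (nu k).real {y | RE (pat B q y) l y₀} = eps B k q l := by
  have h1 : (nu k).real {y | RE (pat B q y) l y₀} = (nu k).real {y | RE (pat B q y) l 0} := by
    rw [← nu_real_sh k {y | RE (pat B q y) l 0} y₀]
    congr 1
    ext y
    simp [pat_sh, RE_shp]
  rw [h1, ← LE_shift B k q l (NN l)]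
  have hG : MeasurableSet {y | ∀ z : ℤ, 0 ≤ z → z < NN l → ¬ SS (pat B q y) l z} := by
    refine measurableSet_pat B q (p := fun r => ∀ z : ℤ, 0 ≤ z → z < NN l → ¬ SS r l z) ?_
    exact Measurable.forall fun z => measurable_const.imp (measurable_const.imp (measurable_SS _ _).not)
  have h2 := edge_eq (nu k) (nu_shift k) _ hG
  have e1 : {y | LE (pat B q y) l (NN l)} =
      {y | y ∈ {y | ∀ z : ℤ, 0 ≤ z → z < NN l → ¬ SS (pat B q y) l z} ∧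
        sh 1 y ∉ {y | ∀ z : ℤ, 0 ≤ z → z < NN l → ¬ SS (pat B q y) l z}} := by
    ext y
    simp only [Set.mem_setOf_eq, pat_sh]
    exact (edge_iff _ l).1
  have e2 : {y | RE (pat B q y) l 0} =
      {y | sh 1 y ∈ {y | ∀ z : ℤ, 0 ≤ z → z < NN l → ¬ SS (pat B q y) l z} ∧
        y ∉ {y | ∀ z : ℤ, 0 ≤ z → z < NN l → ¬ SS (pat B q y) l z}} := by
    ext y
    simp only [Set.mem_setOf_eq, pat_sh]
    exact (edge_iff _ l).2
  rw [e1, e2, h2]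

/-- `reg_base`, `nu_cos`: 82 sites. -/
theorem uu_zero {B c₀ : ℝ} (hB : 10 ^ 8 ≤ c₀ * B) (h0 : 0 < c₀) (h1 : c₀ ≤ 1) (k : ℝ) {q : ℕ → ℝ}
    (hq : QOK B q) : uu B k q 0 ≤ 164 * c₀ := by
  have hB' := B_ge hB h0 h1
  have hB0 : 0 < B := by linarith [show (0 : ℝ) < 10 ^ 8 by norm_num]
  have h := union_le k (Finset.Icc (-40 : ℤ) 41) (fun i => {y | |Real.cos (2 * Real.pi * y i)| < c₀})
    {y | ¬ pat B q y 0 0} (2 * c₀) ?_ (fun i _ => nu_cos k c₀ h0.le i)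
  · have hc : (Finset.Icc (-40 : ℤ) 41).card = 82 := by simp
    rw [hc] at h
    unfold uu
    push_cast at h
    linarith
  · intro y hy
    by_contra hcon
    push Not at hcon
    apply hy
    refine reg_base hB h0 h1 (hq 0).1 fun i hi1 hi2 => ?_
    have hN : (NN 0 : ℤ) = 40 := by simp [NN]
    rw [hN] at hi1 hi2
    have := hcon i (Finset.mem_Icc.mpr ⟨by linarith, by linarith⟩)
    simp only [Set.mem_setOf_eq, not_lt] at this
    have e : Vof B y i - 2 = B ^ 100 * Real.cos (2 * Real.pi * y i) := by unfold Vof; ring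
    rw [e, abs_mul, abs_of_pos (pow_pos hB0 100), mul_comm]
    exact mul_le_mul_of_nonneg_left this (by positivity)
theorem Mb_zero {B c₀ : ℝ} (hB : 10 ^ 8 ≤ c₀ * B) (h0 : 0 < c₀) (h1 : c₀ ≤ 1) (k : ℝ) {q : ℕ → ℝ}
    (hq : QOK B q) (x : ℤ) : (nu k).real {y | Mb (pat B q y) 0 x} ≤ 700 * c₀ := by
  have hu := uu_zero hB h0 h1 k hq
  have h := union_le k (Finset.Ico x (x + 4)) (fun j => {y | ¬ pat B q y 0 j})
    {y | Mb (pat B q y) 0 x} (164 * c₀) ?_ (fun j _ => by rw [uu_shift]; exact hu)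
  · have hc : (Finset.Ico x (x + 4)).card = 4 := by simp
    rw [hc] at h
    push_cast at h
    linarith
  · intro y hy
    have hy' : Mb (pat B q y) 0 x := hy
    unfold Mb at hy'
    have hn : nn 0 = 4 := by simp [nn]
    rw [hn] at hy'
    have : 0 < ((Finset.Ico x (x + (4 : ℕ))).filter (fun j => ¬ pat B q y 0 j)).card := by omega
    obtain ⟨j, hj⟩ := Finset.card_pos.mp this
    rw [Finset.mem_filter] at hj
    exact ⟨j, by simpa using hj.1, hj.2⟩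
theorem eps_zero {B c₀ : ℝ} (hB : 10 ^ 8 ≤ c₀ * B) (h0 : 0 < c₀) (h1 : c₀ ≤ 1) (k : ℝ) {q : ℕ → ℝ}
    (hq : QOK B q) : eps B k q 0 ≤ 700 * c₀ := by
  refine le_trans (measureReal_mono ?_) (Mb_zero hB h0 h1 k hq 0)
  intro y hy
  exact hy.1
theorem cov_zero {B c₀ : ℝ} (hB : 10 ^ 8 ≤ c₀ * B) (h0 : 0 < c₀) (h1 : c₀ ≤ 1) (k : ℝ) {q : ℕ → ℝ}
    (hq : QOK B q) : (nu k).real {y | Cov (pat B q y) 0 0} ≤ 10 ^ 7 * c₀ := by
  have h := union_le k (Finset.Ico (0 : ℤ) 4800) (fun j => {y | Mb (pat B q y) 0 j})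
    {y | Cov (pat B q y) 0 0} (700 * c₀) ?_ (fun j _ => Mb_zero hB h0 h1 k hq j)
  · have hc : (Finset.Ico (0 : ℤ) 4800).card = 4800 := by simp
    rw [hc] at h
    push_cast at h
    linarith
  · intro y hy
    have hN : (NN 0 : ℤ) = 40 := by simp [NN]
    obtain ⟨j, hj1, hj2, hj⟩ := hy 0 (by rw [hN]; norm_num) (by rw [hN]; norm_num)
    rw [hN] at hj2
    exact ⟨j, Finset.mem_Ico.mpr ⟨hj1, by linarith⟩, hj⟩
/-- `irr_incl`, `hyp_pat`, union bounds. -/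
theorem uu_le {B c₀ : ℝ} (hB : 10 ^ 8 ≤ c₀ * B) (h0 : 0 < c₀) (h1 : c₀ ≤ 1) (k : ℝ) {q : ℕ → ℝ}
    (hq : QOK B q) (l : ℕ) :
    uu B k q l ≤ 10 ^ 15 * c₀ + 14 * 10 ^ 9 * ∑ i ∈ Finset.range l, (NN i : ℝ) * eps B k q i := by
  have hB' := B_ge hB h0 h1
  have hsub : {y | ¬ pat B q y l 0} ⊆ {y | ¬ pat B q y 0 0} ∪
      ({y | ∃ z : ℤ, |z| ≤ 3 * (NN 1 : ℤ) ∧ Mb (pat B q y) 0 z} ∪
        ⋃ l' ∈ Finset.range l, {y | ∃ z : ℤ, |z| ≤ 3 * (NN (l' + 1) : ℤ) ∧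
          (LE (pat B q y) l' z ∨ RE (pat B q y) l' z)}) := by
    intro y hy
    rcases irr_incl (hyp_pat hB' hq y) l hy with h | h | ⟨l', hl', h⟩
    · exact Or.inl h
    · exact Or.inr (Or.inl h)
    · exact Or.inr (Or.inr (Set.mem_biUnion (Finset.mem_range.mpr hl') h))
  have hcard : ∀ M : ℕ, ((Finset.Icc (-(3 * (M : ℤ))) (3 * (M : ℤ))).card : ℝ) = 6 * M + 1 := fun M => by
    have : (Finset.Icc (-(3 * (M : ℤ))) (3 * (M : ℤ))).card = 6 * M + 1 := by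
      rw [Int.card_Icc]; omega
    rw [this]; push_cast; ring
  have b1 := uu_zero hB h0 h1 k hq
  have b2 : (nu k).real {y | ∃ z : ℤ, |z| ≤ 3 * (NN 1 : ℤ) ∧ Mb (pat B q y) 0 z} ≤
      (6 * NN 1 + 1) * (700 * c₀) := by
    rw [← hcard]
    refine union_le k _ (fun j => {y | Mb (pat B q y) 0 j}) _ _ ?_ (fun j _ => Mb_zero hB h0 h1 k hq j)
    rintro y ⟨z, hz, h⟩
    exact ⟨z, Finset.mem_Icc.mpr (abs_le.mp hz), h⟩
  have b3 : ∀ l', (nu k).real {y | ∃ z : ℤ, |z| ≤ 3 * (NN (l' + 1) : ℤ) ∧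
      (LE (pat B q y) l' z ∨ RE (pat B q y) l' z)} ≤ 14 * 10 ^ 9 * (NN l' * eps B k q l') := fun l' => by
    have h := union_le k (Finset.Icc (-(3 * (NN (l' + 1) : ℤ))) (3 * (NN (l' + 1) : ℤ)))
      (fun z => {y | LE (pat B q y) l' z} ∪ {y | RE (pat B q y) l' z})
      {y | ∃ z : ℤ, |z| ≤ 3 * (NN (l' + 1) : ℤ) ∧ (LE (pat B q y) l' z ∨ RE (pat B q y) l' z)}
      (2 * eps B k q l') ?_ ?_
    · rw [hcard] at h
      have hNs : (NN (l' + 1) : ℝ) = 10 ^ 9 * NN l' := by exact_mod_cast NN_succ l'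
      have hN1 : (40 : ℝ) ≤ NN l' := by exact_mod_cast NN_pos l'
      have he : 0 ≤ eps B k q l' := measureReal_nonneg
      rw [hNs] at h
      refine le_trans h ?_
      nlinarith
    · rintro y ⟨z, hz, h⟩
      exact ⟨z, Finset.mem_Icc.mpr (abs_le.mp hz), h⟩
    · intro z _
      refine le_trans (measureReal_union_le _ _) ?_
      rw [LE_shift, RE_shift]; linarith
  have hN1 : (NN 1 : ℝ) = 40 * 10 ^ 9 := by simp only [NN]; norm_num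
  have b4 := le_trans (measureReal_biUnion_finset_le (μ := nu k) (Finset.range l)
    (fun l' => {y | ∃ z : ℤ, |z| ≤ 3 * (NN (l' + 1) : ℤ) ∧ (LE (pat B q y) l' z ∨ RE (pat B q y) l' z)}))
    (Finset.sum_le_sum fun l' _ => b3 l')
  rw [← Finset.mul_sum] at b4
  have b5 := le_trans (measureReal_mono (μ := nu k) hsub (measure_ne_top _ _)) (le_trans (measureReal_union_le _ _)
    (add_le_add le_rfl (measureReal_union_le _ _)))
  rw [hN1] at b2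
  unfold uu at b1 ⊢
  linarith

def LEp (B : ℝ) (q : ℕ → ℝ) (l : ℕ) (y₀ : ℤ) : Set (ℤ → ℝ) :=
  {y | LE (pat B q y) l y₀ ∨ ∃ j : ℤ, |j - y₀| ≤ 14 * (NN l : ℤ) ∧ Bd B q l y j}
def REp (B : ℝ) (q : ℕ → ℝ) (l : ℕ) (y₀ : ℤ) : Set (ℤ → ℝ) :=
  {y | RE (pat B q y) l y₀ ∨ ∃ j : ℤ, |j - y₀| ≤ 14 * (NN l : ℤ) ∧ Bd B q l y j}

theorem ProbAX.bd_le {B k : ℝ} (hB : 10 ^ 8 ≤ B) {q : ℕ → ℝ} (hq : GoodQ B k q) (l : ℕ) (y₀ : ℤ) :
    (nu k).real {y | ∃ j : ℤ, |j - y₀| ≤ 14 * (NN l : ℤ) ∧ Bd B q l y j} ≤ 29 * NN l * bb B l := by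
  have hB0 : 0 < B := by linarith [show (0 : ℝ) < 10 ^ 8 by norm_num]
  have h := union_le k (Finset.Icc (y₀ - 14 * (NN l : ℤ)) (y₀ + 14 * (NN l : ℤ))) (fun j => {y | Bd B q l y j})
    {y | ∃ j : ℤ, |j - y₀| ≤ 14 * (NN l : ℤ) ∧ Bd B q l y j} (bb B l) ?_ (fun j _ => hq.2 l j)
  · have hc : (Finset.Icc (y₀ - 14 * (NN l : ℤ)) (y₀ + 14 * (NN l : ℤ))).card = 28 * NN l + 1 := by
      rw [Int.card_Icc]; omega
    rw [hc] at h
    refine le_trans h (mul_le_mul_of_nonneg_right ?_ (bb_nonneg hB0 l))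
    have hN1 : (40 : ℝ) ≤ NN l := by exact_mod_cast NN_pos l
    push_cast; linarith
  · rintro y ⟨j, hj, h⟩
    have := abs_le.mp hj
    exact ⟨j, Finset.mem_Icc.mpr ⟨by linarith, by linarith⟩, h⟩

theorem ProbAX.rob' {B : ℝ} (hB : 10 ^ 8 ≤ B) {q : ℕ → ℝ} (hq : QOK B q) (l : ℕ) (y₀ : ℤ) {y y' : ℤ → ℝ}
    (hd : ∀ i, y₀ - 15 * NN l ≤ i → i ≤ y₀ + 15 * NN l + 1 →
      |Vof B y' i - Vof B y i| ≤ B ^ (-400 * (NN l : ℤ)))
    (hb : ¬ ∃ j : ℤ, |j - y₀| ≤ 14 * (NN l : ℤ) ∧ Bd B q l y' j) :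
    ∀ l' ≤ l, ∀ j, |j - y₀| ≤ 14 * (NN l : ℤ) → (pat B q y l' j ↔ pat B q y' l' j) := by
  intro l' hl' j hj
  have := abs_le.mp hj
  refine rob hB hq l (α := y₀ - 14 * NN l) (β := y₀ + 14 * NN l)
    (fun i h1 h2 => hd i (by linarith) (by linarith)) (fun j' h1 h2 h => hb ⟨j', ?_, h⟩) hl'
    (by linarith) (by linarith)
  exact abs_le.mpr ⟨by linarith, by linarith⟩

theorem LEp_le {B k : ℝ} (hB : 10 ^ 8 ≤ B) {q : ℕ → ℝ} (hq : GoodQ B k q) (l : ℕ) (y₀ : ℤ) :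
    (nu k).real (LEp B q l y₀) ≤ epsh B k q l := by
  have h := ProbAX.bd_le hB hq l y₀
  have h2 := measureReal_union_le (μ := nu k) {y | LE (pat B q y) l y₀}
    {y | ∃ j : ℤ, |j - y₀| ≤ 14 * (NN l : ℤ) ∧ Bd B q l y j}
  rw [LE_shift] at h2
  unfold epsh
  exact le_trans h2 (by linarith)
theorem REp_le {B k : ℝ} (hB : 10 ^ 8 ≤ B) {q : ℕ → ℝ} (hq : GoodQ B k q) (l : ℕ) (y₀ : ℤ) :
    (nu k).real (REp B q l y₀) ≤ epsh B k q l := by
  have h := ProbAX.bd_le hB hq l y₀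
  have h2 := measureReal_union_le (μ := nu k) {y | RE (pat B q y) l y₀}
    {y | ∃ j : ℤ, |j - y₀| ≤ 14 * (NN l : ℤ) ∧ Bd B q l y j}
  rw [RE_shift] at h2
  unfold epsh
  exact le_trans h2 (by linarith)
/-- `rob`, `LE_local`. -/
theorem LE_rob {B : ℝ} (hB : 10 ^ 8 ≤ B) {q : ℕ → ℝ} (hq : QOK B q) (l : ℕ) (y₀ : ℤ) {y y' : ℤ → ℝ}
    (h : LE (pat B q y) l y₀) (hd : ∀ i, y₀ - 15 * NN l ≤ i → i ≤ y₀ + 15 * NN l + 1 →
      |Vof B y' i - Vof B y i| ≤ B ^ (-400 * (NN l : ℤ))) : y' ∈ LEp B q l y₀ := by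
  by_cases hb : ∃ j : ℤ, |j - y₀| ≤ 14 * (NN l : ℤ) ∧ Bd B q l y' j
  · exact Or.inr hb
  · exact Or.inl ((LE_local _ _ l y₀ (ProbAX.rob' hB hq l y₀ hd hb)).mp h)
theorem RE_rob {B : ℝ} (hB : 10 ^ 8 ≤ B) {q : ℕ → ℝ} (hq : QOK B q) (l : ℕ) (y₀ : ℤ) {y y' : ℤ → ℝ}
    (h : RE (pat B q y) l y₀) (hd : ∀ i, y₀ - 15 * NN l ≤ i → i ≤ y₀ + 15 * NN l + 1 →
      |Vof B y' i - Vof B y i| ≤ B ^ (-400 * (NN l : ℤ))) : y' ∈ REp B q l y₀ := by
  by_cases hb : ∃ j : ℤ, |j - y₀| ≤ 14 * (NN l : ℤ) ∧ Bd B q l y' j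
  · exact Or.inr hb
  · exact Or.inl ((RE_local _ _ l y₀ (ProbAX.rob' hB hq l y₀ hd hb)).mp h)
theorem epsh_nonneg {B : ℝ} (hB : 0 < B) (k : ℝ) (q : ℕ → ℝ) (l : ℕ) : 0 ≤ epsh B k q l := by
  unfold epsh
  have h1 : 0 ≤ eps B k q l := measureReal_nonneg
  have h2 := bb_nonneg hB l
  positivity

end Crest.Agent.R128
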