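import Crest.Agent.R128.ProbA
import Crest.Agent.R128.Ind2

set_option autoImplicit false
open MeasureTheory Set

namespace Crest.Agent.R128
open Classical

/-! ProbB: pairs of edges and crowded neighbourhoods. -/
open ProbAX

/-- `ind2` with `𝒜 = RE … 0`, `ℬ = LE … m`, `a₀ = 4N`, `j₀ = 55N`, `b₀ = m - 4N`, windows `[-15N, 15N+1]`, `[m-15N, m+15N+1]`; `PEm_facts`. -/
theorem pem_bound {B k : ℝ} (hB : 10 ^ 8 ≤ B) (hk : 2 * Real.pi * k = B ^ 100) {q : ℕ → ℝ} (hq : GoodQ B k q)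
    (l : ℕ) (y₀ m : ℤ) (hm : 120 * NN l < m) :
    (nu k).real {y | PEm (pat B q y) l y₀ m} ≤ 10 ^ 9 * epsh B k q l ^ 2 := by
  have hB0 : 0 < B := by linarith [show (0 : ℝ) < 10 ^ 8 by norm_num]
  have hN : (40 : ℤ) ≤ NN l := by exact_mod_cast NN_pos l
  have h := ind2 hB hk hq.1 l (y₀ + 4 * NN l) (y₀ + 55 * NN l) (y₀ + m - 4 * NN l) (y₀ - 15 * NN l)
    (y₀ + 15 * NN l + 1) (y₀ + m - 15 * NN l) (y₀ + m + 15 * NN l + 1)
    {y | RE (pat B q y) l y₀} {y | LE (pat B q y) l (y₀ + m)} (REp B q l y₀) (LEp B q l (y₀ + m))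
    (measurableSet_pat B q (measurable_RE l y₀)) (measurableSet_pat B q (measurable_LE l (y₀ + m)))
    (by linarith) (by linarith) (by linarith) (by linarith) (Or.inr (by linarith)) (Or.inr (by linarith))
    (fun y hy y' hd => RE_rob hB hq.1 l y₀ hy hd) (fun y hy y' hd => LE_rob hB hq.1 l (y₀ + m) hy hd)
  have hsub : {y | PEm (pat B q y) l y₀ m} ⊆ {y | RE (pat B q y) l y₀} ∩ {y | LE (pat B q y) l (y₀ + m)} ∩
      {y | ∀ x, y₀ + 4 * NN l ≤ x → x ≤ y₀ + m - 4 * NN l → ¬ Mb (pat B q y) l x} := by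
    intro y hy
    obtain ⟨h1, h2, h3⟩ := PEm_facts (hyp_pat hB hq.1 y) hy (by linarith)
    exact ⟨⟨h1, h2⟩, fun x hx1 hx2 => h3 x (by linarith) (by linarith)⟩
  refine le_trans (measureReal_mono hsub (measure_ne_top _ _)) (le_trans h ?_)
  have e1 := REp_le hB hq l y₀
  have e2 := LEp_le hB hq l (y₀ + m)
  have e3 := epsh_nonneg hB0 k q l
  rw [mul_assoc, sq]
  exact mul_le_mul_of_nonneg_left (mul_le_mul e1 e2 measureReal_nonneg e3) (by norm_num)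
theorem pe_bound {B k : ℝ} (hB : 10 ^ 8 ≤ B) (hk : 2 * Real.pi * k = B ^ 100) {q : ℕ → ℝ} (hq : GoodQ B k q)
    (l : ℕ) (y₀ : ℤ) :
    (nu k).real {y | PE (pat B q y) l y₀} ≤ 120 * NN (l + 1) * (10 ^ 9 * epsh B k q l ^ 2) := by
  have hN : (40 : ℤ) ≤ NN l := by exact_mod_cast NN_pos l
  have h := union_le k (Finset.Ioc (120 * NN l : ℤ) (120 * NN (l + 1))) (fun m => {y | PEm (pat B q y) l y₀ m})
    {y | PE (pat B q y) l y₀} (10 ^ 9 * epsh B k q l ^ 2) ?_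
    (fun m hm => pem_bound hB hk hq l _ m (Finset.mem_Ioc.mp hm).1)
  · refine le_trans h (mul_le_mul_of_nonneg_right ?_ (by positivity))
    have : (Finset.Ioc (120 * NN l : ℤ) (120 * NN (l + 1))).card ≤ 120 * NN (l + 1) := by
      rw [Int.card_Ioc]; omega
    exact_mod_cast this
  · rintro y ⟨m, h1, h2, h3⟩
    exact ⟨m, Finset.mem_Ioc.mpr ⟨h1, h2⟩, h3⟩
theorem pel_bound {B k : ℝ} (hB : 10 ^ 8 ≤ B) (hk : 2 * Real.pi * k = B ^ 100) {q : ℕ → ℝ} (hq : GoodQ B k q)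
    (l : ℕ) (y₀ : ℤ) :
    (nu k).real {y | PEL (pat B q y) l y₀} ≤ 120 * NN (l + 1) * (10 ^ 9 * epsh B k q l ^ 2) := by
  have hN : (40 : ℤ) ≤ NN l := by exact_mod_cast NN_pos l
  have h := union_le k (Finset.Ioc (120 * NN l : ℤ) (120 * NN (l + 1))) (fun m => {y | PEm (pat B q y) l (y₀ - m) m})
    {y | PEL (pat B q y) l y₀} (10 ^ 9 * epsh B k q l ^ 2) ?_
    (fun m hm => pem_bound hB hk hq l _ m (Finset.mem_Ioc.mp hm).1)
  · refine le_trans h (mul_le_mul_of_nonneg_right ?_ (by positivity))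
    have : (Finset.Ioc (120 * NN l : ℤ) (120 * NN (l + 1))).card ≤ 120 * NN (l + 1) := by
      rw [Int.card_Ioc]; omega
    exact_mod_cast this
  · rintro y ⟨m, h1, h2, h3⟩
    exact ⟨m, Finset.mem_Ioc.mpr ⟨h1, h2⟩, h3⟩
theorem pn_bound {B k : ℝ} (hB : 10 ^ 8 ≤ B) (hk : 2 * Real.pi * k = B ^ 100) {q : ℕ → ℝ} (hq : GoodQ B k q)
    (l : ℕ) :
    (nu k).real {y | PN (pat B q y) l 0} ≤
      243 * NN (l + 1) * (120 * NN (l + 1) * (10 ^ 9 * epsh B k q l ^ 2)) := by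
  have hN : 40 ≤ NN (l + 1) := NN_pos (l + 1)
  have h := union_le k (Finset.Icc (-(121 * NN (l + 1) : ℤ)) (121 * NN (l + 1))) (fun z => {y | PE (pat B q y) l z})
    {y | PN (pat B q y) l 0} (120 * NN (l + 1) * (10 ^ 9 * epsh B k q l ^ 2)) ?_
    (fun z _ => pe_bound hB hk hq l z)
  · refine le_trans h (mul_le_mul_of_nonneg_right ?_ (by positivity))
    have : (Finset.Icc (-(121 * NN (l + 1) : ℤ)) (121 * NN (l + 1))).card ≤ 243 * NN (l + 1) := by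
      rw [Int.card_Icc]; omega
    exact_mod_cast this
  · rintro y ⟨z, h1, h2⟩
    rw [sub_zero] at h1
    exact ⟨z, Finset.mem_Icc.mpr (abs_le.mp h1), h2⟩

noncomputable def gam (B c₀ k : ℝ) (q : ℕ → ℝ) (l : ℕ) : ℝ :=
  6 * 10 ^ 9 * (2 * uu B k q l + 4 * c₀) + 7 * NN (l + 1) * bb B l

/-- enlarged crowd event of a window `[α, β]`. -/
def Crp (B c₀ : ℝ) (q : ℕ → ℝ) (l : ℕ) (α β : ℤ) : Set (ℤ → ℝ) :=
  {y | NN l < badN B (2 * c₀) (Vof B y) (NN l) (q l) α β ∨ ∃ j : ℤ, α - 1 ≤ j ∧ j ≤ β ∧ Bd B q l y j}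

/-- Markov by `mc`: a site is not nice with probability `≤ 2 uu + 4 c₀` (`uu_shift`, `nu_cos`). -/
theorem crp_le {B c₀ k : ℝ} (hB : 10 ^ 8 ≤ c₀ * B) (h0 : 0 < c₀) (h1 : c₀ ≤ 1) {q : ℕ → ℝ} (hq : GoodQ B k q)
    (l : ℕ) {α β : ℤ} (hαβ : β + 1 - α ≤ 6 * NN (l + 1)) :
    (nu k).real (Crp B c₀ q l α β) ≤ gam B c₀ k q l := by
  have hB' := B_ge hB h0 h1
  have hB0 : 0 < B := by linarith [show (0 : ℝ) < 10 ^ 8 by norm_num]
  have hN : 40 ≤ NN (l + 1) := NN_pos (l + 1)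
  have hNr : (40 : ℝ) ≤ NN l := by exact_mod_cast NN_pos l
  have hNs : (NN (l + 1) : ℝ) = 10 ^ 9 * NN l := by exact_mod_cast NN_succ l
  have hu0 : 0 ≤ uu B k q l := measureReal_nonneg
  have b1 : ∀ i : ℤ, (nu k).real {y | ¬ Nice B (2 * c₀) (Vof B y) (NN l) (q l) i} ≤ 2 * uu B k q l + 4 * c₀ := by
    intro i
    have hsub : {y | ¬ Nice B (2 * c₀) (Vof B y) (NN l) (q l) i} ⊆ {y | ¬ pat B q y l (i - 1)} ∪
        ({y | ¬ pat B q y l i} ∪ {y | |Real.cos (2 * Real.pi * y i)| < 2 * c₀}) := by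
      intro y hy
      by_contra hc
      simp only [Set.mem_union, Set.mem_ofPred_eq, not_or, not_not, not_lt] at hc
      apply hy
      refine ⟨hc.1, hc.2.1, ?_⟩
      have e : Vof B y i - 2 = B ^ 100 * Real.cos (2 * Real.pi * y i) := by unfold Vof; ring
      rw [e, abs_mul, abs_of_pos (pow_pos hB0 100), mul_comm]
      exact mul_le_mul_of_nonneg_left hc.2.2 (by positivity)
    have h2 := le_trans (measureReal_mono (μ := nu k) hsub (measure_ne_top _ _))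
      (le_trans (measureReal_union_le _ _) (add_le_add le_rfl (measureReal_union_le _ _)))
    rw [uu_shift, uu_shift] at h2
    have h3 := nu_cos k (2 * c₀) (by linarith) i
    linarith
  have b2 : (nu k).real {y | NN l < badN B (2 * c₀) (Vof B y) (NN l) (q l) α β} ≤
      6 * 10 ^ 9 * (2 * uu B k q l + 4 * c₀) := by
    have h := mc (nu k) (Finset.Icc α β) (fun i => {y | ¬ Nice B (2 * c₀) (Vof B y) (NN l) (q l) i})
      {y | NN l < badN B (2 * c₀) (Vof B y) (NN l) (q l) α β} (NN l) ?_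
    · have h2 := Finset.sum_le_card_nsmul (Finset.Icc α β) _ _ (fun i _ => b1 i)
      have h3 : ((Finset.Icc α β).card : ℝ) ≤ 6 * NN (l + 1) := by
        have : (Finset.Icc α β).card ≤ 6 * NN (l + 1) := by rw [Int.card_Icc]; omega
        exact_mod_cast this
      rw [nsmul_eq_mul] at h2
      have h4 := le_trans (le_trans h h2) (mul_le_mul_of_nonneg_right h3 (by positivity))
      rw [hNs] at h4
      refine le_of_mul_le_mul_left (a := (NN l : ℝ)) (le_trans h4 (le_of_eq (by ring))) (by linarith)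
    · intro y hy
      have : NN l ≤ badN B (2 * c₀) (Vof B y) (NN l) (q l) α β := le_of_lt hy
      unfold badN at this
      have h5 : (NN l : ℝ) ≤ (((Finset.Icc α β).filter
        (fun i => ¬ Nice B (2 * c₀) (Vof B y) (NN l) (q l) i)).card : ℝ) := by exact_mod_cast this
      convert h5 using 3
      ext i
      simp
  have b3 : (nu k).real {y | ∃ j : ℤ, α - 1 ≤ j ∧ j ≤ β ∧ Bd B q l y j} ≤ 7 * NN (l + 1) * bb B l := by
    have h := union_le k (Finset.Icc (α - 1) β) (fun j => {y | Bd B q l y j})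
      {y | ∃ j : ℤ, α - 1 ≤ j ∧ j ≤ β ∧ Bd B q l y j} (bb B l) ?_ (fun j _ => hq.2 l j)
    · refine le_trans h (mul_le_mul_of_nonneg_right ?_ (bb_nonneg hB0 l))
      have : (Finset.Icc (α - 1) β).card ≤ 7 * NN (l + 1) := by rw [Int.card_Icc]; omega
      exact_mod_cast this
    · rintro y ⟨j, h1, h2, h3⟩
      exact ⟨j, Finset.mem_Icc.mpr ⟨h1, h2⟩, h3⟩
  have b4 := measureReal_union_le (μ := nu k) {y | NN l < badN B (2 * c₀) (Vof B y) (NN l) (q l) α β}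
    {y | ∃ j : ℤ, α - 1 ≤ j ∧ j ≤ β ∧ Bd B q l y j}
  unfold gam
  exact le_trans b4 (add_le_add b2 b3)

/-- `rob`: without borderline bonds, nice with `2c₀` for `y'` implies nice with `c₀` for `y`. -/
theorem cr_rob {B c₀ : ℝ} (hB : 10 ^ 8 ≤ c₀ * B) (h0 : 0 < c₀) (h1 : c₀ ≤ 1) {q : ℕ → ℝ} (hq : QOK B q)
    (l : ℕ) {α β : ℤ} {y y' : ℤ → ℝ} (h : NN l < badN B c₀ (Vof B y) (NN l) (q l) α β)
    (hd : ∀ i, α - 1 - NN l ≤ i → i ≤ β + NN l + 1 → |Vof B y' i - Vof B y i| ≤ B ^ (-400 * (NN l : ℤ))) :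
    y' ∈ Crp B c₀ q l α β := by
  have hB' := B_ge hB h0 h1
  have hB1 : 1 ≤ B := by linarith [show (1 : ℝ) ≤ 10 ^ 8 by norm_num]
  by_cases hb : ∃ j : ℤ, α - 1 ≤ j ∧ j ≤ β ∧ Bd B q l y' j
  · exact Or.inr hb
  left
  refine lt_of_lt_of_le h ?_
  unfold badN
  refine Finset.card_le_card fun i hi => ?_
  rw [Finset.mem_filter] at hi ⊢
  refine ⟨hi.1, fun hn => hi.2 ?_⟩
  have hi1 := Finset.mem_Icc.mp hi.1
  have hr : ∀ j, α - 1 ≤ j → j ≤ β → (pat B q y l j ↔ pat B q y' l j) := fun j h1 h2 =>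
    rob hB' hq l (α := α - 1) (β := β) hd (fun j' h1 h2 h => hb ⟨j', h1, h2, h⟩) le_rfl h1 h2
  refine ⟨(hr (i - 1) (by linarith) (by linarith)).mpr hn.1, (hr i (by linarith) hi1.2).mpr hn.2.1, ?_⟩
  have hN : (0 : ℤ) ≤ NN l := Nat.cast_nonneg _
  have h2 := hd i (by linarith) (by linarith)
  have h3 : B ^ (-400 * (NN l : ℤ)) ≤ 1 := zpow_le_one_of_nonpos₀ hB1 (by linarith)
  have h4 := hn.2.2
  have h5 : 1 ≤ c₀ * B ^ 100 := by
    have : B ≤ B ^ 100 := le_self_pow₀ hB1 (by norm_num)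
    nlinarith
  have h6 : |Vof B y' i - 2| ≤ |Vof B y i - 2| + |Vof B y' i - Vof B y i| := by
    have := abs_add_le (Vof B y i - 2) (Vof B y' i - Vof B y i)
    rwa [show Vof B y i - 2 + (Vof B y' i - Vof B y i) = Vof B y' i - 2 by ring] at this
  linarith

/-- `ind2` with `𝒜 = CrL`, `ℬ = LE … 0`, `a₀ = -8N'`, `j₀ = -56N`, `b₀ = -4N`, windows `[-6N'-1-N, -69N+1]`, `[-15N, 15N+1]`. -/
theorem crL_bound {B c₀ k : ℝ} (hB : 10 ^ 8 ≤ c₀ * B) (h0 : 0 < c₀) (h1 : c₀ ≤ 1)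
    (hk : 2 * Real.pi * k = B ^ 100) {q : ℕ → ℝ} (hq : GoodQ B k q) (l : ℕ) :
    (nu k).real {y | LE (pat B q y) l 0 ∧ Iso (pat B q y) l ∧ CrL B c₀ q l y} ≤
      10 ^ 9 * gam B c₀ k q l * epsh B k q l := by
  have hB' := B_ge hB h0 h1
  have hB0 : 0 < B := by linarith [show (0 : ℝ) < 10 ^ 8 by norm_num]
  have hN : (40 : ℤ) ≤ NN l := by exact_mod_cast NN_pos l
  have hNs : (NN (l + 1) : ℤ) = 10 ^ 9 * NN l := by exact_mod_cast NN_succ l
  have h := ind2 hB' hk hq.1 l (-8 * NN (l + 1)) (-56 * NN l) (-4 * NN l) (-6 * NN (l + 1) - 1 - NN l)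
    (-70 * NN l + NN l + 1) (0 - 15 * NN l) (0 + 15 * NN l + 1)
    {y | CrL B c₀ q l y} {y | LE (pat B q y) l 0} (Crp B c₀ q l (-6 * NN (l + 1)) (-70 * NN l)) (LEp B q l 0)
    (measurableSet_CrL _ _ _ _) (measurableSet_pat B q (measurable_LE l 0))
    (by linarith) (by linarith) (by linarith) (by linarith) (Or.inl (by linarith)) (Or.inr (by linarith))
    (fun y hy y' hd => cr_rob hB h0 h1 hq.1 l hy hd) (fun y hy y' hd => LE_rob hB' hq.1 l 0 hy hd)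
  have hsub : {y | LE (pat B q y) l 0 ∧ Iso (pat B q y) l ∧ CrL B c₀ q l y} ⊆
      {y | CrL B c₀ q l y} ∩ {y | LE (pat B q y) l 0} ∩
      {y | ∀ x : ℤ, -8 * NN (l + 1) ≤ x → x ≤ -4 * NN l → ¬ Mb (pat B q y) l x} := by
    rintro y ⟨h1, h2, h3⟩
    exact ⟨⟨h3, h1⟩, fun x hx1 hx2 => h2 x (Or.inl ⟨by linarith, by linarith⟩)⟩
  refine le_trans (measureReal_mono hsub (measure_ne_top _ _)) (le_trans h ?_)
  have e1 := crp_le hB h0 h1 hq l (α := -6 * NN (l + 1)) (β := -70 * NN l) (by linarith)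
  have e2 := LEp_le hB' hq l 0
  rw [mul_assoc, mul_assoc]
  exact mul_le_mul_of_nonneg_left
    (mul_le_mul e1 e2 measureReal_nonneg (le_trans measureReal_nonneg e1)) (by norm_num)

/-- `ind2` with `𝒜 = LE … 0`, `ℬ = CrR`, `a₀ = 254N`, `j₀ = 650N`, `b₀ = 8N'`, windows `[-15N, 15N+1]`, `[699N-1, 6N'+N+1]`. -/
theorem crR_bound {B c₀ k : ℝ} (hB : 10 ^ 8 ≤ c₀ * B) (h0 : 0 < c₀) (h1 : c₀ ≤ 1)
    (hk : 2 * Real.pi * k = B ^ 100) {q : ℕ → ℝ} (hq : GoodQ B k q) (l : ℕ) :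
    (nu k).real {y | LE (pat B q y) l 0 ∧ Iso (pat B q y) l ∧ CrR B c₀ q l y} ≤
      10 ^ 9 * gam B c₀ k q l * epsh B k q l := by
  have hB' := B_ge hB h0 h1
  have hB0 : 0 < B := by linarith [show (0 : ℝ) < 10 ^ 8 by norm_num]
  have hN : (40 : ℤ) ≤ NN l := by exact_mod_cast NN_pos l
  have hNs : (NN (l + 1) : ℤ) = 10 ^ 9 * NN l := by exact_mod_cast NN_succ l
  have h := ind2 hB' hk hq.1 l (254 * NN l) (650 * NN l) (8 * NN (l + 1)) (0 - 15 * NN l) (0 + 15 * NN l + 1)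
    (700 * NN l - 1 - NN l) (6 * NN (l + 1) + NN l + 1)
    {y | LE (pat B q y) l 0} {y | CrR B c₀ q l y} (LEp B q l 0) (Crp B c₀ q l (700 * NN l) (6 * NN (l + 1)))
    (measurableSet_pat B q (measurable_LE l 0)) (measurableSet_CrR _ _ _ _)
    (by linarith) (by linarith) (by linarith) (by linarith) (Or.inr (by linarith)) (Or.inl (by linarith))
    (fun y hy y' hd => LE_rob hB' hq.1 l 0 hy hd) (fun y hy y' hd => cr_rob hB h0 h1 hq.1 l hy hd)
  have hsub : {y | LE (pat B q y) l 0 ∧ Iso (pat B q y) l ∧ CrR B c₀ q l y} ⊆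
      {y | LE (pat B q y) l 0} ∩ {y | CrR B c₀ q l y} ∩
      {y | ∀ x : ℤ, 254 * NN l ≤ x → x ≤ 8 * NN (l + 1) → ¬ Mb (pat B q y) l x} := by
    rintro y ⟨h1, h2, h3⟩
    exact ⟨⟨h1, h3⟩, fun x hx1 hx2 => h2 x (Or.inr ⟨by linarith, by linarith⟩)⟩
  refine le_trans (measureReal_mono hsub (measure_ne_top _ _)) (le_trans h ?_)
  have e1 := crp_le hB h0 h1 hq l (α := 700 * NN l) (β := 6 * NN (l + 1)) (by linarith)
  have e2 := LEp_le hB' hq l 0
  rw [mul_assoc, mul_assoc, mul_comm (gam B c₀ k q l)]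
  exact mul_le_mul_of_nonneg_left
    (mul_le_mul e2 e1 measureReal_nonneg (le_trans measureReal_nonneg e2)) (by norm_num)

end Crest.Agent.R128
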