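import Crest.Agent.R128.CL

set_option autoImplicit false
open MeasureTheory Set

namespace Crest.Agent.R128
open Classical

/-! StB: equidistribution mod 1 of the second stage phase. -/

namespace StBX

theorem inc (Φ Φ' : ℝ → ℝ) (α β s ε : ℝ) (hαβ : α ≤ β) (hs : 0 < s) (hε : 0 < ε)
    (hε1 : ε ≤ 1 / 2) (hd : ∀ τ ∈ Icc α β, HasDerivAt Φ (Φ' τ) τ)
    (hb : ∀ τ ∈ Icc α β, s ≤ Φ' τ ∧ Φ' τ ≤ 3 * s) :
    volume {τ | τ ∈ Icc α β ∧ ∃ n : ℤ, |Φ τ - n| ≤ ε} ≤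
      ENNReal.ofReal (6 * ε * (β - α) + 4 * ε / s) := by
  have hc : ContinuousOn Φ (Icc α β) := fun τ hτ => (hd τ hτ).continuousAt.continuousWithinAt
  have hD : DifferentiableOn ℝ Φ (interior (Icc α β)) := fun τ hτ =>
    (hd τ (interior_subset hτ)).differentiableAt.differentiableWithinAt
  have lo : ∀ x ∈ Icc α β, ∀ y ∈ Icc α β, x ≤ y → s * (y - x) ≤ Φ y - Φ x :=
    (convex_Icc α β).mul_sub_le_image_sub_of_le_deriv hc hD fun τ hτ => by
      rw [(hd τ (interior_subset hτ)).deriv]; exact (hb τ (interior_subset hτ)).1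
  have hi : Φ β - Φ α ≤ 3 * s * (β - α) :=
    (convex_Icc α β).image_sub_le_mul_sub_of_deriv_le hc hD (fun τ hτ => by
      rw [(hd τ (interior_subset hτ)).deriv]; exact (hb τ (interior_subset hτ)).2)
      α (left_mem_Icc.2 hαβ) β (right_mem_Icc.2 hαβ) hαβ
  have one : ∀ n : ℤ, volume {τ | τ ∈ Icc α β ∧ |Φ τ - n| ≤ ε} ≤ ENNReal.ofReal (2 * ε / s) := by
    intro n
    refine (Real.volume_le_diam _).trans (Metric.ediam_le_of_forall_dist_le ?_)
    have key : ∀ x ∈ {τ | τ ∈ Icc α β ∧ |Φ τ - n| ≤ ε}, ∀ y ∈ {τ | τ ∈ Icc α β ∧ |Φ τ - n| ≤ ε},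
        x ≤ y → y - x ≤ 2 * ε / s := by
      rintro x ⟨hx, hx'⟩ y ⟨hy, hy'⟩ hxy
      have h1 := lo x hx y hy hxy
      have h2 := abs_le.1 hx'
      have h3 := abs_le.1 hy'
      rw [le_div_iff₀ hs]
      linarith
    intro x hx y hy
    rw [Real.dist_eq]
    rcases le_total x y with h | h
    · rw [abs_sub_comm, abs_of_nonneg (by linarith)]
      exact key x hx y hy h
    · rw [abs_of_nonneg (by linarith)]
      exact key y hy x hx h
  have sub : {τ | τ ∈ Icc α β ∧ ∃ n : ℤ, |Φ τ - n| ≤ ε} ⊆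
      ⋃ n ∈ Finset.Icc ⌈Φ α - ε⌉ ⌊Φ β + ε⌋, {τ | τ ∈ Icc α β ∧ |Φ τ - n| ≤ ε} := by
    rintro τ ⟨hτ, n, hn⟩
    have h1 := lo α (left_mem_Icc.2 hαβ) τ hτ hτ.1
    have h2 := lo τ hτ β (right_mem_Icc.2 hαβ) hτ.2
    have h3 := abs_le.1 hn
    have h4 : 0 ≤ s * (τ - α) := mul_nonneg hs.le (by linarith [hτ.1])
    have h5 : 0 ≤ s * (β - τ) := mul_nonneg hs.le (by linarith [hτ.2])
    simp only [mem_iUnion, Finset.mem_Icc]
    exact ⟨n, ⟨Int.ceil_le.2 (by linarith), Int.le_floor.2 (by linarith)⟩, hτ, hn⟩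
  have card : ((Finset.Icc ⌈Φ α - ε⌉ ⌊Φ β + ε⌋).card : ℝ) ≤ 3 * s * (β - α) + 2 := by
    have h0 : 0 ≤ 3 * s * (β - α) := mul_nonneg (by linarith) (by linarith)
    rw [Int.card_Icc]
    rcases le_total (⌊Φ β + ε⌋ + 1 - ⌈Φ α - ε⌉) 0 with h | h
    · rw [Int.toNat_of_nonpos h]
      push_cast
      linarith
    · have e : (((⌊Φ β + ε⌋ + 1 - ⌈Φ α - ε⌉).toNat : ℕ) : ℝ) =
          ((⌊Φ β + ε⌋ + 1 - ⌈Φ α - ε⌉ : ℤ) : ℝ) := by exact_mod_cast Int.toNat_of_nonneg h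
      rw [e]
      push_cast
      have h1 := Int.floor_le (Φ β + ε)
      have h2 := Int.le_ceil (Φ α - ε)
      linarith
  refine (measure_mono sub).trans ((measure_biUnion_finset_le _ _).trans ?_)
  refine (Finset.sum_le_card_nsmul _ _ _ fun n _ => one n).trans ?_
  rw [nsmul_eq_mul, ← ENNReal.ofReal_natCast, ← ENNReal.ofReal_mul (by positivity)]
  refine ENNReal.ofReal_le_ofReal ?_
  refine (mul_le_mul_of_nonneg_right card (by positivity)).trans (le_of_eq ?_)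
  field_simp
  ring

/-- the normalised derivative of the phase -/
noncomputable def psi (p : ℝ × ℝ × ℝ × ℝ × ℝ) (τ : ℝ) : ℝ :=
  4 * p.2.1 + 2 * Real.pi * Real.sin (2 * Real.pi * (p.1 + τ)) *
      (p.2.2.1 + p.2.2.2.1 * τ + p.2.2.2.2 * τ ^ 2) -
    Real.cos (2 * Real.pi * (p.1 + τ)) * (p.2.2.2.1 + 2 * p.2.2.2.2 * τ)

def K : Set (ℝ × ℝ × ℝ × ℝ × ℝ) := Icc (0 : ℝ) 1 ×ˢ Metric.sphere 0 1

theorem K_compact : IsCompact K := isCompact_Icc.prod (isCompact_sphere _ _)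

theorem psi_cont : Continuous fun p : (ℝ × ℝ × ℝ × ℝ × ℝ) × ℝ => psi p.1 p.2 := by
  unfold psi
  fun_prop

theorem psi_analytic (p : ℝ × ℝ × ℝ × ℝ × ℝ) : AnalyticOnNhd ℝ (psi p) univ := by
  intro x _
  unfold psi
  fun_prop

theorem psi_ne {p : ℝ × ℝ × ℝ × ℝ × ℝ} (hp : p ∈ K) : ∃ x, psi p x ≠ 0 := by
  obtain ⟨y, a, u0, u1, u2⟩ := p
  by_contra hc
  push Not at hc
  have h1 := hc (-y)
  have h2 := hc (1 - y)
  have h3 := hc (1 / 2 - y)
  have h4 := hc (1 / 4 - y)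
  have e1 : 2 * Real.pi * (y + -y) = 0 := by ring
  have e2 : 2 * Real.pi * (y + (1 - y)) = 2 * Real.pi := by ring
  have e3 : 2 * Real.pi * (y + (1 / 2 - y)) = Real.pi := by ring
  have e4 : 2 * Real.pi * (y + (1 / 4 - y)) = Real.pi / 2 := by ring
  simp only [psi] at h1 h2 h3 h4
  rw [e1, Real.sin_zero, Real.cos_zero] at h1
  rw [e2, Real.sin_two_pi, Real.cos_two_pi] at h2
  rw [e3, Real.sin_pi, Real.cos_pi] at h3
  rw [e4, Real.sin_pi_div_two, Real.cos_pi_div_two] at h4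
  have g2 : u2 = 0 := by linarith
  subst g2
  have g1 : u1 = 0 := by linarith
  have ga : a = 0 := by linarith
  subst g1 ga
  have g0 : u0 = 0 := by
    have := Real.pi_pos
    have h5 : Real.pi * u0 = 0 := by linarith
    exact (mul_eq_zero.1 h5).resolve_left this.ne'
  subst g0
  have := hp.2
  simp at this

end StBX

/-- monotone piece: at most `3 s (β-α) + 2` integers are met, each on a set of measure `≤ 2ε/s`. -/
theorem stB1 (Φ Φ' : ℝ → ℝ) (α β s ε : ℝ) (hαβ : α ≤ β) (hs : 0 < s) (hε : 0 < ε) (hε1 : ε ≤ 1 / 2)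
    (hd : ∀ τ ∈ Icc α β, HasDerivAt Φ (Φ' τ) τ)
    (hb : (∀ τ ∈ Icc α β, s ≤ Φ' τ ∧ Φ' τ ≤ 3 * s) ∨ (∀ τ ∈ Icc α β, s ≤ -Φ' τ ∧ -Φ' τ ≤ 3 * s)) :
    volume {τ | τ ∈ Icc α β ∧ ∃ n : ℤ, |Φ τ - n| ≤ ε} ≤
      ENNReal.ofReal (6 * ε * (β - α) + 4 * ε / s) := by
  rcases hb with hb | hb
  · exact StBX.inc Φ Φ' α β s ε hαβ hs hε hε1 hd hb
  · refine le_trans (measure_mono ?_) (StBX.inc (fun τ => -Φ τ) (fun τ => -Φ' τ) α β s ε hαβ hs hε
      hε1 (fun τ hτ => (hd τ hτ).neg) hb)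
    rintro τ ⟨hτ, n, hn⟩
    refine ⟨hτ, -n, ?_⟩
    rw [← abs_neg]
    push_cast
    rwa [show -(-Φ τ - -(n : ℝ)) = Φ τ - n by ring]

/-- Let `Λ = max 1 (max |e i|)`, `μ = 1/Λ`, `û = (e0 + e1 τ + e2 τ²)/Λ`,
`ψ = 4σμ + 2π sin (2π(y+τ)) û - cos (2π(y+τ)) û'`; so `Φ' = Λ ψ + G'`.
The family `ψ` (`σ = ±1`, `y ∈ [0,1]`, `μ ∈ [0,1]`, `|û i| ≤ 1`, one of them of size one) is compact and no member
vanishes identically (else `4σμτ - cos û` is constant on `ℝ`; at the zeros of `cos` this gives `μ = 0` and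
constant `0`, so `û = 0`).  `cl_compact` gives `δ₁` with `{|ψ| ≤ δ₁}` of measure `≤ κ/200`.  `ψ` is
`L`-Lipschitz on `[-1/100,1/100]` with `L = 100`.  Cut `[-1/100, 1/100]` in `m` equal intervals of length `≤ δ₁/(4L)`;
on an interval containing a point with `|ψ| = m₀ > δ₁`, `|Φ'| ∈ Λ [m₀/2, 3m₀/2]` with constant sign when
`ε₁ ≤ δ₁/4`; use `stB1` with `s = Λ m₀/2 ≥ δ₁/2`; other intervals lie in `{|ψ| ≤ δ₁}`.  Choose `ε₁` small. -/
theorem stB (κ : ℝ) (hκ : 0 < κ) :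
    ∃ ε₁ > 0, ∀ (σ y e0 e1 e2 : ℝ) (G G' : ℝ → ℝ), (σ = 1 ∨ σ = -1) →
      (∀ τ, |τ| ≤ 1 / 100 → HasDerivAt G (G' τ) τ) →
      (∀ τ, |τ| ≤ 1 / 100 → |G' τ| ≤ ε₁ * max 1 (max |e0| (max |e1| |e2|))) →
      volume {τ : ℝ | |τ| ≤ 1 / 100 ∧ ∃ n : ℤ,
        |4 * σ * τ - Real.cos (2 * Real.pi * (y + τ)) * (e0 + e1 * τ + e2 * τ ^ 2) + G τ - n| ≤ ε₁} ≤
        ENNReal.ofReal (κ / 100) := by
  obtain ⟨δ, hδ, hK⟩ := cl_compact StBX.K StBX.K_compact StBX.psi (-(1 / 100)) (1 / 100)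
    StBX.psi_cont.continuousOn (fun p hp => measure_mono_null (fun τ hτ => hτ.2)
      (null_zero_of_analytic _ (StBX.psi_analytic p) (StBX.psi_ne hp))) (κ / 200) (by positivity)
  obtain ⟨η, hη, hU⟩ := Metric.uniformContinuousOn_iff.1
    ((StBX.K_compact.prod (isCompact_Icc (a := -(1 / 100 : ℝ)) (b := 1 / 100)
      )).uniformContinuousOn_of_continuous StBX.psi_cont.continuousOn) (δ / 4) (by positivity)
  set h := η / 2 with hh
  have h0 : 0 < h := by positivity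
  set M : ℕ := ⌊(1 / 50) / h⌋₊ + 1 with hM
  have hM0 : (0 : ℝ) < M := by rw [hM]; positivity
  set ε := min (min (1 / 2) (δ / 4)) (κ / (200 * M * (6 * h + 8 / δ))) with hε
  have hε0 : 0 < ε := by rw [hε]; positivity
  have hε1 : ε ≤ 1 / 2 := (min_le_left _ _).trans (min_le_left _ _)
  have hε2 : ε ≤ δ / 4 := (min_le_left _ _).trans (min_le_right _ _)
  have hε3 : ε ≤ κ / (200 * M * (6 * h + 8 / δ)) := min_le_right _ _
  refine ⟨ε, hε0, fun σ y e0 e1 e2 G G' hσ hG hG' => ?_⟩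
  set Λ := max 1 (max |e0| (max |e1| |e2|)) with hΛ
  have hΛ1 : 1 ≤ Λ := le_max_left _ _
  have hΛ0 : 0 < Λ := by linarith
  set p : ℝ × ℝ × ℝ × ℝ × ℝ := (Int.fract y, σ / Λ, e0 / Λ, e1 / Λ, e2 / Λ) with hp
  have hσ1 : |σ| = 1 := by rcases hσ with rfl | rfl <;> simp
  have hpK : p ∈ StBX.K := by
    refine ⟨⟨Int.fract_nonneg y, (Int.fract_lt_one y).le⟩, ?_⟩
    simp only [hp, mem_sphere_iff_norm, sub_zero, Prod.norm_def, Real.norm_eq_abs, abs_div,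
      abs_of_pos hΛ0, hσ1]
    rw [max_div_div_right hΛ0.le, max_div_div_right hΛ0.le, max_div_div_right hΛ0.le, ← hΛ,
      div_self hΛ0.ne']
  set Φ : ℝ → ℝ := fun τ =>
    4 * σ * τ - Real.cos (2 * Real.pi * (y + τ)) * (e0 + e1 * τ + e2 * τ ^ 2) + G τ with hΦ
  have hd : ∀ τ, |τ| ≤ 1 / 100 → HasDerivAt Φ (Λ * StBX.psi p τ + G' τ) τ := by
    intro τ hτ
    have a1 : HasDerivAt (fun τ : ℝ => 2 * Real.pi * (y + τ)) (2 * Real.pi) τ := by
      simpa using ((hasDerivAt_id τ).const_add y).const_mul (2 * Real.pi)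
    have a2 : HasDerivAt (fun τ : ℝ => e0 + e1 * τ + e2 * τ ^ 2) (e1 + 2 * e2 * τ) τ := by
      have := (((hasDerivAt_id τ).const_mul e1).const_add e0).add
        ((hasDerivAt_pow 2 τ).const_mul e2)
      refine HasDerivAt.congr_deriv this ?_
      simp
      ring
    have a3 : HasDerivAt (fun τ : ℝ => 4 * σ * τ) (4 * σ) τ := by
      simpa using (hasDerivAt_id τ).const_mul (4 * σ)
    have a4 := (a3.sub (a1.cos.mul a2)).add (hG τ hτ)
    have e : 2 * Real.pi * (y + τ) = 2 * Real.pi * (Int.fract y + τ) + (⌊y⌋ : ℤ) * (2 * Real.pi) := by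
      rw [Int.fract]
      ring
    refine HasDerivAt.congr_deriv a4 ?_
    simp only [StBX.psi, hp]
    rw [e, Real.sin_add_int_mul_two_pi, Real.cos_add_int_mul_two_pi]
    field_simp
    ring
  set Bj : ℕ → Set ℝ := fun j => {τ | τ ∈ Icc (-(1 / 100) + j * h) (min (-(1 / 100) + j * h + h)
    (1 / 100)) ∧ δ < |StBX.psi p τ| ∧ ∃ n : ℤ, |Φ τ - n| ≤ ε} with hBj
  have hB : ∀ j, volume (Bj j) ≤ ENNReal.ofReal (ε * (6 * h + 8 / δ)) := by
    intro j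
    rcases (Bj j).eq_empty_or_nonempty with he | ⟨τ₀, hτ₀, hm, -⟩
    · rw [he, measure_empty]
      exact zero_le
    set a : ℝ := -(1 / 100) + j * h with ha
    set b : ℝ := min (a + h) (1 / 100) with hb
    have hjh : 0 ≤ (j : ℝ) * h := by positivity
    have hI : ∀ τ ∈ Icc a b, τ ∈ Icc (-(1 / 100 : ℝ)) (1 / 100) := fun τ hτ =>
      ⟨by linarith [hτ.1], hτ.2.trans (min_le_right _ _)⟩
    have hI' : ∀ τ ∈ Icc a b, |τ| ≤ 1 / 100 := fun τ hτ => abs_le.2 (hI τ hτ)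
    have hba : b - a ≤ h := by linarith [min_le_left (a + h) (1 / 100)]
    have hnear : ∀ τ ∈ Icc a b,
        |Λ * StBX.psi p τ + G' τ - Λ * StBX.psi p τ₀| ≤ Λ * |StBX.psi p τ₀| / 2 := by
      intro τ hτ
      have b1 := hU (p, τ) ⟨hpK, hI τ hτ⟩ (p, τ₀) ⟨hpK, hI τ₀ hτ₀⟩ (by
        rw [Prod.dist_eq, dist_self, Real.dist_eq]
        refine max_lt hη (abs_lt.2 ⟨?_, ?_⟩) <;> simp only <;>
          linarith [hτ.1, hτ.2, hτ₀.1, hτ₀.2])
      rw [Real.dist_eq] at b1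
      simp only at b1
      have b2 := hG' τ (hI' τ hτ)
      have b3 : Λ * StBX.psi p τ + G' τ - Λ * StBX.psi p τ₀ =
          Λ * (StBX.psi p τ - StBX.psi p τ₀) + G' τ := by ring
      rw [b3]
      refine (abs_add_le _ _).trans ?_
      rw [abs_mul, abs_of_pos hΛ0]
      have b4 := mul_le_mul_of_nonneg_left b1.le hΛ0.le
      have b5 := mul_le_mul_of_nonneg_right hε2 hΛ0.le
      have b6 := mul_le_mul_of_nonneg_left hm.le hΛ0.le
      nlinarith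
    have hs : δ / 2 ≤ Λ * |StBX.psi p τ₀| / 2 := by nlinarith
    have key := stB1 Φ (fun τ => Λ * StBX.psi p τ + G' τ) a b (Λ * |StBX.psi p τ₀| / 2) ε
      (hτ₀.1.trans hτ₀.2) (by linarith) hε0 hε1 (fun τ hτ => hd τ (hI' τ hτ)) (by
        rcases le_total 0 (StBX.psi p τ₀) with c | c
        · refine Or.inl fun τ hτ => ?_
          have := abs_le.1 (hnear τ hτ)
          rw [abs_of_nonneg c] at this ⊢
          constructor <;> linarith [this.1, this.2]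
        · refine Or.inr fun τ hτ => ?_
          have := abs_le.1 (hnear τ hτ)
          rw [abs_of_nonpos c] at this ⊢
          constructor <;> linarith [this.1, this.2])
    refine le_trans (measure_mono fun τ hτ => ?_) (key.trans ?_)
    · exact ⟨hτ.1, hτ.2.2⟩
    refine ENNReal.ofReal_le_ofReal ?_
    have c1 : 4 * ε / (Λ * |StBX.psi p τ₀| / 2) ≤ 4 * ε / (δ / 2) :=
      div_le_div_of_nonneg_left (by positivity) (by positivity) hs
    have c2 : 4 * ε / (δ / 2) = ε * (8 / δ) := by field_simp; ring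
    have c3 := mul_le_mul_of_nonneg_left hba hε0.le
    nlinarith
  have sub : {τ : ℝ | |τ| ≤ 1 / 100 ∧ ∃ n : ℤ, |Φ τ - n| ≤ ε} ⊆
      {τ | τ ∈ Icc (-(1 / 100 : ℝ)) (1 / 100) ∧ |StBX.psi p τ| ≤ δ} ∪ ⋃ j ∈ Finset.range M, Bj j := by
    rintro τ ⟨hτ, hn⟩
    have hτ' := abs_le.1 hτ
    by_cases c : |StBX.psi p τ| ≤ δ
    · exact Or.inl ⟨hτ', c⟩
    refine Or.inr ?_
    simp only [mem_iUnion, Finset.mem_range]
    have d0 : 0 ≤ (τ + 1 / 100) / h := div_nonneg (by linarith) h0.le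
    have d1 := Nat.floor_le d0
    have d2 := Nat.lt_floor_add_one ((τ + 1 / 100) / h)
    rw [le_div_iff₀ h0] at d1
    rw [div_lt_iff₀ h0] at d2
    refine ⟨⌊(τ + 1 / 100) / h⌋₊, Nat.lt_succ_of_le (Nat.floor_mono ?_),
      ⟨by linarith, le_min (by linarith) hτ'.2⟩, not_le.1 c, hn⟩
    exact div_le_div_of_nonneg_right (by linarith) h0.le
  refine (measure_mono sub).trans ((measure_union_le _ _).trans ?_)
  have f1 : volume (⋃ j ∈ Finset.range M, Bj j) ≤ ENNReal.ofReal (κ / 200) := by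
    refine (measure_biUnion_finset_le _ _).trans
      ((Finset.sum_le_card_nsmul _ _ _ fun j _ => hB j).trans ?_)
    rw [Finset.card_range, nsmul_eq_mul, ← ENNReal.ofReal_natCast,
      ← ENNReal.ofReal_mul (by positivity)]
    refine ENNReal.ofReal_le_ofReal ?_
    rw [le_div_iff₀ (by positivity)] at hε3
    rw [le_div_iff₀ (by norm_num)]
    linarith
  refine (add_le_add (hK p hpK) f1).trans ?_
  rw [← ENNReal.ofReal_add (by positivity) (by positivity)]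
  exact ENNReal.ofReal_le_ofReal (by linarith)

end Crest.Agent.R128
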