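import Crest.Agent.R128.SH
import Crest.Agent.R128.Poly
import Crest.Agent.R128.StB

set_option autoImplicit false
open MeasureTheory Set

namespace Crest.Agent.R128
open Classical

/-! WB: second stage Wegner estimate on a line. -/

namespace WBX

theorem sin_shift (σ : ℝ) (hσ : σ = 1 ∨ σ = -1) (n : ℤ) (Xb e : ℂ) :
    Complex.sin (2 * (Real.pi : ℂ) * (σ * Xb + 1 / 2 + n + e)) =
      -σ * Complex.sin (2 * (Real.pi : ℂ) * Xb + 2 * (Real.pi : ℂ) * σ * e) := by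
  rcases hσ with rfl | rfl
  · rw [show 2 * (Real.pi : ℂ) * (((1 : ℝ) : ℂ) * Xb + 1 / 2 + n + e) =
      (2 * (Real.pi : ℂ) * Xb + 2 * (Real.pi : ℂ) * ((1 : ℝ) : ℂ) * e + Real.pi)
        + n * (2 * Real.pi) by push_cast; ring, Complex.sin_add_int_mul_two_pi, Complex.sin_add_pi]
    push_cast; ring
  · rw [show 2 * (Real.pi : ℂ) * (((-1 : ℝ) : ℂ) * Xb + 1 / 2 + n + e) =
      (-(2 * (Real.pi : ℂ) * Xb + 2 * (Real.pi : ℂ) * ((-1 : ℝ) : ℂ) * e) + Real.pi)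
        + n * (2 * Real.pi) by push_cast; ring, Complex.sin_add_int_mul_two_pi, Complex.sin_add_pi,
      Complex.sin_neg]
    push_cast; ring

theorem gbound {ε A k Λ σ xb xa1 xb1 e0 e1 e2 : ℝ} {n : ℤ} {τ e Xb Xa1 Xb1 Xam Xbp : ℂ}
    (hε : 0 < ε) (hε1 : ε ≤ 1 / 10) (hA : 0 < A) (hk : 2 * Real.pi * k = A) (hΛ : 1 ≤ Λ)
    (hσ : σ = 1 ∨ σ = -1) (hτ : ‖τ‖ ≤ 2 / 100)
    (h0 : |A * e0| ≤ Λ) (h1 : |A * e1| ≤ Λ) (h2 : |A * e2| ≤ Λ)
    (hs : A * ‖e - (e0 + e1 * τ + e2 * τ ^ 2)‖ ≤ ε) (he : ‖e‖ ≤ 3 * ε)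
    (hb : ‖Xb - xb - τ‖ ≤ ε) (ha1 : ‖Xa1 - xa1‖ ≤ ε) (hb1 : ‖Xb1 - xb1‖ ≤ ε)
    (sa : Xa1 + Xam = 2 * (σ * Xb + 1 / 2 + n + e) +
      (k : ℂ) * Complex.sin (2 * (Real.pi : ℂ) * (σ * Xb + 1 / 2 + n + e)))
    (sb : Xbp + Xb1 = 2 * Xb + (k : ℂ) * Complex.sin (2 * (Real.pi : ℂ) * Xb)) :
    ‖Xam + σ * Xbp - 1 / 2 - (4 * σ * τ - Complex.cos (2 * (Real.pi : ℂ) * (xb + τ)) *
        ((A * e0 : ℝ) + (A * e1 : ℝ) * τ + (A * e2 : ℝ) * τ ^ 2))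
      - ((4 * σ * xb + 1 / 2 + 2 * n - xa1 - σ * xb1 : ℝ) : ℂ)‖ ≤ 10 ^ 5 * ε * Λ := by
  have hpi := Real.pi_pos
  have hpi4 : Real.pi ≤ 3.15 := Real.pi_lt_d2.le
  have hσn : ‖(σ : ℂ)‖ = 1 := by rcases hσ with rfl | rfl <;> simp
  have hσ2 : (σ : ℂ) * σ = 1 := by rcases hσ with rfl | rfl <;> simp
  have hk0 : 0 < k := by
    by_contra h
    have : 2 * Real.pi * k ≤ 0 := mul_nonpos_of_nonneg_of_nonpos (by positivity) (not_lt.1 h)
    linarith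
  have hkC : 2 * (Real.pi : ℂ) * k = A := by exact_mod_cast hk
  have n2pi : ‖2 * (Real.pi : ℂ)‖ = 2 * Real.pi := by
    rw [norm_mul, Complex.norm_real, Real.norm_eq_abs, abs_of_pos hpi, Complex.norm_two]
  set p : ℂ := e0 + e1 * τ + e2 * τ ^ 2 with hp
  set z : ℂ := 2 * (Real.pi : ℂ) * Xb with hz
  set z' : ℂ := 2 * (Real.pi : ℂ) * (xb + τ) with hz'
  set d : ℂ := 2 * (Real.pi : ℂ) * σ * e with hd
  have hdn : ‖d‖ = 2 * Real.pi * ‖e‖ := by rw [hd, norm_mul, norm_mul, n2pi, hσn, mul_one]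
  have hz'x : ‖z' - ((2 * Real.pi * xb : ℝ) : ℂ)‖ ≤ 7 * (2 / 100) := by
    rw [show z' - ((2 * Real.pi * xb : ℝ) : ℂ) = 2 * (Real.pi : ℂ) * τ by
      rw [hz']; push_cast; ring, norm_mul, n2pi]
    exact mul_le_mul (by linarith) hτ (norm_nonneg _) (by norm_num)
  have hzz' : ‖z - z'‖ ≤ 7 * ε := by
    rw [show z - z' = 2 * (Real.pi : ℂ) * (Xb - xb - τ) by rw [hz, hz']; ring, norm_mul, n2pi]
    exact mul_le_mul (by linarith) hb (norm_nonneg _) (by norm_num)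
  have hzx : ‖z - ((2 * Real.pi * xb : ℝ) : ℂ)‖ ≤ 1 := by
    have := norm_sub_le_norm_sub_add_norm_sub z z' ((2 * Real.pi * xb : ℝ) : ℂ)
    linarith
  have him : |z.im| ≤ 1 := by
    have := Complex.abs_im_le_norm (z - ((2 * Real.pi * xb : ℝ) : ℂ))
    rw [Complex.sub_im, Complex.ofReal_im, sub_zero] at this
    linarith
  have him' : |z'.im| ≤ 1 := by
    have := Complex.abs_im_le_norm (z' - ((2 * Real.pi * xb : ℝ) : ℂ))
    rw [Complex.sub_im, Complex.ofReal_im, sub_zero] at this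
    linarith
  have hcc : ‖Complex.cos z - Complex.cos z'‖ ≤ 14 * ε := by
    have := norm_cos_sub_cos_le z z' him him'
    linarith
  have hc' : ‖Complex.cos z'‖ ≤ 2 := by
    have h := norm_cos_sub_le (2 * Real.pi * xb) z' (by linarith)
    have h3 : ‖Complex.cos ((2 * Real.pi * xb : ℝ) : ℂ)‖ ≤ 1 := by
      rw [← Complex.ofReal_cos, Complex.norm_real, Real.norm_eq_abs]; exact Real.abs_cos_le_one _
    have h4 := norm_sub_norm_le (Complex.cos z') (Complex.cos ((2 * Real.pi * xb : ℝ) : ℂ))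
    linarith
  have hT := norm_sin_taylor z d him (by rw [hdn]; nlinarith)
  set T := Complex.sin (z + d) - Complex.sin z - Complex.cos z * d with hTdef
  have hAp : ‖(A : ℂ) * p‖ ≤ 2 * Λ := by
    rw [show (A : ℂ) * p = ((A * e0 : ℝ) : ℂ) + ((A * e1 : ℝ) : ℂ) * τ + ((A * e2 : ℝ) : ℂ) * τ ^ 2 by
      rw [hp]; push_cast; ring]
    refine (norm_add₃_le).trans ?_
    rw [norm_mul, norm_mul, norm_pow, Complex.norm_real, Complex.norm_real, Complex.norm_real,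
      Real.norm_eq_abs, Real.norm_eq_abs, Real.norm_eq_abs]
    have t0 := norm_nonneg τ
    have a1 : |A * e1| * ‖τ‖ ≤ Λ * (2 / 100) := mul_le_mul h1 hτ t0 (by linarith)
    have a2 : |A * e2| * ‖τ‖ ^ 2 ≤ Λ * (2 / 100) :=
      mul_le_mul h2 (by nlinarith) (by positivity) (by linarith)
    linarith
  have hAs : ‖(A : ℂ) * (e - p)‖ ≤ ε := by
    rwa [norm_mul, Complex.norm_real, Real.norm_eq_abs, abs_of_pos hA]
  have hAe : ‖(A : ℂ) * e‖ ≤ 3 * Λ := by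
    have : (A : ℂ) * e = A * p + A * (e - p) := by ring
    rw [this]
    have := norm_add_le ((A : ℂ) * p) ((A : ℂ) * (e - p))
    linarith
  have hAe' : A * ‖e‖ ≤ 3 * Λ := by
    rwa [norm_mul, Complex.norm_real, Real.norm_eq_abs, abs_of_pos hA] at hAe
  have hkT : ‖(k : ℂ) * σ * T‖ ≤ 25200 * ε * Λ := by
    rw [norm_mul, norm_mul, hσn, mul_one, Complex.norm_real, Real.norm_eq_abs, abs_of_pos hk0]
    have e0' := norm_nonneg e
    calc k * ‖T‖ ≤ k * (400 * (2 * Real.pi * ‖e‖) ^ 2) := by rw [← hdn]; gcongr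
      _ = 400 * (2 * Real.pi) * ((2 * Real.pi * k) * ‖e‖) * ‖e‖ := by ring
      _ ≤ 400 * 7 * (3 * Λ) * (3 * ε) := by
        rw [hk]; gcongr; linarith
      _ = _ := by ring
  rw [sin_shift σ hσ] at sa
  have key : Xam + σ * Xbp - 1 / 2 - (4 * σ * τ - Complex.cos z' *
        ((A * e0 : ℝ) + (A * e1 : ℝ) * τ + (A * e2 : ℝ) * τ ^ 2))
      - ((4 * σ * xb + 1 / 2 + 2 * n - xa1 - σ * xb1 : ℝ) : ℂ) =
      4 * (σ * (Xb - xb - τ)) + 2 * e - (A * e) * (Complex.cos z - Complex.cos z')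
        - (A * (e - p)) * Complex.cos z' - k * σ * T - (Xa1 - xa1) - σ * (Xb1 - xb1) := by
    rw [hTdef, hp]
    push_cast
    have hd' : (k : ℂ) * σ * d = A * e := by
      rw [hd]; linear_combination (2 * (Real.pi : ℂ) * k * e) * hσ2 + e * hkC
    linear_combination sa + σ * sb - Complex.cos z * hd'
  rw [key]
  have b1 : ‖4 * ((σ : ℂ) * (Xb - xb - τ))‖ ≤ 4 * ε := by
    rw [norm_mul, norm_mul, hσn, one_mul]; simpa using hb
  have b2 : ‖2 * e‖ ≤ 6 * ε := by rw [norm_mul, Complex.norm_two]; linarith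
  have b3 : ‖((A : ℂ) * e) * (Complex.cos z - Complex.cos z')‖ ≤ 3 * Λ * (14 * ε) := by
    rw [norm_mul]; gcongr
  have b4 : ‖((A : ℂ) * (e - p)) * Complex.cos z'‖ ≤ ε * 2 := by
    rw [norm_mul]; gcongr
  have b5 : ‖(σ : ℂ) * (Xb1 - xb1)‖ ≤ ε := by rwa [norm_mul, hσn, one_mul]
  have hεΛ : ε ≤ ε * Λ := le_mul_of_one_le_right hε.le hΛ
  refine (norm_sub_le _ _).trans ?_
  refine (add_le_add_left (norm_sub_le _ _) _).trans ?_
  refine (add_le_add_left (add_le_add_left (norm_sub_le _ _) _) _).trans ?_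
  refine (add_le_add_left (add_le_add_left (add_le_add_left (norm_sub_le _ _) _) _) _).trans ?_
  refine (add_le_add_left (add_le_add_left (add_le_add_left (add_le_add_left
    (norm_sub_le _ _) _) _) _) _).trans ?_
  have := norm_add_le (4 * ((σ : ℂ) * (Xb - xb - τ))) (2 * e)
  nlinarith

theorem core {ε A k β σ xa xb xa1 xb1 ω : ℝ} {n : ℤ} (Xa Xb Xa1 Xb1 Xam Xbp : ℂ → ℂ)
    (hε : 0 < ε) (hε1 : ε ≤ 1 / 10) (hA : 0 < A) (hk : 2 * Real.pi * k = A)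
    (hσ : σ = 1 ∨ σ = -1) (hβ : 0 < β) (hβε : β ≤ ε) (hAβ : A * β ^ 2 ≤ ε)
    (da : Differentiable ℂ Xa) (db : Differentiable ℂ Xb) (dam : Differentiable ℂ Xam)
    (dbp : Differentiable ℂ Xbp)
    (ra : ∀ t : ℝ, (Xa t).im = 0) (rb : ∀ t : ℝ, (Xb t).im = 0)
    (he0 : |xa - σ * xb - 1 / 2 - n| ≤ ε) (he1 : |ω - σ| ≤ 2 * ε)
    (ha : ∀ τ : ℂ, ‖τ‖ < 1 / (2 * β) → ‖Xa τ - xa - ω * τ‖ ≤ 4 * β * ‖τ‖ ^ 2)
    (hb : ∀ τ : ℂ, ‖τ‖ < 1 / (2 * β) → ‖Xb τ - xb - τ‖ ≤ β * ‖τ‖ ^ 2)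
    (ha1 : ∀ τ : ℂ, ‖τ‖ < 2 / 100 → ‖Xa1 τ - xa1‖ ≤ ε)
    (hb1 : ∀ τ : ℂ, ‖τ‖ < 2 / 100 → ‖Xb1 τ - xb1‖ ≤ ε)
    (sa : ∀ τ, Xa1 τ + Xam τ = 2 * Xa τ + (k : ℂ) * Complex.sin (2 * (Real.pi : ℂ) * Xa τ))
    (sb : ∀ τ, Xbp τ + Xb1 τ = 2 * Xb τ + (k : ℂ) * Complex.sin (2 * (Real.pi : ℂ) * Xb τ)) :
    ∃ (E0 E1 E2 : ℝ) (G G' : ℝ → ℝ), (∀ τ, |τ| ≤ 1 / 100 → HasDerivAt G (G' τ) τ) ∧
      (∀ τ, |τ| ≤ 1 / 100 → |G' τ| ≤ 10 ^ 8 * ε * max 1 (max |E0| (max |E1| |E2|))) ∧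
      ∀ τ : ℝ, 4 * σ * τ - Real.cos (2 * Real.pi * (xb + τ)) * (E0 + E1 * τ + E2 * τ ^ 2) + G τ =
        (Xam τ).re + σ * (Xbp τ).re - 1 / 2 := by
  have hσn : ‖(σ : ℂ)‖ = 1 := by rcases hσ with rfl | rfl <;> simp
  have hR : 2 / 100 < 1 / (2 * β) := by
    rw [lt_div_iff₀ (by positivity)]; linarith
  set e0 := xa - σ * xb - 1 / 2 - n with he0d
  set e1 := ω - σ with he1d
  set r : ℂ → ℂ := fun τ => (Xa τ - xa - ω * τ) - σ * (Xb τ - xb - τ) with hr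
  have hrb : ∀ τ ∈ Metric.ball (0 : ℂ) (1 / (2 * β)), ‖r τ‖ ≤ 8 * β * ‖τ‖ ^ 2 := by
    intro τ hτ
    rw [mem_ball_zero_iff] at hτ
    refine (norm_sub_le _ _).trans ?_
    rw [norm_mul, hσn, one_mul]
    have := ha τ hτ
    have := hb τ hτ
    have : 0 ≤ β * ‖τ‖ ^ 2 := by positivity
    linarith
  obtain ⟨e2, -, h2⟩ := poly2r r (1 / (2 * β)) (8 * β) (by positivity)
    (Differentiable.differentiableOn (by rw [hr]; fun_prop)) hrb
    (fun t _ => by simp [hr, ra t, rb t])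
  set Λ := max 1 (max |A * e0| (max |A * e1| |A * e2|)) with hΛ
  set C : ℝ := 4 * σ * xb + 1 / 2 + 2 * n - xa1 - σ * xb1 with hC
  set g : ℂ → ℂ := fun τ => Xam τ + σ * Xbp τ - 1 / 2 - (4 * σ * τ -
    Complex.cos (2 * (Real.pi : ℂ) * (xb + τ)) *
        ((A * e0 : ℝ) + (A * e1 : ℝ) * τ + (A * e2 : ℝ) * τ ^ 2)) - (C : ℂ) with hg
  have hgb : ∀ τ ∈ Metric.ball (0 : ℂ) (2 * (1 / 100)), ‖g τ‖ ≤ 10 ^ 5 * ε * Λ := by
    intro τ hτ
    rw [mem_ball_zero_iff] at hτ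
    have hτ' : ‖τ‖ < 2 / 100 := by linarith
    have hτR : ‖τ‖ < 1 / (2 * β) := hτ'.trans hR
    have t0 := norm_nonneg τ
    have t2 : ‖τ‖ ^ 2 ≤ 1 / 100 := by nlinarith
    have t3 : ‖τ‖ ^ 3 ≤ 1 / 100 := by
      have : ‖τ‖ ^ 3 = ‖τ‖ ^ 2 * ‖τ‖ := by ring
      nlinarith
    have hX : Xa τ = σ * Xb τ + 1 / 2 + n + (e0 + e1 * τ + r τ) := by
      rw [hr, he0d, he1d]; push_cast; ring
    refine gbound (e := e0 + e1 * τ + r τ) (Xb := Xb τ) (Xa1 := Xa1 τ) (Xb1 := Xb1 τ) hε hε1 hA hk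
      (le_max_left _ _) hσ hτ'.le
      (le_max_of_le_right (le_max_left _ _))
      (le_max_of_le_right (le_max_of_le_right (le_max_left _ _)))
      (le_max_of_le_right (le_max_of_le_right (le_max_right _ _))) ?_ ?_ ?_ (ha1 τ hτ')
      (hb1 τ hτ') (by rw [← hX]; exact sa τ) (sb τ)
    · have h := h2 τ (mem_ball_zero_iff.2 hτR)
      rw [show (e0 : ℂ) + e1 * τ + r τ - (e0 + e1 * τ + e2 * τ ^ 2) = r τ - e2 * τ ^ 2 by ring]
      rw [show 2 * (8 * β) * ‖τ‖ ^ 3 / (1 / (2 * β)) = 32 * β ^ 2 * ‖τ‖ ^ 3 by field_simp; ring] at h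
      calc A * ‖r τ - e2 * τ ^ 2‖ ≤ A * (32 * β ^ 2 * (1 / 100)) := by
            gcongr; exact h.trans (by gcongr)
        _ = 32 / 100 * (A * β ^ 2) := by ring
        _ ≤ ε := by nlinarith
    · refine norm_add₃_le.trans ?_
      have h := hrb τ (mem_ball_zero_iff.2 hτR)
      rw [norm_mul, Complex.norm_real, Complex.norm_real, Real.norm_eq_abs, Real.norm_eq_abs]
      have a1 : |e1| * ‖τ‖ ≤ 2 * ε * (2 / 100) := mul_le_mul he1 hτ'.le t0 (by linarith)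
      have a2 : 8 * β * ‖τ‖ ^ 2 ≤ 8 * ε * (1 / 100) := by gcongr
      linarith
    · have a2 : β * ‖τ‖ ^ 2 ≤ ε * (1 / 100) := by gcongr
      have := hb τ hτR
      linarith
  have hgd : Differentiable ℂ g := by rw [hg]; fun_prop
  refine ⟨A * e0, A * e1, A * e2, fun x => C + (g x).re, fun x => (deriv g x).re, fun τ hτ => ?_,
    fun τ hτ => ?_, fun τ => ?_⟩
  · exact (deriv_re_bound g (1 / 100) _ (by norm_num) hgd.differentiableOn hgb τ hτ).1.const_add C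
  · refine (deriv_re_bound g (1 / 100) _ (by norm_num) hgd.differentiableOn hgb τ hτ).2.trans ?_
    have : 0 ≤ ε * Λ := mul_nonneg hε.le (le_max_of_le_left zero_le_one)
    rw [← hΛ]
    nlinarith
  · have : g τ = Xam τ + σ * Xbp τ - ((1 / 2 + (4 * σ * τ - Real.cos (2 * Real.pi * (xb + τ)) *
        (A * e0 + A * e1 * τ + A * e2 * τ ^ 2)) + C : ℝ) : ℂ) := by
      rw [hg]; push_cast; ring
    simp only [this, Complex.sub_re, Complex.add_re, Complex.re_ofReal_mul, Complex.ofReal_re]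
    ring

end WBX

/-- `ε₁` from `stB`; `ε₀ = min (1/2) (ε₁ / 10^8)`.  Work with the complex variable `τ = w b * t`, `X i τ = orbC k P.1 (P.2 + τ / w b) i`;
`|w a| ≤ 2 |w b|`.  `e τ = X a - σ X b - 1/2 - n = e₀ + e₁ τ + r τ`, `|e₀| ≤ ε`, `e₁ = w a / w b - σ`, `|e₁| ≤ 2ε`,
`‖r τ‖ ≤ 8 B^(-55) ‖τ‖²` on `‖τ‖ < B^55/2` (`sh_R`, `sh_L`); `poly2r` gives a real `e₂` with `‖r - e₂τ²‖ ≤ 32 B^(-110) ‖τ‖³`.
With `A = B^100`, `E i = A e i`, `Λ = max 1 (max |E i|)`, by `orbC_step` at `a` and `b`,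
`X (a-1) + σ X (b+1) - 1/2 = 4στ - cos (2π(x b + τ)) (E₀ + E₁τ + E₂τ²) + C + g τ` with a real constant `C` and `g` entire,
real on reals, `‖g‖ ≤ (10^5 ε + B^(-5)) Λ` on `‖τ‖ < 2/100`: indeed `2 X a + 2σ X b = 4σ X b + 1 + 2n + 2e`,
`k (sin 2πX a + σ sin 2πX b) = kσ (sin 2πX b - sin 2π(X b + σ e)) = -A e cos 2πX b + O(k 400 (2π‖e‖)²)` (`norm_sin_taylor`),
`A‖e‖ ≤ 4Λ`, `‖e‖ ≤ 3ε` (B large), `X b = x b + τ + O(B^(-55))`, `X (a+1) - x (a+1)`, `X (b-1) - x (b-1) = O(B^(-80))`.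
`deriv_re_bound` gives `|G'| ≤ 200 (10^5 ε + B^(-5)) Λ ≤ ε₁ Λ` for `G = C + re g`; apply `stB` and rescale. -/
theorem wb (κ : ℝ) (hκ : 0 < κ) :
    ∃ ε₀ > 0, ∀ ε, 0 < ε → ε ≤ ε₀ → ∃ B₀ : ℝ, ∀ B, B₀ ≤ B → ∀ k, 2 * Real.pi * k = B ^ 100 →
      ∀ (P : ℝ × ℝ) (a b : ℤ) (σ : ℝ), a ≤ -1 → 1 ≤ b → (σ = 1 ∨ σ = -1) →
      PlR B (dir (Vof B (orb k P)) 0) 0 b → PlL B (dir (Vof B (orb k P)) 0) a 0 →
      AntiS B ε (orb k P) 0 a b σ →
      volume {t : ℝ | |t| ≤ 1 / 100 / |dir (Vof B (orb k P)) 0 b| ∧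
          ∃ n : ℤ, |orb k (P.1, P.2 + t) (a - 1) + σ * orb k (P.1, P.2 + t) (b + 1) - 1 / 2 - n| ≤ ε} ≤
        ENNReal.ofReal (κ * (1 / 100 / |dir (Vof B (orb k P)) 0 b|)) := by
  obtain ⟨ε₁, hε₁, hst⟩ := stB κ hκ
  refine ⟨min (1 / 10) (ε₁ / 10 ^ 8), by positivity, fun ε hε hεle => ⟨max (10 ^ 8) (1 / ε), ?_⟩⟩
  intro B hB k hk P a b σ ha hb hσ hR hL hA
  have hε1 : ε ≤ 1 / 10 := hεle.trans (min_le_left _ _)
  have hε2 : 10 ^ 8 * ε ≤ ε₁ := by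
    have := hεle.trans (min_le_right _ _)
    rw [le_div_iff₀ (by positivity)] at this; linarith
  have hB8 : 10 ^ 8 ≤ B := (le_max_left _ _).trans hB
  have hB0 : 0 < B := by linarith
  have hB1 : 1 ≤ B := by linarith
  have hBε : ∀ m : ℤ, m ≤ -1 → B ^ m ≤ ε := fun m hm => by
    refine (zpow_le_zpow_right₀ hB1 hm).trans ?_
    rw [zpow_neg_one]
    have h : 1 / ε ≤ B := (le_max_right _ _).trans hB
    rw [one_div] at h
    exact inv_le_of_inv_le₀ hε h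
  set w := dir (Vof B (orb k P)) 0 with hw
  set x := orb k P with hx
  obtain ⟨hA1, n, hA2⟩ := hA
  rw [← hw] at hA1
  have hσa : |σ| = 1 := by rcases hσ with rfl | rfl <;> simp
  have hwb : w b ≠ 0 := by
    intro h
    have h1 := hR 1 zero_le_one hb
    have h2 : w 1 = 1 := by simpa using dir_one (Vof B x) 0
    rw [h, h2] at h1
    norm_num at h1
  have hwb0 : 0 < |w b| := abs_pos.2 hwb
  have hwab : |w a| ≤ 2 * |w b| := by
    have h1 := abs_sub_abs_le_abs_sub (w a) (σ * w b)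
    rw [abs_mul, hσa, one_mul] at h1
    rcases le_total |w a| |w b| with h | h
    · linarith
    · rw [max_eq_left h] at hA1
      nlinarith
  have he1 : |w a / w b - σ| ≤ 2 * ε := by
    rw [show w a / w b - σ = (w a - σ * w b) / w b by field_simp, abs_div, div_le_iff₀ hwb0]
    refine hA1.trans ?_
    have : max |w a| |w b| ≤ 2 * |w b| := max_le hwab (by linarith)
    nlinarith
  have hL' : ∀ i, a ≤ i → i ≤ 0 → |w i| ≤ B ^ (-80 * (i - a)) * (2 * |w b|) := fun i h1 h2 =>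
    (hL i h1 h2).trans (mul_le_mul_of_nonneg_left hwab (zpow_pos hB0 _).le)
  have hwC : (w b : ℂ) ≠ 0 := by exact_mod_cast hwb
  have hn : ∀ τ : ℂ, ‖τ / (w b : ℂ)‖ * |w b| = ‖τ‖ := fun τ => by
    rw [norm_div, Complex.norm_real, Real.norm_eq_abs]; field_simp
  have hn2 : ∀ τ : ℂ, ‖τ / (w b : ℂ)‖ * (2 * |w b|) = 2 * ‖τ‖ := fun τ => by
    rw [← hn τ]; ring_nf
  have hβ : 0 < B ^ (-55 : ℤ) := zpow_pos hB0 _
  have hβ' : 1 / (2 * B ^ (-55 : ℤ)) = B ^ 55 / 2 := by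
    rw [zpow_neg]; field_simp
  have h55 : (1 : ℝ) ≤ B ^ 55 := one_le_pow₀ hB1
  have h80 := hBε (-80) (by norm_num)
  have h80' : 0 < B ^ (-80 : ℤ) := zpow_pos hB0 _
  set X : ℤ → ℂ → ℂ := fun i τ => orbC k P.1 (P.2 + τ / (w b : ℂ)) i with hX
  have hXd : ∀ i, Differentiable ℂ (X i) := fun i =>
    (differentiable_orbC k P.1 P.2 i).comp (differentiable_id.div_const _)
  have hXr : ∀ i (t : ℝ), X i t = ((orb k (P.1, P.2 + t / w b) i : ℝ) : ℂ) := fun i t => by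
    rw [← orbC_ofReal]; simp only [hX]; push_cast; rfl
  obtain ⟨E0, E1, E2, G, G', hG, hG', hE⟩ := WBX.core (ε := ε) (A := B ^ 100) (k := k)
    (β := B ^ (-55 : ℤ)) (σ := σ) (xa := x a) (xb := x b) (xa1 := x (a + 1)) (xb1 := x (b - 1))
    (ω := w a / w b) (n := n) (X a) (X b) (X (a + 1)) (X (b - 1)) (X (a - 1)) (X (b + 1))
    hε hε1 (by positivity) hk hσ hβ (hBε _ (by norm_num))
    (by
      rw [← zpow_natCast, ← zpow_natCast, ← zpow_mul, ← zpow_add₀ hB0.ne']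
      exact hBε _ (by norm_num))
    (hXd _) (hXd _) (hXd _) (hXd _) (fun t => by rw [hXr, Complex.ofReal_im])
    (fun t => by rw [hXr, Complex.ofReal_im]) hA2 he1
    (fun τ hτ => by
      rw [hβ'] at hτ
      have h := (sh_L hB8 hk P ha hL' (τ / (w b : ℂ)) (by rw [hn2]; linarith) a (by omega) le_rfl).1
      rw [hn2, sub_self, mul_zero, zpow_zero, mul_one] at h
      rw [show ((w a / w b : ℝ) : ℂ) * τ = τ / (w b : ℂ) * (w a : ℝ) by push_cast; ring]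
      exact h.trans (le_of_eq (by ring)))
    (fun τ hτ => by
      rw [hβ'] at hτ
      have h := (sh_R hB8 hk P hb hR (τ / (w b : ℂ)) (by rw [hn]; linarith) b (by omega) le_rfl).1
      rw [hn, sub_self, mul_zero, zpow_zero, mul_one, ← hw, div_mul_cancel₀ _ hwC] at h
      exact h)
    (fun τ hτ => by
      have h := (sh_L hB8 hk P ha hL' (τ / (w b : ℂ)) (by rw [hn2]; linarith) (a + 1) (by omega)
        (by omega)).2.1
      rw [hn2, add_sub_cancel_left, mul_one] at h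
      refine h.trans ?_
      have := norm_nonneg τ
      nlinarith)
    (fun τ hτ => by
      have h := (sh_R hB8 hk P hb hR (τ / (w b : ℂ)) (by rw [hn]; linarith) (b - 1) (by omega)
        (by omega)).2.1
      rw [hn, sub_sub_cancel, mul_one] at h
      refine h.trans ?_
      have := norm_nonneg τ
      nlinarith)
    (fun τ => orbC_step _ _ _ _) (fun τ => orbC_step _ _ _ _)
  have hS := hst σ (x b) E0 E1 E2 G G' hσ hG (fun τ hτ => (hG' τ hτ).trans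
    (mul_le_mul_of_nonneg_right hε2 (le_max_of_le_left zero_le_one)))
  refine le_trans (measure_mono (t := (w b * ·) ⁻¹' {τ : ℝ | |τ| ≤ 1 / 100 ∧ ∃ n : ℤ,
    |4 * σ * τ - Real.cos (2 * Real.pi * (x b + τ)) * (E0 + E1 * τ + E2 * τ ^ 2) + G τ - n| ≤ ε₁})
    ?_) ?_
  · rintro t ⟨ht, m, hm⟩
    refine ⟨?_, m, ?_⟩
    · rw [le_div_iff₀ hwb0] at ht
      rw [abs_mul]; linarith
    · rw [hE, hXr, hXr, Complex.ofReal_re, Complex.ofReal_re, mul_div_cancel_left₀ _ hwb]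
      linarith
  · rw [Real.volume_preimage_mul_left hwb]
    refine (mul_le_mul_right hS _).trans (le_of_eq ?_)
    rw [← ENNReal.ofReal_mul (abs_nonneg _), abs_inv]
    congr 1
    field_simp

end Crest.Agent.R128
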