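import Crest.Agent.R128.WA
import Crest.Agent.R128.WB
import Crest.Agent.R128.Meas
import Crest.Agent.R128.Mble

set_option autoImplicit false
open MeasureTheory Set

namespace Crest.Agent.R128
open Classical

/-! Weg: conditional Wegner estimate. -/

namespace WegX

theorem dir_sh' (B : ℝ) (z c : ℤ) (y : ℤ → ℝ) :
    dir (Vof B (sh z y)) c = sh z (dir (Vof B y) (c + z)) :=
  funext fun i => dir_sh (Vof B y) z c i

theorem PlR_sh (B : ℝ) (w : ℤ → ℝ) (z c b : ℤ) : PlR B (sh z w) c b ↔ PlR B w (c + z) (b + z) := by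
  unfold PlR sh
  constructor
  · intro h i h1 h2
    have := h (i - z) (by omega) (by omega)
    rwa [sub_add_cancel, show b - (i - z) = b + z - i by ring] at this
  · intro h i h1 h2
    have := h (i + z) (by omega) (by omega)
    rwa [show b + z - (i + z) = b - i by ring] at this

theorem PlL_sh (B : ℝ) (w : ℤ → ℝ) (z a c : ℤ) : PlL B (sh z w) a c ↔ PlL B w (a + z) (c + z) := by
  unfold PlL sh
  constructor
  · intro h i h1 h2
    have := h (i - z) (by omega) (by omega)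
    rwa [sub_add_cancel, show i - z - a = i - (a + z) by ring] at this
  · intro h i h1 h2
    have := h (i + z) (by omega) (by omega)
    rwa [show i + z - (a + z) = i - a by ring] at this

theorem TwoCone_sh (B : ℝ) (V : ℤ → ℝ) (z a b : ℤ) :
    TwoCone B (sh z V) a b ↔ TwoCone B V (a + z) (b + z) := by
  have key : ∀ (V : ℤ → ℝ) (z a b : ℤ), TwoCone B V (a + z) (b + z) → TwoCone B (sh z V) a b := by
    rintro V z a b ⟨ψ, h1, h2, h3, h4⟩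
    refine ⟨sh z ψ, h1.sh z, h2, ?_, ?_⟩
    · simp only [sh]
      rwa [show b + 1 + z = b + z + 1 by ring]
    · simp only [sh]
      rwa [show a - 1 + z = a + z - 1 by ring]
  refine ⟨fun h => ?_, key V z a b⟩
  have := key (sh z V) (-z) (a + z) (b + z) (by rwa [add_neg_cancel_right, add_neg_cancel_right])
  rwa [sh_sh, neg_add_cancel, sh_zero] at this

theorem GC_sh (B c₀ : ℝ) (y : ℤ → ℝ) (z c a b : ℤ) :
    GC B c₀ (sh z y) c a b ↔ GC B c₀ y (c + z) (a + z) (b + z) := by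
  unfold GC
  rw [dir_sh', PlR_sh, PlL_sh, Vof_sh, TwoCone_sh]
  rfl

theorem AntiS_sh (B ε : ℝ) (y : ℤ → ℝ) (z c a b : ℤ) (σ : ℝ) :
    AntiS B ε (sh z y) c a b σ ↔ AntiS B ε y (c + z) (a + z) (b + z) σ := by
  unfold AntiS
  rw [dir_sh']
  rfl

theorem ex_int (u v ε : ℝ) (m : ℤ) (h : u = v + m) :
    (∃ n : ℤ, |u - n| ≤ ε) ↔ ∃ n : ℤ, |v - n| ≤ ε := by
  subst h
  constructor
  · rintro ⟨n, hn⟩
    exact ⟨n - m, by rwa [Int.cast_sub, show v - (n - m) = v + m - n by ring]⟩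
  · rintro ⟨n, hn⟩
    exact ⟨n + m, by rwa [Int.cast_add, show v + m - (n + m) = v - n by ring]⟩

theorem cos_Y (k : ℝ) (P : ℝ × ℝ) (i : ℤ) :
    Real.cos (2 * Real.pi * Y k P i) = Real.cos (2 * Real.pi * orb k P i) := by
  simp only [Y]
  rw [show 2 * Real.pi * Int.fract (orb k P i) =
    2 * Real.pi * orb k P i - (⌊orb k P i⌋ : ℤ) * (2 * Real.pi) by rw [Int.fract]; ring,
    Real.cos_sub_int_mul_two_pi]

theorem AntiS_Y (B ε k : ℝ) (c a b : ℤ) {σ : ℝ} (hσ : σ = 1 ∨ σ = -1) (P : ℝ × ℝ) :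
    AntiS B ε (Y k P) c a b σ ↔ AntiS B ε (orb k P) c a b σ := by
  unfold AntiS
  rw [Vof_Y]
  refine and_congr_right fun _ => ?_
  rcases hσ with rfl | rfl
  · exact ex_int _ _ ε (⌊orb k P b⌋ - ⌊orb k P a⌋) (by simp only [Y, Int.fract]; push_cast; ring)
  · exact ex_int _ _ ε (-⌊orb k P b⌋ - ⌊orb k P a⌋) (by simp only [Y, Int.fract]; push_cast; ring)

theorem one_le_dir {B : ℝ} (hB : 1 ≤ B) {V : ℤ → ℝ} {b : ℤ} (hb : 1 ≤ b) (h : PlR B (dir V 0) 0 b) :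
    1 ≤ |dir V 0 b| := by
  have h1 := h 1 (by omega) hb
  have h2 : dir V 0 1 = 1 := dir_one V 0
  rw [h2, abs_one] at h1
  exact h1.trans (mul_le_of_le_one_left (abs_nonneg _) (zpow_le_one_of_nonpos₀ hB (by omega)))

theorem ratio {x y σ ε : ℝ} (hσ : σ = 1 ∨ σ = -1) (hε : ε ≤ 1 / 2)
    (h : |x - σ * y| ≤ ε * max |x| |y|) : |x| ≤ 2 * |y| ∧ |y| ≤ 2 * |x| := by
  have e : |σ * y| = |y| := by rcases hσ with rfl | rfl <;> simp
  have a1 := abs_sub_abs_le_abs_sub x (σ * y)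
  have a2 := abs_sub_abs_le_abs_sub (σ * y) x
  rw [abs_sub_comm] at a2
  rw [e] at a1 a2
  have a3 : ε * max |x| |y| ≤ 1 / 2 * max |x| |y| :=
    mul_le_mul_of_nonneg_right hε (le_max_of_le_left (abs_nonneg _))
  have hx := abs_nonneg x
  have hy := abs_nonneg y
  rcases le_total |x| |y| with h' | h'
  · rw [max_eq_right h'] at h a3
    constructor <;> linarith
  · rw [max_eq_left h'] at h a3
    constructor <;> linarith

theorem consts {B : ℝ} (hB : 10 ^ 8 ≤ B) :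
    B ^ (-58 : ℤ) ≤ 1 / 4 ∧ B ^ (-160 : ℤ) * B ^ 51 * B ^ 51 = B ^ (-58 : ℤ) ∧ 2 ≤ B ^ 51 := by
  have hB1 : 1 ≤ B := by linarith
  have hB0 : B ≠ 0 := by positivity
  refine ⟨?_, ?_, ?_⟩
  · calc B ^ (-58 : ℤ) ≤ B ^ (-1 : ℤ) := zpow_le_zpow_right₀ hB1 (by norm_num)
      _ = 1 / B := by rw [zpow_neg_one, one_div]
      _ ≤ 1 / 4 := one_div_le_one_div_of_le (by norm_num) (by linarith)
  · rw [← zpow_natCast B 51, ← zpow_add₀ hB0, ← zpow_add₀ hB0]; norm_num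
  · exact le_trans (by linarith) (le_self_pow₀ hB1 (by norm_num))

theorem absurd3 {β γ K x x' y' y z : ℝ} (hβ : β ≤ 1 / 4) (hγ : 0 ≤ γ) (hK : 0 ≤ K)
    (e : γ * K * K = β) (hx : 0 < x) (h1 : x - β * x ≤ x') (h2 : x' ≤ K * z) (h3 : z ≤ γ * y')
    (h4 : y' ≤ 2 * y) (h5 : y ≤ K * x) : False := by
  have a1 : y' ≤ 2 * (K * x) := by linarith
  have a2 : z ≤ γ * (2 * (K * x)) := h3.trans (mul_le_mul_of_nonneg_left a1 hγ)
  have a3 : x' ≤ K * (γ * (2 * (K * x))) := h2.trans (mul_le_mul_of_nonneg_left a2 hK)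
  have a4 : K * (γ * (2 * (K * x))) = 2 * (β * x) := by rw [← e]; ring
  have a5 : β * x ≤ 1 / 4 * x := mul_le_mul_of_nonneg_right hβ hx.le
  linarith

theorem tol {B k : ℝ} (hB : 10 ^ 8 ≤ B) (hk : 2 * Real.pi * k = B ^ 100) (P : ℝ × ℝ) (t : ℝ)
    {a b D D₁ : ℤ} (h0 : 0 ≤ D₁) (hD : D₁ < D) (ha : a ≤ 0 - D) (hb : D ≤ b)
    (hR : PlR B (dir (Vof B (orb k P)) 0) 0 b) (hL : PlL B (dir (Vof B (orb k P)) 0) a 0)
    (hta : |t| * |dir (Vof B (orb k P)) 0 a| ≤ 1) (htb : |t| * |dir (Vof B (orb k P)) 0 b| ≤ 1)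
    (i : ℤ) (hi : |i| ≤ D₁) :
    |Vof B (orb k (P.1, P.2 + t)) i - Vof B (orb k P) i| ≤ B ^ (101 - 80 * (D - D₁)) := by
  have hB1 : 1 ≤ B := by linarith
  rw [abs_le] at hi
  rcases le_total 0 i with h | h
  · exact (shr_R hB hk P (by omega) hR t htb i h (by omega)).1.trans
      (zpow_le_zpow_right₀ hB1 (by omega))
  · exact (shr_L hB hk P (by omega) hL t hta i h (by omega)).1.trans
      (zpow_le_zpow_right₀ hB1 (by omega))

theorem core (k κ : ℝ) (hκ : 0 < κ) (𝒜 𝒜p 𝓔 : Set (ℤ → ℝ)) (h𝒜 : MeasurableSet 𝒜)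
    (h𝓔 : MeasurableSet 𝓔)
    (h : ∀ P : ℝ × ℝ, Y k P ∈ 𝒜 → Y k P ∈ 𝓔 → ∃ ρ : ℝ, 0 < ρ ∧ ρ ≤ 1 ∧
      volume {t : ℝ | |t| ≤ ρ ∧ Y k (P.1, P.2 + t) ∈ 𝓔} ≤ ENNReal.ofReal (κ * ρ) ∧
      ∀ t : ℝ, |t| ≤ ρ → Y k (P.1, P.2 + t) ∈ 𝒜p) :
    (nu k).real (𝒜 ∩ 𝓔) ≤ 30 * κ * (nu k).real 𝒜p := by
  have h1 := cov (Y k ⁻¹' (𝒜 ∩ 𝓔)) (Y k ⁻¹' 𝒜p) (measurable_Y k (h𝒜.inter h𝓔)) κ hκ.le
    (fun p hp => by
      obtain ⟨ρ, a, b, c, d⟩ := h p hp.1.1 hp.1.2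
      refine ⟨ρ, a, b, le_trans (measure_mono ?_) c, d⟩
      intro t ht
      exact ⟨ht.1, ht.2.2⟩)
  rw [← nu_apply k (h𝒜.inter h𝓔)] at h1
  have h2 := h1.trans (mul_le_mul_right (nu_Q3 k 𝒜p) _)
  have h3 := ENNReal.toReal_mono
    (ENNReal.mul_ne_top ENNReal.ofReal_ne_top
      (ENNReal.mul_ne_top (by norm_num) (measure_ne_top _ _))) h2
  rw [ENNReal.toReal_mul, ENNReal.toReal_mul, ENNReal.toReal_ofReal (by positivity)] at h3
  have h4 : 0 ≤ κ * (nu k 𝒜p).toReal := by positivity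
  simp only [Measure.real]
  norm_num at h3
  linarith

end WegX

theorem EA_sh (B c₀ ε : ℝ) (c D b par z : ℤ) (y : ℤ → ℝ) :
    EA B c₀ ε c D b par (sh z y) ↔ EA B c₀ ε (c + z) D (b + z) par y := by
  unfold EA Anti
  constructor
  · rintro ⟨a, h1, h2, h3, h4⟩
    rw [WegX.GC_sh] at h3
    rw [WegX.AntiS_sh, WegX.AntiS_sh] at h4
    exact ⟨a + z, by omega, by rwa [add_sub_add_right_eq_sub], h3, h4⟩
  · rintro ⟨a, h1, h2, h3, h4⟩
    refine ⟨a - z, by omega, by rwa [show c - (a - z) = c + z - a by ring], ?_, ?_⟩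
    · rwa [WegX.GC_sh, sub_add_cancel]
    · rwa [WegX.AntiS_sh, WegX.AntiS_sh, sub_add_cancel]
theorem GB_sh (B ε : ℝ) (c D b par z : ℤ) (σ : ℝ) (y : ℤ → ℝ) :
    GB B ε c D b par σ (sh z y) ↔ GB B ε (c + z) D (b + z) par σ y := by
  unfold GB
  constructor
  · rintro ⟨a, h1, h2, h3, h4, h5, h6⟩
    rw [WegX.dir_sh', WegX.PlR_sh] at h3
    rw [WegX.dir_sh', WegX.PlL_sh] at h4
    rw [WegX.AntiS_sh] at h5
    refine ⟨a + z, by omega, by rwa [add_sub_add_right_eq_sub], h3, h4, h5, ?_⟩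
    simp only [sh] at h6
    rwa [show a + z - 1 = a - 1 + z by ring, show b + z + 1 = b + 1 + z by ring]
  · rintro ⟨a, h1, h2, h3, h4, h5, h6⟩
    refine ⟨a - z, by omega, by rwa [show c - (a - z) = c + z - a by ring], ?_, ?_, ?_, ?_⟩
    · rwa [WegX.dir_sh', WegX.PlR_sh]
    · rwa [WegX.dir_sh', WegX.PlL_sh, sub_add_cancel]
    · rwa [WegX.AntiS_sh, sub_add_cancel]
    · simp only [sh]
      rwa [show a - z - 1 + z = a - 1 by ring, show b + 1 + z = b + z + 1 by ring]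
theorem EA_Y (B c₀ ε k : ℝ) (c D b par : ℤ) (P : ℝ × ℝ) :
    EA B c₀ ε c D b par (Y k P) ↔ EA B c₀ ε c D b par (orb k P) := by
  unfold EA Anti GC
  simp only [Vof_Y, WegX.cos_Y, WegX.AntiS_Y B ε k c _ b (Or.inl rfl),
    WegX.AntiS_Y B ε k c _ b (Or.inr rfl)]
theorem GB_Y (B ε k : ℝ) (c D b par : ℤ) {σ : ℝ} (hσ : σ = 1 ∨ σ = -1) (P : ℝ × ℝ) :
    GB B ε c D b par σ (Y k P) ↔ GB B ε c D b par σ (orb k P) := by
  unfold GB
  simp only [Vof_Y, WegX.AntiS_Y B ε k c _ b hσ]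
  refine exists_congr fun a => and_congr_right fun _ => and_congr_right fun _ =>
    and_congr_right fun _ => and_congr_right fun _ => and_congr_right fun _ => ?_
  rcases hσ with rfl | rfl
  · exact WegX.ex_int _ _ ε (-⌊orb k P (b + 1)⌋ - ⌊orb k P (a - 1)⌋)
      (by simp only [Y, Int.fract]; push_cast; ring)
  · exact WegX.ex_int _ _ ε (⌊orb k P (b + 1)⌋ - ⌊orb k P (a - 1)⌋)
      (by simp only [Y, Int.fract]; push_cast; ring)

/-- `w' = dir` at the moved point.  `|w' a - w a| ≤ B^(-58)|w a|`, same at `b` (`shr_L`, `shr_R`).  If `a' ≤ a - 2`: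
`|w' a| ≤ B^(-160) |w' a'| ≤ B^(-109) |w' b| ≤ 2 B^(-58) |w a|`, absurd.  If `a' ≥ a + 2`: `|w' a'| ≤ 2 B^(-160) |w a|`, absurd. -/
theorem same_a {B k : ℝ} (hB : 10 ^ 8 ≤ B) (hk : 2 * Real.pi * k = B ^ 100) (P : ℝ × ℝ) (t : ℝ) {a a' b : ℤ}
    (ha : a ≤ -1) (ha' : a' ≤ -1) (hb : 1 ≤ b) (hpar : (0 - a) % 2 = (0 - a') % 2)
    (hR : PlR B (dir (Vof B (orb k P)) 0) 0 b) (hL : PlL B (dir (Vof B (orb k P)) 0) a 0)
    (hL' : PlL B (dir (Vof B (orb k (P.1, P.2 + t))) 0) a' 0)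
    (h1 : |dir (Vof B (orb k P)) 0 a| ≤ B ^ 51 * |dir (Vof B (orb k P)) 0 b|)
    (h2 : |dir (Vof B (orb k P)) 0 b| ≤ B ^ 51 * |dir (Vof B (orb k P)) 0 a|)
    (h1' : |dir (Vof B (orb k (P.1, P.2 + t))) 0 a'| ≤ B ^ 51 * |dir (Vof B (orb k (P.1, P.2 + t))) 0 b|)
    (h2' : |dir (Vof B (orb k (P.1, P.2 + t))) 0 b| ≤ B ^ 51 * |dir (Vof B (orb k (P.1, P.2 + t))) 0 a'|)
    (hta : |t| * |dir (Vof B (orb k P)) 0 a| ≤ 1) (htb : |t| * |dir (Vof B (orb k P)) 0 b| ≤ 1) : a = a' := by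
  have hB1 : 1 ≤ B := by linarith
  have hB0 : 0 < B := by linarith
  obtain ⟨c1, c2, c3⟩ := WegX.consts hB
  have hb1 := WegX.one_le_dir hB1 hb hR
  have ea := (shr_L hB hk P ha hL t hta a (by omega) le_rfl).2
  have eb := (shr_R hB hk P hb hR t htb b (by omega) le_rfl).2
  rw [sub_self, mul_zero, sub_zero] at ea eb
  have hγ : 0 ≤ B ^ (-160 : ℤ) := (zpow_pos hB0 _).le
  have hK : 0 ≤ B ^ 51 := by positivity
  have hLa := hL a'
  have hLa' := hL' a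
  have ea' := fun h => (shr_L hB hk P ha hL t hta a' (by omega) h).2
  set w := dir (Vof B (orb k P)) 0
  set w' := dir (Vof B (orb k (P.1, P.2 + t))) 0
  have ha0 : 0 < |w a| := by
    by_contra h
    have := mul_le_mul_of_nonneg_left (not_lt.1 h) hK
    linarith
  have f1 := abs_sub_abs_le_abs_sub (w a) (w' a)
  have f2 := abs_sub_abs_le_abs_sub (w b) (w' b)
  have f3 := abs_sub_abs_le_abs_sub (w' b) (w b)
  rw [abs_sub_comm] at f1 f2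
  have f4 : B ^ (-58 : ℤ) * |w b| ≤ 1 / 4 * |w b| := mul_le_mul_of_nonneg_right c1 (abs_nonneg _)
  by_contra hne
  rcases lt_or_gt_of_ne hne with h | h
  · have g1 : |w a'| ≤ B ^ (-160 : ℤ) * |w a| := (hLa h.le (by omega)).trans
      (mul_le_mul_of_nonneg_right (zpow_le_zpow_right₀ hB1 (by omega)) ha0.le)
    have g2 : |w' a' - w a'| ≤ B ^ (-160 : ℤ) * |w a| := (ea' h.le).trans
      (mul_le_mul_of_nonneg_right (zpow_le_zpow_right₀ hB1 (by omega)) ha0.le)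
    have g3 := abs_sub_abs_le_abs_sub (w' a') (w a')
    exact WegX.absurd3 (x := |w b|) (x' := |w' b|) (z := |w' a'|) (y' := 2 * |w a|) (y := |w a|)
      c1 hγ hK c2 (by linarith) (by linarith) h2' (by linarith) le_rfl h1
  · have g1 : |w' a| ≤ B ^ (-160 : ℤ) * |w' a'| := (hLa' h.le (by omega)).trans
      (mul_le_mul_of_nonneg_right (zpow_le_zpow_right₀ hB1 (by omega)) (abs_nonneg _))
    have g2 := mul_le_mul_of_nonneg_left h1' hγ
    exact WegX.absurd3 (x := |w a|) (x' := |w' a|) (z := B ^ (-160 : ℤ) * |w' b|) (y' := |w' b|)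
      (y := |w b|) c1 hγ hK c2 ha0 (by linarith) (by linarith) le_rfl (by linarith) h2

/-- Shift to `c = 0` (`EA_sh`, `nu_real_sh`).  `cov` with `E = Y ⁻¹' (𝒜 ∩ EA)`, `G = Y ⁻¹' 𝒜p`, radius from `wa`, resp. `wb`
(`ρ ≤ 1` since `|w b| ≥ 1`); `same_a` identifies the partner at the moved point (for `GB`, `AntiS` with `ε ≤ 1/2` gives
ratios `≤ 2`); `shr_R`, `shr_L` give the tolerance on `|i| ≤ D₁`; `nu_apply`, `nu_Q3`. -/
theorem weg (c₀ κ : ℝ) (h0 : 0 < c₀) (h1 : c₀ ≤ 1) (hκ : 0 < κ) :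
    ∃ ε, 0 < ε ∧ ε ≤ c₀ / 100 ∧ ∃ B₀ : ℝ, ∀ B, B₀ ≤ B → ∀ k, 2 * Real.pi * k = B ^ 100 →
      ∀ (c D D₁ b par : ℤ) (𝒜 𝒜p : Set (ℤ → ℝ)), 0 ≤ D₁ → D₁ < D → c + D ≤ b → MeasurableSet 𝒜 →
      (∀ y ∈ 𝒜, ∀ y' : ℤ → ℝ,
        (∀ i, |i - c| ≤ D₁ → |Vof B y' i - Vof B y i| ≤ B ^ (101 - 80 * (D - D₁))) → y' ∈ 𝒜p) →
      (nu k).real (𝒜 ∩ {y | EA B c₀ ε c D b par y}) ≤ 30 * κ * (nu k).real 𝒜p ∧
      ∀ σ : ℝ, (σ = 1 ∨ σ = -1) →
        (nu k).real (𝒜 ∩ {y | GB B ε c D b par σ y}) ≤ 30 * κ * (nu k).real 𝒜p := by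
  obtain ⟨ε₀, hε₀, hwb⟩ := wb κ hκ
  have hε : 0 < min ε₀ (c₀ / 100) := lt_min hε₀ (by positivity)
  have hε2 : min ε₀ (c₀ / 100) ≤ 1 / 2 := (min_le_right _ _).trans (by linarith)
  refine ⟨_, hε, min_le_right _ _, ?_⟩
  obtain ⟨Bb, hBb⟩ := hwb _ hε (min_le_left _ _)
  obtain ⟨Ba, hBa⟩ := wa c₀ κ _ h0 h1 hκ hε
  generalize min ε₀ (c₀ / 100) = ε at *
  refine ⟨max (10 ^ 8) (max Ba Bb), fun B hB k hk => ?_⟩
  simp only [max_le_iff] at hB
  obtain ⟨hB, hB2, hB3⟩ := hB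
  have hB1 : 1 ≤ B := by linarith
  obtain ⟨-, -, c3⟩ := WegX.consts hB
  have key : ∀ (D D₁ b par : ℤ) (𝒜 𝒜p : Set (ℤ → ℝ)), 0 ≤ D₁ → D₁ < D → D ≤ b → MeasurableSet 𝒜 →
      (∀ y ∈ 𝒜, ∀ y' : ℤ → ℝ,
        (∀ i, |i| ≤ D₁ → |Vof B y' i - Vof B y i| ≤ B ^ (101 - 80 * (D - D₁))) → y' ∈ 𝒜p) →
      (nu k).real (𝒜 ∩ {y | EA B c₀ ε 0 D b par y}) ≤ 30 * κ * (nu k).real 𝒜p ∧
      ∀ σ : ℝ, (σ = 1 ∨ σ = -1) →
        (nu k).real (𝒜 ∩ {y | GB B ε 0 D b par σ y}) ≤ 30 * κ * (nu k).real 𝒜p := by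
    intro D D₁ b par 𝒜 𝒜p g0 g1 g2 hm hp
    refine ⟨WegX.core k κ hκ _ _ _ hm (measurableSet_EA _ _ _ _ _ _ _) fun P hA hE => ?_,
      fun σ hσ => WegX.core k κ hκ _ _ _ hm (measurableSet_GB _ _ _ _ _ _ _) fun P hA hE => ?_⟩
    · obtain ⟨a, a1, a2, a3, a4⟩ := (EA_Y B c₀ ε k 0 D b par P).1 hE
      have hv := hBa B hB2 k hk P a b (by omega) (by omega) a3 a4
      have hb1 := WegX.one_le_dir hB1 (by omega : 1 ≤ b) a3.1
      set M := max |dir (Vof B (orb k P)) 0 a| |dir (Vof B (orb k P)) 0 b| with hM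
      have hM1 : 1 ≤ M := le_max_of_le_right hb1
      have ht : ∀ t : ℝ, |t| ≤ c₀ / 400 / M → |t| * |dir (Vof B (orb k P)) 0 a| ≤ 1 ∧
          |t| * |dir (Vof B (orb k P)) 0 b| ≤ 1 := fun t ht => by
        rw [le_div_iff₀ (by linarith)] at ht
        exact ⟨(mul_le_mul_of_nonneg_left (le_max_left _ _) (abs_nonneg t)).trans (by linarith),
          (mul_le_mul_of_nonneg_left (le_max_right _ _) (abs_nonneg t)).trans (by linarith)⟩
      refine ⟨c₀ / 400 / M, by positivity, (div_le_one (by linarith)).2 (by linarith),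
        le_trans (measure_mono ?_) hv, fun t h => hp _ hA _ fun i hi => ?_⟩
      · intro t h
        refine ⟨h.1, ?_⟩
        obtain ⟨a', b1, b2, b3, -⟩ := (EA_Y B c₀ ε k 0 D b par _).1 h.2
        obtain rfl : a = a' := same_a hB hk P t (by omega) (by omega) (by omega) (a2.trans b2.symm)
          a3.1 a3.2.1 b3.2.1 a3.2.2.2.2.2.1 a3.2.2.2.2.2.2 b3.2.2.2.2.2.1 b3.2.2.2.2.2.2
          (ht t h.1).1 (ht t h.1).2
        exact b3.2.2.2.2.1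
      · rw [Vof_Y, Vof_Y]
        exact WegX.tol hB hk P t g0 g1 a1 g2 a3.1 a3.2.1 (ht t h).1 (ht t h).2 i hi
    · obtain ⟨a, a1, a2, a3, a4, a5, -⟩ := (GB_Y B ε k 0 D b par hσ P).1 hE
      have hv := hBb B hB3 k hk P a b σ (by omega) (by omega) hσ a3 a4 a5
      have hb1 := WegX.one_le_dir hB1 (by omega : 1 ≤ b) a3
      obtain ⟨r1, r2⟩ := WegX.ratio hσ hε2 a5.1
      have ht : ∀ t : ℝ, |t| ≤ 1 / 100 / |dir (Vof B (orb k P)) 0 b| →
          |t| * |dir (Vof B (orb k P)) 0 a| ≤ 1 ∧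
          |t| * |dir (Vof B (orb k P)) 0 b| ≤ 1 := fun t ht => by
        rw [le_div_iff₀ (by linarith)] at ht
        exact ⟨(mul_le_mul_of_nonneg_left r1 (abs_nonneg t)).trans (by linarith), by linarith⟩
      refine ⟨1 / 100 / |dir (Vof B (orb k P)) 0 b|, by positivity,
        (div_le_one (by linarith)).2 (by linarith),
        le_trans (measure_mono ?_) hv, fun t h => hp _ hA _ fun i hi => ?_⟩
      · intro t h
        refine ⟨h.1, ?_⟩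
        obtain ⟨a', b1, b2, b3, b4, b5, b6⟩ := (GB_Y B ε k 0 D b par hσ _).1 h.2
        obtain ⟨s1, s2⟩ := WegX.ratio hσ hε2 b5.1
        obtain rfl : a = a' := same_a hB hk P t (by omega) (by omega) (by omega) (a2.trans b2.symm)
          a3 a4 b4 (r1.trans (mul_le_mul_of_nonneg_right c3 (abs_nonneg _)))
          (r2.trans (mul_le_mul_of_nonneg_right c3 (abs_nonneg _)))
          (s1.trans (mul_le_mul_of_nonneg_right c3 (abs_nonneg _)))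
          (s2.trans (mul_le_mul_of_nonneg_right c3 (abs_nonneg _))) (ht t h.1).1 (ht t h.1).2
        exact b6
      · rw [Vof_Y, Vof_Y]
        exact WegX.tol hB hk P t g0 g1 a1 g2 a3 a4 (ht t h).1 (ht t h).2 i hi
  intro c D D₁ b par 𝒜 𝒜p g0 g1 g2 hm hp
  obtain ⟨k1, k2⟩ := key D D₁ (b - c) par {y | sh (-c) y ∈ 𝒜} {y | sh (-c) y ∈ 𝒜p} g0 g1 (by omega)
    (measurable_sh (-c) hm) (fun y hy y' h => hp _ hy _ fun i hi => h (i + -c) hi)
  rw [nu_real_sh] at k1 k2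
  refine ⟨?_, fun σ hσ => ?_⟩
  · rw [← nu_real_sh k (𝒜 ∩ _) (-c)]
    refine le_of_eq_of_le (congrArg _ (Set.ext fun y => and_congr_right fun _ => ?_)) k1
    have := EA_sh B c₀ ε c D b par (-c) y
    rwa [add_neg_cancel, ← sub_eq_add_neg] at this
  · rw [← nu_real_sh k (𝒜 ∩ _) (-c)]
    refine le_of_eq_of_le (congrArg _ (Set.ext fun y => and_congr_right fun _ => ?_)) (k2 σ hσ)
    have := GB_sh B ε c D b par (-c) σ y
    rwa [add_neg_cancel, ← sub_eq_add_neg] at this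

end Crest.Agent.R128
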