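import Crest.Agent.R128.ProbA
import Crest.Agent.R128.Weg

set_option autoImplicit false
open MeasureTheory Set

namespace Crest.Agent.R128
open Classical

/-! ProbD: resonances. -/

def WegP (B k c₀ ε κ : ℝ) : Prop :=
  ∀ (c D D₁ b par : ℤ) (𝒜 𝒜p : Set (ℤ → ℝ)), 0 ≤ D₁ → D₁ < D → c + D ≤ b → MeasurableSet 𝒜 →
    (∀ y ∈ 𝒜, ∀ y' : ℤ → ℝ,
      (∀ i, |i - c| ≤ D₁ → |Vof B y' i - Vof B y i| ≤ B ^ (101 - 80 * (D - D₁))) → y' ∈ 𝒜p) →
    (nu k).real (𝒜 ∩ {y | EA B c₀ ε c D b par y}) ≤ 30 * κ * (nu k).real 𝒜p ∧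
    ∀ σ : ℝ, (σ = 1 ∨ σ = -1) →
      (nu k).real (𝒜 ∩ {y | GB B ε c D b par σ y}) ≤ 30 * κ * (nu k).real 𝒜p

theorem weg' (c₀ κ : ℝ) (h0 : 0 < c₀) (h1 : c₀ ≤ 1) (hκ : 0 < κ) :
    ∃ ε, 0 < ε ∧ ε ≤ c₀ / 100 ∧ ∃ B₀ : ℝ, ∀ B, B₀ ≤ B → ∀ k, 2 * Real.pi * k = B ^ 100 →
      WegP B k c₀ ε κ := weg c₀ κ h0 h1 hκ

/-- `mc` over `b ∈ [30000N, 60000N)` with `m = 15000 N`; each `𝒜 ∩ Caught b` is covered by `8 * 3` events, each of measure
`≤ 30 κ epsh` (`D = 21000N`, `D₁ = 16N`, `𝒜 = LE … 0`, `𝒜p = LEp`, `LE_rob`, `LEp_le`). -/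
theorem res_bound {B k c₀ ε κ : ℝ} (hB : 10 ^ 8 ≤ B) (hκ : 0 ≤ κ) (hW : WegP B k c₀ ε κ) {q : ℕ → ℝ}
    (hq : GoodQ B k q) (l : ℕ) :
    (nu k).real {y | LE (pat B q y) l 0 ∧ Res B c₀ ε (NN l) y} ≤ 2000 * κ * epsh B k q l := by
  have hB0 : 0 < B := by linarith
  have e1 : (NN l : ℤ) = 10 * (nn l : ℤ) := by exact_mod_cast NN_eq l
  have e3 : (4 : ℤ) ≤ (nn l : ℤ) := by exact_mod_cast nn_ge l
  have he := epsh_nonneg hB0 k q l
  set 𝒜 : Set (ℤ → ℝ) := {y | LE (pat B q y) l 0} with h𝒜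
  have hm : MeasurableSet 𝒜 := measurableSet_pat B q (measurable_LE l 0)
  have hp : 30 * κ * (nu k).real (LEp B q l 0) ≤ 30 * κ * epsh B k q l :=
    mul_le_mul_of_nonneg_left (LEp_le hB hq l 0) (by positivity)
  have key : ∀ c : ℤ, (c = 0 ∨ c = 1) → ∀ b par : ℤ, 30000 * (NN l : ℤ) ≤ b →
      (nu k).real (𝒜 ∩ {y | EA B c₀ ε c (21000 * NN l) b par y}) ≤ 30 * κ * epsh B k q l ∧
      ∀ σ : ℝ, (σ = 1 ∨ σ = -1) →
        (nu k).real (𝒜 ∩ {y | GB B ε c (21000 * NN l) b par σ y}) ≤ 30 * κ * epsh B k q l := by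
    intro c hc b par hb
    have := hW c (21000 * NN l) (16 * NN l) b par 𝒜 (LEp B q l 0) (by omega) (by omega) (by omega) hm
      (fun y hy y' hd => LE_rob hB hq.1 l 0 hy fun i hi1 hi2 =>
        (hd i (by rw [abs_le]; omega)).trans (zpow_le_zpow_right₀ (by linarith) (by omega)))
    exact ⟨this.1.trans hp, fun σ hσ => (this.2 σ hσ).trans hp⟩
  have hE : ∀ b : ℤ, 30000 * (NN l : ℤ) ≤ b →
      (nu k).real (𝒜 ∩ {y | Caught B c₀ ε (NN l) y b}) ≤ 720 * κ * epsh B k q l := by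
    intro b hb
    let I : Finset (ℤ × ℤ × ℝ) := ({0, 1} : Finset ℤ) ×ˢ ({0, 1} : Finset ℤ) ×ˢ ({1, -1} : Finset ℝ)
    let S : ℤ × ℤ × ℝ → Set (ℤ → ℝ) := fun t =>
      𝒜 ∩ {y | EA B c₀ ε t.1 (21000 * NN l) b t.2.1 y} ∪
        (𝒜 ∩ {y | EA B c₀ ε t.1 (21000 * NN l) (b + 1) t.2.1 y} ∪
          𝒜 ∩ {y | GB B ε t.1 (21000 * NN l) b t.2.1 t.2.2 y})
    have hsub : 𝒜 ∩ {y | Caught B c₀ ε (NN l) y b} ⊆ ⋃ t ∈ I, S t := by
      rintro y ⟨hy, c, par, σ, hc, hpar, hσ, h⟩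
      refine mem_iUnion₂.2 ⟨(c, par, σ), by simp [I, hc, hpar, hσ], ?_⟩
      rcases h with h | h | h
      · exact Or.inl ⟨hy, h⟩
      · exact Or.inr (Or.inl ⟨hy, h⟩)
      · exact Or.inr (Or.inr ⟨hy, h⟩)
    have hS : ∀ t ∈ I, (nu k).real (S t) ≤ 90 * κ * epsh B k q l := by
      intro t ht
      simp only [I, Finset.mem_product, Finset.mem_insert, Finset.mem_singleton] at ht
      have a1 := (key t.1 ht.1 b t.2.1 hb).1
      have a2 := (key t.1 ht.1 (b + 1) t.2.1 (by omega)).1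
      have a3 := (key t.1 ht.1 b t.2.1 hb).2 t.2.2 ht.2.2
      have a4 := (measureReal_union_le (μ := nu k) (𝒜 ∩ {y | EA B c₀ ε t.1 (21000 * NN l) b t.2.1 y})
        (𝒜 ∩ {y | EA B c₀ ε t.1 (21000 * NN l) (b + 1) t.2.1 y} ∪
          𝒜 ∩ {y | GB B ε t.1 (21000 * NN l) b t.2.1 t.2.2 y}))
      have a5 := (measureReal_union_le (μ := nu k)
        (𝒜 ∩ {y | EA B c₀ ε t.1 (21000 * NN l) (b + 1) t.2.1 y})
          (𝒜 ∩ {y | GB B ε t.1 (21000 * NN l) b t.2.1 t.2.2 y}))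
      simp only [S]
      linarith
    have hI : I.card ≤ 8 := by
      simp only [I, Finset.card_product]
      exact Nat.mul_le_mul Finset.card_le_two
        (Nat.mul_le_mul (Finset.card_le_two) Finset.card_le_two)
    calc _ ≤ (nu k).real (⋃ t ∈ I, S t) := measureReal_mono hsub (measure_ne_top _ _)
      _ ≤ ∑ t ∈ I, (nu k).real (S t) := measureReal_biUnion_finset_le _ _
      _ ≤ ∑ _t ∈ I, 90 * κ * epsh B k q l := Finset.sum_le_sum hS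
      _ = I.card * (90 * κ * epsh B k q l) := by rw [Finset.sum_const, nsmul_eq_mul]
      _ ≤ 8 * (90 * κ * epsh B k q l) :=
          mul_le_mul_of_nonneg_right (by exact_mod_cast hI) (by positivity)
      _ = _ := by ring
  have h1 := mc (nu k) (Finset.Ico (30000 * NN l : ℤ) (60000 * NN l))
    (fun b => 𝒜 ∩ {y | Caught B c₀ ε (NN l) y b})
    {y | LE (pat B q y) l 0 ∧ Res B c₀ ε (NN l) y} (15000 * NN l) (by
      rintro y ⟨hy1, hy2⟩
      unfold Res at hy2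
      have h5 : (15000 * NN l : ℝ) ≤
          (((Finset.Ico (30000 * NN l : ℤ) (60000 * NN l)).filter (Caught B c₀ ε (NN l) y)).card : ℝ) := by
        exact_mod_cast hy2
      refine h5.trans (Nat.cast_le.2 (Finset.card_le_card ?_))
      intro b hb
      rw [Finset.mem_filter] at hb
      exact (@Finset.mem_filter _ _ (_) _ _).2 ⟨hb.1, hy1, hb.2⟩)
  have h2 : ∑ b ∈ Finset.Ico (30000 * NN l : ℤ) (60000 * NN l),
      (nu k).real (𝒜 ∩ {y | Caught B c₀ ε (NN l) y b}) ≤ 30000 * NN l * (720 * κ * epsh B k q l) := by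
    calc _ ≤ ∑ _b ∈ Finset.Ico (30000 * NN l : ℤ) (60000 * NN l), 720 * κ * epsh B k q l :=
          Finset.sum_le_sum fun b hb => hE b (Finset.mem_Ico.1 hb).1
      _ = _ := by
          rw [Finset.sum_const, nsmul_eq_mul, Int.card_Ico,
            show ((60000 * NN l : ℤ) - 30000 * NN l).toNat = 30000 * NN l by omega]
          push_cast; ring
  have hN : (0 : ℝ) < NN l := by
    have : 0 < NN l := by omega
    exact_mod_cast this
  have h3 : (15000 * NN l : ℝ) * (nu k).real {y | LE (pat B q y) l 0 ∧ Res B c₀ ε (NN l) y} ≤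
      15000 * NN l * (2000 * κ * epsh B k q l) := by
    have : 0 ≤ (NN l : ℝ) * (κ * epsh B k q l) := by positivity
    nlinarith
  exact le_of_mul_le_mul_left h3 (by positivity)

end Crest.Agent.R128
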