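import Crest.Agent.R128.ProbB
import Crest.Agent.R128.ProbD
import Crest.Agent.R128.Dich

set_option autoImplicit false
open MeasureTheory Set

namespace Crest.Agent.R128
open Classical

/-! ProbE: the recursion and the bootstrap. -/

namespace ProbEX

theorem B_ge {B c₀ : ℝ} (hB : 10 ^ 8 ≤ c₀ * B) (h0 : 0 < c₀) (h1 : c₀ ≤ 1) : 10 ^ 8 ≤ B := by
  have hB0 : 0 ≤ B := by
    by_contra h
    push Not at h
    nlinarith
  nlinarith

theorem NN_pos (l : ℕ) : 40 ≤ NN l := by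
  rw [NN_eq]; have := nn_ge l; omega

theorem sep (B : ℝ) (q : ℕ → ℝ) (l : ℕ) (y : ℤ → ℝ) (z : ℤ) (hz : z ≠ 0) (hz' : |z| ≤ 500 * (NN l : ℤ))
    (h : LE (pat B q y) (l + 1) 0) (h' : LE (pat B q (sh z y)) (l + 1) 0) : False := by
  rw [pat_sh, LE_shp] at h'
  have := LE_sep h h' (by simpa using hz.symm)
  have h2 : (NN (l + 1) : ℤ) = 10 ^ 9 * NN l := by exact_mod_cast NN_succ l
  have h3 : |(0 : ℤ) - (0 + z)| = |z| := by simp
  have h4 : (40 : ℤ) ≤ NN l := by exact_mod_cast NN_pos l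
  rw [h3, h2] at this
  linarith

theorem long_bound (B k : ℝ) (q : ℕ → ℝ) (l : ℕ) :
    NN l * (nu k).real {y | LE (pat B q y) (l + 1) 0 ∧
      ∀ z : ℤ, 121 * NN l ≤ z → z ≤ 129 * NN l → Sig (pat B q y) l z} ≤
      (nu k).real {y | Sig (pat B q y) l 0} := by
  have h4 : (40 : ℤ) ≤ NN l := by exact_mod_cast NN_pos l
  refine mt (nu k) (nu_shift k) _ _ ?_ (129 * NN l) _ ?_ ?_
  · refine measurableSet_pat B q
      (p := fun r => LE r (l + 1) 0 ∧ ∀ z : ℤ, 121 * NN l ≤ z → z ≤ 129 * NN l → Sig r l z) ?_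
    refine (measurable_LE _ _).and (Measurable.forall fun z => ?_)
    exact measurable_const.imp (measurable_const.imp (measurable_Sig _ _))
  · intro y hy z hz hz' h'
    exact sep B q l y z hz (by linarith) hy.1 h'.1
  · intro y hy
    have hsub : Finset.Icc (121 * NN l : ℤ) (129 * NN l) ⊆
        (Finset.Icc (-(129 * NN l : ℤ)) (129 * NN l)).filter
          (fun z => sh z y ∈ {y | Sig (pat B q y) l 0}) := by
      intro z hz
      rw [Finset.mem_Icc] at hz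
      rw [Finset.mem_filter, Finset.mem_Icc]
      refine ⟨⟨by linarith, hz.2⟩, ?_⟩
      show Sig (pat B q (sh z y)) l 0
      rw [pat_sh, Sig_shp]
      simpa using hy.2 z hz.1 hz.2
    have hc := Finset.card_le_card hsub
    rw [Int.card_Icc] at hc
    have : NN l ≤ (129 * (NN l : ℤ) + 1 - 121 * NN l).toNat := by omega
    exact_mod_cast le_trans this hc

theorem pe_right (B k : ℝ) (q : ℕ → ℝ) (l : ℕ) :
    (nu k).real {y | LE (pat B q y) (l + 1) 0 ∧
      ∃ z : ℤ, 0 ≤ z ∧ z ≤ 250 * NN l ∧ PE (pat B q y) l z} ≤ (nu k).real {y | PE (pat B q y) l 0} := by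
  have h4 : (40 : ℤ) ≤ NN l := by exact_mod_cast NN_pos l
  have := mt (nu k) (nu_shift k) {y | PE (pat B q y) l 0} {y | LE (pat B q y) (l + 1) 0 ∧
      ∃ z : ℤ, 0 ≤ z ∧ z ≤ 250 * NN l ∧ PE (pat B q y) l z} ?_ (250 * NN l) 1 ?_ ?_
  · simpa using this
  · refine measurableSet_pat B q
      (p := fun r => LE r (l + 1) 0 ∧ ∃ z : ℤ, 0 ≤ z ∧ z ≤ 250 * NN l ∧ PE r l z) ?_
    refine (measurable_LE _ _).and (Measurable.exists fun z => ?_)
    exact measurable_const.and (measurable_const.and (measurable_PE _ _))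
  · intro y hy z hz hz' h'
    exact sep B q l y z hz (by linarith) hy.1 h'.1
  · intro y hy
    obtain ⟨z, hz0, hz1, hz⟩ := hy.2
    have : 0 < ((Finset.Icc (-(250 * NN l : ℤ)) (250 * NN l)).filter
          (fun z => sh z y ∈ {y | PE (pat B q y) l 0})).card := by
      refine Finset.card_pos.mpr ⟨z, ?_⟩
      rw [Finset.mem_filter, Finset.mem_Icc]
      refine ⟨⟨by linarith, hz1⟩, ?_⟩
      show PE (pat B q (sh z y)) l 0
      rw [pat_sh, PE_shp]
      simpa using hz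
    exact_mod_cast this

end ProbEX
open ProbEX

/-- `main_incl` (with `hyp_pat`), `LE_succ`, `dich`, mass transport. -/
theorem eps_succ {B k c₀ ε κ : ℝ} (hB : 10 ^ 8 ≤ c₀ * B) (h0 : 0 < c₀) (h1 : c₀ ≤ 1) (hε0 : 0 ≤ ε)
    (hε : ε ≤ c₀ / 100) (hκ : 0 ≤ κ) (hk : 2 * Real.pi * k = B ^ 100) (hW : WegP B k c₀ ε κ) {q : ℕ → ℝ}
    (hq : GoodQ B k q) (l : ℕ) :
    NN (l + 1) * eps B k q (l + 1) ≤ 10 ^ 9 * (nu k).real {y | Sig (pat B q y) l 0} +
      NN (l + 1) * (2 * (120 * NN (l + 1) * (10 ^ 9 * epsh B k q l ^ 2)) +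
        2 * (10 ^ 9 * gam B c₀ k q l * epsh B k q l) + 2000 * κ * epsh B k q l) := by
  have hB' := B_ge hB h0 h1
  set F1 : Set (ℤ → ℝ) := {y | LE (pat B q y) (l + 1) 0 ∧
      ∀ z : ℤ, 121 * NN l ≤ z → z ≤ 129 * NN l → Sig (pat B q y) l z} with hF1
  set F2 : Set (ℤ → ℝ) := {y | PEL (pat B q y) l 0} with hF2
  set F3 : Set (ℤ → ℝ) := {y | LE (pat B q y) (l + 1) 0 ∧
      ∃ z : ℤ, 0 ≤ z ∧ z ≤ 250 * NN l ∧ PE (pat B q y) l z} with hF3
  set F4 : Set (ℤ → ℝ) := {y | LE (pat B q y) l 0 ∧ Iso (pat B q y) l ∧ CrL B c₀ q l y} with hF4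
  set F5 : Set (ℤ → ℝ) := {y | LE (pat B q y) l 0 ∧ Iso (pat B q y) l ∧ CrR B c₀ q l y} with hF5
  set F6 : Set (ℤ → ℝ) := {y | LE (pat B q y) l 0 ∧ Res B c₀ ε (NN l) y} with hF6
  have hsub : {y | LE (pat B q y) (l + 1) 0} ⊆ F1 ∪ (F2 ∪ (F3 ∪ (F4 ∪ (F5 ∪ F6)))) := by
    intro y hy
    have hy' : LE (pat B q y) (l + 1) 0 := hy
    rcases main_incl (hyp_pat hB' hq.1 y) hy' with h | h | h | ⟨hI, hM⟩
    · exact Or.inl ⟨hy', h⟩
    · exact Or.inr (Or.inl h)
    · exact Or.inr (Or.inr (Or.inl ⟨hy', h⟩))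
    · by_cases hL : CrL B c₀ q l y
      · exact Or.inr (Or.inr (Or.inr (Or.inl ⟨LE_succ hy', hI, hL⟩)))
      by_cases hR : CrR B c₀ q l y
      · exact Or.inr (Or.inr (Or.inr (Or.inr (Or.inl ⟨LE_succ hy', hI, hR⟩))))
      exact Or.inr (Or.inr (Or.inr (Or.inr (Or.inr
        ⟨LE_succ hy', dich hB h0 h1 hε0 hε hq.1 l y hI hL hR hM⟩))))
  have hle : eps B k q (l + 1) ≤ (nu k).real F1 + ((nu k).real F2 + ((nu k).real F3 +
      ((nu k).real F4 + ((nu k).real F5 + (nu k).real F6)))) := by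
    refine le_trans (measureReal_mono hsub) ?_
    refine le_trans (measureReal_union_le _ _) (add_le_add le_rfl ?_)
    refine le_trans (measureReal_union_le _ _) (add_le_add le_rfl ?_)
    refine le_trans (measureReal_union_le _ _) (add_le_add le_rfl ?_)
    refine le_trans (measureReal_union_le _ _) (add_le_add le_rfl ?_)
    exact measureReal_union_le _ _
  have b1 := long_bound B k q l
  have b2 := pel_bound hB' hk hq l 0
  have b3 := le_trans (pe_right B k q l) (pe_bound hB' hk hq l 0)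
  have b4 := crL_bound hB h0 h1 hk hq l
  have b5 := crR_bound hB h0 h1 hk hq l
  have b6 := res_bound hB' hκ hW hq l
  have hN : (NN (l + 1) : ℝ) = 10 ^ 9 * NN l := by exact_mod_cast NN_succ l
  have hN0 : (0 : ℝ) ≤ NN (l + 1) := Nat.cast_nonneg _
  have e1 : NN (l + 1) * (nu k).real F1 ≤ 10 ^ 9 * (nu k).real {y | Sig (pat B q y) l 0} := by
    rw [hN, mul_assoc]
    exact mul_le_mul_of_nonneg_left b1 (by norm_num)
  have e2 : (nu k).real F2 + ((nu k).real F3 + ((nu k).real F4 + ((nu k).real F5 + (nu k).real F6))) ≤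
      2 * (120 * NN (l + 1) * (10 ^ 9 * epsh B k q l ^ 2)) +
        2 * (10 ^ 9 * gam B c₀ k q l * epsh B k q l) + 2000 * κ * epsh B k q l := by
    linarith
  calc NN (l + 1) * eps B k q (l + 1) ≤ NN (l + 1) * ((nu k).real F1 + ((nu k).real F2 + ((nu k).real F3 +
      ((nu k).real F4 + ((nu k).real F5 + (nu k).real F6))))) := mul_le_mul_of_nonneg_left hle hN0
    _ = NN (l + 1) * (nu k).real F1 + NN (l + 1) * ((nu k).real F2 + ((nu k).real F3 +
      ((nu k).real F4 + ((nu k).real F5 + (nu k).real F6)))) := by ring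
    _ ≤ _ := add_le_add e1 (mul_le_mul_of_nonneg_left e2 hN0)

/-- `two_sets`, `cov_step`, `sig_step`. -/
theorem sig_cov (B k : ℝ) (q : ℕ → ℝ) (l : ℕ) :
    (nu k).real {y | Sig (pat B q y) l 0} + (nu k).real {y | Cov (pat B q y) (l + 1) 0} ≤
      (nu k).real {y | Cov (pat B q y) l 0} + (nu k).real {y | PN (pat B q y) l 0} := by
  refine two_sets (nu k) _ _ _ _ (measurableSet_pat B q (measurable_Sig l 0))
    (measurableSet_pat B q (measurable_PN l 0)) ?_ ?_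
  · rintro y (h | h)
    · exact Or.inl h.1
    · exact cov_step h
  · rintro y ⟨h, h'⟩
    exact ⟨h.1, sig_step h h'⟩

/-- the bootstrap with `c₀ = 10^(-120)`, `κ = τ = 10^(-100)`, `D = 10^32`. -/
theorem main_bound : ∃ B₀ : ℝ, ∀ B, B₀ ≤ B → ∀ k, 2 * Real.pi * k = B ^ 100 →
    ∃ q, QOK B q ∧ ∀ l, uu B k q l ≤ 1 / 2 := by
  set c₀ : ℝ := 1 / 10 ^ 120 with hc₀
  set τ : ℝ := 1 / 10 ^ 100 with hτ
  have h0 : 0 < c₀ := by positivity
  have h1 : c₀ ≤ 1 := by rw [hc₀]; norm_num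
  have hτ0 : 0 < τ := by positivity
  have hcτ : 10 ^ 20 * c₀ = τ := by rw [hc₀, hτ]; norm_num
  obtain ⟨ε, hε0, hε, B₁, hB₁⟩ := weg' c₀ τ h0 h1 hτ0
  obtain ⟨B₂, hB₂⟩ := beta_sum τ hτ0
  refine ⟨max (max B₁ B₂) (10 ^ 128), fun B hB k hk => ?_⟩
  have hb1 : B₁ ≤ B := le_trans (le_trans (le_max_left _ _) (le_max_left _ _)) hB
  have hb2 : B₂ ≤ B := le_trans (le_trans (le_max_right _ _) (le_max_left _ _)) hB
  have hb3 : (10 : ℝ) ^ 128 ≤ B := le_trans (le_max_right _ _) hB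
  have hcB : 10 ^ 8 ≤ c₀ * B := by
    have : c₀ * 10 ^ 128 = 10 ^ 8 := by rw [hc₀]; norm_num
    rw [← this]
    exact mul_le_mul_of_nonneg_left hb3 h0.le
  have hB' := B_ge hcB h0 h1
  have hB0 : 0 < B := by linarith [show (0 : ℝ) < 10 ^ 8 by norm_num]
  obtain ⟨q, hq⟩ := exists_q hB' k
  refine ⟨q, hq.1, ?_⟩
  have hW := hB₁ B hb1 k hk
  have hβs := hB₂ B hb2
  have hβ0 : ∀ l, 0 ≤ beta B l := fun l => by
    unfold beta
    have := bb_nonneg hB0 l
    positivity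
  have hβτ : ∀ l, beta B l ≤ τ := fun l => by
    have := hβs (l + 1)
    rw [Finset.sum_range_succ] at this
    have h2 : 0 ≤ ∑ i ∈ Finset.range l, beta B i := Finset.sum_nonneg fun i _ => hβ0 i
    linarith
  have hNs : ∀ l, (NN (l + 1) : ℝ) = 10 ^ 9 * NN l := fun l => by exact_mod_cast NN_succ l
  have hN1 : ∀ l, (40 : ℝ) ≤ NN l := fun l => by exact_mod_cast NN_pos l
  have heps0 : ∀ l, 0 ≤ eps B k q l := fun l => measureReal_nonneg
  have huu0 : ∀ l, 0 ≤ uu B k q l := fun l => measureReal_nonneg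
  have hE : ∀ l, NN l * epsh B k q l ≤ NN l * eps B k q l + beta B l := fun l => by
    unfold epsh beta
    have hb := bb_nonneg hB0 l
    have hn := hN1 l
    rw [hNs l]
    have : (NN l : ℝ) * (29 * NN l * bb B l) ≤ 100 * (10 ^ 9 * NN l) ^ 2 * bb B l := by
      have h3 : (NN l : ℝ) * (29 * NN l) ≤ 100 * (10 ^ 9 * NN l) ^ 2 := by nlinarith
      nlinarith
    linarith
  have hE0 : ∀ l, 0 ≤ NN l * epsh B k q l := fun l =>
    mul_nonneg (Nat.cast_nonneg _) (epsh_nonneg hB0 k q l)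
  have hG : ∀ l, gam B c₀ k q l ≤ 12 * 10 ^ 9 * (uu B k q l + τ) := fun l => by
    unfold gam
    have hb := bb_nonneg hB0 l
    have hn := hN1 (l + 1)
    have h3 : 7 * (NN (l + 1) : ℝ) * bb B l ≤ beta B l := by
      unfold beta
      have h4 : 7 * (NN (l + 1) : ℝ) ≤ 100 * (NN (l + 1) : ℝ) ^ 2 := by nlinarith
      exact mul_le_mul_of_nonneg_right h4 hb
    have := hβτ l
    nlinarith
  refine boot (10 ^ 32) τ (by norm_num) hτ0 (by rw [hτ]; norm_num) (fun l => NN l * eps B k q l) (beta B)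
    (fun l => (nu k).real {y | Sig (pat B q y) l 0}) (fun l => (nu k).real {y | Cov (pat B q y) l 0})
    (uu B k q) (fun l => mul_nonneg (Nat.cast_nonneg _) (heps0 l)) hβ0 (fun l => measureReal_nonneg)
    (fun l => measureReal_nonneg) huu0 ?_ ?_ hβs ?_ ?_ ?_
  · have := eps_zero hcB h0 h1 k hq.1
    have h40 : (NN 0 : ℝ) = 40 := by simp [NN]
    simp only [h40]
    nlinarith
  · have := cov_zero hcB h0 h1 k hq.1
    nlinarith
  · intro l
    have h := eps_succ hcB h0 h1 hε0.le hε hτ0.le hk hW hq l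
    set x := NN l * epsh B k q l with hx
    set A := NN l * eps B k q l + beta B l with hA
    have hxA : x ≤ A := hE l
    have hx0 : 0 ≤ x := hE0 l
    have hs0 : 0 ≤ (nu k).real {y | Sig (pat B q y) l 0} := measureReal_nonneg
    have hu0 := huu0 l
    have e : (NN (l + 1) : ℝ) * (2 * (120 * NN (l + 1) * (10 ^ 9 * epsh B k q l ^ 2)) +
        2 * (10 ^ 9 * gam B c₀ k q l * epsh B k q l) + 2000 * τ * epsh B k q l) =
        240 * 10 ^ 27 * x ^ 2 + 2 * 10 ^ 18 * (gam B c₀ k q l * x) + 2000 * 10 ^ 9 * (τ * x) := by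
      rw [hNs l, hx]; ring
    rw [e] at h
    have e1 : x ^ 2 ≤ A ^ 2 := pow_le_pow_left₀ hx0 hxA 2
    have e2 : gam B c₀ k q l * x ≤ 12 * 10 ^ 9 * ((uu B k q l + τ) * A) := by
      calc gam B c₀ k q l * x ≤ 12 * 10 ^ 9 * (uu B k q l + τ) * x :=
            mul_le_mul_of_nonneg_right (hG l) hx0
        _ ≤ 12 * 10 ^ 9 * (uu B k q l + τ) * A :=
            mul_le_mul_of_nonneg_left hxA (by positivity)
        _ = _ := by ring
    have e3 : τ * x ≤ (uu B k q l + τ) * A :=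
      mul_le_mul (by linarith) hxA hx0 (by positivity)
    have e4 : 0 ≤ (uu B k q l + τ) * A := mul_nonneg (by positivity) (le_trans hx0 hxA)
    have e5 : 0 ≤ A ^ 2 := sq_nonneg _
    show NN (l + 1) * eps B k q (l + 1) ≤ 10 ^ 32 * (nu k).real {y | Sig (pat B q y) l 0} +
      10 ^ 32 * A ^ 2 + 10 ^ 32 * (uu B k q l + τ) * A
    rw [mul_assoc (10 ^ 32 : ℝ) (uu B k q l + τ) A]
    linarith
  · intro l
    have h := sig_cov B k q l
    have h2 := pn_bound hB' hk hq l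
    set x := NN l * epsh B k q l with hx
    set A := NN l * eps B k q l + beta B l with hA
    have hxA : x ≤ A := hE l
    have hx0 : 0 ≤ x := hE0 l
    have e : 243 * (NN (l + 1) : ℝ) * (120 * NN (l + 1) * (10 ^ 9 * epsh B k q l ^ 2)) =
        29160 * 10 ^ 27 * x ^ 2 := by
      rw [hNs l, hx]; ring
    rw [e] at h2
    have e1 : x ^ 2 ≤ A ^ 2 := pow_le_pow_left₀ hx0 hxA 2
    have e5 : 0 ≤ A ^ 2 := sq_nonneg _
    show (nu k).real {y | Sig (pat B q y) l 0} + (nu k).real {y | Cov (pat B q y) (l + 1) 0} ≤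
      (nu k).real {y | Cov (pat B q y) l 0} + 10 ^ 32 * A ^ 2
    linarith
  · intro l
    have h := uu_le hcB h0 h1 k hq.1 l
    have h2 : 0 ≤ ∑ i ∈ Finset.range l, (NN i : ℝ) * eps B k q i :=
      Finset.sum_nonneg fun i _ => mul_nonneg (Nat.cast_nonneg _) (heps0 i)
    show uu B k q l ≤ τ + 10 ^ 32 * ∑ i ∈ Finset.range l, (NN i : ℝ) * eps B k q i
    nlinarith

end Crest.Agent.R128
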