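import Crest.Agent.R128.LinB

set_option autoImplicit false
open MeasureTheory Set

namespace Crest.Agent.R128
open Classical

/-! SH: complex shadowing along the line `x 0` fixed, `x 1 + t`.  `pl` (over `ℂ`, `a = 0`, `X = ‖t‖ W`,
`norm_sin_taylor`), then `norm_cos_sub_le`, then `ll` with `μ = B^101 X`.  Left versions by `orbC_refl`, `orb_refl`. -/

namespace SHX

theorem Vt_refl (B k : ℝ) (P : ℝ × ℝ) (t : ℂ) :
    Vt B k (P.1, orb k P (-1)) (-t) = refl (Vt B k P t) := by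
  funext i
  simp only [Vt, VofC, refl, orbC_refl]

theorem hW {B W : ℝ} (hB : 0 < B) {n : ℤ} {x : ℝ} (h : |x| ≤ B ^ n * W) : 0 ≤ W := by
  have h1 : 0 < B ^ n := zpow_pos hB n
  have h2 : 0 ≤ B ^ n * W := (abs_nonneg x).trans h
  exact nonneg_of_mul_nonneg_right h2 h1 |> fun h => h

theorem quad {B k : ℝ} (hB : 10 ^ 8 ≤ B) (hk : 2 * Real.pi * k = B ^ 100) (x : ℝ) (d : ℂ)
    (hd : ‖d‖ ≤ 1) :
    ‖(2 * ((x : ℂ) + d) + (k : ℂ) * Complex.sin (2 * (Real.pi : ℂ) * ((x : ℂ) + d)))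
      - ((2 * x + k * Real.sin (2 * Real.pi * x) : ℝ) : ℂ)
      - ((2 + B ^ 100 * Real.cos (2 * Real.pi * x) : ℝ) : ℂ) * d‖ ≤ B ^ 101 * ‖d‖ ^ 2 := by
  have hpi := Real.pi_pos
  have hpi4 : Real.pi ≤ 4 := Real.pi_le_four
  have hB0 : 0 < B := by linarith
  have hk0 : 0 ≤ k := by
    have : 0 < B ^ 100 := by positivity
    nlinarith
  have hn : ‖2 * (Real.pi : ℂ) * d‖ = 2 * Real.pi * ‖d‖ := by
    rw [norm_mul, norm_mul, Complex.norm_real, Real.norm_eq_abs, abs_of_pos hpi]; simp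
  have h1 := norm_sin_taylor (((2 * Real.pi * x : ℝ) : ℂ)) (2 * (Real.pi : ℂ) * d)
    (by rw [Complex.ofReal_im]; simp) (by rw [hn]; nlinarith)
  have e : (2 * ((x : ℂ) + d) + (k : ℂ) * Complex.sin (2 * (Real.pi : ℂ) * ((x : ℂ) + d)))
      - ((2 * x + k * Real.sin (2 * Real.pi * x) : ℝ) : ℂ)
      - ((2 + B ^ 100 * Real.cos (2 * Real.pi * x) : ℝ) : ℂ) * d
      = (k : ℂ) * (Complex.sin (((2 * Real.pi * x : ℝ) : ℂ) + 2 * (Real.pi : ℂ) * d)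
        - Complex.sin ((2 * Real.pi * x : ℝ) : ℂ)
        - Complex.cos ((2 * Real.pi * x : ℝ) : ℂ) * (2 * (Real.pi : ℂ) * d)) := by
    rw [← hk]
    push_cast
    rw [mul_add (2 * (Real.pi : ℂ))]
    ring
  rw [e, norm_mul, Complex.norm_real, Real.norm_eq_abs, abs_of_nonneg hk0]
  rw [hn] at h1
  calc k * _ ≤ k * (400 * (2 * Real.pi * ‖d‖) ^ 2) := mul_le_mul_of_nonneg_left h1 hk0
    _ = (2 * Real.pi * k) * (800 * Real.pi) * ‖d‖ ^ 2 := by ring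
    _ ≤ B ^ 100 * B * ‖d‖ ^ 2 := by
      rw [hk]
      gcongr
      nlinarith
    _ = B ^ 101 * ‖d‖ ^ 2 := by ring

theorem pot {B : ℝ} (hB : 10 ^ 8 ≤ B) (x : ℝ) (z : ℂ) {c : ℝ} (hz : ‖z - x‖ ≤ 2 * c) (hc : c ≤ 1) :
    ‖(2 + (B : ℂ) ^ 100 * Complex.cos (2 * (Real.pi : ℂ) * z))
      - ((2 + B ^ 100 * Real.cos (2 * Real.pi * x) : ℝ) : ℂ)‖ ≤ B ^ 101 * c := by
  have hpi := Real.pi_pos
  have hpi4 : Real.pi ≤ 4 := Real.pi_le_four
  have hB0 : 0 < B := by linarith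
  have hc0 : 0 ≤ c := by have := norm_nonneg (z - x); linarith
  have hn : ‖2 * (Real.pi : ℂ) * z - ((2 * Real.pi * x : ℝ) : ℂ)‖ = 2 * Real.pi * ‖z - x‖ := by
    have : 2 * (Real.pi : ℂ) * z - ((2 * Real.pi * x : ℝ) : ℂ) = 2 * (Real.pi : ℂ) * (z - x) := by
      push_cast; ring
    rw [this, norm_mul, norm_mul, Complex.norm_real, Real.norm_eq_abs, abs_of_pos hpi]; simp
  have h1 := norm_cos_sub_le' (2 * Real.pi * x) (2 * (Real.pi : ℂ) * z) (by rw [hn]; nlinarith)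
  have e : (2 + (B : ℂ) ^ 100 * Complex.cos (2 * (Real.pi : ℂ) * z))
      - ((2 + B ^ 100 * Real.cos (2 * Real.pi * x) : ℝ) : ℂ)
      = ((B ^ 100 : ℝ) : ℂ) * (Complex.cos (2 * (Real.pi : ℂ) * z)
        - Complex.cos ((2 * Real.pi * x : ℝ) : ℂ)) := by
    push_cast; ring
  rw [e, norm_mul, Complex.norm_real, Real.norm_eq_abs, abs_of_pos (by positivity)]
  rw [hn] at h1
  have h2 : 10 ^ 6 * (2 * Real.pi * ‖z - x‖) ≤ B * c := by
    calc 10 ^ 6 * (2 * Real.pi * ‖z - x‖) ≤ 10 ^ 6 * (2 * 4 * (2 * c)) := by gcongr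
      _ = (16 * 10 ^ 6) * c := by ring
      _ ≤ B * c := by gcongr; linarith
  calc B ^ 100 * _ ≤ B ^ 100 * (B * c) := mul_le_mul_of_nonneg_left (h1.trans h2) (by positivity)
    _ = B ^ 101 * c := by ring

theorem shift {B : ℝ} (hB : 0 < B) (n : ℤ) :
    B ^ 101 * B ^ (-160 * (n + 1)) = B ^ (-59 : ℤ) * B ^ (-160 * n) := by
  rw [← zpow_natCast, ← zpow_add₀ hB.ne', ← zpow_add₀ hB.ne']
  congr 1; push_cast; ring

theorem c55 {B : ℝ} (hB : 10 ^ 8 ≤ B) : 8 * B ^ (-59 : ℤ) ≤ B ^ (-55 : ℤ) := by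
  have hB0 : 0 < B := by linarith
  have : B ^ (-55 : ℤ) = B ^ (4 : ℤ) * B ^ (-59 : ℤ) := by
    rw [← zpow_add₀ hB0.ne']; norm_num
  rw [this]
  have h2 : (8 : ℝ) ≤ B ^ (4 : ℤ) := by
    have : B ^ (1 : ℤ) ≤ B ^ (4 : ℤ) := zpow_le_zpow_right₀ (by linarith) (by norm_num)
    rw [zpow_one] at this; linarith
  exact mul_le_mul_of_nonneg_right h2 (zpow_pos hB0 _).le

theorem c58 {B : ℝ} (hB : 10 ^ 8 ≤ B) : 4 * B ^ (-59 : ℤ) ≤ B ^ (-58 : ℤ) := by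
  have hB0 : 0 < B := by linarith
  have : B ^ (-58 : ℤ) = B ^ (1 : ℤ) * B ^ (-59 : ℤ) := by
    rw [← zpow_add₀ hB0.ne']; norm_num
  rw [this, zpow_one]
  exact mul_le_mul_of_nonneg_right (by linarith) (zpow_pos hB0 _).le

end SHX

theorem sh_R {B k : ℝ} (hB : 10 ^ 8 ≤ B) (hk : 2 * Real.pi * k = B ^ 100) (P : ℝ × ℝ) {m : ℤ} (hm : 1 ≤ m)
    {W : ℝ} (hP : ∀ i, 0 ≤ i → i ≤ m → |dir (Vof B (orb k P)) 0 i| ≤ B ^ (-80 * (m - i)) * W) (t : ℂ)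
    (ht : ‖t‖ * W ≤ B ^ 55) (i : ℤ) (hi0 : 0 ≤ i) (him : i ≤ m) :
    ‖orbC k P.1 (P.2 + t) i - orb k P i - t * (dir (Vof B (orb k P)) 0 i : ℝ)‖ ≤
        B ^ (-55 : ℤ) * (‖t‖ * W) ^ 2 * B ^ (-160 * (m - i)) ∧
    ‖orbC k P.1 (P.2 + t) i - orb k P i‖ ≤ 2 * (‖t‖ * W) * B ^ (-80 * (m - i)) ∧
    ((i < m ∨ ‖t‖ * W ≤ 1) →
      ‖Vt B k P t i - Vof B (orb k P) i‖ ≤ B ^ 101 * (‖t‖ * W) * B ^ (-80 * (m - i))) ∧
    ‖dir (Vt B k P t) 0 i - (dir (Vof B (orb k P)) 0 i : ℝ)‖ ≤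
        B ^ (-58 : ℤ) * (‖t‖ * W) * B ^ (-160 * (m - i)) * W := by
  have hB0 : 0 < B := by linarith
  have hB1 : 1 ≤ B := by linarith
  have hW : 0 ≤ W := SHX.hW hB0 (hP 0 le_rfl (by omega))
  set X := ‖t‖ * W with hXdef
  have hX0 : 0 ≤ X := by positivity
  set V := Vof B (orb k P) with hVdef
  let Vc : ℤ → ℂ := fun j => ((V j : ℝ) : ℂ)
  let w : ℤ → ℂ := fun j => ((dir V 0 j : ℝ) : ℂ)
  let δ : ℤ → ℂ := fun j => orbC k P.1 (P.2 + t) j - orb k P j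
  have hV : ∀ j, ‖Vc j‖ + 1 ≤ B ^ 101 := fun j => by
    have := (Vof_bdd B (orb k P)).norm_le (by linarith) j
    simpa [Vc, hVdef] using this
  have hw : ∀ j, w (j + 1) + w (j - 1) = Vc j * w j := fun j => by
    have := dir_Sol V 0 j
    simp only [w, Vc]
    exact_mod_cast this
  have hPw : ∀ j, 0 ≤ j → j ≤ m → ‖w j‖ ≤ B ^ (-80 * (m - j)) * W := fun j h1 h2 => by
    simpa [w] using hP j h1 h2
  have hδ : ∀ j, ‖δ j‖ ≤ 1 → ‖δ (j + 1) + δ (j - 1) - Vc j * δ j‖ ≤ B ^ 101 * ‖δ j‖ ^ 2 := by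
    intro j hj
    have h1 := SHX.quad hB hk (orb k P j) (δ j) hj
    have h2 := orbC_step k P.1 (P.2 + t) j
    have h3 : ((orb k P (j + 1) : ℝ) : ℂ) + (orb k P (j - 1) : ℝ)
        = ((2 * orb k P j + k * Real.sin (2 * Real.pi * orb k P j) : ℝ) : ℂ) := by
      rw [← orb_isOrb k P j]; push_cast; ring
    have h4 : ((orb k P j : ℝ) : ℂ) + δ j = orbC k P.1 (P.2 + t) j := by simp [δ]
    rw [h4, ← h2, ← h3] at h1
    convert h1 using 2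
    simp only [δ, Vc, hVdef, Vof]
    ring
  have e0 : δ 0 - t * w 0 = 0 := by simp [δ, w, orbC_zero, orb_zero, dir_zero]
  have e1 : δ (0 + 1) - t * w (0 + 1) = 0 := by
    have : dir V 0 (0 + 1) = 1 := dir_one V 0
    simp only [δ, w, this]
    simp [orbC_one, orb_one]
  have p1 : ∀ j, 0 ≤ j → j ≤ m →
      ‖δ j - t * w j‖ ≤ B ^ (-55 : ℤ) * X ^ 2 * B ^ (-160 * (m - j)) := by
    intro j h1 h2
    have := pl (𝕜 := ℂ) (B := B) (by linarith) (V := Vc) (w := w) (δ := δ) (t := t) (a := 0) (m := m)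
      (W := W) (X := X) (fun j _ _ => hV j) (fun j _ _ => hw j) (fun j _ _ => hδ j) hPw le_rfl hX0 ht
      (by rw [e0, norm_zero]; positivity) (by rw [e1, norm_zero]; positivity) j h1 h2
    calc _ ≤ _ := this
      _ = 8 * X ^ 2 * (B ^ 101 * B ^ (-160 * (m - j + 1))) := by ring
      _ = (8 * B ^ (-59 : ℤ)) * X ^ 2 * B ^ (-160 * (m - j)) := by rw [SHX.shift hB0]; ring
      _ ≤ _ := by gcongr; exact SHX.c55 hB
  have p2 : ∀ j, 0 ≤ j → j ≤ m → ‖δ j‖ ≤ 2 * X * B ^ (-80 * (m - j)) := by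
    intro j h1 h2
    have hr : B ^ (-80 * (m - j)) ≤ 1 := zpow_le_one_of_nonpos₀ hB1 (by omega)
    have hr0 : 0 < B ^ (-80 * (m - j)) := zpow_pos hB0 _
    have hr2 : B ^ (-160 * (m - j)) = B ^ (-80 * (m - j)) * B ^ (-80 * (m - j)) := by
      rw [← zpow_add₀ hB0.ne']; congr 1; ring
    have hx : B ^ (-55 : ℤ) * X ≤ 1 := by
      calc B ^ (-55 : ℤ) * X ≤ B ^ (-55 : ℤ) * B ^ 55 := by gcongr
        _ = 1 := by
          rw [← zpow_natCast, ← zpow_add₀ hB0.ne']; norm_num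
    have a1 : ‖t * w j‖ ≤ X * B ^ (-80 * (m - j)) := by
      rw [norm_mul]
      calc ‖t‖ * ‖w j‖ ≤ ‖t‖ * (B ^ (-80 * (m - j)) * W) := by gcongr; exact hPw j h1 h2
        _ = _ := by rw [hXdef]; ring
    have a2 : ‖δ j - t * w j‖ ≤ X * B ^ (-80 * (m - j)) := by
      calc _ ≤ _ := p1 j h1 h2
        _ = (B ^ (-55 : ℤ) * X) * B ^ (-80 * (m - j)) * (X * B ^ (-80 * (m - j))) := by
          rw [hr2]; ring
        _ ≤ 1 * 1 * (X * B ^ (-80 * (m - j))) := by gcongr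
        _ = _ := by ring
    calc ‖δ j‖ = ‖(δ j - t * w j) + t * w j‖ := by congr 1; ring
      _ ≤ _ := norm_add_le _ _
      _ ≤ _ := by linarith
  have p3 : ∀ j, 0 ≤ j → j ≤ m → (j < m ∨ X ≤ 1) →
      ‖Vt B k P t j - Vc j‖ ≤ B ^ 101 * X * B ^ (-80 * (m - j)) := by
    intro j h1 h2 h3
    have hc : X * B ^ (-80 * (m - j)) ≤ 1 := by
      rcases h3 with h3 | h3
      · calc X * B ^ (-80 * (m - j)) ≤ B ^ 55 * B ^ (-55 : ℤ) := by
              gcongr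
              omega
          _ = 1 := by rw [← zpow_natCast, ← zpow_add₀ hB0.ne']; norm_num
      · have hr : B ^ (-80 * (m - j)) ≤ 1 := zpow_le_one_of_nonpos₀ hB1 (by omega)
        calc X * B ^ (-80 * (m - j)) ≤ 1 * 1 := by gcongr
          _ = 1 := by ring
    have := SHX.pot hB (orb k P j) (orbC k P.1 (P.2 + t) j) (c := X * B ^ (-80 * (m - j)))
      (by have := p2 j h1 h2; rw [mul_assoc] at this; exact this) hc
    rw [mul_assoc]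
    exact this
  refine ⟨p1 i hi0 him, p2 i hi0 him, p3 i hi0 him, ?_⟩
  have := ll (𝕜 := ℂ) (B := B) (by linarith) (V := Vc) (V' := Vt B k P t) (w := w)
    (w' := dir (Vt B k P t) 0) (a := 0) (m := m) (W := W) (μ := B ^ 101 * X)
    (fun j _ _ => hV j) (fun j _ _ => hw j) (fun j _ _ => dir_Sol _ 0 j)
    (fun j h1 h2 => p3 j h1.le h2.le (Or.inl h2)) hPw (mul_nonneg (pow_pos hB0 _).le hX0)
    (by calc B ^ 101 * X ≤ B ^ 101 * B ^ 55 := mul_le_mul_of_nonneg_left ht (pow_pos hB0 _).le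
          _ = B ^ 156 := by rw [← pow_add]) hW
    (by simp [w, dir_zero]) (by simp only [w, dir_one]; simp) i hi0 him
  calc _ ≤ _ := this
    _ = 4 * X * (B ^ 101 * B ^ (-160 * (m - i + 1))) * W := by ring
    _ = (4 * B ^ (-59 : ℤ)) * X * B ^ (-160 * (m - i)) * W := by rw [SHX.shift hB0]; ring
    _ ≤ _ := by gcongr; exact SHX.c58 hB

theorem sh_L {B k : ℝ} (hB : 10 ^ 8 ≤ B) (hk : 2 * Real.pi * k = B ^ 100) (P : ℝ × ℝ) {m : ℤ} (hm : m ≤ -1)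
    {W : ℝ} (hP : ∀ i, m ≤ i → i ≤ 0 → |dir (Vof B (orb k P)) 0 i| ≤ B ^ (-80 * (i - m)) * W) (t : ℂ)
    (ht : ‖t‖ * W ≤ B ^ 55) (i : ℤ) (hi0 : i ≤ 0) (him : m ≤ i) :
    ‖orbC k P.1 (P.2 + t) i - orb k P i - t * (dir (Vof B (orb k P)) 0 i : ℝ)‖ ≤
        B ^ (-55 : ℤ) * (‖t‖ * W) ^ 2 * B ^ (-160 * (i - m)) ∧
    ‖orbC k P.1 (P.2 + t) i - orb k P i‖ ≤ 2 * (‖t‖ * W) * B ^ (-80 * (i - m)) ∧
    ((m < i ∨ ‖t‖ * W ≤ 1) →
      ‖Vt B k P t i - Vof B (orb k P) i‖ ≤ B ^ 101 * (‖t‖ * W) * B ^ (-80 * (i - m))) ∧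
    ‖dir (Vt B k P t) 0 i - (dir (Vof B (orb k P)) 0 i : ℝ)‖ ≤
        B ^ (-58 : ℤ) * (‖t‖ * W) * B ^ (-160 * (i - m)) * W := by
  have hd : ∀ j, dir (Vof B (orb k (P.1, orb k P (-1)))) 0 j = - dir (Vof B (orb k P)) 0 (-j) := by
    intro j
    rw [orb_refl, Vof_refl, dir_refl, neg_zero]
  have h := sh_R hB hk (P.1, orb k P (-1)) (m := -m) (by omega) (W := W)
    (fun j h1 h2 => by
      rw [hd, abs_neg]
      have := hP (-j) (by omega) (by omega)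
      rwa [show -j - m = -m - j by ring] at this) (-t) (by rwa [norm_neg]) (-i) (by omega) (by omega)
  rw [show -m - -i = i - m by ring, norm_neg, hd, SHX.Vt_refl, dir_refl, neg_zero, orb_refl,
    Vof_refl] at h
  simp only [refl, neg_neg] at h
  rw [← orbC_refl, neg_neg] at h
  obtain ⟨h1, h2, h3, h4⟩ := h
  refine ⟨?_, h2, fun h => h3 (h.imp (fun h => by omega) id), ?_⟩
  · convert h1 using 2
    push_cast; ring
  · have e : -dir (Vt B k P t) 0 i - ((-dir (Vof B (orb k P)) 0 i : ℝ) : ℂ)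
        = -(dir (Vt B k P t) 0 i - (dir (Vof B (orb k P)) 0 i : ℝ)) := by push_cast; ring
    rwa [e, norm_neg] at h4

/-- real corollary. -/
theorem shr_R {B k : ℝ} (hB : 10 ^ 8 ≤ B) (hk : 2 * Real.pi * k = B ^ 100) (P : ℝ × ℝ) {m : ℤ} (hm : 1 ≤ m)
    {W : ℝ} (hP : ∀ i, 0 ≤ i → i ≤ m → |dir (Vof B (orb k P)) 0 i| ≤ B ^ (-80 * (m - i)) * W) (t : ℝ)
    (ht : |t| * W ≤ 1) (i : ℤ) (hi0 : 0 ≤ i) (him : i ≤ m) :
    |Vof B (orb k (P.1, P.2 + t)) i - Vof B (orb k P) i| ≤ B ^ (101 - 80 * (m - i)) ∧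
    |dir (Vof B (orb k (P.1, P.2 + t))) 0 i - dir (Vof B (orb k P)) 0 i| ≤
        B ^ (-58 - 160 * (m - i)) * W := by
  have hB0 : 0 < B := by linarith
  have hB1 : 1 ≤ B := by linarith
  have hW : 0 ≤ W := SHX.hW hB0 (hP 0 (by omega) (by omega))
  have ht' : ‖(t : ℂ)‖ * W ≤ 1 := by rwa [Complex.norm_real, Real.norm_eq_abs]
  obtain ⟨-, -, h3, h4⟩ := sh_R hB hk P hm hP (t : ℂ) (ht'.trans (one_le_pow₀ hB1)) i hi0 him
  have h3 := h3 (Or.inr ht')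
  have hVt : Vt B k P t = fun j => ((Vof B (orb k (P.1, P.2 + t)) j : ℝ) : ℂ) :=
    funext fun j => Vt_ofReal B k P t j
  rw [hVt] at h3 h4
  rw [dir_ofReal, ← Complex.ofReal_sub, Complex.norm_real, Real.norm_eq_abs] at h4
  simp only at h3
  rw [← Complex.ofReal_sub, Complex.norm_real, Real.norm_eq_abs] at h3
  constructor
  · calc _ ≤ _ := h3
      _ ≤ B ^ 101 * 1 * B ^ (-80 * (m - i)) := by gcongr
      _ = _ := by
        rw [mul_one, ← zpow_natCast, ← zpow_add₀ hB0.ne']; congr 1; push_cast; ring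
  · calc _ ≤ _ := h4
      _ ≤ B ^ (-58 : ℤ) * 1 * B ^ (-160 * (m - i)) * W := by gcongr
      _ = _ := by
        rw [mul_one, ← zpow_add₀ hB0.ne']; congr 2; ring

theorem shr_L {B k : ℝ} (hB : 10 ^ 8 ≤ B) (hk : 2 * Real.pi * k = B ^ 100) (P : ℝ × ℝ) {m : ℤ} (hm : m ≤ -1)
    {W : ℝ} (hP : ∀ i, m ≤ i → i ≤ 0 → |dir (Vof B (orb k P)) 0 i| ≤ B ^ (-80 * (i - m)) * W) (t : ℝ)
    (ht : |t| * W ≤ 1) (i : ℤ) (hi0 : i ≤ 0) (him : m ≤ i) :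
    |Vof B (orb k (P.1, P.2 + t)) i - Vof B (orb k P) i| ≤ B ^ (101 - 80 * (i - m)) ∧
    |dir (Vof B (orb k (P.1, P.2 + t))) 0 i - dir (Vof B (orb k P)) 0 i| ≤
        B ^ (-58 - 160 * (i - m)) * W := by
  have hB0 : 0 < B := by linarith
  have hB1 : 1 ≤ B := by linarith
  have hW : 0 ≤ W := SHX.hW hB0 (hP 0 (by omega) (by omega))
  have ht' : ‖(t : ℂ)‖ * W ≤ 1 := by rwa [Complex.norm_real, Real.norm_eq_abs]
  obtain ⟨-, -, h3, h4⟩ := sh_L hB hk P hm hP (t : ℂ) (ht'.trans (one_le_pow₀ hB1)) i hi0 him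
  have h3 := h3 (Or.inr ht')
  have hVt : Vt B k P t = fun j => ((Vof B (orb k (P.1, P.2 + t)) j : ℝ) : ℂ) :=
    funext fun j => Vt_ofReal B k P t j
  rw [hVt] at h3 h4
  rw [dir_ofReal, ← Complex.ofReal_sub, Complex.norm_real, Real.norm_eq_abs] at h4
  simp only at h3
  rw [← Complex.ofReal_sub, Complex.norm_real, Real.norm_eq_abs] at h3
  constructor
  · calc _ ≤ _ := h3
      _ ≤ B ^ 101 * 1 * B ^ (-80 * (i - m)) := by gcongr
      _ = _ := by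
        rw [mul_one, ← zpow_natCast, ← zpow_add₀ hB0.ne']; congr 1; push_cast; ring
  · calc _ ≤ _ := h4
      _ ≤ B ^ (-58 : ℤ) * 1 * B ^ (-160 * (i - m)) * W := by gcongr
      _ = _ := by
        rw [mul_one, ← zpow_add₀ hB0.ne']; congr 2; ring

end Crest.Agent.R128
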