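import Crest.Agent.R128.Cross

set_option autoImplicit false
open MeasureTheory Set

namespace Crest.Agent.R128
open Classical

/-! SelA: the resonant case, analytic facts about the Dirichlet solution `w = dir V c` at a site `c ∈ {0,1}`. -/

namespace SelAX

theorem zle {B : ℝ} (hB : 10 ^ 8 ≤ B) {a b : ℤ} (h : a ≤ b) : B ^ a ≤ B ^ b :=
  zpow_le_zpow_right₀ (by linarith) h

theorem zlt {B : ℝ} (hB : 10 ^ 8 ≤ B) {a b : ℤ} (h : a < b) : B ^ a < B ^ b :=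
  zpow_lt_zpow_right₀ (by linarith) h

theorem zpos {B : ℝ} (hB : 10 ^ 8 ≤ B) (a : ℤ) : 0 < B ^ a := zpow_pos (by linarith) a

theorem zmul {B : ℝ} (hB : 10 ^ 8 ≤ B) (a b : ℤ) : B ^ a * B ^ b = B ^ (a + b) :=
  (zpow_add₀ (by linarith) a b).symm

theorem zadd {B : ℝ} (hB : 10 ^ 8 ≤ B) {a b c : ℤ} (h1 : a < c) (h2 : b < c) :
    B ^ a + B ^ b ≤ B ^ c := by
  have e1 := zle hB (show a ≤ c - 1 by omega)
  have e2 := zle hB (show b ≤ c - 1 by omega)
  have e3 := zmul hB (c - 1) 1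
  have e4 := zpos hB (c - 1)
  rw [sub_add_cancel, zpow_one] at e3
  nlinarith

/-- `1 ≤ B^a x` gives a lower bound for `x` -/
theorem zinv {B x : ℝ} (hB : 10 ^ 8 ≤ B) {a b : ℤ} (h : 1 ≤ B ^ a * x) (hb : a + b ≤ 0) :
    B ^ b ≤ x := by
  have h1 := mul_le_mul_of_nonneg_left h (zpos hB (-a)).le
  rw [← mul_assoc, zmul hB, neg_add_cancel, zpow_zero, one_mul, mul_one] at h1
  exact (zle hB (by omega)).trans h1

theorem B_ge {B c₀ : ℝ} (hB : 10 ^ 8 ≤ c₀ * B) (h0 : 0 < c₀) (h1 : c₀ ≤ 1) : 10 ^ 8 ≤ B := by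
  have : 0 < B := pos_of_mul_pos_left' h0 (by linarith)
  nlinarith
where pos_of_mul_pos_left' {a b : ℝ} (ha : 0 < a) (h : 0 < a * b) : 0 < b :=
  (mul_pos_iff_of_pos_left ha).1 h

theorem dir_R {B : ℝ} (hB : 10 ^ 8 ≤ B) {V : ℤ → ℝ} (hV : Bdd B V) {c i Q : ℤ} (hi : c ≤ i)
    (hQ : 101 * (i - c - 1) ≤ Q) : |dir V c i| ≤ B ^ Q := by
  rcases hi.eq_or_lt with rfl | h
  · rw [dir_zero, abs_zero]; exact (zpos hB _).le
  · have := (dir_Sol V c).growth_right (by linarith) hV (a := c) (M := 1) (by simp [dir_zero])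
      (by simp [dir_one]) i h
    rw [mul_one] at this
    exact this.trans (zle hB hQ)

theorem dir_L {B : ℝ} (hB : 10 ^ 8 ≤ B) {V : ℤ → ℝ} (hV : Bdd B V) {c i Q : ℤ} (hi : i ≤ c)
    (hQ : 101 * (c - i) ≤ Q) : |dir V c i| ≤ B ^ Q := by
  have := (dir_Sol V c).growth_left (by linarith) hV (a := c) (M := 1) (by simp [dir_zero])
    (by simp [dir_one]) i hi
  rw [mul_one] at this
  exact this.trans (zle hB hQ)

theorem n_pos {n N : ℕ} {q g : ℝ} (h : Par n N q g) : 1 ≤ n := by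
  by_contra c
  have h1 := h.gn
  rw [show n = 0 by omega] at h1
  norm_num at h1

theorem p_nonneg {n N : ℕ} {q g : ℝ} (h : Par n N q g) : 0 ≤ q * (1 + g) :=
  mul_nonneg h.q0.le (by linarith [h.g0])

theorem ident {V u s : ℤ → ℝ} (hu : Sol V u) (hs : Sol V s) (c i : ℤ) :
    u c * s i = Wr u s 0 * dir V c i + s c * u i := by
  have h1 := Wr_identity hu (dir_Sol V c) hs 0 i
  have h2 := Wr_dir hu c 0
  rw [Wr_dir hs] at h1
  unfold Wr at *
  linear_combination -h1 + s i * h2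

theorem cos_anti {xa xb σ ε : ℝ} (hσ : σ = 1 ∨ σ = -1) {n : ℤ} (h : |xa - σ * xb - 1 / 2 - n| ≤ ε) :
    |Real.cos (2 * Real.pi * xa) + Real.cos (2 * Real.pi * xb)| ≤ 7 * ε := by
  have e : Real.cos (2 * Real.pi * (σ * xb + 1 / 2 + n)) = -Real.cos (2 * Real.pi * xb) := by
    rw [show 2 * Real.pi * (σ * xb + 1 / 2 + n) = σ * (2 * Real.pi * xb) + Real.pi + n * (2 * Real.pi)
      by ring, Real.cos_add_int_mul_two_pi, Real.cos_add_pi]
    rcases hσ with rfl | rfl <;> simp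
  have h1 := Real.abs_cos_sub_cos_le (2 * Real.pi * xa) (2 * Real.pi * (σ * xb + 1 / 2 + n))
  rw [e, sub_neg_eq_add, show 2 * Real.pi * xa - 2 * Real.pi * (σ * xb + 1 / 2 + n) =
    2 * Real.pi * (xa - σ * xb - 1 / 2 - n) by ring, abs_mul, abs_of_pos Real.two_pi_pos] at h1
  have h2 := Real.pi_lt_d2
  have h3 := abs_nonneg (xa - σ * xb - 1 / 2 - n)
  nlinarith

theorem low {K M p w r : ℝ} (hK : 10 ^ 8 ≤ K) (hM : 0 ≤ M) (hp : K ≤ |p|) (hr : |r| ≤ |w|)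
    (hw : 99 / 100 * M ≤ |w|) : K * M / 2 ≤ |(2 + p) * w - r| := by
  have h1 : |p * w| ≤ |(2 + p) * w - r| + |2 * w - r| := by
    rw [show p * w = ((2 + p) * w - r) - (2 * w - r) by ring]; exact abs_sub _ _
  have h2 : |2 * w - r| ≤ 2 * |w| + |r| := by
    have := abs_sub (2 * w) r
    rwa [abs_mul, abs_two] at this
  rw [abs_mul] at h1
  have h3 := mul_le_mul_of_nonneg_right hp (abs_nonneg w)
  have h4 : (K - 3) * (99 / 100 * M) ≤ (K - 3) * |w| := mul_le_mul_of_nonneg_left hw (by linarith)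
  nlinarith

theorem upp {K M pa pb wa wb ra rb σ : ℝ} (hσ : |σ| = 1) (hK : 10 ^ 8 ≤ K) (hM : 0 ≤ M)
    (h1 : |pa| * |wa - σ * wb| ≤ K / 100 * M) (h2 : |pa + pb| ≤ 7 * (K / 100)) (ha : |wa| ≤ M)
    (hb : |wb| ≤ M) (hra : |ra| ≤ M) (hrb : |rb| ≤ M) :
    |((2 + pa) * wa - ra) + σ * ((2 + pb) * wb - rb)| ≤ K * M / 10 := by
  rw [show ((2 + pa) * wa - ra) + σ * ((2 + pb) * wb - rb) = pa * (wa - σ * wb) +
    σ * ((pa + pb) * wb) + 2 * wa + σ * (2 * wb) - ra - σ * rb by ring]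
  have h3 : |pa + pb| * |wb| ≤ 7 * (K / 100) * M :=
    mul_le_mul h2 hb (abs_nonneg _) (by linarith)
  have e1 := abs_sub (pa * (wa - σ * wb) + σ * ((pa + pb) * wb) + 2 * wa + σ * (2 * wb) - ra) (σ * rb)
  have e2 := abs_sub (pa * (wa - σ * wb) + σ * ((pa + pb) * wb) + 2 * wa + σ * (2 * wb)) ra
  have e3 := abs_add_le (pa * (wa - σ * wb) + σ * ((pa + pb) * wb) + 2 * wa) (σ * (2 * wb))
  have e4 := abs_add_le (pa * (wa - σ * wb) + σ * ((pa + pb) * wb)) (2 * wa)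
  have e5 := abs_add_le (pa * (wa - σ * wb)) (σ * ((pa + pb) * wb))
  simp only [abs_mul, hσ, abs_two, one_mul] at e1 e2 e3 e4 e5
  nlinarith

end SelAX

open SelAX

/-- `1 = |s j₂| ≤ B^(101 (j₂ - 1)) max |s 0| |s 1|`. -/
theorem Frame.exists_c {B c₀ : ℝ} (hB : 10 ^ 8 ≤ B) {V u s : ℤ → ℝ} {n N N' : ℕ} {q g : ℝ} {j₁ j₂ : ℤ}
    (F : Frame B c₀ V n N N' q g j₁ j₂ u s) :
    ∃ c : ℤ, (c = 0 ∨ c = 1) ∧ B ^ (-26000 * (N : ℤ)) ≤ |s c| := by
  by_contra h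
  push Not at h
  have h1 := F.sols.growth_right (by linarith) F.bdd (a := 0) (h 0 (Or.inl rfl)).le
    (h 1 (Or.inr rfl)).le j₂ (by have := F.j2a; have := F.hN; have := n_pos F.par; omega)
  rw [F.s1, abs_one, zmul hB] at h1
  have h2 := zlt hB (show 101 * (j₂ - 0 - 1) + -26000 * (N : ℤ) < 0 by
    have := F.j2b; have := F.hN; omega)
  rw [zpow_zero] at h2
  linarith

/-- `W(u,s) w = W(w,s) u + W(u,w) s` at `j₁+1` with `W(w,s) = - s c`, `W(u,w) = u c`,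
`|s (j₁+1)| ≤ B^(101 * 259 N)`, `|w (j₁+1)| ≤ B^(101 * 5 N)`. -/
theorem Frame.u_c {B c₀ : ℝ} (hB : 10 ^ 8 ≤ B) {V u s : ℤ → ℝ} {n N N' : ℕ} {q g : ℝ} {j₁ j₂ : ℤ}
    (F : Frame B c₀ V n N N' q g j₁ j₂ u s) (hW : |Wr u s 0| ≤ B ^ (-21000000 * (N : ℤ))) {c : ℤ}
    (hc : c = 0 ∨ c = 1) (hsc : B ^ (-26000 * (N : ℤ)) ≤ |s c|) : B ^ (-53000 * (N : ℤ)) ≤ |u c| := by
  by_contra h
  rw [not_le] at h
  obtain ⟨a1, a2, a3, a4, a5, a6⟩ := And.intro F.j1a <| And.intro F.j1b <| And.intro F.j2a <|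
    And.intro F.j2b <| And.intro F.hN (n_pos F.par)
  have h1 := ident F.solu F.sols c (j₁ + 1)
  rw [F.u1, mul_one] at h1
  have h2 : |s (j₂ + 1)| ≤ 1 := by
    have := F.sdec 1 (by have := F.hN'; omega)
    rw [pow_one, Nat.cast_one] at this
    exact this.trans (F.qB.trans (by simpa using zle hB (show (-89 : ℤ) ≤ 0 by norm_num)))
  have h3 := F.sols.growth_left (by linarith) F.bdd (a := j₂) (by rw [F.s1, abs_one]) h2 (j₁ + 1)
    (by omega)
  rw [mul_one] at h3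
  have h4 := dir_L hB F.bdd (c := c) (i := j₁ + 1) (Q := 404 * N) (by omega) (by omega)
  have h5 := abs_sub (u c * s (j₁ + 1)) (Wr u s 0 * dir V c (j₁ + 1))
  rw [show u c * s (j₁ + 1) - Wr u s 0 * dir V c (j₁ + 1) = s c by linarith, abs_mul, abs_mul] at h5
  have h6 := mul_le_mul h.le h3 (abs_nonneg _) (zpos hB _).le
  have h7 := mul_le_mul hW h4 (abs_nonneg _) (zpos hB _).le
  rw [zmul hB] at h6 h7
  have h8 := zadd hB (a := -53000 * (N : ℤ) + 101 * (j₂ - (j₁ + 1)))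
    (b := -21000000 * (N : ℤ) + 404 * N) (c := -26000 * (N : ℤ) - 1) (by omega) (by omega)
  have h9 := zlt hB (show -26000 * (N : ℤ) - 1 < -26000 * (N : ℤ) by omega)
  linarith

/-- `d3_R` with `j' = j₂`, `j = b-1`, `u` from `ext_L` at `b-1` (`L = b-1-j₂`), `Q1 = Q2 = 26000 N`. -/
theorem Frame.plR {B c₀ : ℝ} (hB : 10 ^ 8 ≤ B) {V u s : ℤ → ℝ} {n N N' : ℕ} {q g : ℝ} {j₁ j₂ : ℤ}
    (F : Frame B c₀ V n N N' q g j₁ j₂ u s) {c : ℤ} (hc : c = 0 ∨ c = 1)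
    (hsc : B ^ (-26000 * (N : ℤ)) ≤ |s c|) {b : ℤ} (hb1 : 20000 * N ≤ b) (hb2 : b ≤ 100000 * N)
    (hb : Reg V N q (b - 1)) : PlR B (dir V c) c b := by
  obtain ⟨a3, a4, a5, a6, a7⟩ := And.intro F.j2a <| And.intro F.j2b <| And.intro F.hN <|
    And.intro F.hN' (n_pos F.par)
  obtain ⟨L, hL⟩ : ∃ L : ℕ, (L : ℤ) = b - 1 - j₂ := ⟨(b - 1 - j₂).toNat, by omega⟩
  obtain ⟨u', h1, h2, h3, -⟩ := ext_L F.par hb L (F.winR.mono (by omega) (by omega))
  have := d3_R hB (p_nonneg F.par) F.qB h1 F.sols (dir_Sol V c) (a := c) (j' := j₂) (j := b - 1)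
    (Q1 := 26000 * N) (Q2 := 26000 * N) (by omega) (by omega) (by omega) (by omega) h2
    (fun r hr => h3 r (by omega)) F.s1 (fun r hr => F.sdec r (by omega))
    (by rwa [Wr_dir F.sols, abs_neg, ← neg_mul])
    (fun i hi hi' => dir_R hB F.bdd hi (by omega)) (by omega)
  rwa [sub_add_cancel] at this

/-- `d3_L` with `j' = j₁`, `j = a`, `s` from `ext_R` at `a`, `Q1 = 53000 N`, `Q2 = 1000 N`. -/
theorem Frame.plL {B c₀ : ℝ} (hB : 10 ^ 8 ≤ B) {V u s : ℤ → ℝ} {n N N' : ℕ} {q g : ℝ} {j₁ j₂ : ℤ}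
    (F : Frame B c₀ V n N N' q g j₁ j₂ u s) {c : ℤ} (hc : c = 0 ∨ c = 1)
    (huc : B ^ (-53000 * (N : ℤ)) ≤ |u c|) {a : ℤ} (ha1 : -100000 * N ≤ a) (ha2 : a ≤ -20000 * N)
    (ha : Reg V N q a) : PlL B (dir V c) a c := by
  obtain ⟨a3, a4, a5, a6, a7⟩ := And.intro F.j1a <| And.intro F.j1b <| And.intro F.hN <|
    And.intro F.hN' (n_pos F.par)
  obtain ⟨L, hL⟩ : ∃ L : ℕ, (L : ℤ) = j₁ - a := ⟨(j₁ - a).toNat, by omega⟩
  obtain ⟨s', h1, h2, h3, -⟩ := ext_R F.par ha L (F.winL.mono (by omega) (by omega))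
  exact d3_L hB (p_nonneg F.par) F.qB F.solu h1 (dir_Sol V c) (b := c) (j' := j₁) (j := a)
    (Q1 := 53000 * N) (Q2 := 1000 * N) (by omega) (by omega) (by omega) (by omega) h2
    (fun r hr => h3 r (by omega)) F.u1 (fun r hr => F.udec r (by omega))
    (by rwa [Wr_dir F.solu, abs_neg, ← neg_mul])
    (fun i hi hi' => dir_L hB F.bdd hi' (by omega)) (by omega)

/-- `ψ = s / s b` (`s b ≠ 0` by the cone at `b`); `nice_step_R` at `b+1`.  On the left
`u c * s = Ω w + s c * u` (`Wr_identity`), `B^99 |u (a-1)| ≤ |u a|` (`nice_step_L`), `|u a| ≥ B^(-101 * 90000 N)`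
(cone at the bond `a-1` and growth to `j₁+1`), `|w (a-1)|, |w a| ≤ B^(101 (90000 N + 2))`. -/
theorem Frame.twoCone {B c₀ : ℝ} (hB : 10 ^ 8 ≤ c₀ * B) (h0 : 0 < c₀) (h1 : c₀ ≤ 1) {V u s : ℤ → ℝ}
    {n N N' : ℕ} {q g : ℝ} {j₁ j₂ : ℤ} (F : Frame B c₀ V n N N' q g j₁ j₂ u s)
    (hW : |Wr u s 0| ≤ B ^ (-21000000 * (N : ℤ))) {c : ℤ} (hc : c = 0 ∨ c = 1)
    (hsc : B ^ (-26000 * (N : ℤ)) ≤ |s c|) {a b : ℤ} (ha1 : -90000 * N ≤ a) (ha2 : a ≤ -20000 * N)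
    (hb1 : 20000 * N ≤ b) (hb2 : b ≤ 90000 * N) (ha : Nice B c₀ V N q (a - 1))
    (hb : Nice B c₀ V N q (b + 1)) : TwoCone B V a b := by
  have hB' := B_ge hB h0 h1
  obtain ⟨a1, a2, a3, a4, a5, a6, a7⟩ := And.intro F.j1a <| And.intro F.j1b <| And.intro F.j2a <|
    And.intro F.j2b <| And.intro F.hN <| And.intro F.hN' (n_pos F.par)
  obtain ⟨t, ht⟩ : ∃ t, t = B ^ (-99 : ℤ) := ⟨_, rfl⟩
  have t0 : 0 < t := ht ▸ zpos hB' _
  have t1 : t * B ^ 99 = 1 := by rw [ht, ← zpow_natCast, zmul hB']; norm_num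
  have t2 : B ^ (-98 : ℤ) = B * t := by
    rw [ht, ← zpow_one B, ← zpow_mul, ← zpow_mul, zmul hB']; norm_num
  have t3 : t ≤ 1 / 2 := by
    have := zadd hB' (a := -99) (b := -99) (c := 0) (by norm_num) (by norm_num)
    rw [← ht, zpow_zero] at this
    linarith
  have hdiv : ∀ x y : ℝ, B ^ 99 * x ≤ y → x ≤ t * y := fun x y h => by
    have := mul_le_mul_of_nonneg_left h t0.le
    rwa [← mul_assoc, t1, one_mul] at this
  have r1 := F.scone _ (by omega) (by omega) hb.1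
  have r2 := hdiv _ _ (nice_step_R hB h0 h1 F.sols (F.scone _ (by omega) (by omega) hb.2.1) hb.2.2)
  rw [add_sub_cancel_right] at r1 r2
  have hsb : s b ≠ 0 := fun h => by
    have h2 : |s (b + 1)| ≤ |s b| := r1
    rw [h, abs_zero, abs_nonpos_iff] at h2
    exact one_ne_zero (F.s1.symm.trans (F.sols.eq_zero b h h2 j₂))
  have l1 : |u (a - 1)| ≤ |u (a - 1 + 1)| := F.ucone _ (by omega) (by omega) ha.2.1
  have l2 := hdiv _ _ (nice_step_L hB h0 h1 F.solu (F.ucone _ (by omega) (by omega) ha.1) ha.2.2)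
  have l3 := F.solu.growth_right (by linarith) F.bdd l1 le_rfl (j₁ + 1) (by omega)
  rw [F.u1, abs_one] at l3
  have l4 := zinv hB' l3 (b := -9090000 * N) (by omega)
  rw [sub_add_cancel] at l1 l2 l4
  have l5 := mul_le_mul hsc l4 (zpos hB' _).le (abs_nonneg _)
  have l6 : ∀ i, a - 1 ≤ i → i ≤ a → |Wr u s 0 * dir V c i| ≤ t * (|s c| * |u a|) := fun i h2 h3 => by
    have e1 := mul_le_mul hW (dir_L hB' F.bdd (c := c) (i := i) (Q := 9090000 * N + 202) (by omega)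
      (by omega)) (abs_nonneg _) (zpos hB' _).le
    have e2 := mul_le_mul_of_nonneg_left l5 t0.le
    rw [zmul hB'] at e1
    rw [zmul hB', ht, zmul hB', ← ht] at e2
    rw [abs_mul]
    exact e1.trans ((zle hB' (by omega)).trans e2)
  have hY : 0 < |s c| * |u a| := (mul_pos (zpos hB' _) (zpos hB' _)).trans_le l5
  have m1 : |u c| * |s (a - 1)| ≤ 2 * (t * (|s c| * |u a|)) := by
    have e1 := abs_add_le (Wr u s 0 * dir V c (a - 1)) (s c * u (a - 1))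
    have e2 := mul_le_mul_of_nonneg_left l2 (abs_nonneg (s c))
    have e3 := l6 (a - 1) le_rfl (by omega)
    rw [← ident F.solu F.sols, abs_mul, abs_mul (s c)] at e1
    linarith
  have m2 : |s c| * |u a| / 2 ≤ |u c| * |s a| := by
    have e1 := abs_sub (u c * s a) (Wr u s 0 * dir V c a)
    have e3 := l6 a (by omega) le_rfl
    have e2 := mul_le_mul_of_nonneg_right t3 hY.le
    rw [ident F.solu F.sols c a, add_sub_cancel_left, ← ident F.solu F.sols, abs_mul, abs_mul] at e1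
    linarith
  have m3 : 0 < |u c| := by
    refine (abs_nonneg _).lt_of_ne fun h => ?_
    rw [← h, zero_mul] at m2
    linarith
  have m4 : |s (a - 1)| ≤ B * t * |s a| := by
    refine le_of_mul_le_mul_left (m1.trans ?_) m3
    have e1 := mul_le_mul_of_nonneg_left m2 (mul_pos (by linarith : 0 < B) t0).le
    have e2 := mul_le_mul_of_nonneg_right hB' (mul_pos t0 hY).le
    have e3 := mul_pos t0 hY
    linarith
  have hsb' : 0 < |s b| := abs_pos.2 hsb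
  refine ⟨fun i => (s b)⁻¹ * s i, F.sols.smul _, inv_mul_cancel₀ hsb, ?_, ?_⟩
  · rw [abs_mul, abs_inv, inv_mul_le_iff₀ hsb', t2]
    have e1 := mul_le_mul_of_nonneg_right hB' (mul_pos t0 hsb').le
    have e2 := mul_pos t0 hsb'
    linarith
  · rw [abs_mul, abs_mul, t2, mul_left_comm]
    exact mul_le_mul_of_nonneg_left m4 (abs_nonneg _)

/-- the partner: the first index `a ≤ c-1`, going left, with `|w b| ≤ B^51 |w a|`.  It exists and is `≥ a₀`
(`1 = |w (c-1)| ≤ B^(-80 (c-1-a₀)) |w a₀|`, `|w b| ≤ B^(101 * 60000 N)`); `|w b| ≥ B^(80 (b-c-1))` and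
`|w a| ≤ B^(101 (c-a))` force `c - a ≥ 21001 N`; `|w a| ≤ (B^100+3) max |w (a+1)| |w (a+2)| ≤ B^50 |w b|`. -/
theorem partner {B : ℝ} (hB : 10 ^ 8 ≤ B) {V : ℤ → ℝ} (hV : Bdd B V) {N : ℕ} (hN : 1 ≤ N) {c b a₀ : ℤ}
    (hc : c = 0 ∨ c = 1) (hb1 : 30000 * N ≤ b) (hb2 : b ≤ 60000 * N) (hP : PlR B (dir V c) c b)
    (ha0 : a₀ ≤ -79000 * N) (hP0 : PlL B (dir V c) a₀ c) :
    ∃ a, a₀ ≤ a ∧ a ≤ c - 21001 * N ∧ |dir V c b| ≤ B ^ 51 * |dir V c a| ∧
      |dir V c a| ≤ B ^ 50 * |dir V c b| := by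
  have e51 : B ^ 51 = B ^ (51 : ℤ) := (zpow_natCast B 51).symm
  have h1 := hP0 (c - 1) (by omega) (by omega)
  have h2 := hP (c + 1) (by omega) (by omega)
  rw [dir_neg_one, abs_neg, abs_one] at h1
  rw [dir_one, abs_one] at h2
  obtain ⟨a, ⟨a1, a2, a3⟩, a4⟩ := Int.exists_greatest_of_bdd
    (P := fun a => a₀ ≤ a ∧ a ≤ c - 1 ∧ |dir V c b| ≤ B ^ 51 * |dir V c a|)
    ⟨c, fun z hz => by omega⟩ ⟨a₀, le_rfl, by omega, by
      have e1 := mul_le_mul_of_nonneg_left (zinv hB h1 (b := 6060000 * N) (by omega)) (zpos hB 51).le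
      rw [zmul hB, ← e51] at e1
      exact (dir_R hB hV (by omega) (by omega)).trans e1⟩
  have a5 : a ≤ c - 21001 * N := by
    by_contra h
    have e1 := mul_le_mul_of_nonneg_left
      (dir_L hB hV (c := c) (i := a) (by omega) le_rfl) (zpos hB 51).le
    have e2 := zinv hB h2 (b := 51 + 101 * (c - a) + 1) (by omega)
    have e3 := zlt hB (show 51 + 101 * (c - a) < 51 + 101 * (c - a) + 1 by omega)
    rw [zmul hB, ← e51] at e1
    linarith
  have a6 : ∀ i, a < i → i ≤ a + 2 → |dir V c i| ≤ B ^ (-51 : ℤ) * |dir V c b| := fun i h3 h4 => by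
    have e1 : B ^ 51 * |dir V c i| < |dir V c b| :=
      not_le.1 fun h => absurd (a4 i ⟨by omega, by omega, h⟩) (by omega)
    have e2 := mul_le_mul_of_nonneg_left e1.le (zpos hB (-51)).le
    rwa [← mul_assoc, e51, zmul hB, neg_add_cancel, zpow_zero, one_mul] at e2
  refine ⟨a, a1, a5, a3, ?_⟩
  have := (dir_Sol V c).growth_left (by linarith) hV (a6 (a + 1) (by omega) (by omega))
    (a6 (a + 1 + 1) (by omega) (by omega)) a (by omega)
  rwa [← mul_assoc, zmul hB, show 101 * (a + 1 - a) + -51 = ((50 : ℕ) : ℤ) by push_cast; ring,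
    zpow_natCast] at this

theorem three_b {B : ℝ} (hB : 10 ^ 8 ≤ B) {w : ℤ → ℝ} {c b b' b'' a : ℤ} (h1 : c ≤ b) (h2 : b < b')
    (h3 : b' < b'') (hP : PlR B w c b'') (hne : w b'' ≠ 0) (ha : |w a| ≤ B ^ 50 * |w b|)
    (ha' : |w b''| ≤ B ^ 51 * |w a|) : False := by
  have e1 := mul_le_mul_of_nonneg_left (hP b h1 (by omega)) (zpos hB 50).le
  have e2 := mul_le_mul_of_nonneg_left (le_trans (b := B ^ (50 : ℤ) * |w b|) ha e1) (zpos hB 51).le
  rw [← mul_assoc, ← mul_assoc, zmul hB, zmul hB] at e2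
  have e3 := mul_lt_mul_of_pos_right
    (zlt hB (show 51 + 50 + -80 * (b'' - b) < 0 by omega)) (abs_pos.2 hne)
  have e4 : |w b''| ≤ B ^ (51 : ℤ) * |w a| := ha'
  rw [zpow_zero, one_mul] at e3
  exact absurd (e4.trans e2) (not_le.2 e3)

/-- With `M = max |w a| |w b|`: `w (a-1) = V a w a - w (a+1)`, `w (b+1) = V b w b - w (b-1)`,
`|(V a - 2) + (V b - 2)| ≤ 2π ε B^100`, so `|w (a-1) + σ w (b+1)| ≤ 7.3 ε B^100 M + 6 M`, while
`(c₀ B^100 - 3) M / 2 ≤ |w (a-1)|, |w (b+1)| ≤ (B^100 + 3) M`.  The sign `σ' = σ` is then impossible. -/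
theorem anti_step {B c₀ ε : ℝ} (hB : 10 ^ 8 ≤ c₀ * B) (h0 : 0 < c₀) (h1 : c₀ ≤ 1) (hε0 : 0 ≤ ε)
    (hε : ε ≤ c₀ / 100) {x : ℤ → ℝ} {c a b : ℤ} {σ : ℝ} (hσ : σ = 1 ∨ σ = -1) (ha : a < c) (hb : c < b)
    (hG : GC B c₀ x c a b) (hA : AntiS B ε x c a b σ) :
    (|dir (Vof B x) c (a - 1)| ≤ B ^ 51 * |dir (Vof B x) c (b + 1)| ∧
      |dir (Vof B x) c (b + 1)| ≤ B ^ 51 * |dir (Vof B x) c (a - 1)|) ∧
    (Anti B ε x c (a - 1) (b + 1) → ∃ n : ℤ, |x (a - 1) + σ * x (b + 1) - 1 / 2 - n| ≤ ε) := by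
  have hB' := B_ge hB h0 h1
  obtain ⟨hR, hL, ca, cb, -⟩ := hG
  obtain ⟨hw, n, hn⟩ := hA
  have hs := dir_Sol (Vof B x) c
  have w1 := hR (c + 1) (by omega) (by omega)
  rw [dir_one, abs_one] at w1
  have wb := hR (b - 1) (by omega) (by omega)
  have wa := hL (a + 1) (by omega) (by omega)
  unfold Anti AntiS
  generalize dir (Vof B x) c = w at *
  have hσ' : |σ| = 1 := by rcases hσ with rfl | rfl <;> simp
  have A1 : 1 ≤ B ^ 99 := one_le_pow₀ (by linarith)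
  have A0 : 0 < B ^ 100 := pow_pos (by linarith) _
  have hK : 10 ^ 8 ≤ c₀ * B ^ 100 := by
    rw [pow_succ' B 99, ← mul_assoc]; nlinarith
  have hεA : B ^ 100 * ε ≤ c₀ * B ^ 100 / 100 := by nlinarith
  have ra : |w (a + 1)| ≤ |w a| := wa.trans (mul_le_of_le_one_left (abs_nonneg _)
    (by simpa using zle hB' (show -80 * (a + 1 - a) ≤ 0 by omega)))
  have rb : |w (b - 1)| ≤ |w b| := wb.trans (mul_le_of_le_one_left (abs_nonneg _)
    (by simpa using zle hB' (show -80 * (b - (b - 1)) ≤ 0 by omega)))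
  have Ma := le_max_left |w a| |w b|
  have Mb := le_max_right |w a| |w b|
  have M0 : 0 < max |w a| |w b| := 
    ((zpos hB' _).trans_le (zinv hB' w1 (add_neg_cancel _).le)).trans_le Mb
  have Mc : 99 / 100 * max |w a| |w b| ≤ |w a| ∧ 99 / 100 * max |w a| |w b| ≤ |w b| := by
    have e1 := abs_sub_abs_le_abs_sub (w a) (σ * w b)
    have e2 := abs_sub_abs_le_abs_sub (σ * w b) (w a)
    have e3 := mul_le_mul_of_nonneg_right (show ε ≤ 1 / 100 by linarith) M0.le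
    rw [abs_sub_comm] at e2
    rw [abs_mul, hσ', one_mul] at e1 e2
    rcases max_choice |w a| |w b| with h | h <;> constructor <;> linarith
  generalize max |w a| |w b| = M at *
  have pa : ∀ y : ℝ, c₀ ≤ |y| → c₀ * B ^ 100 ≤ |B ^ 100 * y| := fun y hy => by
    rw [abs_mul, abs_of_pos A0]; nlinarith
  have X := low hK M0.le (pa _ ca) ra Mc.1
  have Y := low hK M0.le (pa _ cb) rb Mc.2
  have S := upp (pa := B ^ 100 * Real.cos (2 * Real.pi * x a))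
    (pb := B ^ 100 * Real.cos (2 * Real.pi * x b)) hσ' hK M0.le (by
      have e1 : |B ^ 100 * Real.cos (2 * Real.pi * x a)| ≤ B ^ 100 := by
        simpa [Vof] using Vof_bdd B x a
      have e2 := mul_le_mul e1 hw (abs_nonneg _) A0.le
      have e3 := mul_le_mul_of_nonneg_right hεA M0.le
      linarith) (by
      have e1 := mul_le_mul_of_nonneg_left (cos_anti hσ hn) A0.le
      rw [← mul_add, abs_mul, abs_of_pos A0]
      linarith) Ma Mb (ra.trans Ma) (rb.trans Mb)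
  have ea : (2 + B ^ 100 * Real.cos (2 * Real.pi * x a)) * w a - w (a + 1) = w (a - 1) := by
    have := hs a; unfold Vof at this; linarith
  have eb : (2 + B ^ 100 * Real.cos (2 * Real.pi * x b)) * w b - w (b - 1) = w (b + 1) := by
    have := hs b; unfold Vof at this; linarith
  rw [ea] at X
  rw [eb] at Y
  rw [ea, eb] at S
  have KM : 0 < c₀ * B ^ 100 * M := mul_pos (by linarith) M0
  have B2 : 2 ≤ B ^ 51 := le_trans (by linarith) (le_self_pow₀ (by linarith) (by norm_num))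
  have u1 := abs_sub (w (a - 1) + σ * w (b + 1)) (σ * w (b + 1))
  have u2 := abs_sub (w (a - 1) + σ * w (b + 1)) (w (a - 1))
  rw [add_sub_cancel_right, abs_mul, hσ', one_mul] at u1
  rw [add_sub_cancel_left, abs_mul, hσ', one_mul] at u2
  have u3 := mul_le_mul_of_nonneg_right B2 (abs_nonneg (w (b + 1)))
  have u4 := mul_le_mul_of_nonneg_right B2 (abs_nonneg (w (a - 1)))
  refine ⟨⟨by linarith, by linarith⟩, fun h => ?_⟩
  have key : ¬ |w (a - 1) - σ * w (b + 1)| ≤ ε * max |w (a - 1)| |w (b + 1)| := fun h => by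
    have e1 := abs_add_le (w (a - 1) + σ * w (b + 1)) (w (a - 1) - σ * w (b + 1))
    rw [add_add_sub_cancel, ← two_mul, abs_mul, abs_two] at e1
    have e2 : max |w (a - 1)| |w (b + 1)| ≤ |w (a - 1)| + c₀ * B ^ 100 * M / 10 :=
      max_le (by linarith) (by linarith)
    have e3 := mul_le_mul (show ε ≤ 1 / 100 by linarith) e2 (le_max_of_le_left (abs_nonneg _))
      (by norm_num)
    linarith
  rcases hσ with rfl | rfl <;> rcases h with ⟨h2, m, h3⟩ | ⟨h2, m, h3⟩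
  · exact absurd h2 key
  · exact ⟨m, by rwa [neg_mul, sub_neg_eq_add] at h3⟩
  · exact ⟨m, by rwa [neg_mul, ← sub_eq_add_neg]⟩
  · exact absurd h2 key

end Crest.Agent.R128
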