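import Crest.Agent.R128.SelA

set_option autoImplicit false
open MeasureTheory Set

namespace Crest.Agent.R128
open Classical

/-! SelB: selection of many caught sites. -/

namespace SelBX

theorem card_bad3 (P : ℤ → Prop) (I J : Finset ℤ) (d : ℤ)
    (h : ∀ b ∈ I, b ∈ J ∧ b + d ∈ J ∧ b + d + d ∈ J) :
    (I.filter fun b => ¬ (P b ∧ P (b + d) ∧ P (b + d + d))).card ≤
      3 * (J.filter fun i => ¬ P i).card := by
  set S := J.filter fun i => ¬ P i with hS
  calc _ ≤ (S ∪ S.image (fun i => i - d) ∪ S.image (fun i => i - d - d)).card := by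
        refine Finset.card_le_card fun b hb => ?_
        obtain ⟨hI, hb⟩ := Finset.mem_filter.1 hb
        obtain ⟨j1, j2, j3⟩ := h b hI
        simp only [Finset.mem_union, Finset.mem_image, hS, Finset.mem_filter]
        by_cases p1 : P b
        · by_cases p2 : P (b + d)
          · exact Or.inr ⟨b + d + d, ⟨j3, fun p3 => hb ⟨p1, p2, p3⟩⟩, by ring⟩
          · exact Or.inl (Or.inr ⟨b + d, ⟨j2, p2⟩, by ring⟩)
        · exact Or.inl (Or.inl ⟨j1, p1⟩)
    _ ≤ S.card + S.card + S.card :=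
        (Finset.card_union_le _ _).trans (add_le_add ((Finset.card_union_le _ _).trans
          (add_le_add le_rfl Finset.card_image_le)) Finset.card_image_le)
    _ = _ := by ring

theorem card_le_two (S : Finset ℤ) (key : ∀ b ∈ S, ∀ b' ∈ S, ∀ b'' ∈ S, b < b' → b' < b'' → False) :
    S.card ≤ 2 := by
  by_contra hc
  obtain ⟨x, y, z, hx, hy, hz, h1, h2, h3⟩ := Finset.two_lt_card_iff.1 (not_le.1 hc)
  rcases lt_or_gt_of_ne h1 with a1 | a1 <;> rcases lt_or_gt_of_ne h2 with a2 | a2 <;>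
    rcases lt_or_gt_of_ne h3 with a3 | a3 <;>
    first
    | exact key x hx y hy z hz (by omega) (by omega)
    | exact key x hx z hz y hy (by omega) (by omega)
    | exact key y hy x hx z hz (by omega) (by omega)
    | exact key y hy z hz x hx (by omega) (by omega)
    | exact key z hz x hx y hy (by omega) (by omega)
    | exact key z hz y hy x hx (by omega) (by omega)

theorem cos_of_nice {B c₀ q : ℝ} (hB : 0 < B) {x : ℤ → ℝ} {N : ℕ} {i : ℤ}
    (h : Nice B c₀ (Vof B x) N q i) : c₀ ≤ |Real.cos (2 * Real.pi * x i)| := by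
  have h1 := h.2.2
  have hp : 0 < B ^ 100 := pow_pos hB 100
  rw [Vof, add_sub_cancel_left, abs_mul, abs_of_pos hp, mul_comm] at h1
  exact le_of_mul_le_mul_left h1 hp

end SelBX

/-- Take `c` from `exists_c`, a regular `a₀ ∈ [-80000N, -80000N + n)`.  Call `b ∈ [30000N, 60000N)` good if
`b, b+1, b+2` are nice (at most `3N` are not, `F.crR`).  For good `b`, `plR` applies to `b` and `b+1`; choose the partner
`a b`.  Call `a` good if `a, a-1, a-2` are nice (at most `3N` values of `[-80000N, -20000N]` are not, `F.crL`); by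
`three_b` each `a` is the partner of at most two good `b`.  So at least `30000N - 3N - 6N` sites `b` are good with good
partner.  For these `GC x c a b` holds (`|V i - 2| = B^100 |cos|`).  If `¬ Anti`, `EA … b`.  Otherwise `AntiS σ`,
`GC x c (a-1) (b+1)` holds (`anti_step`), and either `EA … (b+1)` or `GB … b`; `par` is `(c - a) % 2` or
`(c - (a-1)) % 2`. -/
theorem Frame.sel {B c₀ ε : ℝ} (hB : 10 ^ 8 ≤ c₀ * B) (h0 : 0 < c₀) (h1 : c₀ ≤ 1) (hε0 : 0 ≤ ε)
    (hε : ε ≤ c₀ / 100) {x u s : ℤ → ℝ} {n N N' : ℕ} {q g : ℝ} {j₁ j₂ : ℤ}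
    (F : Frame B c₀ (Vof B x) n N N' q g j₁ j₂ u s) (hW : |Wr u s 0| ≤ B ^ (-21000000 * (N : ℤ))) :
    Res B c₀ ε N x := by
  have hB0 : 0 < B := by
    by_contra hc
    have : c₀ * B ≤ 0 := mul_nonpos_of_nonneg_of_nonpos h0.le (not_lt.1 hc)
    linarith [show (0 : ℝ) < 10 ^ 8 by norm_num]
  have hB' : 10 ^ 8 ≤ B := hB.trans (mul_le_of_le_one_left hB0.le h1)
  have hB1 : 1 ≤ B := le_trans (by norm_num) hB'
  have hn := F.par.nN
  have hN := F.hN
  have hN' := F.hN'
  have hN1 : 1 ≤ N := by omega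
  obtain ⟨c, hc, hsc⟩ := F.exists_c hB'
  have huc := F.u_c hB' hW hc hsc
  obtain ⟨a₀, ha1, ha2, hreg⟩ := F.winL (-80000 * N) (by omega) (by omega)
  have hP0 : PlL B (dir (Vof B x) c) a₀ c := F.plL hB' hc huc (by omega) (by omega) hreg
  set P : ℤ → Prop := Nice B c₀ (Vof B x) N q with hP
  set I : Finset ℤ := Finset.Ico (30000 * N : ℤ) (60000 * N) with hI
  set G : Finset ℤ := I.filter fun b => P b ∧ P (b + 1) ∧ P (b + 1 + 1) with hG
  have hGm : ∀ b ∈ G, 30000 * (N : ℤ) ≤ b ∧ b < 60000 * N ∧ P b ∧ P (b + 1) ∧ P (b + 1 + 1) := by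
    intro b hb
    obtain ⟨h1, h2⟩ := Finset.mem_filter.1 hb
    exact ⟨(Finset.mem_Ico.1 h1).1, (Finset.mem_Ico.1 h1).2, h2⟩
  have hR : ∀ b ∈ G, PlR B (dir (Vof B x) c) c b := by
    intro b hb
    obtain ⟨b1, b2, p1, -, -⟩ := hGm b hb
    exact F.plR hB' hc hsc (by omega) (by omega) p1.1
  have hpart : ∀ b ∈ G, ∃ a, a₀ ≤ a ∧ a ≤ c - 21001 * N ∧
      |dir (Vof B x) c b| ≤ B ^ 51 * |dir (Vof B x) c a| ∧
      |dir (Vof B x) c a| ≤ B ^ 50 * |dir (Vof B x) c b| := by
    intro b hb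
    obtain ⟨b1, b2, -⟩ := hGm b hb
    exact partner hB' F.bdd hN1 hc b1 b2.le (hR b hb) (by omega) hP0
  choose! pa hpa using hpart
  have hIc : I.card = 30000 * N := by
    rw [hI, Int.card_Ico]
    omega
  have hbadR : (I.filter fun b => ¬ (P b ∧ P (b + 1) ∧ P (b + 1 + 1))).card ≤ 3 * N := by
    refine (SelBX.card_bad3 P I (Finset.Icc (700 * N : ℤ) (6 * N')) 1 fun b hb => ?_).trans
      (Nat.mul_le_mul_left 3 (by convert F.crR using 1; rfl))
    simp only [hI, Finset.mem_Ico] at hb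
    simp only [Finset.mem_Icc]
    omega
  set J : Finset ℤ := Finset.Icc (-80000 * N : ℤ) (-20000 * N) with hJ
  have hbadL : (J.filter fun a => ¬ (P a ∧ P (a + -1) ∧ P (a + -1 + -1))).card ≤ 3 * N := by
    refine (SelBX.card_bad3 P J (Finset.Icc (-6 * N' : ℤ) (-70 * N)) (-1) fun b hb => ?_).trans
      (Nat.mul_le_mul_left 3 (by convert F.crL using 1; rfl))
    simp only [hJ, Finset.mem_Icc] at hb
    simp only [Finset.mem_Icc]
    omega
  have hGc := Finset.card_filter_add_card_filter_not (s := I)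
    (fun b => P b ∧ P (b + 1) ∧ P (b + 1 + 1))
  have hG' : (G.filter fun b => ¬ (P (pa b) ∧ P (pa b + -1) ∧ P (pa b + -1 + -1))).card ≤
      2 * (J.filter fun a => ¬ (P a ∧ P (a + -1) ∧ P (a + -1 + -1))).card := by
    refine Finset.card_le_mul_card_image_of_maps_to (f := pa) (fun b hb => ?_) 2 (fun a _ => ?_)
    · obtain ⟨hb, hb'⟩ := Finset.mem_filter.1 hb
      obtain ⟨a1, a2, -⟩ := hpa b hb
      refine Finset.mem_filter.2 ⟨Finset.mem_Icc.2 ⟨by omega, by omega⟩, hb'⟩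
    · refine SelBX.card_le_two _ fun b hb b' _ b'' hb'' l1 l2 => ?_
      obtain ⟨hb, e⟩ := Finset.mem_filter.1 hb
      obtain ⟨hb'', e''⟩ := Finset.mem_filter.1 hb''
      have hb := (Finset.mem_filter.1 hb).1
      have hb'' := (Finset.mem_filter.1 hb'').1
      obtain ⟨b1, -⟩ := hGm b hb
      refine three_b (a := a) hB' (by omega) l1 l2 (hR b'' hb'') (fun h => ?_)
        (e ▸ (hpa b hb).2.2.2) (e'' ▸ (hpa b'' hb'').2.2.1)
      have := hR b'' hb'' (c + 1) (by omega) (by omega)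
      rw [dir_one, h] at this
      norm_num at this
  have hG'' := Finset.card_filter_add_card_filter_not (s := G)
    (fun b => P (pa b) ∧ P (pa b + -1) ∧ P (pa b + -1 + -1))
  have hsub : (G.filter fun b => P (pa b) ∧ P (pa b + -1) ∧ P (pa b + -1 + -1)) ⊆
      I.filter (Caught B c₀ ε N x) := by
    intro b hb
    obtain ⟨hb, n1, n2, n3⟩ := Finset.mem_filter.1 hb
    refine Finset.mem_filter.2 ⟨(Finset.mem_filter.1 hb).1, ?_⟩
    obtain ⟨b1, b2, p1, p2, p3⟩ := hGm b hb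
    obtain ⟨a1, a2, r1, r2⟩ := hpa b hb
    set a := pa b with ha
    rw [← sub_eq_add_neg] at n2
    rw [← sub_eq_add_neg, ← sub_eq_add_neg] at n3
    have hL : PlL B (dir (Vof B x) c) a c := F.plL hB' hc huc (by omega) (by omega) n1.2.1
    have hGC : GC B c₀ x c a b := by
      refine ⟨hR b hb, hL, SelBX.cos_of_nice hB0 n1, SelBX.cos_of_nice hB0 p1,
        F.twoCone hB h0 h1 hW hc hsc (by omega) (by omega) (by omega) (by omega) n2 p2,
        r2.trans ?_, r1⟩
      exact mul_le_mul_of_nonneg_right (pow_le_pow_right₀ hB1 (by norm_num)) (abs_nonneg _)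
    by_cases hA : Anti B ε x c a b
    · obtain ⟨σ, hσ, hAS⟩ : ∃ σ : ℝ, (σ = 1 ∨ σ = -1) ∧ AntiS B ε x c a b σ := by
        rcases hA with hA | hA
        · exact ⟨1, Or.inl rfl, hA⟩
        · exact ⟨-1, Or.inr rfl, hA⟩
      obtain ⟨⟨s1, s2⟩, s3⟩ := anti_step hB h0 h1 hε0 hε hσ (by omega) (by omega) hGC hAS
      by_cases hA' : Anti B ε x c (a - 1) (b + 1)
      · exact ⟨c, (c - a) % 2, σ, hc, by omega, hσ,
          Or.inr (Or.inr ⟨a, by omega, rfl, hR b hb, hL, hAS, s3 hA'⟩)⟩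
      · refine ⟨c, (c - (a - 1)) % 2, σ, hc, by omega, hσ,
          Or.inr (Or.inl ⟨a - 1, by omega, rfl, ?_, hA'⟩)⟩
        exact ⟨F.plR hB' hc hsc (by omega) (by omega) p2.1,
          F.plL hB' hc huc (by omega) (by omega) n1.1, SelBX.cos_of_nice hB0 n2,
          SelBX.cos_of_nice hB0 p2,
          F.twoCone hB h0 h1 hW hc hsc (by omega) (by omega) (by omega) (by omega) n3 p3, s1, s2⟩
    · exact ⟨c, (c - a) % 2, 1, hc, by omega, Or.inl rfl, Or.inl ⟨a, by omega, rfl, hGC, hA⟩⟩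
  have := Finset.card_le_card hsub
  unfold Res
  rw [← hG] at hGc
  rw [← hI]
  omega

end Crest.Agent.R128
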