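import Crest.Agent.R128.CL

set_option autoImplicit false
open MeasureTheory Set

namespace Crest.Agent.R128
open Classical

/-! StA: secant plus cubic families.  Normalise by `Λ = max 1 (max |p i|)`; the family
`α * (secant part) + cubic` with `0 ≤ α ≤ 1`, `|p i| ≤ 1`, `α = 1 ∨ ∃ i, |p i| = 1`, `y, z ∈ [0,1]` (reduce mod 1)
is compact; on `|τ| ≤ c₀/400` both cosines stay `≥ c₀/2` in absolute value (Lipschitz).
A member `g` times its cosines is an entire function `G`; if `G` is not identically zero its zero set is null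
(`null_zero_of_analytic`); apply `cl_compact`; finally `|g| ≤ δ` implies `|g / Λ| ≤ δ`.
`G ≢ 0`: one secant: `α + p cos ≡ 0` gives `α = 0` at a zero of `cos`, then `p` vanishes on an infinite set.
Two secants: `α (cos 2π(z+ωτ) + ω⁻² cos 2π(y+τ)) + p cos cos ≡ 0`.  If `α = 0` as before.  Otherwise both cosines
satisfy: zeros of `cos 2π(y+τ)` are zeros of `cos 2π(z+ωτ)`; such zeros `τ₀` and `τ₀ + 1/2` exist and
are both zeros of `cos 2π(z+ωτ)`, so `ω ∈ ℤ`; with `0 < |ω| ≤ 1` this gives `ω = ±1`, and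
`z - ω y ∈ ℤ/2`; the half-integer case is excluded by the hypothesis, in the integer case the cosines coincide
and we are back to the one secant identity `cos * (2α + p cos) ≡ 0`. -/

namespace StAX

theorem cos_ne {c₀ y t : ℝ} (h0 : 0 < c₀) (hy : c₀ ≤ |Real.cos (2 * Real.pi * y)|)
    (ht : |t| ≤ c₀ / 400) : Real.cos (2 * Real.pi * (y + t)) ≠ 0 := by
  intro h
  have h1 := Real.abs_cos_sub_cos_le (2 * Real.pi * y) (2 * Real.pi * (y + t))
  rw [h, sub_zero] at h1
  have h2 : |2 * Real.pi * y - 2 * Real.pi * (y + t)| = 2 * Real.pi * |t| := by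
    rw [show 2 * Real.pi * y - 2 * Real.pi * (y + t) = -(2 * Real.pi * t) by ring, abs_neg, abs_mul,
      abs_of_pos Real.two_pi_pos]
  have h3 := Real.pi_le_four
  have h4 := Real.pi_pos
  have h5 := abs_nonneg t
  nlinarith

/-- the family with denominators cleared -/
noncomputable def G (x : Fin 8 → ℝ) (τ : ℝ) : ℝ :=
  x 0 * (x 3 ^ 2 * Real.cos (2 * Real.pi * (x 2 + x 3 * τ)) + Real.cos (2 * Real.pi * (x 1 + τ))) +
    x 3 ^ 2 * (x 4 + x 5 * τ + x 6 * τ ^ 2 + x 7 * τ ^ 3) * Real.cos (2 * Real.pi * (x 1 + τ)) *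
      Real.cos (2 * Real.pi * (x 2 + x 3 * τ))

theorem cos_int (t : ℝ) (n : ℤ) : Real.cos (2 * Real.pi * (t + n)) = Real.cos (2 * Real.pi * t) := by
  rw [← Real.cos_add_int_mul_two_pi (2 * Real.pi * t) n]
  congr 1
  ring

theorem G_ne {c₀ ε : ℝ} (h0 : 0 < c₀) (hε : 0 < ε) (x : Fin 8 → ℝ)
    (hn : |x 0| + |x 4| + |x 5| + |x 6| + |x 7| = 1)
    (hy : c₀ ≤ |Real.cos (2 * Real.pi * x 1)|) (hz : c₀ ≤ |Real.cos (2 * Real.pi * x 2)|)
    (hω0 : x 3 ≠ 0) (hω1 : |x 3| ≤ 1)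
    (hh : ∀ σ : ℝ, (σ = 1 ∨ σ = -1) → ∀ n : ℤ, ε ≤ |x 3 - σ| ∨ ε ≤ |x 2 - σ * x 1 - 1 / 2 - n|) :
    ∃ τ, G x τ ≠ 0 := by
  by_contra hc
  push Not at hc
  unfold G at hc
  set α := x 0
  set y := x 1
  set z := x 2
  set ω := x 3
  set p0 := x 4
  set p1 := x 5
  set p2 := x 6
  set p3 := x 7
  have hω2 : ω ^ 2 ≠ 0 := pow_ne_zero 2 hω0
  have hα : α = 0 := by
    by_contra hα
    have hz0 : ∀ τ, Real.cos (2 * Real.pi * (y + τ)) = 0 →
        ∃ k : ℤ, z + ω * τ = (2 * k + 1) / 4 := by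
      intro τ hτ
      have h1 := hc τ
      rw [hτ] at h1
      have h2 : Real.cos (2 * Real.pi * (z + ω * τ)) = 0 := by
        have : α * ω ^ 2 * Real.cos (2 * Real.pi * (z + ω * τ)) = 0 := by linarith
        exact (mul_eq_zero.1 this).resolve_left (mul_ne_zero hα hω2)
      obtain ⟨k, hk⟩ := Real.cos_eq_zero_iff.1 h2
      refine ⟨k, ?_⟩
      have := Real.pi_pos
      field_simp at hk ⊢
      linarith
    obtain ⟨k, hk⟩ := hz0 (1 / 4 - y) (Real.cos_eq_zero_iff.2 ⟨0, by push_cast; ring⟩)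
    obtain ⟨l, hl⟩ := hz0 (3 / 4 - y) (Real.cos_eq_zero_iff.2 ⟨1, by push_cast; ring⟩)
    have hω : ω = ((l - k : ℤ) : ℝ) := by push_cast; linarith
    have hσ : ω = 1 ∨ ω = -1 := by
      have a1 : |l - k| ≤ 1 := by
        rw [hω] at hω1
        exact_mod_cast hω1
      have a2 : l - k ≠ 0 := by
        intro h
        rw [h] at hω
        exact hω0 (by simpa using hω)
      rw [abs_le] at a1
      rcases (by omega : l - k = 1 ∨ l - k = -1) with h | h
      · left; rw [hω, h]; simp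
      · right; rw [hω, h]; simp
    obtain ⟨m, hm⟩ : ∃ m : ℤ, z - ω * y = m / 2 := by
      rcases hσ with h | h
      · exact ⟨k, by rw [h] at hk ⊢; linarith⟩
      · exact ⟨k + 1, by rw [h] at hk ⊢; push_cast; linarith⟩
    rcases Int.even_or_odd' m with ⟨n, hn' | hn'⟩
    · have hcc : ∀ τ, Real.cos (2 * Real.pi * (z + ω * τ)) = Real.cos (2 * Real.pi * (y + τ)) := by
        intro τ
        have e : z + ω * τ = ω * (y + τ) + n := by
          rw [hn'] at hm
          push_cast at hm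
          linarith
        rw [e, cos_int]
        rcases hσ with h | h
        · rw [h, one_mul]
        · rw [h, ← Real.cos_neg]
          congr 1
          ring
      have hω' : ω ^ 2 = 1 := by rcases hσ with h | h <;> rw [h] <;> norm_num
      have a : ∀ j : ℤ, 2 * α + (p0 + p1 * (j - y) + p2 * (j - y) ^ 2 + p3 * (j - y) ^ 3) = 0 := by
        intro j
        have h1 := hc (j - y)
        have h2 : Real.cos (2 * Real.pi * (y + (j - y))) = 1 := by
          rw [show y + (j - y) = 0 + j by ring, cos_int]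
          simp
        rw [hcc, h2, hω'] at h1
        linarith
      have b : -2 * α + (p0 + p1 * (1 / 2 - y) + p2 * (1 / 2 - y) ^ 2 + p3 * (1 / 2 - y) ^ 3) = 0 := by
        have h1 := hc (1 / 2 - y)
        have h2 : Real.cos (2 * Real.pi * (y + (1 / 2 - y))) = -1 := by
          rw [show 2 * Real.pi * (y + (1 / 2 - y)) = Real.pi by ring, Real.cos_pi]
        rw [hcc, h2, hω'] at h1
        linarith
      have a0 := a 0
      have a1 := a 1
      have a2 := a 2
      have a3 := a (-1)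
      push_cast at a0 a1 a2 a3
      apply hα
      linear_combination (-a3 + 9 * a0 + 9 * a1 - a2) / 64 - b / 4
    · have e : z - ω * y - 1 / 2 - n = 0 := by
        rw [hn'] at hm
        push_cast at hm
        linarith
      rcases hh ω hσ n with h | h
      · rw [sub_self, abs_zero] at h
        linarith
      · rw [e, abs_zero] at h
        linarith
  have hp : ∀ τ, |τ| ≤ c₀ / 400 → p0 + p1 * τ + p2 * τ ^ 2 + p3 * τ ^ 3 = 0 := by
    intro τ hτ
    have h1 := hc τ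
    rw [hα, zero_mul, zero_add] at h1
    have c1 := cos_ne h0 hy hτ
    have c2 := cos_ne (t := ω * τ) h0 hz (by
      rw [abs_mul]
      exact (mul_le_of_le_one_left (abs_nonneg _) hω1).trans hτ)
    simpa [c1, c2, hω0] using h1
  set h := c₀ / 800 with hh'
  have hpos : 0 < h := by positivity
  have e0 := hp 0 (by simp; positivity)
  have e1 := hp h (by rw [abs_of_pos hpos]; linarith)
  have e2 := hp (-h) (by rw [abs_neg, abs_of_pos hpos]; linarith)
  have e3 := hp (2 * h) (by rw [abs_of_pos (by positivity)]; linarith)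
  have f0 : p0 = 0 := by simpa using e0
  have f2 : p2 = 0 := by
    have : p2 * h ^ 2 = 0 := by linear_combination (e1 + e2) / 2 - f0
    simpa [hpos.ne'] using this
  have f3 : p3 = 0 := by
    have : p3 * h ^ 3 = 0 := by linear_combination (e3 - 2 * e1 + f0 - 2 * h ^ 2 * f2) / 6
    simpa [hpos.ne'] using this
  have f1 : p1 = 0 := by
    have : p1 * h = 0 := by linear_combination e1 - f0 - h ^ 2 * f2 - h ^ 3 * f3
    simpa [hpos.ne'] using this
  rw [hα, f0, f1, f2, f3] at hn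
  simp at hn

theorem G_analytic (x : Fin 8 → ℝ) : AnalyticOnNhd ℝ (G x) univ := by
  have : ContDiff ℝ ⊤ (G x) := by
    unfold G
    fun_prop
  exact this.analyticOnNhd

end StAX

theorem stA2 (c₀ κ ε ω₀ : ℝ) (h0 : 0 < c₀) (h1 : c₀ ≤ 1) (hκ : 0 < κ) (hε : 0 < ε) (hω : 0 < ω₀) :
    ∃ δ > 0, ∀ y z ω p0 p1 p2 p3 : ℝ, c₀ ≤ |Real.cos (2 * Real.pi * y)| →
      c₀ ≤ |Real.cos (2 * Real.pi * z)| → ω₀ ≤ |ω| → |ω| ≤ 1 →
      (∀ σ : ℝ, (σ = 1 ∨ σ = -1) → ∀ n : ℤ, ε ≤ |ω - σ| ∨ ε ≤ |z - σ * y - 1 / 2 - n|) →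
      volume {τ : ℝ | |τ| ≤ c₀ / 400 ∧
        |1 / Real.cos (2 * Real.pi * (y + τ)) + 1 / (ω ^ 2 * Real.cos (2 * Real.pi * (z + ω * τ))) +
          (p0 + p1 * τ + p2 * τ ^ 2 + p3 * τ ^ 3)| ≤ δ} ≤ ENNReal.ofReal (κ * (c₀ / 400)) := by
  set K : Set (Fin 8 → ℝ) := Icc (fun _ => -1) (fun _ => 1) ∩
    {x | |x 0| + |x 4| + |x 5| + |x 6| + |x 7| = 1 ∧ c₀ ≤ |Real.cos (2 * Real.pi * x 1)| ∧
      c₀ ≤ |Real.cos (2 * Real.pi * x 2)| ∧ ω₀ ≤ |x 3| ∧
      ∀ σ : ℝ, (σ = 1 ∨ σ = -1) → ∀ n : ℤ, ε ≤ |x 3 - σ| ∨ ε ≤ |x 2 - σ * x 1 - 1 / 2 - n|} with hK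
  have hKc : IsCompact K := by
    refine isCompact_Icc.inter_right ?_
    simp only [Set.ofPred_and, Set.ofPred_forall, Set.ofPred_or]
    refine (isClosed_eq (by fun_prop) (by fun_prop)).inter
      ((isClosed_le (by fun_prop) (by fun_prop)).inter
        ((isClosed_le (by fun_prop) (by fun_prop)).inter
          ((isClosed_le (by fun_prop) (by fun_prop)).inter ?_)))
    exact isClosed_iInter fun σ => isClosed_iInter fun _ => isClosed_iInter fun n =>
      (isClosed_le (by fun_prop) (by fun_prop)).union (isClosed_le (by fun_prop) (by fun_prop))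
  obtain ⟨δ, hδ, hb⟩ := cl_compact K hKc StAX.G (-(c₀ / 400)) (c₀ / 400)
    (Continuous.continuousOn (by unfold StAX.G; fun_prop))
    (fun x hx => by
      obtain ⟨⟨hx1, hx2⟩, hn, hy, hz, hw, hh⟩ := hx
      refine measure_mono_null (fun τ hτ => hτ.2) (null_zero_of_analytic _ (StAX.G_analytic x)
        (StAX.G_ne h0 hε x hn hy hz ?_ (abs_le.2 ⟨hx1 3, hx2 3⟩) hh))
      intro h
      rw [h, abs_zero] at hw
      linarith)
    (κ * (c₀ / 400)) (by positivity)
  refine ⟨δ, hδ, fun y z ω p0 p1 p2 p3 hy hz hw hw1 hh => ?_⟩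
  set Λ := 1 + |p0| + |p1| + |p2| + |p3| with hΛ
  have a0 := abs_nonneg p0
  have a1 := abs_nonneg p1
  have a2 := abs_nonneg p2
  have a3 := abs_nonneg p3
  have hΛ1 : 1 ≤ Λ := by linarith
  have hΛ0 : 0 < Λ := by linarith
  have hfr : ∀ t s : ℝ, Real.cos (2 * Real.pi * (Int.fract t + s)) =
      Real.cos (2 * Real.pi * (t + s)) := by
    intro t s
    rw [← StAX.cos_int _ ⌊t⌋]
    congr 2
    linarith [Int.fract_add_floor t]
  have hdiv : ∀ t : ℝ, |t| ≤ Λ → |t / Λ| ≤ 1 := by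
    intro t ht
    rw [abs_div, abs_of_pos hΛ0]
    exact (div_le_one hΛ0).2 ht
  have hfa : ∀ t : ℝ, |Int.fract t| ≤ 1 := fun t => by
    rw [abs_of_nonneg (Int.fract_nonneg t)]
    exact (Int.fract_lt_one t).le
  set x : Fin 8 → ℝ := ![1 / Λ, Int.fract y, Int.fract z, ω, p0 / Λ, p1 / Λ, p2 / Λ, p3 / Λ]
    with hx
  have hxa : ∀ i, |x i| ≤ 1 := by
    intro i
    fin_cases i
    · exact hdiv 1 (by rw [abs_one]; exact hΛ1)
    · exact hfa y
    · exact hfa z
    · exact hw1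
    · exact hdiv p0 (by linarith)
    · exact hdiv p1 (by linarith)
    · exact hdiv p2 (by linarith)
    · exact hdiv p3 (by linarith)
  have hxK : x ∈ K := by
    refine ⟨⟨fun i => (abs_le.1 (hxa i)).1, fun i => (abs_le.1 (hxa i)).2⟩, ?_, ?_, ?_, hw, ?_⟩
    · show |1 / Λ| + |p0 / Λ| + |p1 / Λ| + |p2 / Λ| + |p3 / Λ| = 1
      simp only [abs_div, abs_of_pos hΛ0, abs_one]
      field_simp
      rfl
    · show c₀ ≤ |Real.cos (2 * Real.pi * Int.fract y)|
      have := hfr y 0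
      rw [add_zero, add_zero] at this
      rwa [this]
    · show c₀ ≤ |Real.cos (2 * Real.pi * Int.fract z)|
      have := hfr z 0
      rw [add_zero, add_zero] at this
      rwa [this]
    · intro σ hσ n
      show ε ≤ |ω - σ| ∨ ε ≤ |Int.fract z - σ * Int.fract y - 1 / 2 - n|
      have b1 := Int.fract_add_floor y
      have b2 := Int.fract_add_floor z
      rcases hσ with rfl | rfl
      · have := hh 1 (Or.inl rfl) (n + ⌊z⌋ - ⌊y⌋)
        convert this using 3
        push_cast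
        linarith
      · have := hh (-1) (Or.inr rfl) (n + ⌊z⌋ + ⌊y⌋)
        convert this using 3
        push_cast
        linarith
  refine le_trans (measure_mono fun τ hτ => ?_) (hb x hxK)
  obtain ⟨hτ, hg⟩ := hτ
  refine ⟨abs_le.1 hτ, ?_⟩
  have hω0 : ω ≠ 0 := by
    intro h
    rw [h, abs_zero] at hw
    linarith
  have c1 := StAX.cos_ne h0 hy hτ
  have c2 := StAX.cos_ne (t := ω * τ) h0 hz (by
    rw [abs_mul]
    exact (mul_le_of_le_one_left (abs_nonneg _) hw1).trans hτ)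
  have e : StAX.G x τ = (ω ^ 2 * Real.cos (2 * Real.pi * (y + τ)) *
      Real.cos (2 * Real.pi * (z + ω * τ)) / Λ) *
      (1 / Real.cos (2 * Real.pi * (y + τ)) + 1 / (ω ^ 2 * Real.cos (2 * Real.pi * (z + ω * τ))) +
        (p0 + p1 * τ + p2 * τ ^ 2 + p3 * τ ^ 3)) := by
    show 1 / Λ * (ω ^ 2 * Real.cos (2 * Real.pi * (Int.fract z + ω * τ)) +
        Real.cos (2 * Real.pi * (Int.fract y + τ))) +
      ω ^ 2 * (p0 / Λ + p1 / Λ * τ + p2 / Λ * τ ^ 2 + p3 / Λ * τ ^ 3) *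
        Real.cos (2 * Real.pi * (Int.fract y + τ)) *
        Real.cos (2 * Real.pi * (Int.fract z + ω * τ)) = _
    rw [hfr, hfr]
    field_simp
  rw [e, abs_mul]
  refine (mul_le_of_le_one_left (abs_nonneg _) (hdiv _ (le_trans ?_ hΛ1))).trans hg
  rw [abs_mul, abs_mul, abs_pow]
  exact mul_le_one₀ (mul_le_one₀ (pow_le_one₀ (abs_nonneg _) hw1) (abs_nonneg _)
    (Real.abs_cos_le_one _)) (abs_nonneg _) (Real.abs_cos_le_one _)

theorem stA1 (c₀ κ : ℝ) (h0 : 0 < c₀) (h1 : c₀ ≤ 1) (hκ : 0 < κ) :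
    ∃ δ > 0, ∀ y p0 p1 p2 p3 : ℝ, c₀ ≤ |Real.cos (2 * Real.pi * y)| →
      volume {τ : ℝ | |τ| ≤ c₀ / 400 ∧
        |1 / Real.cos (2 * Real.pi * (y + τ)) + (p0 + p1 * τ + p2 * τ ^ 2 + p3 * τ ^ 3)| ≤ δ} ≤
        ENNReal.ofReal (κ * (c₀ / 400)) := by
  obtain ⟨δ, hδ, hb⟩ := stA2 c₀ κ (1 / 2) 1 h0 h1 hκ (by norm_num) one_pos
  refine ⟨δ / 2, by positivity, fun y p0 p1 p2 p3 hy => ?_⟩
  refine le_trans (measure_mono fun τ hτ => ?_)
    (hb y y 1 (2 * p0) (2 * p1) (2 * p2) (2 * p3) hy hy (by simp) (by simp) ?_)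
  · refine ⟨hτ.1, ?_⟩
    have e : 1 / Real.cos (2 * Real.pi * (y + τ)) +
        1 / (1 ^ 2 * Real.cos (2 * Real.pi * (y + 1 * τ))) +
        (2 * p0 + 2 * p1 * τ + 2 * p2 * τ ^ 2 + 2 * p3 * τ ^ 3) =
        2 * (1 / Real.cos (2 * Real.pi * (y + τ)) + (p0 + p1 * τ + p2 * τ ^ 2 + p3 * τ ^ 3)) := by
      rw [one_pow, one_mul, one_mul]
      ring
    rw [e, abs_mul, abs_two]
    linarith [hτ.2]
  · rintro σ (rfl | rfl) n
    · right
      rw [one_mul, sub_self, le_abs]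
      rcases le_or_gt 0 n with h | h
      · right
        have : (0 : ℝ) ≤ n := by exact_mod_cast h
        linarith
      · left
        have : (n : ℝ) ≤ -1 := by exact_mod_cast (by omega : n ≤ -1)
        linarith
    · left
      norm_num

end Crest.Agent.R128
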