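import Crest.Agent.R128.SH

set_option autoImplicit false
open MeasureTheory Set

namespace Crest.Agent.R128
open Classical

/-! T1: the telescoping identity and the terms `i < b`. -/

section
variable {𝕜 : Type*} [Field 𝕜]

theorem T1X.dir_congr_left {U U' : ℤ → 𝕜} {b i : ℤ} (hi : i ≤ b + 1)
    (h : ∀ j, i < j → j ≤ b → U j = U' j) : dir U (b + 1) i = dir U' (b + 1) i := by
  have e : ∀ U : ℤ → 𝕜, dir U (b + 1) b = -1 := fun U => by
    have := dir_neg_one U (b + 1)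
    rwa [add_sub_cancel_right] at this
  exact (dir_Sol U _).congr_left (dir_Sol U' _) b i hi (by rw [e, e])
    (by rw [dir_zero, dir_zero]) h

theorem Th_congr {U U' : ℤ → 𝕜} {b : ℤ} (hb : 0 ≤ b) (h : ∀ j, 1 ≤ j → j ≤ b → U j = U' j) :
    Th U b = Th U' b := by
  unfold Th
  rw [T1X.dir_congr_left (U' := U') (by omega) fun j h1 h2 => h j h1.le h2,
    T1X.dir_congr_left (i := 0) (U' := U') (by omega) fun j h1 h2 => h j h1 h2]

/-- `σ = dir (mix V V' i) (b+1)` and `σ' = dir (mix V V' (i-1)) (b+1)` agree with `dir V (b+1)` on `[i, b+1]`;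
their Wronskian at the bond `i-1` is `∓(V' i - V i) (dir V (b+1) i)^2` and is constant on lower bonds (same potential
on sites `< i`); at the bond `0` it is the numerator of the difference; `dir U (b+1) 0 = - dir U 0 (b+1)`. -/
theorem tele (V V' : ℤ → 𝕜) {b i : ℤ} (hi : 1 ≤ i) (hib : i ≤ b) (h1 : dir (mix V V' i) 0 (b + 1) ≠ 0)
    (h2 : dir (mix V V' (i - 1)) 0 (b + 1) ≠ 0) :
    Th (mix V V' i) b - Th (mix V V' (i - 1)) b =
      -((V' i - V i) * dir V (b + 1) i ^ 2) /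
        (dir (mix V V' i) 0 (b + 1) * dir (mix V V' (i - 1)) 0 (b + 1)) := by
  have a1 : ∀ l j, l ≤ j → j ≤ b + 1 → dir (mix V V' l) (b + 1) j = dir V (b + 1) j :=
    fun l j h1 h2 => T1X.dir_congr_left h2 fun x h3 _ => if_neg (by omega)
  have hσ := dir_Sol (mix V V' i) (b + 1)
  have hσ' := dir_Sol (mix V V' (i - 1)) (b + 1)
  have hτ := sol_Sol (mix V V' (i - 1)) (i - 1) (dir (mix V V' i) (b + 1) (i - 1))
    (dir (mix V V' i) (b + 1) (i - 1 + 1))
  have a2 : ∀ j, j ≤ i → sol (mix V V' (i - 1)) (i - 1) (dir (mix V V' i) (b + 1) (i - 1))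
      (dir (mix V V' i) (b + 1) (i - 1 + 1)) j = dir (mix V V' i) (b + 1) j := fun j hj =>
    hτ.congr_left hσ (i - 1) j (by omega) (sol_zero _ _ _ _) (sol_one _ _ _ _)
      fun x _ h4 => by unfold mix; rw [if_pos h4, if_pos (by omega)]
  have a3 := Wr_const hτ hσ' 0 (i - 1)
  unfold Wr at a3
  rw [a2 _ (by omega), a2 _ (by omega), a2 _ (by omega), a2 _ (by omega), zero_add,
    sub_add_cancel] at a3
  have a4 := hσ i
  have a5 := hσ' i
  rw [show mix V V' i i = V' i from if_pos le_rfl, a1 i (i + 1) (by omega) (by omega),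
    a1 i i le_rfl (by omega)] at a4
  rw [show mix V V' (i - 1) i = V i from if_neg (by omega), a1 (i - 1) (i + 1) (by omega) (by omega),
    a1 (i - 1) i (by omega) (by omega)] at a5
  rw [a1 i i le_rfl (by omega), a1 (i - 1) i (by omega) (by omega)] at a3
  unfold Th
  rw [dir_symm _ (b + 1) 0, dir_symm _ (b + 1) 0] at a3 ⊢
  rw [div_sub_div _ _ (neg_ne_zero.2 h1) (neg_ne_zero.2 h2), neg_mul_neg]
  congr 1
  linear_combination -a3 - dir V (b + 1) i * a4 + dir V (b + 1) i * a5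

/-- a solution `ψ` versus the solution vanishing at `b+1`. -/
theorem ratio_sub_Th {U ψ : ℤ → 𝕜} (hψ : Sol U ψ) (b : ℤ) (h0 : ψ 0 ≠ 0) (h1 : dir U 0 (b + 1) ≠ 0) :
    ψ 0 = dir U 0 (b + 1) * ψ b - dir U 0 b * ψ (b + 1) ∧
    ψ 1 / ψ 0 - Th U b = ψ (b + 1) / (ψ 0 * dir U 0 (b + 1)) := by
  have a1 := Wr_dir hψ 0 b
  have a2 := Wr_dir hψ (b + 1) 0
  unfold Wr at a1 a2
  refine ⟨by linear_combination a1, ?_⟩
  unfold Th
  rw [zero_add, dir_symm _ (b + 1) 0] at a2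
  rw [dir_symm _ (b + 1) 0, div_neg, sub_neg_eq_add, div_add_div _ _ h0 h1]
  congr 1
  linear_combination -a2

theorem psi_zero {U ψ : ℤ → 𝕜} (hψ : Sol U ψ) (b : ℤ) :
    ψ 0 = dir U 0 (b + 1) * ψ b - dir U 0 b * ψ (b + 1) := by
  have a1 := Wr_dir hψ 0 b
  unfold Wr at a1
  linear_combination a1
end

namespace T1X

theorem sum_tele (F : ℤ → ℂ) (n : ℤ) (hn : 0 ≤ n) :
    ∑ i ∈ Finset.Icc 1 n, (F i - F (i - 1)) = F n - F 0 := by
  induction n, hn using Int.leInduction with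
  | base => simp
  | succ n hn ih =>
    have e : Finset.Icc 1 (n + 1) = insert (n + 1) (Finset.Icc 1 n) := by
      ext x; simp only [Finset.mem_Icc, Finset.mem_insert]; omega
    rw [e, Finset.sum_insert (by simp), ih, add_sub_cancel_right]
    ring

/-- the solution for the mixed potential versus the unperturbed solution -/
theorem mix_err {B : ℝ} (hB : 2 ≤ B) {V V' : ℤ → ℂ} (hV : ∀ j, ‖V j‖ + 1 ≤ B ^ 101) {l b : ℤ}
    (hl : 0 ≤ l) (hlb : l ≤ b) {M : ℝ} (h0 : ‖dir V' 0 l - dir V 0 l‖ ≤ M)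
    (h1 : ‖dir V' 0 (l + 1) - dir V 0 (l + 1)‖ ≤ M) :
    ‖dir (mix V V' l) 0 (b + 1) - dir V 0 (b + 1)‖ ≤ B ^ (101 * (b - l)) * M := by
  have a : ∀ j, 0 ≤ j → j ≤ l + 1 → dir (mix V V' l) 0 j = dir V' 0 j := fun j h2 h3 =>
    (dir_Sol _ 0).congr_right (dir_Sol _ 0) 0 j h2 (by rw [dir_zero, dir_zero])
      (by rw [dir_one, dir_one]) fun x _ _ => if_pos (by omega)
  have h := growth_right hB (V := V) (u := fun j => dir (mix V V' l) 0 j - dir V 0 j) (a := l)
    (m := b + 1) (M := M) (fun j _ _ => hV j)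
    (fun j hj _ => by
      have e := dir_Sol (mix V V' l) 0 j
      rw [show mix V V' l j = V j from if_neg (by omega)] at e
      linear_combination e - dir_Sol V 0 j)
    (by rwa [a l hl (by omega)]) (by rwa [a (l + 1) (by omega) le_rfl]) (b + 1) (by omega) le_rfl
  rwa [show b + 1 - l - 1 = b - l by ring] at h

theorem diff_Th (B k : ℝ) (P : ℝ × ℝ) (b l : ℤ) (S : Set ℂ)
    (h : ∀ t ∈ S, dir (mix (Vt B k P 0) (Vt B k P t) l) 0 (b + 1) ≠ 0) :
    DifferentiableOn ℂ (fun t => Th (mix (Vt B k P 0) (Vt B k P t) l) b) S := by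
  have hU : ∀ j, Differentiable ℂ fun t => mix (Vt B k P 0) (Vt B k P t) l j := fun j => by
    unfold mix
    split_ifs
    · exact differentiable_Vt B k P j
    · exact differentiable_const _
  exact (differentiable_dir _ hU (b + 1) 1).differentiableOn.div
    (differentiable_dir _ hU (b + 1) 0).differentiableOn
    fun t ht => by rw [dir_symm]; exact neg_ne_zero.2 (h t ht)

theorem next_ge {B c₀ : ℝ} (hB : 1 ≤ B) {x : ℤ → ℝ} {b : ℤ} (hb : 1 ≤ b)
    (hP : PlR B (dir (Vof B x) 0) 0 b) (hc : c₀ ≤ |Real.cos (2 * Real.pi * x b)|) :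
    (c₀ * B ^ 100 - 3) * |dir (Vof B x) 0 b| ≤ |dir (Vof B x) 0 (b + 1)| := by
  have h1 := hP (b - 1) (by omega) (by omega)
  have W0 := abs_nonneg (dir (Vof B x) 0 b)
  have h2 : |dir (Vof B x) 0 (b - 1)| ≤ |dir (Vof B x) 0 b| :=
    h1.trans (mul_le_of_le_one_left W0 (zpow_le_one_of_nonpos₀ hB (by omega)))
  have h3 : c₀ * B ^ 100 - 2 ≤ |Vof B x b| := by
    have a1 := abs_sub (Vof B x b) 2
    have a2 : |Vof B x b - 2| = B ^ 100 * |Real.cos (2 * Real.pi * x b)| := by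
      unfold Vof
      rw [add_sub_cancel_left, abs_mul, abs_of_nonneg (by positivity : (0 : ℝ) ≤ B ^ 100)]
    have a3 := mul_le_mul_of_nonneg_left hc (by positivity : (0 : ℝ) ≤ B ^ 100)
    rw [abs_two] at a1
    linarith
  have h4 := abs_add_le (dir (Vof B x) 0 (b + 1)) (dir (Vof B x) 0 (b - 1))
  rw [dir_Sol (Vof B x) 0 b, abs_mul] at h4
  have h5 := mul_le_mul_of_nonneg_right h3 W0
  linarith

theorem zz {B : ℝ} (hB : 1 ≤ B) {m n p : ℤ} (h : m + n ≤ p) : B ^ m * B ^ n ≤ B ^ p := by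
  rw [← zpow_add₀ (by linarith : B ≠ 0)]
  exact zpow_le_zpow_right₀ hB h

end T1X

open T1X

theorem term_sum (B k : ℝ) (P : ℝ × ℝ) {b : ℤ} (hb : 1 ≤ b) (t : ℂ) :
    ∑ i ∈ Finset.Icc 1 b, term B k P b i t = Th (Vt B k P t) b - Th (Vt B k P 0) b := by
  have h := sum_tele (fun i => Th (mix (Vt B k P 0) (Vt B k P t) i) b) b (by omega)
  rw [Th_congr (U := mix _ _ b) (U' := Vt B k P t) (by omega) fun j _ h2 => if_pos h2,
    Th_congr (U := mix _ _ 0) (U' := Vt B k P 0) (by omega) fun j h1 _ => if_neg (by omega)] at h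
  exact h

/-- `W = |w b| > 0`, `m' = b - i`.  Apply `sh_R` with `m = i+1`, `W' = B^(-80 (m'-1)) W`, so `‖t‖ W' ≤ B^(80 - 25 m')`:
`‖δV i‖ ≤ B^(101 - 25 m')` and `‖ŵ j - w j‖ ≤ B^(102 - 105 m') W` for `j ≤ i+1`.  `dir (mix _ _ i) 0` agrees with
`ŵ = dir (Vt t) 0` on `[0, i+1]` (`Sol.congr_right`), then its difference with `w` solves the unperturbed equation and grows
at most by `B^(101 m')` (`growth_right`): error `≤ B^(102 - 4 m') W ≤ B^98 W` at `b+1`; for `mix _ _ (i-1)` start from the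
bond `i-1` (error `≤ B^(-58 - 105 m') W`, `m'+1` steps).  `|w (b+1)| ≥ (c₀ B^100 - 3) W`, so both denominators are
`≥ c₀ B^100 W / 2`.  `‖dir V (b+1) i‖ ≤ B^(101 m')` (`growth_left`). -/
theorem t1 {B c₀ k : ℝ} (hB : 10 ^ 8 ≤ c₀ * B) (h0 : 0 < c₀) (h1 : c₀ ≤ 1) (hk : 2 * Real.pi * k = B ^ 100)
    (P : ℝ × ℝ) {b i : ℤ} (hi : 1 ≤ i) (hib : i < b) (hP : PlR B (dir (Vof B (orb k P)) 0) 0 b)
    (hc : c₀ ≤ |Real.cos (2 * Real.pi * orb k P b)|) :
    DifferentiableOn ℂ (term B k P b i)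
        (Metric.ball 0 (B ^ (55 * (b - i)) / |dir (Vof B (orb k P)) 0 b|)) ∧
    ∀ t ∈ Metric.ball (0 : ℂ) (B ^ (55 * (b - i)) / |dir (Vof B (orb k P)) 0 b|),
      ‖term B k P b i t‖ ≤
        16 * B ^ (101 + 177 * (b - i)) / (c₀ ^ 2 * B ^ 200 * dir (Vof B (orb k P)) 0 b ^ 2) := by
  have B8 : 10 ^ 8 ≤ B := by
    by_contra h
    have : c₀ * B ≤ c₀ * 10 ^ 8 := mul_le_mul_of_nonneg_left (not_le.1 h).le h0.le
    have h2 : c₀ * 10 ^ 8 ≤ 1 * 10 ^ 8 := by gcongr
    have h3 : 0 < B := by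
      by_contra h3
      nlinarith
    nlinarith
  have B1 : 1 ≤ B := by linarith
  have B0 : 0 < B := by linarith
  have hnext := next_ge B1 (by omega) hP hc
  set V := Vof B (orb k P) with hVdef
  set W := |dir V 0 b| with hW
  have W0 : 0 < W := by
    have h := hP 1 (by omega) (by omega)
    have e : dir V 0 1 = 1 := by simpa using dir_one V 0
    rw [e, abs_one] at h
    exact (mul_pos_iff_of_pos_left (zpow_pos B0 _)).1 (one_pos.trans_le h)
  have hV0 : Vt B k P 0 = fun j => ((V j : ℝ) : ℂ) := funext (Vt_zero B k P)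
  have hV : ∀ j, ‖Vt B k P 0 j‖ + 1 ≤ B ^ 101 := fun j => by
    have := (Vof_bdd B (orb k P)).norm_le (by linarith) j
    rw [Vt_zero, Complex.norm_real]
    exact this
  have hd : ∀ c j, dir (Vt B k P 0) c j = ((dir V c j : ℝ) : ℂ) := fun c j => by
    rw [hV0, dir_ofReal]
  have den : ∀ u : ℂ, ‖u - dir (Vt B k P 0) 0 (b + 1)‖ ≤ B ^ (98 : ℤ) * W →
      c₀ * B ^ 100 * W / 2 ≤ ‖u‖ := fun u hu => by
    have a1 := norm_sub_norm_le (dir (Vt B k P 0) 0 (b + 1)) u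
    rw [norm_sub_rev] at a1
    have a2 : ‖dir (Vt B k P 0) 0 (b + 1)‖ = |dir V 0 (b + 1)| := by
      rw [hd, Complex.norm_real, Real.norm_eq_abs]
    have a3 : B ^ (98 : ℤ) + 3 ≤ c₀ * B ^ 100 / 2 := by
      have c1 : B ^ (98 : ℤ) ≤ B ^ 99 := by
        rw [← zpow_natCast]; exact zpow_le_zpow_right₀ B1 (by norm_num)
      have c2 : 1 ≤ B ^ 99 := one_le_pow₀ B1
      have c3 : c₀ * B ^ 100 = c₀ * B * B ^ 99 := by rw [pow_succ' B 99, mul_assoc]
      have c4 := mul_le_mul_of_nonneg_right hB (zero_le_one.trans c2)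
      linarith
    have a4 := mul_le_mul_of_nonneg_right a3 W0.le
    linarith
  have key : ∀ t ∈ Metric.ball (0 : ℂ) (B ^ (55 * (b - i)) / W),
      ‖Vt B k P t i - Vt B k P 0 i‖ ≤ B ^ (101 - 25 * (b - i)) ∧
      c₀ * B ^ 100 * W / 2 ≤ ‖dir (mix (Vt B k P 0) (Vt B k P t) i) 0 (b + 1)‖ ∧
      c₀ * B ^ 100 * W / 2 ≤ ‖dir (mix (Vt B k P 0) (Vt B k P t) (i - 1)) 0 (b + 1)‖ := by
    intro t ht
    rw [mem_ball_zero_iff, lt_div_iff₀ W0] at ht
    have hX : ‖t‖ * (B ^ (-80 * (b - i - 1)) * W) ≤ B ^ (80 - 25 * (b - i)) := by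
      rw [mul_left_comm]
      exact (mul_le_mul_of_nonneg_left ht.le (zpow_pos B0 _).le).trans (zz B1 (by omega))
    have hs := sh_R B8 hk P (m := i + 1) (by omega) (W := B ^ (-80 * (b - i - 1)) * W)
      (fun j a1 a2 => by
        refine (hP j a1 (by omega)).trans (le_of_eq ?_)
        rw [← mul_assoc, ← zpow_add₀ B0.ne']
        congr 2
        ring) t
      (hX.trans (by rw [← zpow_natCast]; exact zpow_le_zpow_right₀ B1 (by push_cast; omega)))
    have he : ∀ j, 0 ≤ j → j ≤ i + 1 → ∀ p : ℤ, 102 - 105 * (b - i) - 160 * (i + 1 - j) ≤ p →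
        ‖dir (Vt B k P t) 0 j - dir (Vt B k P 0) 0 j‖ ≤ B ^ p * W := fun j a1 a2 p hp => by
      rw [hd]
      refine (hs j a1 a2).2.2.2.trans ?_
      rw [← mul_assoc _ _ W]
      refine mul_le_mul_of_nonneg_right ?_ W0.le
      calc _ ≤ B ^ (-58 : ℤ) * B ^ (80 - 25 * (b - i)) * B ^ (-160 * (i + 1 - j)) *
            B ^ (-80 * (b - i - 1)) := by gcongr
        _ ≤ B ^ p := by
          rw [← zpow_add₀ B0.ne', ← zpow_add₀ B0.ne']
          exact zz B1 (by omega)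
    refine ⟨?_, den _ ?_, den _ ?_⟩
    · rw [Vt_zero]
      refine ((hs i (by omega) (by omega)).2.2.1 (Or.inl (by omega))).trans ?_
      calc _ ≤ B ^ 101 * B ^ (80 - 25 * (b - i)) * B ^ (-80 * (i + 1 - i)) := by gcongr
        _ ≤ _ := by
          rw [← zpow_natCast, ← zpow_add₀ B0.ne']
          exact zz B1 (by push_cast; omega)
    · refine (mix_err (by linarith) hV (by omega) hib.le
        (he i (by omega) (by omega) (102 - 105 * (b - i)) (by omega))
        (he (i + 1) (by omega) le_rfl _ (by omega))).trans ?_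
      rw [← mul_assoc]
      exact mul_le_mul_of_nonneg_right (zz B1 (by omega)) W0.le
    · refine (mix_err (by linarith) hV (by omega) (by omega)
        (he (i - 1) (by omega) (by omega) (-58 - 105 * (b - i)) (by omega))
        (he (i - 1 + 1) (by omega) (by omega) _ (by omega))).trans ?_
      rw [← mul_assoc]
      exact mul_le_mul_of_nonneg_right (zz B1 (by omega)) W0.le
  have D0 : 0 < c₀ * B ^ 100 * W / 2 := by positivity
  refine ⟨(diff_Th B k P b i _ fun t ht => norm_pos_iff.1 (D0.trans_le (key t ht).2.1)).sub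
    (diff_Th B k P b (i - 1) _ fun t ht => norm_pos_iff.1 (D0.trans_le (key t ht).2.2)),
    fun t ht => ?_⟩
  obtain ⟨k1, k2, k3⟩ := key t ht
  have k4 : ‖dir (Vt B k P 0) (b + 1) i‖ ≤ B ^ (101 * (b - i)) := by
    have e : dir (Vt B k P 0) (b + 1) b = -1 := by
      have := dir_neg_one (Vt B k P 0) (b + 1)
      rwa [add_sub_cancel_right] at this
    have := growth_left (by linarith : 2 ≤ B) (V := Vt B k P 0) (u := dir (Vt B k P 0) (b + 1))
      (a := b) (m := i) (M := 1) (fun j _ _ => hV j) (fun j _ _ => dir_Sol _ _ j)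
      (by rw [e]; simp) (by rw [dir_zero]; simp) i hib.le le_rfl
    rwa [mul_one] at this
  unfold term
  rw [tele _ _ hi hib.le (norm_pos_iff.1 (D0.trans_le k2)) (norm_pos_iff.1 (D0.trans_le k3)),
    norm_div, norm_neg, norm_mul, norm_mul, norm_pow]
  have k5 : ‖Vt B k P t i - Vt B k P 0 i‖ * ‖dir (Vt B k P 0) (b + 1) i‖ ^ 2 ≤
      B ^ (101 + 177 * (b - i)) :=
    calc _ ≤ B ^ (101 - 25 * (b - i)) * (B ^ (101 * (b - i))) ^ 2 := by gcongr
      _ ≤ _ := by
        rw [sq, ← zpow_add₀ B0.ne']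
        exact zz B1 (by omega)
  have e1 : c₀ ^ 2 * B ^ 200 * dir V 0 b ^ 2 =
      4 * (c₀ * B ^ 100 * W / 2 * (c₀ * B ^ 100 * W / 2)) := by
    rw [← sq_abs (dir V 0 b), ← hW, show B ^ 200 = B ^ 100 * B ^ 100 by rw [← pow_add]]
    generalize B ^ 100 = A
    ring
  rw [e1]
  refine (div_le_div₀ (zpow_pos B0 _).le k5 (mul_pos D0 D0)
    (mul_le_mul k2 k3 D0.le (norm_nonneg _))).trans ?_
  have z0 := zpow_pos B0 (101 + 177 * (b - i))
  generalize B ^ (101 + 177 * (b - i)) = Z at z0 ⊢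
  generalize c₀ * B ^ 100 * W / 2 = D at D0 ⊢
  rw [div_le_div_iff₀ (by positivity) (by positivity)]
  nlinarith [mul_pos z0 (mul_pos D0 D0)]

end Crest.Agent.R128
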