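import Crest.Agent.R128.T1

set_option autoImplicit false
open MeasureTheory Set

namespace Crest.Agent.R128
open Classical

/-! T2: the term `i = b`. -/

namespace T2X

theorem term_eq (V V' : ℤ → ℂ) {b : ℤ} (hb : 1 ≤ b)
    (h1 : V' b * dir V' 0 b - dir V' 0 (b - 1) ≠ 0) (h2 : V b * dir V' 0 b - dir V' 0 (b - 1) ≠ 0) :
    Th (mix V V' b) b - Th (mix V V' (b - 1)) b = -(V' b - V b) /
      ((V' b * dir V' 0 b - dir V' 0 (b - 1)) * (V b * dir V' 0 b - dir V' 0 (b - 1))) := by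
  have key : ∀ i j, 0 ≤ j → j ≤ i + 1 → dir (mix V V' i) 0 j = dir V' 0 j := fun i j h h' =>
    (dir_Sol _ 0).congr_right (dir_Sol V' 0) 0 j h (by rw [dir_zero, dir_zero])
      (by rw [dir_one, dir_one]) fun l _ _ => if_pos (by omega)
  have e1 : dir (mix V V' b) 0 (b + 1) = V' b * dir V' 0 b - dir V' 0 (b - 1) := by
    rw [key b _ (by omega) le_rfl, ← dir_Sol V' 0 b]; ring
  have e2 : dir (mix V V' (b - 1)) 0 (b + 1) = V b * dir V' 0 b - dir V' 0 (b - 1) := by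
    have := dir_Sol (mix V V' (b - 1)) 0 b
    rw [key _ b (by omega) (by omega), key _ (b - 1) (by omega) (by omega), mix,
      if_neg (by omega)] at this
    linear_combination this
  have e3 := dir_neg_one V (b + 1)
  rw [add_sub_cancel_right] at e3
  rw [tele V V' hb le_rfl (by rwa [e1]) (by rwa [e2]), e1, e2, e3]
  ring

theorem low {K W : ℝ} {a r p : ℂ} (hK : 10 ^ 8 ≤ K) (hW : 0 ≤ W) (ha1 : 99 / 100 * W ≤ ‖a‖)
    (ha2 : ‖a‖ ≤ 2 * W) (hr : ‖r‖ ≤ 2 * W) (hp : 7 / 10 * K ≤ ‖p‖) :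
    K * W / 2 ≤ ‖(2 + p) * a - r‖ := by
  have h1 := norm_sub_le ((2 + p) * a - r) (2 * a - r)
  have h2 := norm_sub_le (2 * a) r
  rw [show (2 + p) * a - r - (2 * a - r) = p * a by ring, norm_mul] at h1
  rw [norm_mul, Complex.norm_two] at h2
  have h3 := mul_le_mul hp ha1 (by linarith) (norm_nonneg _)
  nlinarith

theorem cmp {A c W e w D : ℝ} {a r C : ℂ} (hA : 0 < A) (hc : 0 < c) (hW : 0 < W) (hw : |w| = W)
    (he : 12 ≤ A * e) (ha : ‖a - w‖ ≤ e * W) (ha1 : 99 / 100 * W ≤ ‖a‖) (ha2 : ‖a‖ ≤ 2 * W)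
    (hr : ‖r‖ ≤ 2 * W) (hC : ‖C - D‖ ≤ e) (hD : c / 2 ≤ |D|) (hD1 : |D| ≤ 1)
    (hσ : c * A * W / 2 ≤ ‖(2 + A * C) * a - r‖) :
    ‖1 / (a * ((2 + A * C) * a - r)) - 1 / (A * w ^ 2 * D)‖ ≤ 64 * e / (c ^ 2 * A * W ^ 2) := by
  have e0 : 0 ≤ e := (norm_nonneg _).trans hC
  have hw' : ‖(w : ℂ)‖ = W := by rw [Complex.norm_real, Real.norm_eq_abs, hw]
  have hA' : ‖(A : ℂ)‖ = A := by rw [Complex.norm_real, Real.norm_eq_abs, abs_of_pos hA]
  have hD' : ‖(D : ℂ)‖ = |D| := by rw [Complex.norm_real, Real.norm_eq_abs]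
  have n1 : ‖(a - w) * (a + w) * D‖ ≤ e * W * (3 * W) * 1 := by
    have := norm_add_le a w
    rw [norm_mul, norm_mul, hD']
    gcongr
    linarith
  have n2 : ‖a * a * (C - D)‖ ≤ 2 * W * (2 * W) * e := by
    rw [norm_mul, norm_mul]; gcongr
  have n3 : ‖a * (r - 2 * a)‖ ≤ 2 * W * (6 * W) := by
    have := norm_sub_le r (2 * a)
    rw [norm_mul, Complex.norm_two] at this
    rw [norm_mul]
    gcongr
    linarith
  have n4 : ‖A * w ^ 2 * D - a * ((2 + A * C) * a - r)‖ ≤ 8 * e * A * W ^ 2 := by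
    have h1 := norm_sub_le (a * (r - 2 * a)) (A * ((a - w) * (a + w) * D + a * a * (C - D)))
    have h2 := mul_le_mul_of_nonneg_left ((norm_add_le _ _).trans (add_le_add n1 n2)) hA.le
    have h3 := mul_le_mul_of_nonneg_right he (sq_nonneg W)
    rw [norm_mul (A : ℂ), hA'] at h1
    rw [show A * w ^ 2 * D - a * ((2 + A * C) * a - r) =
      a * (r - 2 * a) - A * ((a - w) * (a + w) * D + a * a * (C - D)) by ring]
    linarith
  have d1 : W / 2 * (c * A * W / 2) ≤ ‖a * ((2 + A * C) * a - r)‖ := by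
    rw [norm_mul]; gcongr; linarith
  have d2 : A * W ^ 2 * (c / 2) ≤ ‖(A * w ^ 2 * D : ℂ)‖ := by
    rw [norm_mul, norm_mul, norm_pow, hw', hA', hD']; gcongr
  have p1 : 0 < W / 2 * (c * A * W / 2) := by positivity
  have p2 : 0 < A * W ^ 2 * (c / 2) := by positivity
  rw [div_sub_div _ _ (norm_pos_iff.1 (p1.trans_le d1)) (norm_pos_iff.1 (p2.trans_le d2)), one_mul,
    mul_one, norm_div, norm_mul (a * _)]
  calc _ ≤ 8 * e * A * W ^ 2 / (W / 2 * (c * A * W / 2) * (A * W ^ 2 * (c / 2))) := by gcongr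
    _ = _ := by field_simp; ring

theorem cos2 (x : ℝ) (z : ℂ) {d : ℝ} (h : ‖z - x‖ ≤ d) (hd : d ≤ 1 / 10) :
    ‖Complex.cos (2 * (Real.pi : ℂ) * z) - (Real.cos (2 * Real.pi * x) : ℝ)‖ ≤ 13 * d := by
  have hpi := Real.pi_pos
  have hpi' := Real.pi_lt_d2
  have hn : ‖2 * (Real.pi : ℂ) * z - ((2 * Real.pi * x : ℝ) : ℂ)‖ = 2 * Real.pi * ‖z - x‖ := by
    have : 2 * (Real.pi : ℂ) * z - ((2 * Real.pi * x : ℝ) : ℂ) = 2 * (Real.pi : ℂ) * (z - x) := by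
      push_cast; ring
    rw [this, norm_mul, norm_mul, Complex.norm_real, Real.norm_eq_abs, abs_of_pos hpi]; simp
  have h0 := norm_nonneg (z - x)
  have h1 := norm_cos_sub_le (2 * Real.pi * x) (2 * (Real.pi : ℂ) * z) (by rw [hn]; nlinarith)
  rw [hn] at h1
  rw [Complex.ofReal_cos]
  nlinarith

end T2X

open T2X

/-- On the disc (`X = ‖t‖ W ≤ c₀/100`), by `sh_R` with `m = b`: `ŵ b = w b + O(B^(-58) W)`, `‖ŵ (b-1)‖ ≤ 2 B^(-80) W`,
`‖cos 2πX_b(t)‖ ≥ 0.74 c₀` (`norm_cos_sub_le`).  `σ₁ = dir (mix _ _ b) 0 (b+1) = ŵ b * Vt t b - ŵ (b-1) = dir (Vt t) 0 (b+1)`,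
`σ₀ = dir (mix _ _ (b-1)) 0 (b+1) = ŵ b * V b - ŵ (b-1)`, both of norm `≥ 0.7 c₀ B^100 W`, and by `tele`
`term = (1/σ₁ - 1/σ₀) / ŵ b`.  Compare `1/(ŵ b σ₁)` with `1/(B^100 (w b)² cos 2π(x b + w b t))`:
numerator `≤ 25 B^(-55) B^100 W²`, so the error is `≤ 50 B^(-55) / (c₀² B^100 W²)`; same for `σ₀`. -/
theorem t2 {B c₀ k : ℝ} (hB : 10 ^ 8 ≤ c₀ * B) (h0 : 0 < c₀) (h1 : c₀ ≤ 1) (hk : 2 * Real.pi * k = B ^ 100)
    (P : ℝ × ℝ) {b : ℤ} (hb : 1 ≤ b) (hP : PlR B (dir (Vof B (orb k P)) 0) 0 b)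
    (hc : c₀ ≤ |Real.cos (2 * Real.pi * orb k P b)|) :
    DifferentiableOn ℂ (term B k P b b) (Metric.ball 0 (c₀ / 100 / |dir (Vof B (orb k P)) 0 b|)) ∧
    (∀ t ∈ Metric.ball (0 : ℂ) (c₀ / 100 / |dir (Vof B (orb k P)) 0 b|),
      ‖term B k P b b t‖ ≤ 10 / (c₀ * B ^ 100 * dir (Vof B (orb k P)) 0 b ^ 2) ∧
      c₀ * B ^ 100 * |dir (Vof B (orb k P)) 0 b| / 2 ≤ ‖dir (Vt B k P t) 0 (b + 1)‖ ∧
      ‖dir (Vt B k P t) 0 b‖ ≤ 2 * |dir (Vof B (orb k P)) 0 b|) ∧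
    ∀ t : ℝ, |t| * |dir (Vof B (orb k P)) 0 b| < c₀ / 100 →
      ‖term B k P b b t -
        (((1 / Real.cos (2 * Real.pi * (orb k P b + dir (Vof B (orb k P)) 0 b * t)) -
            1 / Real.cos (2 * Real.pi * orb k P b)) / (B ^ 100 * dir (Vof B (orb k P)) 0 b ^ 2) : ℝ) : ℂ)‖ ≤
        B ^ (-40 : ℤ) / (B ^ 100 * dir (Vof B (orb k P)) 0 b ^ 2) := by
  have B0 : 0 < B := (mul_pos_iff_of_pos_left h0).1 (by linarith)
  have hB' : 10 ^ 8 ≤ B := by nlinarith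
  have B1 : 1 ≤ B := by linarith
  have A0 : 0 < B ^ 100 := pow_pos B0 _
  have hK : 10 ^ 8 ≤ c₀ * B ^ 100 := by
    have : 1 ≤ B ^ 99 := one_le_pow₀ B1
    rw [pow_succ' B 99, ← mul_assoc]; nlinarith
  have hW : 0 < |dir (Vof B (orb k P)) 0 b| := by
    have h := hP 1 (by omega) hb
    rw [← zero_add (1 : ℤ), dir_one, abs_one] at h
    exact (mul_pos_iff_of_pos_left (zpow_pos B0 _)).1 (one_pos.trans_le h)
  obtain ⟨e, he⟩ : ∃ e, e = B ^ (-55 : ℤ) := ⟨_, rfl⟩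
  have e0 : 0 < e := he ▸ zpow_pos B0 _
  have e1 : e ≤ 1 := he ▸ zpow_le_one_of_nonpos₀ B1 (by norm_num)
  have e2 : B ^ (-58 : ℤ) ≤ e := he ▸ zpow_le_zpow_right₀ B1 (by norm_num)
  have e3 : 12 ≤ B ^ 100 * e := by
    rw [he, ← zpow_natCast, ← zpow_add₀ B0.ne']
    exact le_trans (by rw [zpow_one]; linarith) (zpow_le_zpow_right₀ B1 (by norm_num : (1 : ℤ) ≤ _))
  have e4 : 128 * e ≤ c₀ ^ 2 * B ^ (-40 : ℤ) := by
    have a1 : B ^ (2 : ℕ) * e ≤ B ^ (-40 : ℤ) := by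
      rw [he, ← zpow_natCast, ← zpow_add₀ B0.ne']
      exact zpow_le_zpow_right₀ B1 (by norm_num)
    have a2 : 128 ≤ (c₀ * B) ^ 2 := by nlinarith
    have a3 := mul_le_mul_of_nonneg_left a1 (sq_nonneg c₀)
    have a4 := mul_le_mul_of_nonneg_right a2 e0.le
    linarith
  have V0 : Vt B k P 0 b = 2 + (B ^ 100 : ℝ) * ((Real.cos (2 * Real.pi * orb k P b) : ℝ) : ℂ) := by
    rw [Vt_zero, Vof]; push_cast; rfl
  have V1 : ∀ t, Vt B k P t b =
      2 + (B ^ 100 : ℝ) * Complex.cos (2 * (Real.pi : ℂ) * orbC k P.1 (P.2 + t) b) := fun t => by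
    rw [Vt, VofC]; push_cast; rfl
  have hA' : ‖((B ^ 100 : ℝ) : ℂ)‖ = B ^ 100 := by
    rw [Complex.norm_real, Real.norm_eq_abs, abs_of_pos A0]
  have hwb := hP (b - 1) (by omega) (by omega)
  have S := fun t ht => sh_R hB' hk P hb hP t ht b (by omega) le_rfl
  have S' := fun t ht => (sh_R hB' hk P hb hP t ht (b - 1) (by omega) (by omega)).2.2.2
  simp only [sub_self, mul_zero, zpow_zero, mul_one] at S
  have r1 : B ^ (-80 * (b - (b - 1))) ≤ 1 := zpow_le_one_of_nonpos₀ B1 (by omega)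
  have r2 : B ^ (-160 * (b - (b - 1))) ≤ 1 := zpow_le_one_of_nonpos₀ B1 (by omega)
  have hball : ∀ t ∈ Metric.ball (0 : ℂ) (c₀ / 100 / |dir (Vof B (orb k P)) 0 b|),
      ‖t‖ * |dir (Vof B (orb k P)) 0 b| < c₀ / 100 := fun t ht => by
    rwa [mem_ball_zero_iff, lt_div_iff₀ hW] at ht
  generalize hwd : dir (Vof B (orb k P)) 0 b = w at *
  generalize hWd : |w| = W at *
  have hw' : ‖(w : ℂ)‖ = W := by rw [Complex.norm_real, Real.norm_eq_abs, hWd]
  have hW2 : w ^ 2 = W ^ 2 := by rw [← hWd, sq_abs]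
  have key : ∀ t : ℂ, ‖t‖ * W < c₀ / 100 →
      ‖dir (Vt B k P t) 0 b - w‖ ≤ e * W ∧ 99 / 100 * W ≤ ‖dir (Vt B k P t) 0 b‖ ∧
      ‖dir (Vt B k P t) 0 b‖ ≤ 2 * W ∧ ‖dir (Vt B k P t) 0 (b - 1)‖ ≤ 2 * W ∧
      ‖Complex.cos (2 * (Real.pi : ℂ) * orbC k P.1 (P.2 + t) b) -
        (Real.cos (2 * Real.pi * orb k P b) : ℝ)‖ ≤ 13 * (c₀ / 50) ∧
      c₀ * B ^ 100 * W / 2 ≤ ‖Vt B k P t b * dir (Vt B k P t) 0 b - dir (Vt B k P t) 0 (b - 1)‖ ∧
      c₀ * B ^ 100 * W / 2 ≤ ‖Vt B k P 0 b * dir (Vt B k P t) 0 b - dir (Vt B k P t) 0 (b - 1)‖ ∧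
      ‖orbC k P.1 (P.2 + t) b - orb k P b - t * w‖ ≤ e / 100 := fun t ht => by
    have X0 : 0 ≤ ‖t‖ * W := by positivity
    have X1 : ‖t‖ * W ≤ 1 / 100 := by linarith
    have X2 : ‖t‖ * W ≤ B ^ 55 := le_trans (by linarith) (one_le_pow₀ B1)
    obtain ⟨s1, s2, -, s4⟩ := S t X2
    have s5 := S' t X2
    rw [← he] at s1
    have a1 : ‖dir (Vt B k P t) 0 b - w‖ ≤ e * (1 / 100) * W := s4.trans (by gcongr)
    have a0 := mul_le_mul_of_nonneg_right e1 hW.le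
    have a0' := mul_pos e0 hW
    have a2 := norm_sub_norm_le (w : ℂ) (dir (Vt B k P t) 0 b)
    have a3 := norm_sub_norm_le (dir (Vt B k P t) 0 b) (w : ℂ)
    rw [norm_sub_rev] at a2
    have a4 : ‖dir (Vt B k P t) 0 (b - 1)‖ ≤ 2 * W := by
      have b1 := s5.trans (show _ ≤ 1 * 1 * 1 * W by gcongr <;> linarith)
      have b2 := hwb.trans (show _ ≤ 1 * W by gcongr)
      have b3 := norm_sub_norm_le (dir (Vt B k P t) 0 (b - 1))
        ((dir (Vof B (orb k P)) 0 (b - 1) : ℝ) : ℂ)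
      rw [Complex.norm_real, Real.norm_eq_abs] at b3
      linarith
    have a5 := cos2 _ _ (s2.trans (show _ ≤ c₀ / 50 by linarith)) (by linarith)
    have a6 := norm_sub_norm_le ((Real.cos (2 * Real.pi * orb k P b) : ℝ) : ℂ)
      (Complex.cos (2 * (Real.pi : ℂ) * orbC k P.1 (P.2 + t) b))
    rw [norm_sub_rev, Complex.norm_real, Real.norm_eq_abs] at a6
    have a7 : ∀ z : ℂ, 7 / 10 * c₀ ≤ ‖z‖ → 7 / 10 * (c₀ * B ^ 100) ≤ ‖((B ^ 100 : ℝ) : ℂ) * z‖ :=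
      fun z hz => by
        have := mul_le_mul_of_nonneg_left hz A0.le
        rw [norm_mul, hA']; linarith
    have a8 : e * (‖t‖ * W) ^ 2 ≤ e * (1 / 100) ^ 2 := by gcongr
    refine ⟨by linarith, by linarith, by linarith, a4, a5, ?_, ?_, by linarith⟩
    · rw [V1]
      exact low hK hW.le (by linarith) (by linarith) a4 (a7 _ (by linarith))
    · rw [V0]
      exact low hK hW.le (by linarith) (by linarith) a4
        (a7 _ (by rw [Complex.norm_real, Real.norm_eq_abs]; linarith))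
  have KW : 0 < c₀ * B ^ 100 * W / 2 := by positivity
  have T : ∀ t : ℂ, ‖t‖ * W < c₀ / 100 → term B k P b b t = -(Vt B k P t b - Vt B k P 0 b) /
      ((Vt B k P t b * dir (Vt B k P t) 0 b - dir (Vt B k P t) 0 (b - 1)) *
        (Vt B k P 0 b * dir (Vt B k P t) 0 b - dir (Vt B k P t) 0 (b - 1))) := fun t ht => by
    obtain ⟨-, -, -, -, -, k6, k7, -⟩ := key t ht
    exact term_eq _ _ hb (norm_pos_iff.1 (KW.trans_le k6)) (norm_pos_iff.1 (KW.trans_le k7))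
  refine ⟨?_, fun t ht => ?_, fun t ht => ?_⟩
  · have d1 := differentiable_Vt B k P b
    have d2 := differentiable_dir (Vt B k P) (differentiable_Vt B k P) 0 b
    have d3 := differentiable_dir (Vt B k P) (differentiable_Vt B k P) 0 (b - 1)
    refine DifferentiableOn.congr (DifferentiableOn.div (d1.sub_const _).neg.differentiableOn
      (((d1.mul d2).sub d3).mul ((d2.const_mul _).sub d3)).differentiableOn fun t ht => ?_)
      fun t ht => T t (hball t ht)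
    obtain ⟨-, -, -, -, -, k6, k7, -⟩ := key t (hball t ht)
    exact mul_ne_zero (norm_pos_iff.1 (KW.trans_le k6)) (norm_pos_iff.1 (KW.trans_le k7))
  · obtain ⟨-, -, k3, -, k5, k6, k7, -⟩ := key t (hball t ht)
    refine ⟨?_, ?_, k3⟩
    · have a1 : ‖Vt B k P t b - Vt B k P 0 b‖ ≤ B ^ 100 * c₀ := by
        rw [V0, V1, add_sub_add_left_eq_sub, ← mul_sub, norm_mul, hA']
        gcongr
        linarith
      rw [T t (hball t ht), norm_div, norm_neg, norm_mul, hW2]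
      calc _ ≤ B ^ 100 * c₀ / (c₀ * B ^ 100 * W / 2 * (c₀ * B ^ 100 * W / 2)) := by gcongr
        _ = 4 / (c₀ * B ^ 100 * W ^ 2) := by field_simp; ring
        _ ≤ _ := by gcongr; norm_num
    · rwa [← dir_Sol (Vt B k P t) 0 b, add_sub_cancel_right] at k6
  · have ht' : ‖(t : ℂ)‖ * W < c₀ / 100 := by rwa [Complex.norm_real, Real.norm_eq_abs]
    obtain ⟨k1, k2, k3, k4, -, k6, k7, k8⟩ := key t ht'
    have a1 := cos2 (orb k P b + w * t) (orbC k P.1 (P.2 + t) b) (d := e / 100)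
      (by convert k8 using 2; push_cast; ring) (by linarith)
    have a2 := Real.abs_cos_sub_cos_le (2 * Real.pi * orb k P b) (2 * Real.pi * (orb k P b + w * t))
    rw [show 2 * Real.pi * orb k P b - 2 * Real.pi * (orb k P b + w * t) = -(2 * Real.pi * (t * w))
      by ring, abs_neg, abs_mul, abs_mul t, hWd, abs_of_pos Real.two_pi_pos] at a2
    have a3 := abs_sub_abs_le_abs_sub (Real.cos (2 * Real.pi * orb k P b))
      (Real.cos (2 * Real.pi * (orb k P b + w * t)))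
    have a4 : c₀ / 2 ≤ |Real.cos (2 * Real.pi * (orb k P b + w * t))| := by
      have := mul_le_mul (show 2 * Real.pi ≤ 8 by linarith [Real.pi_le_four]) ht.le (by positivity)
        (by norm_num)
      linarith
    rw [T t ht']
    rw [V1] at k6 ⊢
    rw [V0] at k7 ⊢
    have c1 := cmp A0 h0 hW hWd e3 k1 k2 k3 k4 (a1.trans (by linarith)) a4
      (Real.abs_cos_le_one _) k6
    have c2 := cmp A0 h0 hW hWd e3 k1 k2 k3 k4 (by rw [sub_self, norm_zero]; exact e0.le)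
      (le_trans (by linarith) hc) (Real.abs_cos_le_one _) k7
    have z1 := norm_pos_iff.1 (KW.trans_le k6)
    have z2 := norm_pos_iff.1 (KW.trans_le k7)
    have z3 : dir (Vt B k P t) 0 b ≠ 0 := norm_pos_iff.1 (by linarith)
    refine le_trans (le_of_eq ?_) (((norm_sub_le _ _).trans (add_le_add c1 c2)).trans ?_)
    · congr 1
      simp only [Complex.ofReal_div, Complex.ofReal_sub, Complex.ofReal_mul, Complex.ofReal_one,
        Complex.ofReal_pow w]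
      generalize ((Real.cos (2 * Real.pi * (orb k P b + w * t)) : ℝ) : ℂ) = D
      generalize ((Real.cos (2 * Real.pi * orb k P b) : ℝ) : ℂ) = D0 at *
      rw [sub_div, div_div, div_div, mul_comm D, mul_comm D0, sub_sub_sub_comm]
      congr 1
      field_simp
      ring
    · rw [hW2, ← add_div, div_le_div_iff₀ (by positivity) (by positivity)]
      have := mul_le_mul_of_nonneg_right e4 (show 0 ≤ B ^ 100 * W ^ 2 by positivity)
      linarith

end Crest.Agent.R128
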