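import Crest.Agent.R128.LinB

set_option autoImplicit false
open MeasureTheory Set

namespace Crest.Agent.R128
open Classical

/-! TP: two regular bonds, cone propagation, growth along nice sites.  Left versions follow from the right
versions by `refl` (LinA). -/

namespace TPX

theorem core0 {q E X G Bt A S0 : ℝ} (hq0 : 0 < q) (hq : q ≤ 1 / 100) (hE0 : 0 < E) (hE : E ≤ 1)
    (hX : 0 ≤ X) (hS : 0 ≤ S0) (h1 : (1 - q) * X ≤ G) (h2 : Bt ≤ (1 + q) * E * X)
    (h3 : G ≤ A * S0 + Bt * (q * E)) (h4 : A ≤ (1 + q * q) * E) : X ≤ 2 * E * S0 := by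
  have a1 : A * S0 ≤ (1 + q * q) * E * S0 := mul_le_mul_of_nonneg_right h4 hS
  have a2 : Bt * (q * E) ≤ (1 + q) * E * X * (q * E) := mul_le_mul_of_nonneg_right h2 (by positivity)
  have a3 : (1 + q) * E * (q * E) ≤ 2 / 100 := by
    have : E * E ≤ 1 := by nlinarith
    have : (1 + q) * q ≤ 2 / 100 := by nlinarith
    nlinarith [mul_pos hE0 hE0]
  have a4 : (1 + q) * E * (q * E) * X ≤ 2 / 100 * X := mul_le_mul_of_nonneg_right a3 hX
  have a5 : (1 + q * q) * (E * S0) ≤ 101 / 100 * (E * S0) :=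
    mul_le_mul_of_nonneg_right (by nlinarith) (by positivity)
  have a6 : q * X ≤ 1 / 100 * X := mul_le_mul_of_nonneg_right hq hX
  have a7 : 0 ≤ E * S0 := by positivity
  nlinarith

theorem core1 {q E F P X G Bt A S0 Sr : ℝ} (hq : q ≤ 1 / 100) (hE0 : 0 < E) (hE : E ≤ 1)
    (hF0 : 0 < F) (hF : F ≤ 1) (hP0 : 0 < P) (hP : P ≤ 1 / 100)
    (hX : 0 < X) (hA : 0 ≤ A) (h1 : (1 - q) * X ≤ G) (h2 : Bt ≤ (1 + q) * E * X)
    (h3 : G ≤ A * S0 + Bt * (F * P)) (h4 : A * Sr ≤ Bt * F + G * P) :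
    Sr ≤ (P + 3 * (E * F)) * S0 := by
  have hG : 0 < G := lt_of_lt_of_le (mul_pos (by linarith) hX) h1
  have b1 : Bt ≤ 103 / 100 * E * G := by
    have : (1 + q) * X ≤ 103 / 100 * G := by nlinarith
    nlinarith
  set D := E * F with hD
  have hD0 : 0 < D := mul_pos hE0 hF0
  have hD1 : D ≤ 1 := by nlinarith
  have b2 : Bt * F ≤ 103 / 100 * D * G := by
    have := mul_le_mul_of_nonneg_right b1 hF0.le
    rw [hD]; linarith
  have b3 : G * (1 - 103 / 100 * D * P) ≤ A * S0 := by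
    have := mul_le_mul_of_nonneg_right b2 hP0.le
    nlinarith
  have hDP : D * P ≤ 1 / 100 := by nlinarith
  have b4 : 0 < A * S0 := lt_of_lt_of_le (mul_pos hG (by linarith)) b3
  have hA0 : 0 < A := by
    rcases hA.lt_or_eq with h | h
    · exact h
    · rw [← h, zero_mul] at b4; exact absurd b4 (lt_irrefl _)
  have b5 : 103 / 100 * D + P ≤ (P + 3 * D) * (1 - 103 / 100 * D * P) := by
    have c1 : P * P ≤ 1 / 100 := by nlinarith
    have c2 : D * (P * P) ≤ D * (1 / 100) := mul_le_mul_of_nonneg_left c1 hD0.le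
    have c3 : D * (D * P) ≤ D * (1 / 100) := mul_le_mul_of_nonneg_left hDP hD0.le
    nlinarith
  have b6 : A * Sr ≤ A * ((P + 3 * D) * S0) :=
    calc A * Sr ≤ G * (103 / 100 * D + P) := by linarith
      _ ≤ G * ((P + 3 * D) * (1 - 103 / 100 * D * P)) := mul_le_mul_of_nonneg_left b5 hG.le
      _ = (P + 3 * D) * (G * (1 - 103 / 100 * D * P)) := by ring
      _ ≤ (P + 3 * D) * (A * S0) := mul_le_mul_of_nonneg_left b3 (by positivity)
      _ = _ := by ring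
  exact le_of_mul_le_mul_left b6 hA0

theorem big {B c₀ : ℝ} (hB : 10 ^ 8 ≤ c₀ * B) (h0 : 0 < c₀) (h1 : c₀ ≤ 1) : 1 ≤ B := by
  by_contra h
  push Not at h
  nlinarith

theorem step_ineq {B c₀ v x y z : ℝ} (hB : 10 ^ 8 ≤ c₀ * B) (h0 : 0 < c₀) (h1 : c₀ ≤ 1)
    (he : y + z = v * x) (hc : |y| ≤ |x|) (hV : c₀ * B ^ 100 ≤ |v - 2|) : B ^ 99 * |x| ≤ |z| := by
  have hB1 := big hB h0 h1
  have h99 : (1 : ℝ) ≤ B ^ 99 := one_le_pow₀ hB1
  have e1 : c₀ * B ^ 100 = c₀ * B * B ^ 99 := by ring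
  have e2 : 10 ^ 8 * B ^ 99 ≤ c₀ * B * B ^ 99 := mul_le_mul_of_nonneg_right hB (by linarith)
  have e3 : |v - 2| ≤ |v| + 2 := by
    have := abs_sub v 2
    rwa [abs_two] at this
  have e4 : |v| * |x| ≤ |y| + |z| := by rw [← abs_mul, ← he]; exact abs_add_le _ _
  have e5 : (B ^ 99 + 1) * |x| ≤ |v| * |x| :=
    mul_le_mul_of_nonneg_right (by linarith) (abs_nonneg _)
  linarith

theorem badN_succ (B c₀ : ℝ) (V : ℤ → ℝ) (N : ℕ) (q : ℝ) {i J : ℤ} (h : i ≤ J) :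
    badN B c₀ V N q i J = badN B c₀ V N q (i + 1) J + if Nice B c₀ V N q i then 0 else 1 := by
  unfold badN
  have : Finset.Icc i J = insert i (Finset.Icc (i + 1) J) := by
    ext x; simp only [Finset.mem_Icc, Finset.mem_insert]; omega
  rw [this, Finset.filter_insert]
  by_cases hn : Nice B c₀ V N q i
  · simp [hn]
  · rw [if_pos hn, if_neg hn, Finset.card_insert_of_notMem]
    simp

end TPX

/-- Let `s'` be the `RR` solution at `j'`, `u''` the `LR` solution at `j''`.  If `s j'' = 0` then `s = 0`.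
`|W(u'',s)| ≥ (1-q)|s j''|`, `|W(s,s')| ≤ 2 q^n |s j''|` (bond `j''`), `|W(u'',s')| ≤ (1+q²) q^n`, and
`W(u'',s') s = W(s,s') u'' + W(u'',s) s'` (`Wr_identity`): so `λ s = s' + θ u''` with `|θ| ≤ 2.1 q^n`,
`|λ| |s j''| ≤ 1.02 q^n`, `|λ s j'| ≥ 1 - 2.1 q^(2n+1)`, `|λ s (j'+r)| ≤ q^r + 2.1 q^(2n+1-r)`. -/
theorem tp_R {V s : ℤ → ℝ} {N n : ℕ} {q : ℝ} {j' : ℤ} (hq0 : 0 < q) (hq : q ≤ 1 / 100) (hn : 1 ≤ n)
    (hN : n + 1 ≤ N) (hR : RR V j' N q) (hL : LR V (j' + n) N q) (hs : Sol V s) (hc : RC s (j' + n)) :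
    |s (j' + n)| ≤ 2 * q ^ n * |s j'| ∧
      ∀ r : ℕ, 1 ≤ r → r ≤ n + 1 → |s (j' + r)| ≤ (q ^ r + 3 * q ^ (2 * n + 1 - r)) * |s j'| := by
  obtain ⟨s', hs', e0, es⟩ := hR
  obtain ⟨u, hu, f0, fu⟩ := hL
  have hq1 : q ≤ 1 := by linarith
  have hE0 : 0 < q ^ n := pow_pos hq0 n
  have hE : q ^ n ≤ 1 := pow_le_one₀ hq0.le hq1
  have ha : |u (j' + n)| ≤ q := by simpa using fu 1 (by omega)
  have hb : |s' (j' + n)| ≤ q ^ n := es n (by omega)
  have hc' : |s' (j' + n + 1)| ≤ q * q ^ n := by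
    have := es (n + 1) hN
    rwa [pow_succ', Nat.cast_add_one, ← add_assoc] at this
  have hc1 : |s (j' + n + 1)| ≤ |s (j' + n)| := hc
  have id := Wr_identity hu hs hs' (j' + n)
  have h1 : (1 - q) * |s (j' + n)| ≤ |Wr u s (j' + n)| := by
    unfold Wr
    rw [f0, one_mul]
    have a1 := abs_sub_abs_le_abs_sub (s (j' + n)) (u (j' + n) * s (j' + n + 1))
    rw [abs_sub_comm, abs_mul] at a1
    have a2 : |u (j' + n)| * |s (j' + n + 1)| ≤ q * |s (j' + n)| :=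
      mul_le_mul ha hc1 (abs_nonneg _) hq0.le
    linarith
  have h2 : |Wr s s' (j' + n)| ≤ (1 + q) * q ^ n * |s (j' + n)| := by
    unfold Wr
    have a1 := abs_sub (s (j' + n) * s' (j' + n + 1)) (s (j' + n + 1) * s' (j' + n))
    rw [abs_mul, abs_mul] at a1
    have a2 : |s (j' + n)| * |s' (j' + n + 1)| ≤ |s (j' + n)| * (q * q ^ n) :=
      mul_le_mul_of_nonneg_left hc' (abs_nonneg _)
    have a3 : |s (j' + n + 1)| * |s' (j' + n)| ≤ |s (j' + n)| * q ^ n :=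
      mul_le_mul hc1 hb (abs_nonneg _) (abs_nonneg _)
    linarith
  have h4 : |Wr u s' (j' + n)| ≤ (1 + q * q) * q ^ n := by
    unfold Wr
    rw [f0, one_mul]
    have a1 := abs_sub (u (j' + n) * s' (j' + n + 1)) (s' (j' + n))
    rw [abs_mul] at a1
    have a2 : |u (j' + n)| * |s' (j' + n + 1)| ≤ q * (q * q ^ n) :=
      mul_le_mul ha hc' (abs_nonneg _) hq0.le
    linarith
  have h3 : |Wr u s (j' + n)| ≤ |Wr u s' (j' + n)| * |s j'| + |Wr s s' (j' + n)| * (q * q ^ n) := by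
    have a0 := id j'
    rw [e0, mul_one] at a0
    have a1 := abs_sub (Wr u s' (j' + n) * s j') (Wr s s' (j' + n) * u j')
    rw [abs_mul, abs_mul, a0, add_sub_cancel_left] at a1
    have a2 : |u j'| ≤ q * q ^ n := by
      have := fu (n + 1) hN
      rwa [pow_succ', Nat.cast_add_one, add_assoc, add_sub_cancel_right] at this
    have a3 := mul_le_mul_of_nonneg_left a2 (abs_nonneg (Wr s s' (j' + n)))
    linarith
  refine ⟨TPX.core0 hq0 hq hE0 hE (abs_nonneg _) (abs_nonneg _) h1 h2 h3 h4, fun r hr1 hr2 => ?_⟩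
  rcases (abs_nonneg (s (j' + n))).lt_or_eq with hX | hX
  · obtain ⟨m, hm⟩ : ∃ m, n + 1 = r + m := ⟨n + 1 - r, by omega⟩
    have hFP : q * q ^ n = q ^ m * q ^ r := by rw [← pow_succ', hm, pow_add, mul_comm]
    have hP : q ^ r ≤ 1 / 100 :=
      (pow_le_of_le_one hq0.le hq1 (by omega)).trans hq
    rw [show 2 * n + 1 - r = n + m by omega, pow_add]
    refine TPX.core1 hq hE0 hE (pow_pos hq0 m) (pow_le_one₀ hq0.le hq1) (pow_pos hq0 r) hP hX
      (abs_nonneg _) h1 h2 (hFP ▸ h3) ?_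
    have a1 := abs_add_le (Wr s s' (j' + n) * u (j' + r)) (Wr u s (j' + n) * s' (j' + r))
    rw [← id, abs_mul, abs_mul, abs_mul] at a1
    have a2 : |u (j' + r)| ≤ q ^ m := by
      have := fu m (by omega)
      rwa [show j' + (n : ℤ) + 1 - m = j' + r by omega] at this
    have a3 := mul_le_mul_of_nonneg_left a2 (abs_nonneg (Wr s s' (j' + n)))
    have a4 := mul_le_mul_of_nonneg_left (es r (by omega)) (abs_nonneg (Wr u s (j' + n)))
    linarith
  · have z0 : s (j' + n) = 0 := abs_eq_zero.1 hX.symm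
    have z1 : s (j' + n + 1) = 0 := abs_nonpos_iff.1 (hc1.trans hX.ge)
    rw [hs.eq_zero _ z0 z1, abs_zero]
    positivity

/-- downward induction on `J - j`: if `J - j ≤ n` use `tp_R` directly, otherwise through a regular bond of
`[j+1, j+n]`. -/
theorem cp_R {V s : ℤ → ℝ} {n N : ℕ} {q g : ℝ} (hp : Par n N q g) (hs : Sol V s) {α J : ℤ}
    (hJ : Reg V N q J) (hc : RC s J) (hw : Win (Reg V N q) n α J) {j : ℤ} (hj : Reg V N q j)
    (h1 : α ≤ j) (h2 : j ≤ J) : RC s j ∧ |s J| ≤ |s j| := by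
  have hq0 := hp.q0
  have hq := hp.q1
  have step : ∀ a b : ℤ, a < b → b ≤ a + n → Reg V N q a → Reg V N q b → RC s b →
      RC s a ∧ |s b| ≤ |s a| := by
    intro a b hab hb ha' hb' hc'
    obtain ⟨m, rfl⟩ : ∃ m : ℕ, b = a + m := ⟨(b - a).toNat, by omega⟩
    have hN := hp.nN
    obtain ⟨t1, t2⟩ := tp_R hq0 hq (by omega : 1 ≤ m) (by omega) ha'.1 hb'.2 hs hc'
    have p1 : q ^ m ≤ q := pow_le_of_le_one hq0.le (by linarith) (by omega)
    have p2 : q ^ (2 * m + 1 - 1) ≤ q := pow_le_of_le_one hq0.le (by linarith) (by omega)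
    have t3 := t2 1 le_rfl (by omega)
    rw [pow_one, Nat.cast_one] at t3
    exact ⟨t3.trans (mul_le_of_le_one_left (abs_nonneg _) (by linarith)),
      t1.trans (mul_le_of_le_one_left (abs_nonneg _) (by linarith))⟩
  obtain ⟨d, hd⟩ : ∃ d : ℕ, J - j ≤ d := ⟨(J - j).toNat, by omega⟩
  induction d generalizing j with
  | zero =>
    obtain rfl : j = J := by omega
    exact ⟨hc, le_rfl⟩
  | succ d ih =>
    rcases h2.lt_or_eq with h3 | rfl
    · by_cases h4 : J ≤ j + n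
      · exact step j J h3 h4 hj hJ hc
      · obtain ⟨j', a, b, c⟩ := hw (j + 1) (by omega) (by omega)
        obtain ⟨i1, i2⟩ := ih c (by omega) (by omega) (by omega)
        obtain ⟨i3, i4⟩ := step j j' (by omega) (by omega) hj c i1
        exact ⟨i3, i2.trans i4⟩
    · exact ⟨hc, le_rfl⟩

theorem cp_L {V u : ℤ → ℝ} {n N : ℕ} {q g : ℝ} (hp : Par n N q g) (hu : Sol V u) {β J : ℤ}
    (hJ : Reg V N q J) (hc : LC u J) (hw : Win (Reg V N q) n J β) {j : ℤ} (hj : Reg V N q j)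
    (h1 : J ≤ j) (h2 : j ≤ β) : LC u j ∧ |u (J + 1)| ≤ |u (j + 1)| := by
  have e : ∀ i : ℤ, -(-i - 1) - 1 = i := fun i => by ring
  have h := cp_R (V := refl V) (s := refl u) (α := -β - 1) (J := -J - 1) (j := -j - 1) hp hu.refl
    (by rwa [Reg_refl, e]) (by rwa [RC_refl, e]) (by rwa [Win_refl, e, e]) (by rwa [Reg_refl, e])
    (by omega) (by omega)
  rw [RC_refl, e] at h
  simp only [refl] at h
  rwa [show -(-J - 1) = J + 1 by ring, show -(-j - 1) = j + 1 by ring] at h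

theorem nice_step_R {B c₀ : ℝ} (hB : 10 ^ 8 ≤ c₀ * B) (h0 : 0 < c₀) (h1 : c₀ ≤ 1) {V s : ℤ → ℝ}
    (hs : Sol V s) {i : ℤ} (hc : RC s i) (hV : c₀ * B ^ 100 ≤ |V i - 2|) :
    B ^ 99 * |s i| ≤ |s (i - 1)| :=
  TPX.step_ineq hB h0 h1 (hs i) hc hV

theorem nice_step_L {B c₀ : ℝ} (hB : 10 ^ 8 ≤ c₀ * B) (h0 : 0 < c₀) (h1 : c₀ ≤ 1) {V u : ℤ → ℝ}
    (hu : Sol V u) {i : ℤ} (hc : LC u (i - 1)) (hV : c₀ * B ^ 100 ≤ |V i - 2|) :
    B ^ 99 * |u i| ≤ |u (i + 1)| := by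
  have hc' : |u (i - 1)| ≤ |u i| := by simpa [LC] using hc
  exact TPX.step_ineq hB h0 h1 ((add_comm _ _).trans (hu i)) hc' hV

/-- downward induction on the regular bond `j`, claim `B^(99 #nice sites of (j,J]) |s J| ≤ |s j|`: if `j+1` is nice it
is a regular bond, use `nice_step_R`; otherwise go to the next regular bond `j' ≤ J` (no site of `(j, j']` is
nice unless `j' = j+1`) with `cp_R`. -/
theorem ng_R {B c₀ : ℝ} (hB : 10 ^ 8 ≤ c₀ * B) (h0 : 0 < c₀) (h1 : c₀ ≤ 1) {V s : ℤ → ℝ} {n N : ℕ}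
    {q g : ℝ} (hp : Par n N q g) (hs : Sol V s) {j J : ℤ} (hJ : Reg V N q J) (hc : RC s J)
    (hw : Win (Reg V N q) n j J) (hj : Reg V N q j) (hjJ : j ≤ J) {M : ℕ}
    (hM : badN B c₀ V N q (j + 1) J ≤ M) : |s J| ≤ B ^ (-99 * (J - j - M)) * |s j| := by
  have hB1 := TPX.big hB h0 h1
  have hB0 : 0 < B := by linarith
  have key : ∀ d : ℕ, ∀ a, Reg V N q a → j ≤ a → a ≤ J - d →
      |s J| ≤ B ^ (-99 * ((d : ℤ) - badN B c₀ V N q (J - d + 1) J)) * |s a| := by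
    intro d
    induction d with
    | zero =>
      intro a ha h2 h3
      have : badN B c₀ V N q (J - (0 : ℕ) + 1) J = 0 := by simp [badN]
      rw [this]
      simpa using (cp_R hp hs hJ hc hw ha h2 (by omega)).2
    | succ d ih =>
      intro a ha h2 h3
      rw [show J - ((d + 1 : ℕ) : ℤ) + 1 = J - d by push_cast; ring,
        TPX.badN_succ B c₀ V N q (by omega : J - d ≤ J)]
      by_cases hn : Nice B c₀ V N q (J - d)
      · rw [if_pos hn]
        have i1 := ih (J - d) hn.2.1 (by omega) le_rfl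
        have i2 := nice_step_R hB h0 h1 hs (cp_R hp hs hJ hc hw hn.2.1 (by omega) (by omega)).1
          hn.2.2
        have i3 := (cp_R hp hs hn.1 (cp_R hp hs hJ hc hw hn.1 (by omega) (by omega)).1
          (hw.mono le_rfl (by omega)) ha h2 (by omega)).2
        rw [show -99 * (((d + 1 : ℕ) : ℤ) - ((badN B c₀ V N q (J - d + 1) J + 0 : ℕ) : ℤ)) =
          -99 * ((d : ℤ) - badN B c₀ V N q (J - d + 1) J) + -(99 : ℕ) by push_cast; ring,
          zpow_add₀ hB0.ne', zpow_neg, zpow_natCast, mul_assoc]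
        refine i1.trans (mul_le_mul_of_nonneg_left ?_ (zpow_pos hB0 _).le)
        rw [le_inv_mul_iff₀ (pow_pos hB0 99)]
        exact i2.trans i3
      · rw [if_neg hn]
        have i1 := ih a ha h2 (by omega)
        rwa [show -99 * (((d + 1 : ℕ) : ℤ) - ((badN B c₀ V N q (J - d + 1) J + 1 : ℕ) : ℤ)) =
          -99 * ((d : ℤ) - badN B c₀ V N q (J - d + 1) J) by push_cast; ring]
  obtain ⟨d, hd⟩ : ∃ d : ℕ, j = J - d := ⟨(J - j).toNat, by omega⟩
  have := key d j hj le_rfl hd.le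
  rw [← hd] at this
  refine this.trans (mul_le_mul_of_nonneg_right (zpow_le_zpow_right₀ hB1 ?_) (abs_nonneg _))
  omega

theorem ng_L {B c₀ : ℝ} (hB : 10 ^ 8 ≤ c₀ * B) (h0 : 0 < c₀) (h1 : c₀ ≤ 1) {V u : ℤ → ℝ} {n N : ℕ}
    {q g : ℝ} (hp : Par n N q g) (hu : Sol V u) {j J : ℤ} (hJ : Reg V N q J) (hc : LC u J)
    (hw : Win (Reg V N q) n J j) (hj : Reg V N q j) (hjJ : J ≤ j) {M : ℕ}
    (hM : badN B c₀ V N q (J + 1) j ≤ M) : |u (J + 1)| ≤ B ^ (-99 * (j - J - M)) * |u (j + 1)| := by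
  have e : ∀ i : ℤ, -(-i - 1) - 1 = i := fun i => by ring
  have h := ng_R (V := refl V) (s := refl u) (J := -J - 1) (j := -j - 1) (M := M) hB h0 h1 hp
    hu.refl (by rwa [Reg_refl, e]) (by rwa [RC_refl, e]) (by rwa [Win_refl, e, e])
    (by rwa [Reg_refl, e]) (by omega)
    (by rwa [badN_refl, show -(-J - 1) = J + 1 by ring, show -(-j - 1 + 1) = j by ring])
  simp only [refl] at h
  rwa [show -(-J - 1) = J + 1 by ring, show -(-j - 1) = j + 1 by ring,
    show -J - 1 - (-j - 1) = j - J by ring] at h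

theorem badN_mono (B c₀ : ℝ) (V : ℤ → ℝ) (N : ℕ) (q : ℝ) {α β α' β' : ℤ} (ha : α ≤ α') (hb : β' ≤ β) :
    badN B c₀ V N q α' β' ≤ badN B c₀ V N q α β :=
  Finset.card_le_card (Finset.filter_subset_filter _ (Finset.Icc_subset_Icc ha hb))
/-- enlarging the window costs at most the number of added sites. -/
theorem badN_le_add (B c₀ : ℝ) (V : ℤ → ℝ) (N : ℕ) (q : ℝ) (α β : ℤ) (m m' : ℕ) :
    badN B c₀ V N q (α - m) (β + m') ≤ badN B c₀ V N q α β + m + m' := by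
  unfold badN
  have hsub : (Finset.Icc (α - m) (β + m')).filter (fun i => ¬ Nice B c₀ V N q i) ⊆
      ((Finset.Icc α β).filter (fun i => ¬ Nice B c₀ V N q i) ∪ Finset.Ico (α - m) α) ∪
        Finset.Ioc β (β + m') := by
    intro x hx
    simp only [Finset.mem_filter, Finset.mem_Icc, Finset.mem_union, Finset.mem_Ico,
      Finset.mem_Ioc] at hx ⊢
    by_cases a : x < α
    · exact Or.inl (Or.inr ⟨hx.1.1, a⟩)
    · by_cases b : β < x
      · exact Or.inr ⟨b, hx.1.2⟩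
      · exact Or.inl (Or.inl ⟨⟨by omega, by omega⟩, hx.2⟩)
  refine (Finset.card_le_card hsub).trans ((Finset.card_union_le _ _).trans ?_)
  refine (Nat.add_le_add_right (Finset.card_union_le _ _) _).trans (le_of_eq ?_)
  simp

end Crest.Agent.R128
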