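import Crest.Agent.R128.OSA
import Crest.Agent.R128.StA

set_option autoImplicit false
open MeasureTheory Set

namespace Crest.Agent.R128
open Classical

/-! WA: first stage Wegner estimate on a line. -/

theorem WAX.rescale {w c κ : ℝ} (hw : w ≠ 0) {S T : Set ℝ} (hS : ∀ t ∈ S, w * t ∈ T)
    (hT : volume T ≤ ENNReal.ofReal (κ * c)) : volume S ≤ ENNReal.ofReal (κ * (c / |w|)) := by
  have h1 : S ⊆ (fun t => w * t) ⁻¹' T := hS
  refine (measure_mono h1).trans ?_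
  rw [Real.volume_preimage_mul_left hw]
  refine (mul_le_mul_right hT _).trans (le_of_eq ?_)
  rw [← ENNReal.ofReal_mul (abs_nonneg _), abs_inv]
  congr 1
  ring

theorem WAX.zp {B : ℝ} (hB : 1 ≤ B) {n : ℤ} (hn : n ≤ -1) : B ^ n ≤ B⁻¹ := by
  rw [← zpow_neg_one]
  exact zpow_le_zpow_right₀ hB hn

theorem WAX.core (c₀ κ ε : ℝ) (h0 : 0 < c₀) (h1 : c₀ ≤ 1) (hκ : 0 < κ) (hε : 0 < ε) :
    ∃ B₀ : ℝ, ∀ B, B₀ ≤ B → ∀ (wf ws y z V0 p0 p1 p2 p3 q0 q1 q2 q3 r0 r1 r2 r3 : ℝ) (S : Set ℝ),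
      wf ≠ 0 → |ws| ≤ |wf| → |wf| ≤ B ^ 51 * |ws| →
      c₀ ≤ |Real.cos (2 * Real.pi * y)| → c₀ ≤ |Real.cos (2 * Real.pi * z)| →
      (∀ σ : ℝ, (σ = 1 ∨ σ = -1) → ∀ n : ℤ, ε * |wf| ≤ |ws - σ * wf| ∨ ε ≤ |z - σ * y - 1 / 2 - n|) →
      (∀ t ∈ S, |t| * |wf| ≤ c₀ / 400 ∧ ∃ r s : ℝ, r + s = V0 ∧
        |r - (p0 + p1 * t + p2 * t ^ 2 + p3 * t ^ 3) -
          1 / (B ^ 100 * wf ^ 2 * Real.cos (2 * Real.pi * (y + wf * t)))| ≤
            B ^ (-30 : ℤ) / (B ^ 100 * wf ^ 2) ∧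
        |s - (q0 + q1 * t + q2 * t ^ 2 + q3 * t ^ 3) -
          1 / (B ^ 100 * ws ^ 2 * Real.cos (2 * Real.pi * (z + ws * t)))| ≤
            B ^ (-30 : ℤ) / (B ^ 100 * ws ^ 2) ∧
        |s - (r0 + r1 * t + r2 * t ^ 2 + r3 * t ^ 3)| ≤
          (200 * (|t| * |ws| / (c₀ / 100)) ^ 4 / c₀ + B ^ (-190 : ℤ)) / (B ^ 100 * ws ^ 2)) →
      volume S ≤ ENNReal.ofReal (κ * (c₀ / 400 / |wf|)) := by
  obtain ⟨δ₁, hδ₁, H1⟩ := stA1 c₀ κ h0 h1 hκ
  have hω₀ : 0 < c₀ * δ₁ / 2 := by positivity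
  obtain ⟨δ₂, hδ₂, H2⟩ := stA2 c₀ κ ε (c₀ * δ₁ / 2) h0 h1 hκ hε hω₀
  generalize hω : c₀ * δ₁ / 2 = ω₀ at hω₀ H2
  refine ⟨1 + 4 / δ₁ + (1 + (ω₀ ^ 2)⁻¹) / δ₂, fun B hB wf ws y z V0 p0 p1 p2 p3 q0 q1 q2 q3 r0 r1 r2 r3 S
    hf hsf hfs hy hz hna hS => ?_⟩
  have e1 : 0 < 4 / δ₁ := by positivity
  have e2 : 0 < (1 + (ω₀ ^ 2)⁻¹) / δ₂ := by positivity
  have hB1 : 1 ≤ B := by linarith
  have hB0 : 0 < B := by linarith
  have hf' : 0 < |wf| := abs_pos.2 hf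
  have hs' : 0 < |ws| := by
    rcases (abs_nonneg ws).eq_or_lt with h | h
    · rw [← h, mul_zero] at hfs; linarith
    · exact h
  have hs : ws ≠ 0 := abs_pos.1 hs'
  obtain ⟨ω, rfl⟩ : ∃ ω, ws = ω * wf := ⟨ws / wf, by field_simp⟩
  have hω0 : ω ≠ 0 := left_ne_zero_of_mul hs
  have hω0' : 0 < |ω| := abs_pos.2 hω0
  have hω1 : |ω| ≤ 1 := by
    rw [abs_mul] at hsf
    exact le_of_mul_le_mul_right (by linarith) hf'
  have hω2 : 1 ≤ B ^ 51 * |ω| := by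
    rw [abs_mul, ← mul_assoc] at hfs
    exact le_of_mul_le_mul_right (by linarith) hf'
  have hA : 0 < B ^ 100 * wf ^ 2 := by positivity
  have h30 : B ^ (-30 : ℤ) ≤ B⁻¹ := WAX.zp hB1 (by norm_num)
  generalize hAA : B ^ 100 = A at hA hS
  have hA0 : A ≠ 0 := by rw [← hAA]; positivity
  rcases le_total |ω| ω₀ with hc | hc
  · refine WAX.rescale hf (fun t ht => ?_)
      (H1 y (A * wf ^ 2 * (p0 + r0 - V0)) (A * wf * (p1 + r1)) (A * (p2 + r2)) (A / wf * (p3 + r3)) hy)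
    obtain ⟨ht, r, s, hrs, a1, -, a3⟩ := hS t ht
    refine ⟨by rw [abs_mul, mul_comm]; exact ht, ?_⟩
    generalize Real.cos (2 * Real.pi * (y + wf * t)) = C at a1
    rw [le_div_iff₀ hA, ← abs_of_pos hA, ← abs_mul, abs_of_pos hA] at a1
    have b3 : |s - (r0 + r1 * t + r2 * t ^ 2 + r3 * t ^ 3)| * (A * wf ^ 2) ≤ δ₁ / 2 + B⁻¹ := by
      refine (mul_le_mul_of_nonneg_right a3 hA.le).trans ?_
      have e : (200 * (|t| * |ω * wf| / (c₀ / 100)) ^ 4 / c₀ + B ^ (-190 : ℤ)) / (A * (ω * wf) ^ 2) *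
          (A * wf ^ 2) = 200 * (|t| * |wf| / (c₀ / 100)) ^ 4 * |ω| ^ 2 / c₀ + B ^ (-190 : ℤ) / |ω| ^ 2 := by
        rw [abs_mul, mul_pow ω wf, ← sq_abs ω]
        field_simp
      rw [e]
      refine add_le_add ?_ ?_
      · have f1 : |t| * |wf| / (c₀ / 100) ≤ 1 / 4 := by
          rw [div_le_iff₀ (by positivity)]; linarith
        have f2 : (|t| * |wf| / (c₀ / 100)) ^ 4 ≤ (1 / 4) ^ 4 :=
          pow_le_pow_left₀ (by positivity) f1 4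
        have f3 : |ω| ^ 2 ≤ c₀ * δ₁ / 2 := by rw [hω]; nlinarith
        rw [div_le_iff₀ h0]
        have f4 : 200 * (|t| * |wf| / (c₀ / 100)) ^ 4 ≤ 1 := by linarith [f2]
        calc 200 * (|t| * |wf| / (c₀ / 100)) ^ 4 * |ω| ^ 2 ≤ 1 * (c₀ * δ₁ / 2) :=
              mul_le_mul f4 f3 (by positivity) zero_le_one
          _ = _ := by ring
      · refine le_trans ?_ (WAX.zp hB1 (n := -88) (by norm_num))
        rw [div_le_iff₀ (by positivity)]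
        have g1 : B ^ (-88 : ℤ) = B ^ (-190 : ℤ) * (B ^ 51) ^ 2 := by
          rw [← pow_mul, ← zpow_natCast, ← zpow_add₀ hB0.ne']; norm_num
        have g2 : 1 ≤ (B ^ 51 * |ω|) ^ 2 := one_le_pow₀ hω2
        have g3 : 0 < B ^ (-190 : ℤ) := zpow_pos hB0 _
        rw [g1, mul_assoc, ← mul_pow]
        exact le_mul_of_one_le_right g3.le g2
    rw [← abs_of_pos hA, ← abs_mul] at b3
    have hB2 : B⁻¹ ≤ δ₁ / 4 := by
      rw [inv_le_comm₀ hB0 (by positivity), inv_div]; linarith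
    have e : 1 / C + (A * wf ^ 2 * (p0 + r0 - V0) + A * wf * (p1 + r1) * (wf * t) +
        A * (p2 + r2) * (wf * t) ^ 2 + A / wf * (p3 + r3) * (wf * t) ^ 3) =
        -((r - (p0 + p1 * t + p2 * t ^ 2 + p3 * t ^ 3) - 1 / (A * wf ^ 2 * C)) * (A * wf ^ 2)) -
          (s - (r0 + r1 * t + r2 * t ^ 2 + r3 * t ^ 3)) * (A * wf ^ 2) := by
      rw [← hrs, mul_comm (A * wf ^ 2) C, ← div_div 1 C]
      generalize 1 / C = E
      field_simp
      ring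
    rw [e]
    refine (abs_sub _ _).trans ?_
    rw [abs_neg]
    linarith
  · refine WAX.rescale hf (fun t ht => ?_)
      (H2 y z ω (A * wf ^ 2 * (p0 + q0 - V0)) (A * wf * (p1 + q1)) (A * (p2 + q2)) (A / wf * (p3 + q3))
        hy hz hc hω1 (fun σ hσ n => (hna σ hσ n).imp_left fun h => ?_))
    swap
    · rw [← sub_mul, abs_mul] at h
      exact le_of_mul_le_mul_right h hf'
    obtain ⟨ht, r, s, hrs, a1, a2, -⟩ := hS t ht
    refine ⟨by rw [abs_mul, mul_comm]; exact ht, ?_⟩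
    rw [mul_assoc ω wf t] at a2
    generalize Real.cos (2 * Real.pi * (y + wf * t)) = C at a1
    generalize Real.cos (2 * Real.pi * (z + ω * (wf * t))) = C' at a2
    rw [le_div_iff₀ hA, ← abs_of_pos hA, ← abs_mul, abs_of_pos hA] at a1
    have b2 : |s - (q0 + q1 * t + q2 * t ^ 2 + q3 * t ^ 3) - 1 / (A * (ω * wf) ^ 2 * C')| * (A * wf ^ 2)
        ≤ B⁻¹ * (ω₀ ^ 2)⁻¹ := by
      refine (mul_le_mul_of_nonneg_right a2 hA.le).trans ?_
      have e : B ^ (-30 : ℤ) / (A * (ω * wf) ^ 2) * (A * wf ^ 2) = B ^ (-30 : ℤ) * (|ω| ^ 2)⁻¹ := by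
        rw [sq_abs]
        field_simp
      rw [e]
      refine mul_le_mul h30 ?_ (by positivity) (by positivity)
      exact inv_anti₀ (by positivity) (pow_le_pow_left₀ hω₀.le hc 2)
    rw [← abs_of_pos hA, ← abs_mul] at b2
    have hB2 : B⁻¹ * (1 + (ω₀ ^ 2)⁻¹) ≤ δ₂ := by
      have : (1 + (ω₀ ^ 2)⁻¹) / δ₂ ≤ B := by linarith
      rw [div_le_iff₀ hδ₂] at this
      rw [inv_mul_le_iff₀ hB0]; exact this
    have e : 1 / C + 1 / (ω ^ 2 * C') + (A * wf ^ 2 * (p0 + q0 - V0) + A * wf * (p1 + q1) * (wf * t) +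
        A * (p2 + q2) * (wf * t) ^ 2 + A / wf * (p3 + q3) * (wf * t) ^ 3) =
        -((r - (p0 + p1 * t + p2 * t ^ 2 + p3 * t ^ 3) - 1 / (A * wf ^ 2 * C)) * (A * wf ^ 2)) -
          (s - (q0 + q1 * t + q2 * t ^ 2 + q3 * t ^ 3) - 1 / (A * (ω * wf) ^ 2 * C')) * (A * wf ^ 2) := by
      rw [← hrs, mul_comm (A * wf ^ 2) C, ← div_div 1 C, mul_comm (A * (ω * wf) ^ 2) C', ← div_div 1 C',
        mul_comm (ω ^ 2) C', ← div_div 1 C']
      generalize 1 / C = E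
      generalize 1 / C' = E'
      field_simp
      ring
    rw [e]
    refine (abs_sub _ _).trans ?_
    rw [abs_neg]
    linarith

/-- `δ₁` from `stA1`; `ω₀ > 0` with `ω₀² / c₀ ≤ δ₁/2`; `δ₂` from `stA2`; `B₀` with `10^8 ≤ c₀ B`,
`B^(-30) + B^(-88) ≤ δ₁/2`, `B^(-30) (1 + ω₀⁻²) ≤ δ₂`.  For `t` in the set, the `ψ` of `TwoCone` has `ψ a ≠ 0` and
`ψ 1/ψ 0 + ψ (-1)/ψ 0 = V 0` which does not depend on `t` (`orb_zero`).  Let the fast side be the one with the larger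
`|w|` (two symmetric cases), say `b`: `τ = w b * t`, `ω = w a / w b`, `B^(-51) ≤ |ω| ≤ 1`.  Multiply by `B^100 (w b)²`.
If `|ω| ≤ ω₀`: first expansion at `b`, second at `a` (error `≤ ω²/c₀ + B^(-190)/ω²`), `stA1`.  Otherwise first expansion on both
sides and `stA2` (`¬ Anti` gives its hypothesis; when `a` is the fast side replace `n` by `-n-1` for `σ = 1`).
Finally rescale `t ↦ τ` (`Real.volume_preimage_mul_left`). -/
theorem wa (c₀ κ ε : ℝ) (h0 : 0 < c₀) (h1 : c₀ ≤ 1) (hκ : 0 < κ) (hε : 0 < ε) :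
    ∃ B₀ : ℝ, ∀ B, B₀ ≤ B → ∀ k, 2 * Real.pi * k = B ^ 100 → ∀ (P : ℝ × ℝ) (a b : ℤ), a ≤ -1 → 1 ≤ b →
      GC B c₀ (orb k P) 0 a b → ¬ Anti B ε (orb k P) 0 a b →
      volume {t : ℝ | |t| ≤ c₀ / 400 / max |dir (Vof B (orb k P)) 0 a| |dir (Vof B (orb k P)) 0 b| ∧
          TwoCone B (Vof B (orb k (P.1, P.2 + t))) a b} ≤
        ENNReal.ofReal
          (κ * (c₀ / 400 / max |dir (Vof B (orb k P)) 0 a| |dir (Vof B (orb k P)) 0 b|)) := by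
  obtain ⟨B₀, H⟩ := WAX.core c₀ κ ε h0 h1 hκ hε
  refine ⟨max B₀ (10 ^ 8 / c₀), fun B hB k hk P a b ha hb hG hA => ?_⟩
  have hB8 : 10 ^ 8 ≤ c₀ * B := by
    have := (le_max_right _ _).trans hB
    rw [div_le_iff₀ h0] at this
    linarith
  obtain ⟨hPR, hPL, hca, hcb, -, hab, hba⟩ := hG
  obtain ⟨⟨p0, p1, p2, p3, R1⟩, ⟨q0, q1, q2, q3, R2⟩⟩ := osa_R hB8 h0 h1 hk P hb hPR hcb
  obtain ⟨⟨r0, r1, r2, r3, L1⟩, ⟨s0, s1, s2, s3, L2⟩⟩ := osa_L hB8 h0 h1 hk P ha hPL hca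
  have hwb : dir (Vof B (orb k P)) 0 b ≠ 0 := by
    intro h
    have h2 := hPR (0 + 1) (by norm_num) (by omega)
    rw [dir_one, h] at h2
    norm_num at h2
  have hwa : dir (Vof B (orb k P)) 0 a ≠ 0 := by
    intro h
    have h2 := hPL (0 - 1) (by omega) (by norm_num)
    rw [dir_neg_one, h] at h2
    norm_num at h2
  have H' := H B ((le_max_left _ _).trans hB)
  unfold Anti AntiS at hA
  have key : ∀ t : ℝ, TwoCone B (Vof B (orb k (P.1, P.2 + t))) a b →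
      ∃ ψ : ℤ → ℝ, Sol (Vof B (orb k (P.1, P.2 + t))) ψ ∧ ψ b ≠ 0 ∧ |ψ (b + 1)| ≤ B ^ (-98 : ℤ) * |ψ b| ∧
        ψ a ≠ 0 ∧ |ψ (a - 1)| ≤ B ^ (-98 : ℤ) * |ψ a| ∧
        (ψ 0 ≠ 0 → ψ 1 / ψ 0 + ψ (-1) / ψ 0 = 2 + B ^ 100 * Real.cos (2 * Real.pi * P.1)) := by
    rintro t ⟨ψ, hψ, hb1, hb2, ha2⟩
    refine ⟨ψ, hψ, by rw [hb1]; exact one_ne_zero, by rw [hb1, abs_one, mul_one]; exact hb2, ?_, ha2, ?_⟩
    · intro h
      rw [h, abs_zero, mul_zero, abs_nonpos_iff] at ha2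
      have := hψ.eq_zero (a - 1) ha2 (by rw [sub_add_cancel]; exact h) b
      rw [hb1] at this
      exact one_ne_zero this
    · intro h
      have e := hψ 0
      simp only [Vof, orb_zero, zero_add, zero_sub] at e
      rw [← add_div, e, mul_div_assoc, div_self h, mul_one]
  generalize dir (Vof B (orb k P)) 0 a = wa at *
  generalize dir (Vof B (orb k P)) 0 b = wb at *
  have hwa' : 0 < |wa| := abs_pos.2 hwa
  have hwb' : 0 < |wb| := abs_pos.2 hwb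
  rcases le_total |wa| |wb| with hc | hc
  · rw [max_eq_right hc] at hA ⊢
    refine H' wb wa (orb k P b) (orb k P a) (2 + B ^ 100 * Real.cos (2 * Real.pi * P.1))
      p0 p1 p2 p3 r0 r1 r2 r3 s0 s1 s2 s3 _ hwb hc hba hcb hca ?_ ?_
    · intro σ hσ n
      by_contra hn
      push Not at hn
      apply hA
      rcases hσ with rfl | rfl
      · exact Or.inl ⟨hn.1.le, n, hn.2.le⟩
      · exact Or.inr ⟨hn.1.le, n, hn.2.le⟩
    · rintro t ⟨ht, hT⟩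
      rw [le_div_iff₀ hwb'] at ht
      have ht' : |t| * |wa| ≤ c₀ / 400 := (mul_le_mul_of_nonneg_left hc (abs_nonneg t)).trans ht
      obtain ⟨ψ, hψ, k1, k2, k3, k4, k5⟩ := key t hT
      exact ⟨ht, _, _, k5 (R1 t ht ψ hψ k1 k2).1, (R1 t ht ψ hψ k1 k2).2, (L1 t ht' ψ hψ k3 k4).2,
        (L2 t ht' ψ hψ k3 k4).2⟩
  · rw [max_eq_left hc] at hA ⊢
    refine H' wa wb (orb k P a) (orb k P b) (2 + B ^ 100 * Real.cos (2 * Real.pi * P.1))
      r0 r1 r2 r3 p0 p1 p2 p3 q0 q1 q2 q3 _ hwa hc hab hca hcb ?_ ?_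
    · intro σ hσ n
      by_contra hn
      push Not at hn
      apply hA
      rcases hσ with rfl | rfl
      · refine Or.inl ⟨?_, -n - 1, ?_⟩
        · rw [one_mul, abs_sub_comm]; simpa using hn.1.le
        · rw [← abs_neg]
          refine le_of_eq_of_le ?_ hn.2.le
          congr 1; push_cast; ring
      · refine Or.inr ⟨?_, n, ?_⟩
        · refine le_of_eq_of_le ?_ hn.1.le
          congr 1; ring
        · refine le_of_eq_of_le ?_ hn.2.le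
          congr 1; ring
    · rintro t ⟨ht, hT⟩
      rw [le_div_iff₀ hwa'] at ht
      have ht' : |t| * |wb| ≤ c₀ / 400 := (mul_le_mul_of_nonneg_left hc (abs_nonneg t)).trans ht
      obtain ⟨ψ, hψ, k1, k2, k3, k4, k5⟩ := key t hT
      exact ⟨ht, _, _, (add_comm _ _).trans (k5 (R1 t ht' ψ hψ k1 k2).1), (L1 t ht ψ hψ k3 k4).2,
        (R1 t ht' ψ hψ k1 k2).2, (R2 t ht' ψ hψ k1 k2).2⟩

end Crest.Agent.R128
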